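import Crest.Agent.R302B.PMath

/-!
# Row 302 (binary layer): the single-arc chord lemma

* `exists_arc`: if the slack of `X` at `a` is much smaller than at `a'`, some arc of the exchange preorder at `a` enters `X` inside a class.
* `chord_count`: points with such an arc have small total weight.
-/

set_option autoImplicit false
set_option linter.unusedSectionVars false

noncomputable section

namespace Crest.Agent.R302B

open Finset Crest.Agent.R302

variable {ι : Type} [Fintype ι] [DecidableEq ι] {g : Finset ι → ℤ}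

theorem exists_sep (hg : Sub g) {a : ι → ℤ} (ha : IsB g a) {T : ℤ} (hT : 0 ≤ T) (P Q : Finset ι)
    (h : ∀ p ∈ P, ∀ q ∈ Q, ¬ Arc g a T p q) :
    ∃ A : Finset ι, P ⊆ A ∧ (∀ q ∈ Q, q ∉ A) ∧ slack g a A ≤ P.card * (Fintype.card ι * T) := by
  induction P using Finset.induction_on with
  | empty => exact ⟨∅, Subset.rfl, by simp, by simp [slack_empty hg]⟩
  | insert p P hp ih =>
    obtain ⟨A, h1, h2, h3⟩ := ih fun r hr => h r (mem_insert_of_mem hr)
    obtain ⟨Y, h4, h5, h6⟩ := PMath_inter hg ha p Q (h p (mem_insert_self _ _))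
    have h7 : (Q.card : ℤ) * T ≤ Fintype.card ι * T :=
      mul_le_mul_of_nonneg_right (by exact_mod_cast card_le_univ _) hT
    refine ⟨Y ∪ A, insert_subset (mem_union_left _ h4) (h1.trans subset_union_right), fun q hq hm => ?_, ?_⟩
    · rcases mem_union.1 hm with hm | hm
      · exact h5 q hq hm
      · exact h2 q hq hm
    · have h8 := slack_sub hg a Y A
      have h9 := slack_nonneg ha (Y ∩ A)
      rw [card_insert_of_notMem hp]
      push_cast
      linarith

/-- `cl` is a partition; below every class `c` there is a set `Y c` such that `Y c` and `Y c ∪ class` have small slack at `a`. -/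
theorem exists_arc (hg : Sub g) {a a' : ι → ℤ} (ha : IsB g a) (ha' : IsB g a') {κ : Type} [DecidableEq κ]
    (cl : ι → κ) (Y : ι → Finset ι) {T θ θ' : ℤ} (hT : 0 ≤ T) (hθ : 0 ≤ θ) (hθ' : 0 ≤ θ')
    (hY : ∀ i, ∀ j ∈ Y i, cl j ≠ cl i) (h1 : ∀ i, slack g a (Y i) ≤ θ)
    (h2 : ∀ i, slack g a (Y i ∪ univ.filter fun j => cl j = cl i) ≤ θ)
    (h3 : ∀ i, ∑ j ∈ Y i ∪ univ.filter (fun j => cl j = cl i), (a j - a' j) ≤ θ') {X : Finset ι}
    (hX : slack g a X + Fintype.card ι * ((Fintype.card ι : ℤ) ^ 2 * T + 2 * θ + θ') < slack g a' X) :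
    ∃ k l, k ∉ X ∧ l ∈ X ∧ cl k = cl l ∧ Arc g a T k l := by
  by_contra hno
  push Not at hno
  have key : ∀ i, ∑ j ∈ X with cl j = cl i, (a j - a' j) ≤ (Fintype.card ι : ℤ) ^ 2 * T + 2 * θ + θ' := by
    intro i
    set Z : Finset ι := Y i ∪ {j ∈ Xᶜ | cl j = cl i} with hZ
    obtain ⟨A, a1, a2, a3⟩ := exists_sep hg ha hT {j ∈ Xᶜ | cl j = cl i} {j ∈ X | cl j = cl i}
      fun p hp q hq => hno p q (mem_compl.1 (mem_filter.1 hp).1) (mem_filter.1 hq).1
        ((mem_filter.1 hp).2.trans (mem_filter.1 hq).2.symm)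
    have a4 : slack g a A ≤ (Fintype.card ι : ℤ) ^ 2 * T := by
      refine a3.trans ?_
      rw [sq, mul_assoc]
      exact mul_le_mul_of_nonneg_right (by exact_mod_cast card_le_univ _)
        (mul_nonneg (Nat.cast_nonneg _) hT)
    have c0 : Z = Y i ∪ (A ∩ (Y i ∪ univ.filter fun j => cl j = cl i)) := by
      ext j
      have b1 : j ∉ X → cl j = cl i → j ∈ A := fun h h' => a1 (mem_filter.2 ⟨mem_compl.2 h, h'⟩)
      have b2 : j ∈ X → cl j = cl i → j ∉ A := fun h h' => a2 j (mem_filter.2 ⟨h, h'⟩)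
      simp only [hZ, mem_union, mem_inter, mem_filter, mem_univ, true_and, mem_compl]
      tauto
    have c1 : slack g a Z ≤ (Fintype.card ι : ℤ) ^ 2 * T + 2 * θ := by
      rw [c0]
      have b1 := slack_sub hg a A (Y i ∪ univ.filter fun j => cl j = cl i)
      have b2 := slack_nonneg ha (A ∪ (Y i ∪ univ.filter fun j => cl j = cl i))
      have b3 := slack_sub hg a (Y i) (A ∩ (Y i ∪ univ.filter fun j => cl j = cl i))
      have b4 := slack_nonneg ha (Y i ∩ (A ∩ (Y i ∪ univ.filter fun j => cl j = cl i)))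
      linarith [h1 i, h2 i]
    have c2 := sum_sub_le_slack ha' a Z
    have c3 : Y i ∪ univ.filter (fun j => cl j = cl i) = Z ∪ {j ∈ X | cl j = cl i} := by
      ext j
      simp only [hZ, mem_union, mem_filter, mem_univ, true_and, mem_compl]
      tauto
    have c4 : Disjoint Z {j ∈ X | cl j = cl i} := by
      refine disjoint_left.2 fun j hj hj' => ?_
      simp only [hZ, mem_union, mem_filter, mem_compl] at hj hj'
      rcases hj with hj | hj
      · exact hY i j hj hj'.2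
      · exact hj.1 hj'.1
    have c5 := h3 i
    rw [c3, sum_union c4] at c5
    simp only [sum_sub_distrib] at c2 c5 ⊢
    linarith
  have tot : ∑ j ∈ X, (a j - a' j) ≤ Fintype.card ι * ((Fintype.card ι : ℤ) ^ 2 * T + 2 * θ + θ') := by
    rw [← sum_fiberwise_of_maps_to (s := X) (t := univ.image cl) (g := cl)
      (fun j _ => mem_image_of_mem cl (mem_univ j))]
    calc _ ≤ ∑ _c ∈ univ.image cl, ((Fintype.card ι : ℤ) ^ 2 * T + 2 * θ + θ') := by
          refine sum_le_sum fun c hc => ?_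
          obtain ⟨i, -, rfl⟩ := mem_image.1 hc
          exact key i
      _ = (univ.image cl).card * ((Fintype.card ι : ℤ) ^ 2 * T + 2 * θ + θ') := by
          rw [sum_const, nsmul_eq_mul]
      _ ≤ _ := mul_le_mul_of_nonneg_right (by exact_mod_cast card_image_le) (by positivity)
  unfold slack at hX
  rw [sum_sub_distrib] at tot
  linarith

/-- chords in one direction -/
theorem chord_one {S S' : Finset (ι → ℤ)} (hS : ∀ a ∈ S, IsB g a) {w : (ι → ℤ) → ℝ} {w' : (ι → ℤ) → ℝ}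
    (hw' : ∀ y ∈ S', 0 ≤ w' y) {k l : ι} {s T : ℕ}
    (h1 : ∀ a ∈ S, ∃ X : Finset ι, k ∉ X ∧ l ∈ X ∧ slack g a X ≤ s)
    (h2 : ∀ a ∈ S, ∀ t : ℕ, t < T → a + (t : ℤ) • rt k l ∈ S' ∧ w a ≤ w' (a + (t : ℤ) • rt k l)) :
    T * ∑ a ∈ S, w a ≤ (s + 1) * ∑ y ∈ S', w' y := by
  classical
  have e1 : (T : ℝ) * ∑ a ∈ S, w a = ∑ p ∈ S ×ˢ range T, w p.1 := by
    rw [sum_product, mul_sum]
    simp
  have e2 : ∑ p ∈ S ×ˢ range T, w p.1 ≤ ∑ p ∈ S ×ˢ range T, w' (p.1 + (p.2 : ℤ) • rt k l) :=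
    sum_le_sum fun p hp => (h2 p.1 (mem_product.1 hp).1 p.2 (mem_range.1 (mem_product.1 hp).2)).2
  have e3 := sum_fiberwise_of_maps_to (s := S ×ˢ range T) (t := S')
    (g := fun p : (ι → ℤ) × ℕ => p.1 + (p.2 : ℤ) • rt k l)
    (fun p hp => (h2 p.1 (mem_product.1 hp).1 p.2 (mem_range.1 (mem_product.1 hp).2)).1)
    fun p => w' (p.1 + (p.2 : ℤ) • rt k l)
  rw [e1, mul_sum]
  refine (e2.trans_eq e3.symm).trans (sum_le_sum fun y hy => ?_)
  rw [sum_congr rfl (g := fun _ => w' y) fun p hp => by rw [(mem_filter.1 hp).2], sum_const, nsmul_eq_mul]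
  refine mul_le_mul_of_nonneg_right ?_ (hw' y hy)
  set F := {p ∈ S ×ˢ range T | p.1 + (p.2 : ℤ) • rt k l = y} with hF
  rcases F.eq_empty_or_nonempty with he | hne
  · rw [he, card_empty, Nat.cast_zero]; positivity
  obtain ⟨p₀, hp₀, hmin⟩ := exists_min_image F Prod.snd hne
  have hc : #F ≤ #(Icc p₀.2 (p₀.2 + s)) := by
    refine card_le_card_of_injOn Prod.snd (fun p hp => ?_) fun p hp q hq hpq => ?_
    · have hp' : p ∈ F := hp
      refine mem_coe.2 (mem_Icc.2 ⟨hmin p hp', ?_⟩)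
      obtain ⟨m1, m2⟩ := mem_filter.1 hp'
      obtain ⟨m3, m4⟩ := mem_filter.1 hp₀
      obtain ⟨X, x1, x2, x3⟩ := h1 p₀.1 (mem_product.1 m3).1
      have b := (hS p.1 (mem_product.1 m1).1).1 X
      have c : ∑ j ∈ X, (p.1 + (p.2 : ℤ) • rt k l) j = ∑ j ∈ X, (p₀.1 + (p₀.2 : ℤ) • rt k l) j := by
        rw [m2, m4]
      simp only [Pi.add_apply, Pi.smul_apply, smul_eq_mul, sum_add_distrib, ← mul_sum, sum_rt, if_neg x1,
        if_pos x2] at c
      unfold slack at x3
      omega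
    · have e := (mem_filter.1 (show p ∈ F from hp)).2.trans (mem_filter.1 (show q ∈ F from hq)).2.symm
      have hpq' : p.2 = q.2 := hpq
      rw [hpq'] at e
      exact Prod.ext (add_right_cancel e) hpq'
  rw [Nat.card_Icc] at hc
  have : #F ≤ s + 1 := by omega
  exact_mod_cast this

/-- **Chord lemma.**  The scales `(s i, T i)` are indexed by a finite type. -/
theorem chord_count {S S' : Finset (ι → ℤ)} (hS : ∀ a ∈ S, IsB g a) {w : (ι → ℤ) → ℝ} {w' : (ι → ℤ) → ℝ}
    (hw' : ∀ y ∈ S', 0 ≤ w' y) {η : ℝ} (hη : 0 ≤ η) {σ : Type} (I : Finset σ)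
    (s T : σ → ℕ) (hsT : ∀ i ∈ I, (s i + 1 : ℝ) ≤ η * T i)
    (h : ∀ a ∈ S, ∃ i ∈ I, ∃ (k l : ι) (X : Finset ι), k ∉ X ∧ l ∈ X ∧ slack g a X ≤ s i ∧
      ∀ t : ℕ, t < T i → a + (t : ℤ) • rt k l ∈ S' ∧ w a ≤ w' (a + (t : ℤ) • rt k l)) :
    ∑ a ∈ S, w a ≤ #I * Fintype.card ι ^ 2 * η * ∑ y ∈ S', w' y := by
  classical
  have hW : 0 ≤ ∑ y ∈ S', w' y := sum_nonneg hw'
  rcases S.eq_empty_or_nonempty with rfl | ⟨a₀, ha₀⟩
  · rw [sum_empty]
    positivity
  obtain ⟨i₀, -, k₀, -⟩ := h a₀ ha₀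
  have : Nonempty σ := ⟨i₀⟩
  have : Nonempty ι := ⟨k₀⟩
  choose! i hi k l X h using h
  rw [← sum_fiberwise_of_maps_to (s := S) (t := I ×ˢ (univ : Finset (ι × ι)))
    (g := fun a => (i a, k a, l a)) (fun a ha => mem_product.2 ⟨hi a ha, mem_univ _⟩)]
  calc _ ≤ ∑ _p ∈ I ×ˢ (univ : Finset (ι × ι)), η * ∑ y ∈ S', w' y := by
        refine sum_le_sum fun p hp => ?_
        have hp1 := (mem_product.1 hp).1
        have c := chord_one (g := g) (S := {a ∈ S | (i a, k a, l a) = p}) (S' := S') (w := w)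
          (fun a ha => hS a (mem_filter.1 ha).1) hw' (k := p.2.1) (l := p.2.2) (s := s p.1) (T := T p.1)
          (fun a ha => by
            obtain ⟨h1, rfl⟩ := mem_filter.1 ha
            exact ⟨X a, (h a h1).1, (h a h1).2.1, (h a h1).2.2.1⟩)
          (fun a ha => by
            obtain ⟨h1, rfl⟩ := mem_filter.1 ha
            exact (h a h1).2.2.2)
        have c2 := hsT p.1 hp1
        have c3 : (0 : ℝ) < T p.1 := by
          by_contra hT
          have : (T p.1 : ℝ) = 0 := le_antisymm (not_lt.1 hT) (Nat.cast_nonneg _)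
          rw [this, mul_zero] at c2
          have : (0 : ℝ) ≤ s p.1 := Nat.cast_nonneg _
          linarith
        refine le_of_mul_le_mul_left (c.trans ?_) c3
        calc _ ≤ η * T p.1 * ∑ y ∈ S', w' y := mul_le_mul_of_nonneg_right c2 hW
          _ = _ := by ring
    _ = _ := by
        rw [sum_const, nsmul_eq_mul, card_product, card_univ, Fintype.card_prod]
        push_cast
        ring

end Crest.Agent.R302B
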