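import Crest.Agent.R302.Msum
import Crest.Agent.R302.Rank
import Crest.Agent.R302.DL2

/-!
# Row 302 (binary layer): free smoothness of the shifted counts

`cnt f₁ f₂ γ = #{a ∈ B f₁ : γ - a ∈ B f₂}` is log-concave along the root lines (limit `ε → 0` of a merge of DL arrays), hence it is
almost constant on a ball spanned by root vectors as soon as it is positive on a much larger ball.
-/

set_option autoImplicit false
set_option linter.unusedSectionVars false

noncomputable section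

namespace Crest.Agent.R302B

open Finset Crest.Agent.R302 Filter Topology

variable {ι : Type} [Fintype ι] [DecidableEq ι]

/-- convolution of two DL arrays on `ℤ^ι` over a box: log-concavity along a root line -/
theorem conv_lc {c₁ c₂ : (ι → ℤ) → ℝ} (h₁ : ∀ l : ι → ℤ, DL fun u : ι → ℕ => c₁ fun j => l j + u j)
    (h₂ : ∀ l : ι → ℤ, DL fun u : ι → ℕ => c₂ fun j => l j + u j) (lo hi : ι → ℤ) (hlo : lo ≤ hi)
    (γ : ι → ℤ) (p q : ι) :
    (∑ a ∈ Fintype.piFinset fun k => Icc (lo k) (hi k),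
        c₁ a * c₂ (γ + (Pi.single p 1 - Pi.single q 1) - a)) *
      (∑ a ∈ Fintype.piFinset fun k => Icc (lo k) (hi k),
        c₁ a * c₂ (γ - (Pi.single p 1 - Pi.single q 1) - a)) ≤
      (∑ a ∈ Fintype.piFinset fun k => Icc (lo k) (hi k), c₁ a * c₂ (γ - a)) ^ 2 := by
  set N : ι → ℕ := fun k => (hi k - lo k).toNat with hN
  have hNk : ∀ k, (N k : ℤ) = hi k - lo k := fun k => by
    have : lo k ≤ hi k := hlo k
    simp only [hN]; omega
  set l₂ : ι → ℤ := γ - Pi.single p 1 - Pi.single q 1 - hi with hl₂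
  have hG : DL fun u : ι ⊕ ι → ℕ => (c₁ fun j => lo j + u (Sum.inl j)) * c₂ fun j => l₂ j + u (Sum.inr j) := by
    refine DL.mul ((h₁ lo).comp (f := Sum.inl) Sum.inl_injective)
      ((h₂ l₂).comp (f := Sum.inr) Sum.inr_injective) ?_
    rintro (j | j)
    · right; intro u; simp
    · left; intro u; simp
  have hS := DL.msum (Sum.inl : ι → ι ⊕ ι) Sum.inr N hG univ
  have key : ∀ (w : ι ⊕ ι → ℕ) (δ : ι → ℤ), (∀ j, w (Sum.inl j) = 0) →
      (∀ j, δ j = l₂ j + hi j + w (Sum.inr j)) →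
      msum Sum.inl Sum.inr N univ (fun u : ι ⊕ ι → ℕ => (c₁ fun j => lo j + u (Sum.inl j)) *
        c₂ fun j => l₂ j + u (Sum.inr j)) w =
        ∑ a ∈ Fintype.piFinset fun k => Icc (lo k) (hi k), c₁ a * c₂ (δ - a) := by
    intro w δ hw hδ
    unfold msum
    refine sum_nbij' (fun a j => lo j + a j) (fun z j => (z j - lo j).toNat) ?_ ?_ ?_ ?_ ?_
    · intro a ha
      have := Msum_mem_box N |>.1 ha
      refine Fintype.mem_piFinset.2 fun k => mem_Icc.2 ?_
      have h1 := (this k).1 (mem_univ _)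
      have h2 := hNk k
      omega
    · intro z hz
      refine (Msum_mem_box N).2 fun k => ⟨fun _ => ?_, fun h => absurd (mem_univ _) h⟩
      have h1 := mem_Icc.1 (Fintype.mem_piFinset.1 hz k)
      have h2 := hNk k
      omega
    · intro a _
      funext j; simp
    · intro z hz
      funext j
      have h1 := mem_Icc.1 (Fintype.mem_piFinset.1 hz j)
      simp only
      omega
    · intro a ha
      have := Msum_mem_box N |>.1 ha
      show c₁ _ * c₂ _ = _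
      congr 2
      · funext j
        simp [emb, Finset.sum_apply, Pi.single_apply, hw]
      · funext j
        have h1 := (this j).1 (mem_univ _)
        have h2 := hNk j
        have h3 : emb Sum.inl Sum.inr N univ a (Sum.inr j) = N j - a j := by
          simp [emb, Finset.sum_apply, Pi.single_apply]
        simp only [Pi.add_apply, Pi.sub_apply, h3, hδ]
        omega
  have h := hS.lc2 0 (some (Sum.inr p)) (some (Sum.inr q))
  rw [key _ (γ + (Pi.single p 1 - Pi.single q 1)), key _ (γ - (Pi.single p 1 - Pi.single q 1)),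
    key _ γ] at h
  · exact h
  all_goals
    intro j
    simp only [hl₂, ee_some, Pi.add_apply, Pi.sub_apply, Pi.zero_apply, Pi.single_apply, e1,
      Sum.inr.injEq, reduceCtorEq, if_false]
    first | rfl | (split_ifs <;> omega)

/-- three-point inequality for a positive log-concave sequence on `ℤ` -/
theorem lc_three {x : ℤ → ℝ} (hpos : ∀ j, 0 < x j) (h : ∀ j, x (j + 1) * x (j - 1) ≤ x j ^ 2)
    (i j : ℕ) : x (-i) ^ j * x j ^ i ≤ x 0 ^ (i + j) := by
  set ρ : ℝ := x 1 / x 0 with hρ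
  have h0 := hpos 0
  have hρ0 : 0 < ρ := div_pos (hpos 1) h0
  have up : ∀ t : ℕ, x (t + 1) ≤ ρ * x t := by
    intro t
    induction t with
    | zero => simp [hρ, div_mul_cancel₀ _ h0.ne']
    | succ t ih =>
      have a := h ((t : ℤ) + 1)
      rw [add_sub_cancel_right] at a
      have b := hpos t
      have c := hpos (t + 1)
      push_cast
      have : x (t + 1 + 1) * x t ≤ ρ * x (t + 1) * x t := by nlinarith
      exact le_of_mul_le_mul_right this b
  have dn : ∀ t : ℕ, ρ * x (-t) ≤ x (-t + 1) := by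
    intro t
    induction t with
    | zero => simp [hρ, div_mul_cancel₀ _ h0.ne']
    | succ t ih =>
      have a := h (-(t : ℤ))
      have b := hpos (-t + 1)
      have c := hpos (-t)
      have d := hpos (-t - 1)
      have e1 : (-((t + 1 : ℕ) : ℤ)) = -t - 1 := by push_cast; ring
      have e2 : (-(t : ℤ) - 1 + 1) = -t := by ring
      rw [e1, e2]
      have : ρ * x (-t - 1) * x (-t) ≤ x (-t) * x (-t) := by nlinarith
      exact le_of_mul_le_mul_right this c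
  have up' : ∀ t : ℕ, x t ≤ ρ ^ t * x 0 := by
    intro t
    induction t with
    | zero => simp
    | succ t ih =>
      have := up t
      push_cast
      calc x (t + 1) ≤ ρ * x t := this
        _ ≤ ρ * (ρ ^ t * x 0) := by gcongr
        _ = _ := by ring
  have dn' : ∀ t : ℕ, ρ ^ t * x (-t) ≤ x 0 := by
    intro t
    induction t with
    | zero => simp
    | succ t ih =>
      have := dn (t + 1)
      have e1 : (-((t + 1 : ℕ) : ℤ) + 1) = -t := by push_cast; ring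
      rw [e1] at this
      calc ρ ^ (t + 1) * x (-((t + 1 : ℕ) : ℤ)) = ρ ^ t * (ρ * x (-((t + 1 : ℕ) : ℤ))) := by ring
        _ ≤ ρ ^ t * x (-t) := by gcongr
        _ ≤ x 0 := ih
  have a1 : x j ^ i ≤ (ρ ^ j * x 0) ^ i := pow_le_pow_left₀ (hpos _).le (up' j) i
  have a2 : (ρ ^ i * x (-i)) ^ j ≤ x 0 ^ j :=
    pow_le_pow_left₀ (mul_pos (pow_pos hρ0 _) (hpos _)).le (dn' i) j
  have b := pow_pos (hpos (-i)) j
  calc x (-i) ^ j * x j ^ i ≤ x (-i) ^ j * (ρ ^ j * x 0) ^ i := by gcongr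
    _ = (ρ ^ i * x (-i)) ^ j * x 0 ^ i := by ring
    _ ≤ x 0 ^ j * x 0 ^ i := by gcongr
    _ = _ := by ring

/-- a box containing the base polytope -/
def bbox (f : Finset ι → ℤ) : Finset (ι → ℤ) :=
  Fintype.piFinset fun k => Icc (f univ - f {k}ᶜ) (f {k})

theorem mem_bbox {f : Finset ι → ℤ} {a : ι → ℤ} (ha : IsB f a) : a ∈ bbox f := by
  refine Fintype.mem_piFinset.2 fun k => mem_Icc.2 ⟨?_, ?_⟩
  · have h1 := ha.1 {k}ᶜ
    have h2 := ha.2
    rw [← sum_add_sum_compl {k}, sum_singleton] at h2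
    omega
  · simpa using ha.1 {k}

open Classical in
/-- the integer bases -/
def bases (f : Finset ι → ℤ) : Finset (ι → ℤ) := (bbox f).filter (IsB f)

theorem mem_bases {f : Finset ι → ℤ} {a : ι → ℤ} : a ∈ bases f ↔ IsB f a := by
  classical
  unfold bases
  rw [mem_filter]
  exact ⟨fun h => h.2, fun h => ⟨mem_bbox h, h⟩⟩

open Classical in
/-- the number of decompositions of `γ` -/
def cnt (f₁ f₂ : Finset ι → ℤ) (γ : ι → ℤ) : ℕ := #{a ∈ bases f₁ | IsB f₂ (γ - a)}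

theorem cnt_le (f₁ f₂ : Finset ι → ℤ) (γ : ι → ℤ) : cnt f₁ f₂ γ ≤ #(bases f₁) := by
  classical
  unfold cnt
  convert card_filter_le _ _

theorem one_le_cnt {f₁ f₂ : Finset ι → ℤ} {γ a b : ι → ℤ} (ha : IsB f₁ a) (hb : IsB f₂ b)
    (h : a + b = γ) : 1 ≤ cnt f₁ f₂ γ := by
  classical
  unfold cnt
  refine card_pos.2 ⟨a, ?_⟩
  rw [mem_filter, mem_bases]
  refine ⟨ha, ?_⟩
  rwa [← h, add_sub_cancel_left]

variable {f₁ f₂ : Finset ι → ℤ}

theorem cnt_three (h₁ : Sub f₁) (h₂ : Sub f₂) (γ : ι → ℤ) (p q : ι) (i j : ℕ) :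
    cnt f₁ f₂ (γ - (i : ℤ) • (Pi.single p 1 - Pi.single q 1)) ^ j *
      cnt f₁ f₂ (γ + (j : ℤ) • (Pi.single p 1 - Pi.single q 1)) ^ i ≤ cnt f₁ f₂ γ ^ (i + j) := by
  classical
  set χ : ι → ℤ := Pi.single p 1 - Pi.single q 1 with hχ
  let S : (ι → ℤ) → ℝ → ℝ := fun δ ε => ∑ a ∈ bbox f₁, ε ^ dfc f₁ a * ε ^ dfc f₂ (δ - a)
  have hlo : (fun k => f₁ univ - f₁ {k}ᶜ) ≤ fun k => f₁ {k} := by
    intro k
    have := h₁.sub {k} {k}ᶜ
    rw [union_compl, inter_compl, show f₁ ∅ = 0 from h₁.empty] at this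
    show f₁ univ - f₁ {k}ᶜ ≤ f₁ {k}
    omega
  have hc : ∀ δ, Continuous (S δ) := fun δ => by
    simp only [S]; fun_prop
  have h0 : ∀ δ, S δ 0 = cnt f₁ f₂ δ := by
    intro δ
    simp only [S, cnt, bases, filter_filter, card_filter]
    push_cast
    refine sum_congr rfl fun a _ => ?_
    by_cases c1 : IsB f₁ a
    · by_cases c2 : IsB f₂ (δ - a)
      · simp [c1, c2, (h₁.dfc_eq_zero a).2 c1, (h₂.dfc_eq_zero _).2 c2]
      · have : dfc f₂ (δ - a) ≠ 0 := fun h => c2 ((h₂.dfc_eq_zero _).1 h)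
        simp [c2, this]
    · have : dfc f₁ a ≠ 0 := fun h => c1 ((h₁.dfc_eq_zero _).1 h)
      simp [c1, this]
  have hε : ∀ ε : ℝ, 0 < ε → ε ≤ 1 →
      S (γ - (i : ℤ) • χ) ε ^ j * S (γ + (j : ℤ) • χ) ε ^ i ≤ S γ ε ^ (i + j) := by
    intro ε e0 e1
    have := lc_three (x := fun t => S (γ + t • χ) ε) (fun t => ?_) (fun t => ?_) i j
    · simpa [sub_eq_add_neg] using this
    · refine sum_pos (fun a _ => by positivity) ?_
      exact Fintype.piFinset_nonempty.2 fun k => nonempty_Icc.2 (hlo k)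
    · have := conv_lc (c₁ := fun a => ε ^ dfc f₁ a) (c₂ := fun a => ε ^ dfc f₂ a)
        (fun l => h₁.dl_dfc l e0 e1) (fun l => h₂.dl_dfc l e0 e1) _ _ hlo (γ + t • χ) p q
      have a1 : γ + (t + 1) • χ = γ + t • χ + χ := by rw [add_smul, one_smul, add_assoc]
      have a2 : γ + (t - 1) • χ = γ + t • χ - χ := by rw [sub_smul, one_smul, add_sub_assoc]
      simp only [a1, a2]
      exact this
  have t1 : Tendsto (fun ε => S (γ - (i : ℤ) • χ) ε ^ j * S (γ + (j : ℤ) • χ) ε ^ i) (𝓝[>] 0)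
      (𝓝 (S (γ - (i : ℤ) • χ) 0 ^ j * S (γ + (j : ℤ) • χ) 0 ^ i)) :=
    ((((hc _).pow j).mul ((hc _).pow i)).tendsto 0).mono_left nhdsWithin_le_nhds
  have t2 : Tendsto (fun ε => S γ ε ^ (i + j)) (𝓝[>] 0) (𝓝 (S γ 0 ^ (i + j))) :=
    (((hc _).pow _).tendsto 0).mono_left nhdsWithin_le_nhds
  have := le_of_tendsto_of_tendsto t1 t2 (by
    filter_upwards [Ioc_mem_nhdsGT (show (0 : ℝ) < 1 by norm_num)] with ε hε'
    exact hε ε hε'.1 hε'.2)
  rw [h0, h0, h0] at this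
  exact_mod_cast this

theorem cnt_up (h₁ : Sub f₁) (h₂ : Sub f₂) {γ : ι → ℤ} {p q : ι} {T M : ℕ}
    (hT : 1 ≤ cnt f₁ f₂ (γ - (T : ℤ) • (Pi.single p 1 - Pi.single q 1))) (hM : cnt f₁ f₂ γ ≤ M) (j : ℕ) :
    cnt f₁ f₂ (γ + (j : ℤ) • (Pi.single p 1 - Pi.single q 1)) ^ T ≤ cnt f₁ f₂ γ ^ T * M ^ j := by
  have h := cnt_three h₁ h₂ γ p q T j
  have a := Nat.one_le_pow j _ hT
  calc _ ≤ _ := Nat.le_mul_of_pos_left _ a
    _ ≤ _ := h
    _ ≤ _ := by rw [pow_add]; gcongr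

theorem cnt_down (h₁ : Sub f₁) (h₂ : Sub f₂) {γ : ι → ℤ} {p q : ι} {T M : ℕ}
    (hT : 1 ≤ cnt f₁ f₂ (γ + (T : ℤ) • (Pi.single p 1 - Pi.single q 1))) (hM : cnt f₁ f₂ γ ≤ M) {j : ℕ}
    (hj : j ≤ T) :
    cnt f₁ f₂ γ ^ T ≤ cnt f₁ f₂ (γ + (j : ℤ) • (Pi.single p 1 - Pi.single q 1)) ^ T * M ^ j := by
  obtain ⟨d, rfl⟩ := Nat.exists_eq_add_of_le hj
  have h := cnt_three h₁ h₂ (γ + (j : ℤ) • (Pi.single p 1 - Pi.single q 1)) p q j d
  rw [add_sub_cancel_right, add_assoc, ← add_smul, ← Nat.cast_add] at h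
  have a := Nat.one_le_pow j _ hT
  calc cnt f₁ f₂ γ ^ (j + d) = cnt f₁ f₂ γ ^ d * cnt f₁ f₂ γ ^ j := by ring
    _ ≤ cnt f₁ f₂ γ ^ d * M ^ j := by gcongr
    _ ≤ _ := Nat.mul_le_mul_right _ (le_trans (Nat.le_mul_of_pos_right _ a) h)

theorem le_exp_of_pow {x y M : ℝ} (_hx : 0 ≤ x) (hy : 0 ≤ y) (hM : 0 < M) {T j : ℕ} (hT : 0 < T)
    (h : x ^ T ≤ y ^ T * M ^ j) : x ≤ y * Real.exp (j / T * Real.log M) := by
  refine le_of_pow_le_pow_left₀ hT.ne' (by positivity) ?_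
  rw [mul_pow, ← Real.exp_nat_mul]
  have : (T : ℝ) * (j / T * Real.log M) = j * Real.log M := by field_simp
  rwa [this, Real.exp_nat_mul, Real.exp_log hM]

/-- one root step -/
theorem cnt_step (h₁ : Sub f₁) (h₂ : Sub f₂) {γ : ι → ℤ} {p q : ι} {T M : ℕ} (hT0 : 0 < T)
    (hp : 1 ≤ cnt f₁ f₂ (γ + (T : ℤ) • (Pi.single p 1 - Pi.single q 1)))
    (hm : 1 ≤ cnt f₁ f₂ (γ - (T : ℤ) • (Pi.single p 1 - Pi.single q 1)))
    (hM : cnt f₁ f₂ γ ≤ M) (hM0 : 0 < M) {j : ℤ} (hj : |j| ≤ T) :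
    (cnt f₁ f₂ (γ + j • (Pi.single p 1 - Pi.single q 1)) : ℝ) ≤
        cnt f₁ f₂ γ * Real.exp (|(j : ℝ)| / T * Real.log M) ∧
      (cnt f₁ f₂ γ : ℝ) ≤
        cnt f₁ f₂ (γ + j • (Pi.single p 1 - Pi.single q 1)) * Real.exp (|(j : ℝ)| / T * Real.log M) := by
  have hM1 : (0 : ℝ) < M := by exact_mod_cast hM0
  have flip : ∀ t : ℤ, t • (Pi.single q 1 - Pi.single p 1 : ι → ℤ) =
      -(t • (Pi.single p 1 - Pi.single q 1)) := fun t => by rw [← smul_neg, neg_sub]
  obtain ⟨m, rfl | rfl⟩ := Int.eq_nat_or_neg j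
  · have hj' : m ≤ T := by simpa using hj
    simp only [Int.cast_natCast, Nat.abs_cast]
    exact ⟨le_exp_of_pow (by positivity) (by positivity) hM1 hT0 (by exact_mod_cast cnt_up h₁ h₂ hm hM m),
      le_exp_of_pow (by positivity) (by positivity) hM1 hT0 (by exact_mod_cast cnt_down h₁ h₂ hp hM hj')⟩
  · have hj' : m ≤ T := by simpa using hj
    simp only [Int.cast_neg, Int.cast_natCast, abs_neg, Nat.abs_cast, neg_smul]
    rw [← flip]
    have hp' : 1 ≤ cnt f₁ f₂ (γ - (T : ℤ) • (Pi.single q 1 - Pi.single p 1)) := by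
      rwa [flip, sub_neg_eq_add]
    have hm' : 1 ≤ cnt f₁ f₂ (γ + (T : ℤ) • (Pi.single q 1 - Pi.single p 1)) := by
      rwa [flip, ← sub_eq_add_neg]
    exact ⟨le_exp_of_pow (by positivity) (by positivity) hM1 hT0 (by exact_mod_cast cnt_up h₁ h₂ hp' hM m),
      le_exp_of_pow (by positivity) (by positivity) hM1 hT0 (by exact_mod_cast cnt_down h₁ h₂ hm' hM hj')⟩

/-- **Free smoothness.**  If the count is positive on the ball of radii `2 T t`, it is almost constant on balls of radii `≪ T t`. -/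
theorem cnt_flat (h₁ : Sub f₁) (h₂ : Sub f₂) {τ : Type} [DecidableEq τ] (s : Finset τ) (p q : τ → ι)
    (T : τ → ℕ) (hT : ∀ t ∈ s, 0 < T t) (γ : ι → ℤ) {M : ℕ} (hM0 : 0 < M) (hM : ∀ δ, cnt f₁ f₂ δ ≤ M)
    (hpos : ∀ j : τ → ℤ, (∀ t ∈ s, |j t| ≤ T t) →
      1 ≤ cnt f₁ f₂ (γ + ∑ t ∈ s, j t • (Pi.single (p t) 1 - Pi.single (q t) 1)))
    (j : τ → ℤ) (hj : ∀ t ∈ s, |j t| ≤ T t) :
    (cnt f₁ f₂ (γ + ∑ t ∈ s, j t • (Pi.single (p t) 1 - Pi.single (q t) 1)) : ℝ) ≤
        cnt f₁ f₂ γ * Real.exp ((∑ t ∈ s, |(j t : ℝ)| / T t) * Real.log M) ∧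
      (cnt f₁ f₂ γ : ℝ) ≤
        cnt f₁ f₂ (γ + ∑ t ∈ s, j t • (Pi.single (p t) 1 - Pi.single (q t) 1)) *
          Real.exp ((∑ t ∈ s, |(j t : ℝ)| / T t) * Real.log M) := by
  suffices H : ∀ s' ⊆ s,
      (cnt f₁ f₂ (γ + ∑ t ∈ s', j t • (Pi.single (p t) 1 - Pi.single (q t) 1)) : ℝ) ≤
        cnt f₁ f₂ γ * Real.exp ((∑ t ∈ s', |(j t : ℝ)| / T t) * Real.log M) ∧
      (cnt f₁ f₂ γ : ℝ) ≤
        cnt f₁ f₂ (γ + ∑ t ∈ s', j t • (Pi.single (p t) 1 - Pi.single (q t) 1)) *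
          Real.exp ((∑ t ∈ s', |(j t : ℝ)| / T t) * Real.log M) from H s Subset.rfl
  intro s' hs'
  induction s' using Finset.induction_on with
  | empty => simp
  | insert a s' ha ih =>
    have has : a ∈ s := hs' (mem_insert_self _ _)
    have hs'' : s' ⊆ s := (subset_insert _ _).trans hs'
    obtain ⟨i1, i2⟩ := ih hs''
    have ext : ∀ v : ℤ, |v| ≤ T a → 1 ≤ cnt f₁ f₂ (γ + ∑ t ∈ s', j t • (Pi.single (p t) 1 - Pi.single (q t) 1) +
        v • (Pi.single (p a) 1 - Pi.single (q a) 1)) := by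
      intro v hv
      have := hpos (fun t => if t = a then v else if t ∈ s' then j t else 0) (fun t ht => by
        split_ifs with c1 c2
        · rwa [c1]
        · exact hj t ht
        · simp)
      rw [← sum_subset hs' (fun t _ ht => by
        have c1 : t ≠ a := fun e => ht (e ▸ mem_insert_self _ _)
        have c2 : t ∉ s' := fun e => ht (mem_insert_of_mem e)
        simp [c1, c2]), sum_insert ha, if_pos rfl] at this
      rw [sum_congr rfl (g := fun t => j t • (Pi.single (p t) 1 - Pi.single (q t) 1 : ι → ℤ))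
        (fun t ht => by
          have c1 : t ≠ a := fun e => ha (e ▸ ht)
          simp only [c1, ht, if_true, if_false]), add_comm (v • _), ← add_assoc] at this
      exact this
    obtain ⟨k1, k2⟩ := cnt_step h₁ h₂ (p := p a) (q := q a) (hT a has) (ext _ (by simp))
      (by rw [sub_eq_add_neg, ← neg_smul]; exact ext (-(T a : ℤ)) (by simp)) (hM _) hM0 (hj a has)
    rw [sum_insert ha, sum_insert ha, add_comm (j a • _), ← add_assoc, add_mul, Real.exp_add]
    have e1 := Real.exp_pos (|(j a : ℝ)| / T a * Real.log M)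
    have e2 := Real.exp_pos ((∑ t ∈ s', |(j t : ℝ)| / T t) * Real.log M)
    constructor
    · calc _ ≤ _ := k1
        _ ≤ _ := mul_le_mul_of_nonneg_right i1 e1.le
        _ = _ := by ring
    · calc _ ≤ _ := i2
        _ ≤ _ := mul_le_mul_of_nonneg_right k2 e2.le
        _ = _ := by ring

end Crest.Agent.R302B
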