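import Crest.Agent.R302B.Alg
import Crest.Agent.R302.QT2

/-!
# Row 302 (binary layer): APT
The core algorithm runs in polynomial time (`PTO.ctlQ`, `PTO.metro`, `all_metro`).
-/

set_option autoImplicit false
set_option linter.unusedSectionVars false
set_option maxHeartbeats 400000

noncomputable section

namespace Crest.Agent.R302B

open Finset Crest.Agent.R302 Crest.Agent.R302.QT Crest.Agent.Lib.PolyTime

section PT

variable {α : Type} [Enc α] {f : α → CIn} {u r c E e K : α → ℕ} {s x x' : α → List ℤ} {θ : α → Tht}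
  {h y k : α → List ℕ}

attribute [fun_prop] pt_l1

@[fun_prop] theorem pt_aB (hf : PT f) : PT fun a => aB (f a) := by unfold aB; fun_prop

@[fun_prop] theorem pb_aB (hf : PT f) : PB fun a => aB (f a) := by unfold aB; fun_prop

@[fun_prop] theorem pt_aS (hf : PT f) : PT fun a => aS (f a) :=
  PT.nat_pow (f := fun _ => 2) (PT.const _) (pt_aB hf) (pb_aB hf)

theorem aS_le (a : CIn) : aS a ≤ 8192 * (a.1.length + 1) := by
  have h : 2 ^ a.1.length.size ≤ 2 * (a.1.length + 1) := by
    rcases Nat.eq_zero_or_pos a.1.length with h | h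
    · simp [h]
    · have h1 : 0 < a.1.length.size := Nat.size_pos.2 h
      have h2 : 2 ^ (a.1.length.size - 1) ≤ a.1.length := Nat.lt_size.1 (by omega)
      have h3 : 2 ^ a.1.length.size = 2 * 2 ^ (a.1.length.size - 1) := by
        rw [← pow_succ']; congr 1; omega
      omega
  rw [aS, aB, pow_add]
  omega

@[fun_prop] theorem pb_aS (hf : PT f) : PB fun a => aS (f a) :=
  PB.mono (g' := fun a => 8192 * ((f a).1.length + 1)) (by fun_prop) fun a => aS_le _

attribute [local irreducible] aB aS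

@[fun_prop] theorem pt_aN (hf : PT f) : PT fun a => aN (f a) := by unfold aN; fun_prop

@[fun_prop] theorem pb_aN (hf : PT f) : PB fun a => aN (f a) := by unfold aN; fun_prop

@[fun_prop] theorem pt_an (hf : PT f) : PT fun a => an (f a) := by unfold an; fun_prop

@[fun_prop] theorem pb_an (hf : PT f) : PB fun a => an (f a) := PB.min_right (pb_aN hf)

@[fun_prop] theorem pt_aM (hf : PT f) : PT fun a => aM (f a) := by unfold aM; fun_prop

@[fun_prop] theorem pt_aW (hf : PT f) (hu : PT u) : PT fun a => aW (f a) (u a) := by unfold aW; fun_prop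

@[fun_prop] theorem pt_aC (hf : PT f) (hu : PT u) : PT fun a => aC (f a) (u a) := by unfold aC; fun_prop

@[fun_prop] theorem pt_aU (hf : PT f) (hu : PT u) : PT fun a => aU (f a) (u a) := by unfold aU; fun_prop

@[fun_prop] theorem pt_fmL (hf : PT f) (hu : PT u) : PT fun a => fmL (f a) (u a) := by unfold fmL; fun_prop

@[fun_prop] theorem pt_sgL (hf : PT f) (hu : PT u) : PT fun a => sgL (f a) (u a) := by unfold sgL; fun_prop

@[fun_prop] theorem pt_gamL (hf : PT f) (hs : PT s) (hu : PT u) : PT fun a => gamL (f a) (s a) (u a) := by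
  unfold gamL; fun_prop

/-- `gthL` needs a polynomially bounded index -/
theorem pt_gthL (hf : PT f) (hs : PT s) (hu : PT u) (hu' : PB u) : PT fun a => gthL (f a) (s a) (u a) := by
  unfold gthL; fun_prop

/-- `gthL` at the clamped index -/
theorem pt_gthL' (hf : PT f) (hs : PT s) (hu : PT u) : PT fun a => gthL (f a) (s a) (min (u a) (an (f a))) :=
  pt_gthL hf hs (by fun_prop) (PB.min_right (pb_an hf))

@[fun_prop] theorem pt_secL (hf : PT f) (hs : PT s) : PT fun a => secL (f a) (s a) := by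
  have h1 := pt_gthL' (α := α × ℕ) (f := fun p => f p.1) (s := fun p => s p.1) (u := fun p => p.2) (by fun_prop)
    (by fun_prop) (by fun_prop)
  have h2 : PT fun a => (List.range (an (f a))).map fun u =>
      if fmL (f a) u = true then 0 else gthL (f a) (s a) (min u (an (f a))) :=
    PT.map (by fun_prop) (PT.ite (by fun_prop) (PT.const _) h1)
  refine h2.of_eq fun a => List.map_congr_left fun u hu => ?_
  rw [min_eq_left (List.mem_range.1 hu).le]

@[fun_prop] theorem pt_inB (hr : PT r) (hs : PT s) : PT fun a => inB (r a) (s a) := by unfold inB; fun_prop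

@[fun_prop] theorem pt_trL (hf : PT f) (hc : PT c) (hs : PT s) : PT fun a => trL (f a) (c a) (s a) := by
  have h1 := pt_gthL' (α := α × ℕ) (f := fun p => f p.1) (s := fun p => s p.1) (u := fun p => p.2) (by fun_prop)
    (by fun_prop) (by fun_prop)
  have h2 : PT fun a => (List.range (an (f a))).all fun u =>
      !fmL (f a) u || decide ((gthL (f a) (s a) (min u (an (f a)))).natAbs ≤ c a * sgL (f a) u) :=
    PT.all (by fun_prop) (PT.bor (by fun_prop) (PT.decide (PT.nat_le h1.natAbs (by fun_prop))))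
  refine h2.of_eq fun a => ?_
  rw [trL, Bool.eq_iff_iff, List.all_eq_true, List.all_eq_true]
  refine forall₂_congr fun u hu => ?_
  rw [min_eq_left (List.mem_range.1 hu).le]

@[fun_prop] theorem pt_okL (hf : PT f) (hr : PT r) (hs : PT s) : PT fun a => okL (f a) (r a) (s a) := by
  unfold okL; fun_prop

theorem pt_tw (hK : PT K) (hE : PT E) (hE' : PB E) (he : PT e) : PT fun a => tw (K a) (E a) (e a) :=
  PT.nat_mul (PT.nat_pow (by fun_prop) (by fun_prop) (PB.min_right hE')) (PT.nat_pow hK (by fun_prop) (PB.sub hE'))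

@[fun_prop] theorem pt_jj (hK : PT K) (hu : PT u) : PT fun a => jj (K a) (u a) := by unfold jj; fun_prop

@[fun_prop] theorem pb_jj (hK : PB K) : PB fun a => jj (K a) (u a) := PB.min_left (hK.pow 17)

@[fun_prop] theorem pt_mL (hK : PT K) : PT fun a => mL (K a) := by unfold mL; fun_prop

@[fun_prop] theorem pb_mL (hK : PB K) : PB fun a => mL (K a) := by unfold mL; fun_prop

@[fun_prop] theorem pt_pC (hK : PT K) : PT fun a => pC (K a) := by unfold pC; fun_prop

@[fun_prop] theorem pt_fe (hf : PT f) (hh : PT h) (hs : PT s) : PT fun a => fe (f a) (h a) (s a) := by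
  unfold fe; fun_prop

@[fun_prop] theorem pb_fe (hf : PT f) : PB fun a => fe (f a) (h a) (s a) := PB.min_right (by fun_prop)

@[fun_prop] theorem pt_wN (hf : PT f) (hθ : PT θ) (hs : PT s) : PT fun a => wN (f a) (θ a) (s a) := by
  have h1 := pt_gthL' (α := α × ℕ) (f := fun p => f p.1) (s := fun p => s p.1) (u := fun p => p.2) (by fun_prop)
    (by fun_prop) (by fun_prop)
  have h2 : PT fun a => (List.range (an (f a))).map fun u => if fmL (f a) u = true then
      (2 * sgL (f a) u - ((gthL (f a) (s a) (min u (an (f a)))).natAbs - sgL (f a) u)) ^ aS (f a) ^ 20 else 1 :=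
    PT.map (by fun_prop) (PT.ite (by fun_prop) (PT.nat_pow (PT.nat_sub (by fun_prop)
      (PT.nat_sub h1.natAbs (by fun_prop))) (by fun_prop) (by fun_prop)) (PT.const _))
  have h3 : PT fun a => (List.range (an (f a))).map fun u => if fmL (f a) u = true then
      (2 * sgL (f a) u - ((gthL (f a) (s a) u).natAbs - sgL (f a) u)) ^ aS (f a) ^ 20 else 1 := by
    refine h2.of_eq fun a => List.map_congr_left fun u hu => ?_
    rw [min_eq_left (List.mem_range.1 hu).le]
  have h4 : PB fun a => jj (aS (f a)) (θ a).1 * (aN (f a) * min (θ a).2.1 (aS (f a) ^ 15)) :=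
    (pb_jj (pb_aS hf)).mul ((pb_aN hf).mul (PB.min_right ((pb_aS hf).pow 15)))
  exact PT.nat_mul (PT.nat_mul (PT.nat_mul (pt_tw (by fun_prop) (by fun_prop) h4 (by fun_prop))
    (PT.nat_pow (PT.const _) (by fun_prop) (pb_fe hf)))
    (PT.nat_pow (by fun_prop) (by fun_prop) (PB.sub (PB.const _)))) h3.nat_prod

@[fun_prop] theorem pt_foL (hf : PT f) (hr : PT r) (hu : PT u) : PT fun a => foL (f a) (r a) (u a) := by
  unfold foL; fun_prop

@[fun_prop] theorem pt_jeL (hf : PT f) (hr : PT r) (hu : PT u) : PT fun a => jeL (f a) (r a) (u a) := by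
  unfold jeL; fun_prop

@[fun_prop] theorem pb_jeL (hf : PT f) (hr : PT r) (hu : PT u) : PB fun a => jeL (f a) (r a) (u a) :=
  PB.ite (PB.sub (PB.natSize (by fun_prop))) (PB.const _)

theorem pt_xL (hK : PT K) (hK' : PB K) (hy : PT y) (hk : PT k) : PT fun a => xL (K a) (y a) (k a) := by
  unfold xL; fun_prop

@[fun_prop] theorem pt_mvL (hf : PT f) (hr : PT r) (hs : PT s) (hx : PT x) (hx' : PT x') :
    PT fun a => mvL (f a) (r a) (s a) (x a) (x' a) := by
  unfold mvL; fun_prop

@[fun_prop] theorem pt_dnL (hf : PT f) : PT fun a => dnL (f a) :=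
  PT.nat_pow (by fun_prop) (by fun_prop) (by fun_prop)

@[fun_prop] theorem pt_aV (hf : PT f) (hθ : PT θ) (hs : PT s) : PT fun a => aV (f a) (θ a) (s a) :=
  PT.ite (by fun_prop) (pt_tw (by fun_prop) (by fun_prop) (by fun_prop) (by fun_prop)) (PT.const _)

@[fun_prop] theorem pt_e0L (hf : PT f) (hs : PT s) : PT fun a => e0L (f a) (s a) := by unfold e0L; fun_prop

@[fun_prop] theorem pt_flL (hf : PT f) (hs : PT s) : PT fun a => flL (f a) (s a) := by unfold flL; fun_prop

@[fun_prop] theorem pt_epL (hf : PT f) (hu : PT u) (hs : PT s) : PT fun a => epL (f a) (u a) (s a) := by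
  unfold epL; fun_prop

@[fun_prop] theorem pt_ballL (hf : PT f) : PT fun a => ballL (f a) := by unfold ballL; fun_prop

attribute [local irreducible] aN an aM aW aC aU fmL sgL gamL gthL secL inB trL okL tw jj mL pC fe wN foL jeL mvL dnL aV
  e0L flL epL ballL

theorem pt_nxtL {l : α → List (List ℤ)} (hf : PT f) (hθ : PT θ) (hl : PT l) : PT fun a => nxtL (f a) (θ a) (l a) := by
  unfold nxtL; fun_prop

end PT

attribute [local irreducible] aB aS

theorem pto_wqL : PTO fun p : (CIn × Tht) × List ℤ => wqL p.1.1 p.1.2 p.2 := by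
  have h1 : PTO fun p : ((CIn × Tht) × List ℤ) × List Bool => gq (aM p.1.1.1) p.2 :=
    PTO.map (g := fun _ v => Int.ofNat v) (PTO.query (PT.const _) PT.snd' (by fun_prop)) (by fun_prop)
  refine PTO.map (g := fun (p : (CIn × Tht) × List ℤ) b =>
    if b = true ∧ okL p.1.1 p.1.2.2.1 p.2 = true then wN p.1.1 p.1.2 p.2 else 0)
    (pto_memQ (gq := fun p : (CIn × Tht) × List ℤ => gq (aM p.1.1)) h1 (by fun_prop) (by fun_prop) (by fun_prop)
      PT.snd') ?_
  exact PT.ite (by fun_prop) (pt_wN (by fun_prop) (by fun_prop) (by fun_prop)) (PT.const _)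

theorem pto_xQ : PTO fun p : CIn × Tht => xQ p.1 p.2.2.1 := by
  refine PTO.bind (g := fun (p : CIn × Tht) y => (rep 100 (unif (aB p.1))).map (xL (aN p.1) y))
    (PTO.mapQ (g := fun (p : CIn × Tht) t => unif (jeL p.1 p.2.2.1 t)) (by fun_prop)
      (PTO.unif (by fun_prop) (pb_jeL (by fun_prop) (by fun_prop) (by fun_prop)))) ?_
  exact PTO.map (g := fun (p : (CIn × Tht) × List ℕ) k => xL (aN p.1.1) p.2 k)
    (PTO.rep (PT.const _) (PB.const _) (PTO.unif (by fun_prop) (by fun_prop)))
    (pt_xL (by fun_prop) (by fun_prop) (by fun_prop) (by fun_prop))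

theorem pto_propL : PTO fun p : (CIn × Tht) × List ℤ => propL p.1.1 p.1.2 p.2 :=
  PTO.dif (t := fun p : CIn × Tht => xQ p.1 p.2.2.1) (F := fun p s x x' => mvL p.1 p.2.2.1 s x x') pto_xQ
    (pt_mvL (by fun_prop) (by fun_prop) (by fun_prop) (by fun_prop) (by fun_prop))

theorem pto_stepL : PTO fun p : (CIn × Tht) × List ℤ => stepL p.1.1 p.1.2 p.2 :=
  PTO.metro (wq := fun p : CIn × Tht => wqL p.1 p.2) (prop := fun p : CIn × Tht => propL p.1 p.2) pto_wqL pto_propL

theorem esize_map_getD (N : ℕ) (s : List ℤ) : esize ((List.range N).map fun j => s.getD j 0) ≤ esize s + 8 * N := by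
  induction N generalizing s with
  | zero => exact esize_pos s
  | succ N ih =>
    rw [List.range_succ_eq_map, List.map_cons, List.map_map, esize_cons]
    cases s with
    | nil =>
      have h1 := ih []
      have h2 : esize (0 : ℤ) = 7 := by rw [esize_int, esize_nat]; simp
      simp only [List.getD_nil, Function.comp_def] at h1 ⊢
      omega
    | cons b s =>
      have h1 := ih s
      simp only [List.getD_cons_zero, List.getD_cons_succ, Function.comp_def, Nat.succ_eq_add_one, esize_cons] at h1 ⊢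
      omega

theorem esize_map_add (l : List ℕ) (f g : ℕ → ℤ) :
    esize (l.map fun j => f j + g j) ≤ esize (l.map f) + esize (l.map g) := by
  induction l with
  | nil => simp
  | cons b l ih =>
    have := esize_int_add_le (f b) (g b)
    simp only [List.map_cons, esize_cons]
    omega

theorem esize_mvL (a : CIn) (ρ : ℕ) (s x x' : List ℤ) :
    esize (mvL a ρ s x x') ≤ esize s + (8 * aN a + esize (mvL a ρ [] x x')) := by
  have h1 := esize_map_getD (aN a) s
  have h2 := esize_map_add (List.range (aN a)) (fun j => s.getD j 0) fun j =>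
    ([] : List ℤ).getD j 0 + (x.getD j 0 - x'.getD j 0) -
      if 0 < j ∧ foL a ρ (j - 1) = true then x.getD (j - 1) 0 - x'.getD (j - 1) 0 else 0
  have h3 : mvL a ρ s x x' = (List.range (aN a)).map fun j => s.getD j 0 +
      (([] : List ℤ).getD j 0 + (x.getD j 0 - x'.getD j 0) -
        if 0 < j ∧ foL a ρ (j - 1) = true then x.getD (j - 1) 0 - x'.getD (j - 1) 0 else 0) :=
    List.map_congr_left fun j _ => by rw [List.getD_nil]; ring
  rw [h3]
  exact h2.trans (by rw [mvL]; omega)

/-- one step of the chain adds polynomially many bits -/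
theorem exists_grow : ∃ g : CIn × Tht → ℕ, PB g ∧
    ∀ a θ s, All (fun s' => esize s' ≤ esize s + g (a, θ)) (stepL a θ s) := by
  obtain ⟨B, hB, hB'⟩ := pto_xQ.size
  have h1 : PB fun q : (CIn × Tht) × List ℤ × List ℤ => esize (mvL q.1.1 q.1.2.2.1 [] q.2.1 q.2.2) :=
    PB.esize (pt_mvL (by fun_prop) (by fun_prop) (PT.const _) (by fun_prop) (by fun_prop))
  obtain ⟨G, hG, hG'⟩ := h1.exists_bound (s := fun p : CIn × Tht => esize p + B p + B p + 2)
    (((PB.esize_id.add hB).add hB).add (PB.const _))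
  refine ⟨fun p => 8 * aN p.1 + G p, ((PB.const _).mul (pb_aN PT.fst')).add hG, fun a θ s => ?_⟩
  refine all_metro (Nat.le_add_right _ _) ((hB' (a, θ)).bind fun x hx => ?_)
  rw [all_map]
  refine (hB' (a, θ)).mono fun x' hx' => (esize_mvL _ _ _ _ _).trans ?_
  have := hG' (a, θ) ((a, θ), x, x') (by rw [esize_pair, esize_pair x]; omega)
  simp only at this ⊢
  omega

theorem aV_le_dnL (a : CIn) (θ : Tht) (s : List ℤ) : aV a θ s ≤ dnL a := by
  rw [aV]
  split_ifs
  · rw [tw, dnL]
    refine (Nat.mul_le_mul_right _ (Nat.pow_le_pow_left (Nat.sub_le _ 1) _)).trans (le_of_eq ?_)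
    rw [← pow_add, Nat.add_sub_cancel' (min_le_right _ _)]
  · exact Nat.zero_le _

/-- bound for the factors of a round -/
def fB (a : CIn) : ℕ := (aS a ^ 42 * dnL a + 1) * (ballL a + 1)

/-- the size invariant -/
structure SI (a : CIn) (i : ℕ) (θ : Tht) : Prop where
  idx : θ.1 = i
  r : θ.2.1 ≤ aS a ^ 15 * 2 ^ i
  rp : θ.2.2.1 ≤ aS a ^ 15 * 2 ^ i
  len : θ.2.2.2.1.length ≤ an a
  hb : ∀ p, θ.2.2.2.1.getD p 0 ≤ i
  num : esize θ.2.2.2.2.1 ≤ 7 + i * esize (fB a)
  den : esize θ.2.2.2.2.2 ≤ 7 + i * esize (fB a)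

theorem SI.nxt {a : CIn} {i : ℕ} {θ : Tht} (h : SI a i θ) {l : List (List ℤ)} (hl : l.length = aS a ^ 42) :
    SI a (i + 1) (nxtL a θ l) := by
  have e2 : aS a ^ 15 * 2 ^ (i + 1) = 2 * (aS a ^ 15 * 2 ^ i) := by ring
  have h1 : aS a ^ 15 ≤ aS a ^ 15 * 2 ^ i := Nat.le_mul_of_pos_right _ (by positivity)
  have hr := h.r
  refine ⟨by rw [← h.idx]; rfl, ?_, ?_, ?_, fun p => ?_, ?_, ?_⟩
  · have h2 : θ.2.1 / aS a ^ 15 ≤ θ.2.1 := Nat.div_le_self _ _
    simp only [nxtL]
    split_ifs <;> omega
  · simp only [nxtL]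
    omega
  · simp [nxtL]
  · simp only [nxtL]
    rcases lt_or_ge p (an a) with hp | hp
    · rw [List.getD_eq_getElem _ _ (by simpa using hp), List.getElem_map, List.getElem_range]
      have := h.hb p
      split_ifs <;> omega
    · rw [List.getD_eq_default _ _ (by simpa using hp)]
      exact Nat.zero_le _
  · have h2 : (if θ.1 = mL (aS a) then l.countP (flL a) else l.countP (e0L a)) * dnL a ≤ fB a := by
      refine le_trans ?_ (Nat.le_mul_of_pos_right _ (Nat.succ_pos _))
      refine le_trans (Nat.mul_le_mul_right _ ?_) (Nat.le_succ _)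
      rw [← hl]
      split_ifs <;> exact List.countP_le_length
    have h3 := esize_nat_mono h2
    have h4 := h.num
    refine (esize_nat_mul_le _ _).trans ?_
    rw [Nat.succ_mul]
    omega
  · have h2 : (max (l.map (aV a θ)).sum 1 * if θ.1 = mL (aS a) then ballL a else 1) ≤ fB a := by
      refine Nat.mul_le_mul (max_le (le_trans ?_ (Nat.le_succ _)) (Nat.le_add_left _ _)) (by split_ifs <;> omega)
      have := List.sum_le_card_nsmul (l.map (aV a θ)) (dnL a) fun v hv => by
        obtain ⟨s, -, rfl⟩ := List.mem_map.1 hv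
        exact aV_le_dnL _ _ _
      rwa [List.length_map, hl, smul_eq_mul] at this
    have h3 := esize_nat_mono h2
    have h4 := h.den
    refine (esize_nat_mul_le _ _).trans ?_
    rw [Nat.succ_mul]
    omega

/-- the size bound for stages -/
def sB (a : CIn) : ℕ :=
  esize (mL (aS a) + 1) + 2 * esize (aS a ^ 15 * 2 ^ (mL (aS a) + 1)) + (an a * (esize (mL (aS a) + 1) + 1) + 1) +
    2 * (7 + (mL (aS a) + 1) * esize (fB a)) + 5

theorem pb_sB : PB sB := by
  have h1 : PB fun a => esize (mL (aS a) + 1) := PB.esize (by fun_prop)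
  have h2 : PB fun a => esize (aS a ^ 15 * 2 ^ (mL (aS a) + 1)) :=
    PB.esize (PT.nat_mul (by fun_prop) (PT.nat_pow (PT.const _) (by fun_prop)
      ((pb_mL (pb_aS PT.id')).add (PB.const _))))
  have h3 : PB fun a => esize (fB a) :=
    PB.esize (PT.nat_mul (PT.nat_add (PT.nat_mul (by fun_prop) (pt_dnL PT.id')) (PT.const _))
      (PT.nat_add (pt_ballL PT.id') (PT.const _)))
  exact (((h1.add ((PB.const _).mul h2)).add (((pb_an PT.id').mul (h1.add (PB.const _))).add (PB.const _))).add
    ((PB.const _).mul ((PB.const _).add (((pb_mL (pb_aS PT.id')).add (PB.const _)).mul h3)))).add (PB.const _)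

theorem SI.size {a : CIn} {i : ℕ} {θ : Tht} (h : SI a i θ) (hi : i ≤ mL (aS a) + 1) : esize θ ≤ sB a := by
  obtain ⟨j, ρ, ρ', hh, num, den⟩ := θ
  obtain ⟨h1, h2, h3, h4, h5, h6, h7⟩ := h
  simp only at h1 h2 h3 h4 h5 h6 h7
  have e1 : aS a ^ 15 * 2 ^ i ≤ aS a ^ 15 * 2 ^ (mL (aS a) + 1) :=
    Nat.mul_le_mul_left _ (Nat.pow_le_pow_right (by norm_num) hi)
  have k1 := esize_nat_mono (h1.le.trans hi)
  have k2 := esize_nat_mono (h2.trans e1)
  have k3 := esize_nat_mono (h3.trans e1)
  have k4 : esize hh ≤ an a * (esize (mL (aS a) + 1) + 1) + 1 := by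
    refine (esize_list_le (B := esize (mL (aS a) + 1)) fun v hv => esize_nat_mono (le_trans ?_ hi)).trans
      (Nat.add_le_add_right (Nat.mul_le_mul_right _ h4) _)
    obtain ⟨p, hp, rfl⟩ := List.getElem_of_mem hv
    have := h5 p
    rwa [List.getD_eq_getElem _ _ hp] at this
  have k5 : i * esize (fB a) ≤ (mL (aS a) + 1) * esize (fB a) := Nat.mul_le_mul_right _ hi
  simp only [esize_pair, sB]
  omega

theorem pto_coreL : PTO coreL := by
  obtain ⟨g, hg, hg'⟩ := exists_grow
  have e1 : esize (1 : ℕ) = 7 := by rw [esize_nat]; simp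
  have h := PTO.ctlQ (step := stepL) (nxt := nxtL) (t₀ := fun a => QT.ret (List.replicate (aN a) (0 : ℤ)))
    (T := fun a => aS a ^ 1837) (K := fun a => aS a ^ 42) (m := fun a => mL (aS a) + 1)
    (θ₀ := fun _ => (0, 0, 0, [], 1, 1)) g sB SI pto_stepL hg hg'
    (pt_nxtL (by fun_prop) (by fun_prop) PT.snd') pb_sB
    (fun a => ⟨rfl, Nat.zero_le _, Nat.zero_le _, Nat.zero_le _, fun _ => by simp, by simp [e1], by simp [e1]⟩)
    (fun a i θ l _ hl h => h.nxt hl) (fun a i θ hi h => h.size hi)
    (PTO.ret (PT.replicate (pt_aN PT.id') (pb_aN PT.id') (PT.const _)))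
    (PT.nat_pow (pt_aS PT.id') (PT.const _) (PB.const _)) ((pb_aS PT.id').pow _)
    (PT.nat_pow (pt_aS PT.id') (PT.const _) (PB.const _)) ((pb_aS PT.id').pow _)
    (PT.nat_add (pt_mL (pt_aS PT.id')) (PT.const _)) ((pb_mL (pb_aS PT.id')).add (PB.const _)) (PT.const _)
  exact PTO.map (g := fun _ (θ : Tht) => θ.2.2.2.2) h (by fun_prop)

end Crest.Agent.R302B
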