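import Crest.Agent.R302B.L1

/-!
# Row 302 (binary layer): APT1
Size bounds for the core algorithm.
-/

set_option autoImplicit false
set_option linter.unusedSectionVars false

noncomputable section

namespace Crest.Agent.R302B

open Finset Crest.Agent.R302 Crest.Agent.R302.QT Crest.Agent.Lib.PolyTime

attribute [local irreducible] aS

theorem APT1_getD (x : List ℤ) (j : ℕ) : esize (x.getD j 0) ≤ esize x + 7 := by
  rcases lt_or_ge j x.length with h | h
  · rw [List.getD_eq_getElem _ _ h]
    have := esize_lt_of_mem (List.getElem_mem h)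
    omega
  · rw [List.getD_eq_default _ _ h, esize_int]
    simp

theorem APT1_map (c N : ℕ) (s : List ℤ) (f : ℕ → ℤ) (h : ∀ j, esize (f j) ≤ esize (s.getD j 0) + c) :
    esize ((List.range N).map f) ≤ esize s + N * (c + 8) := by
  induction N generalizing s f with
  | zero =>
    have := esize_pos s
    rw [List.range_zero, List.map_nil, esize_nil]
    omega
  | succ N ih =>
    rw [List.range_succ_eq_map, List.map_cons, List.map_map, esize_cons, Nat.succ_mul]
    have h0 := h 0
    cases s with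
    | nil =>
      have := ih [] (f ∘ Nat.succ) fun j => by simpa using h (j + 1)
      rw [List.getD_nil, esize_int 0, Int.natAbs_zero, esize_nat_zero] at h0
      omega
    | cons y s =>
      have := ih s (f ∘ Nat.succ) fun j => by simpa using h (j + 1)
      rw [List.getD_cons_zero] at h0
      rw [esize_cons]
      omega

theorem esize_mvL (a : CIn) (ρ : ℕ) (s : List ℤ) {x x' : List ℤ} {B : ℕ} (hx : esize x ≤ B) (hx' : esize x' ≤ B) :
    esize (mvL a ρ s x x') ≤ esize s + aN a * (4 * B + 28 + 8) := by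
  refine APT1_map _ _ _ _ fun j => ?_
  have h1 := APT1_getD x j
  have h2 := APT1_getD x' j
  have h3 := APT1_getD x (j - 1)
  have h4 := APT1_getD x' (j - 1)
  have h5 := esize_int_sub_le (x.getD j 0) (x'.getD j 0)
  have h6 := esize_int_sub_le (x.getD (j - 1) 0) (x'.getD (j - 1) 0)
  have h7 := esize_int_add_le (s.getD j 0) (x.getD j 0 - x'.getD j 0)
  split_ifs
  · have h8 := esize_int_sub_le (s.getD j 0 + (x.getD j 0 - x'.getD j 0)) (x.getD (j - 1) 0 - x'.getD (j - 1) 0)
    omega
  · rw [sub_zero]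
    omega

theorem step_grow {B : CIn × Tht → ℕ} (hB : ∀ p : CIn × Tht, All (fun x => esize x ≤ B p) (xQ p.1 p.2.2.1)) (a : CIn)
    (θ : Tht) (s : List ℤ) :
    All (fun s' => esize s' ≤ esize s + aN a * (4 * B (a, θ) + 28 + 8)) (stepL a θ s) :=
  all_metro (Nat.le_add_right _ _) ((hB (a, θ)).bind fun _ hx =>
    (all_map _ _).2 ((hB (a, θ)).mono fun _ hx' => esize_mvL a _ s hx hx'))

/-- bound for the multipliers of one round -/
def DL (a : CIn) : ℕ := (aS a ^ 42 * dnL a + 1) * (ballL a + 1)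

/-- the size invariant -/
structure SI (a : CIn) (i : ℕ) (θ : Tht) : Prop where
  idx : θ.1 = i
  r : θ.2.1 ≤ aS a ^ 15 * 2 ^ i
  rp : θ.2.2.1 ≤ aS a ^ 15 * 2 ^ i
  len : θ.2.2.2.1.length ≤ aN a
  hb : ∀ x ∈ θ.2.2.2.1, x ≤ i
  num : esize θ.2.2.2.2.1 ≤ 7 + i * esize (DL a)
  den : esize θ.2.2.2.2.2 ≤ 7 + i * esize (DL a)

theorem SI.zero (a : CIn) : SI a 0 (0, 0, 0, [], 1, 1) :=
  ⟨rfl, Nat.zero_le _, Nat.zero_le _, Nat.zero_le _, by simp, by simp, by simp⟩

theorem SI.step {a : CIn} {i : ℕ} {θ : Tht} {l : List (List ℤ)} (hl : l.length = aS a ^ 42) (h : SI a i θ) :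
    SI a (i + 1) (nxtL a θ l) := by
  have h2 : aS a ^ 15 * 2 ^ (i + 1) = 2 * (aS a ^ 15 * 2 ^ i) := by ring
  have h1 : aS a ^ 15 ≤ aS a ^ 15 * 2 ^ i := Nat.le_mul_of_pos_right _ (by positivity)
  have hr := h.r
  refine ⟨congrArg (· + 1) h.idx, ?_, ?_, ?_, fun x hx => ?_, ?_, ?_⟩
  · have := Nat.div_le_self θ.2.1 (aS a ^ 15)
    unfold nxtL
    simp only
    split_ifs <;> omega
  · show θ.2.1 ≤ _
    omega
  · unfold nxtL an
    simp
  · unfold nxtL at hx
    obtain ⟨p, -, rfl⟩ := List.mem_map.1 hx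
    have : θ.2.2.2.1.getD p 0 ≤ i := by
      rcases lt_or_ge p θ.2.2.2.1.length with c | c
      · rw [List.getD_eq_getElem _ _ c]
        exact h.hb _ (List.getElem_mem c)
      · rw [List.getD_eq_default _ _ c]
        exact Nat.zero_le _
    split_ifs <;> omega
  · refine (esize_nat_mul_le _ _).trans ?_
    have := h.num
    have : esize ((if θ.1 = mL (aS a) then l.countP (flL a) else l.countP (e0L a)) * dnL a) ≤ esize (DL a) := by
      refine esize_nat_mono (le_trans ?_ (Nat.le_mul_of_pos_right _ (Nat.succ_pos _)))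
      refine le_trans (Nat.mul_le_mul_right _ ?_) (Nat.le_succ _)
      rw [← hl]
      split_ifs <;> exact List.countP_le_length
    rw [Nat.succ_mul]
    omega
  · refine (esize_nat_mul_le _ _).trans ?_
    have := h.den
    have : esize (max (l.map (aV a θ)).sum 1 * if θ.1 = mL (aS a) then ballL a else 1) ≤ esize (DL a) := by
      refine esize_nat_mono (Nat.mul_le_mul (max_le (le_trans ?_ (Nat.le_succ _)) (by omega)) (by split_ifs <;> omega))
      have := List.sum_le_card_nsmul (l.map (aV a θ)) (dnL a) fun x hx => by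
        obtain ⟨s, -, rfl⟩ := List.mem_map.1 hx
        unfold aV dnL
        split_ifs
        · exact tw_le _ _ _
        · exact Nat.zero_le _
      rwa [List.length_map, hl, smul_eq_mul] at this
    rw [Nat.succ_mul]
    omega

/-- the size bound -/
def SB (a : CIn) : ℕ :=
  (aN a + 1) * (6 * (mL (aS a) + 1) + 2) + 2 * (esize (aS a ^ 15) + 6 * (mL (aS a) + 1) + 7) +
    2 * ((mL (aS a) + 1) * esize (DL a)) + 30

theorem SI.size {a : CIn} {i : ℕ} {θ : Tht} (hi : i ≤ mL (aS a) + 1) (h : SI a i θ) : esize θ ≤ SB a := by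
  obtain ⟨i', r, rp, hh, num, den⟩ := θ
  obtain ⟨h1, h2, h3, h4, h5, h6, h7⟩ := h
  simp only at h1 h2 h3 h4 h5 h6 h7
  subst h1
  have b1 := esize_nat_le_self i'
  have b0 := esize_nat_le_of_le_two_pow (le_refl (2 ^ i'))
  have b2 := (esize_nat_mono h2).trans (esize_nat_mul_le _ _)
  have b3 := (esize_nat_mono h3).trans (esize_nat_mul_le _ _)
  have b4 := esize_list_le (l := hh) (B := 6 * (mL (aS a) + 1) + 1) fun x hx => by
    have := esize_nat_le_self x
    have := h5 x hx
    omega
  have b5 : hh.length * (6 * (mL (aS a) + 1) + 1 + 1) ≤ aN a * (6 * (mL (aS a) + 1) + 2) := Nat.mul_le_mul_right _ h4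
  have b6 : i' * esize (DL a) ≤ (mL (aS a) + 1) * esize (DL a) := Nat.mul_le_mul_right _ hi
  simp only [esize_pair, SB, Nat.succ_mul (aN a)]
  omega

theorem pto_coreL_of (hS : PT aS) (hS' : PB aS) (hd : PT dnL) (hb : PT ballL)
    (hn : PT fun p : (CIn × Tht) × List (List ℤ) => nxtL p.1.1 p.1.2 p.2)
    (hx : PTO fun p : CIn × Tht => xQ p.1 p.2.2.1)
    (hstep : PTO fun p : (CIn × Tht) × List ℤ => stepL p.1.1 p.1.2 p.2) : PTO coreL := by
  obtain ⟨B, hB, hB'⟩ := hx.size
  have hN : PT aN := by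
    unfold aN
    fun_prop
  have hN' : PB aN := by
    unfold aN
    fun_prop
  have hp : ∀ k, PT fun a => aS a ^ k := fun k => by fun_prop
  have hp' : ∀ k, PB fun a => aS a ^ k := fun k => hS'.pow k
  have hm : PT fun a => mL (aS a) + 1 := by
    have := hp 17
    unfold mL
    fun_prop
  have hm' : PB fun a => mL (aS a) + 1 := by
    have := hp' 17
    unfold mL
    fun_prop
  have hD : PT DL := by
    have := hp 42
    unfold DL
    fun_prop
  have hSB : PB SB := by
    have h1 := PB.esize (hp 15)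
    have h2 := PB.esize hD
    unfold SB
    exact ((((hN'.add (PB.const _)).mul (((PB.const _).mul hm').add (PB.const _))).add ((PB.const _).mul
      ((h1.add ((PB.const _).mul hm')).add (PB.const _)))).add ((PB.const _).mul (hm'.mul h2))).add (PB.const _)
  have key := PTO.ctlQ (step := stepL) (nxt := nxtL) (t₀ := fun a => QT.ret (List.replicate (aN a) (0 : ℤ)))
    (T := fun a => aS a ^ 1837) (K := fun a => aS a ^ 42) (m := fun a => mL (aS a) + 1)
    (θ₀ := fun _ => (0, 0, 0, [], 1, 1)) (fun p => aN p.1 * (4 * B p + 28 + 8)) SB SI hstep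
    ((hN'.comp PT.fst').mul ((((PB.const _).mul hB).add (PB.const _)).add (PB.const _))) (step_grow hB') hn hSB SI.zero
    (fun a i θ l _ hl h => h.step hl) (fun a i θ hi h => h.size hi) (PTO.ret (by fun_prop)) (hp _) (hp' _) (hp _) (hp' _)
    hm hm' (by fun_prop)
  exact key.map (g := fun _ (θ : Tht) => θ.2.2.2.2) (by fun_prop)

end Crest.Agent.R302B
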