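import Crest.Agent.R302B.PBf

/-!
# Row 302 (binary layer), PREP: centring
`pot f x M = ∏ (cap + 1)` over all pairs.  Let `K = 4 n²`.
* `cap_push`: if `Cone f x s k g` and `K k ≤ s` then for every `X`, `K (slack (x+g) X + 1) ≥ (K - 1) (slack x X + 1)` (cases `slack ≤ s`, `slack > s`), hence the same for `cap`.
* `Push`: the data of an improving push.  `Push.pot`: `g = t • (g' + rt p q)` has length `t n`, `K t n = s`; `cap f₁ (x+g) M q p ≥ t` because a set `X ∋ q`, `p ∉ X`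
  has `slack (x+g) X ≥ slack x X + t` if `slack x X ≤ s` and `≥ s + 1 - t n ≥ t` otherwise.  So the product is multiplied by at least
  `4 (1 - 1/K) ^ (2 n²) ≥ 2` (`one_add_mul_le_pow`; compute in `ℝ` or `ℚ`).
* `viol_some`, `viol_none`: `List.find?_some`, `List.mem_of_find?_eq_some`, `List.find?_eq_none`, `bf_spec`, `lt_cap_iff`, `Arc.lt`.  For `viol_none`: if `Arc s q p` fails then
  `p ≠ q`, `c = cap q p ≤ s`, and the test for `(p, q)` succeeds since `cK n (c+1) ≤ cK n (s+1)` (`Arc.mono`, `Reach.mono`).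
* `cenQ_spec`: `allO_iter_idx` with `length = n ∧ IsB f₁ ∧ IsB f₂ ∧ (Cen ∨ 2 ^ i ≤ pot₁ * pot₂)`; a `Push` contradicts `Cen`; `pot ≤ (M+1) ^ (n²) ≤ 2 ^ (n² size M)`.
* `pto_cenQ`: `PTO.iter_inv` with `esize y ≤ esize (x a) + n (esize (2 M) + 7) + 1` (`esize_le_of_abs_le`, `abs_clip_le`).
-/

set_option autoImplicit false

noncomputable section

namespace Crest.Agent.R302B

open Finset Crest.Agent.R302 Crest.Agent.R302.QT Crest.Agent.Lib.PolyTime

variable {O : Orc} {n M : ℕ} {f f₁ f₂ : Finset (Fin n) → ℤ} {fq₁ fq₂ : List Bool → QT ℤ}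
  {x g : Fin n → ℤ} {c₁ c₂ : List (List ℤ)}

/-- the potential -/
def pot (f : Finset (Fin n) → ℤ) (x : Fin n → ℤ) (M : ℕ) : ℤ :=
  ∏ e : Fin n × Fin n, (cap f x M e.1 e.2 + 1)

/-- improving pushes along an arc of the first preorder -/
def Push (f₁ f₂ : Finset (Fin n) → ℤ) (x : Fin n → ℤ) (M : ℕ) (g : Fin n → ℤ) : Prop :=
  ∃ (p q : Fin n) (g' : Fin n → ℤ), p ≠ q ∧ cK n * (cap f₁ x M q p + 1) < M ∧
    Arc f₁ x (cK n * (cap f₁ x M q p + 1)) p q ∧ Reach f₁ f₂ x (cK n * (cap f₁ x M q p + 1)) q p ∧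
    Lab f₁ f₂ x (cK n * (cap f₁ x M q p + 1)) ((n : ℤ) - 1) q p g' ∧
    g = (4 * (cap f₁ x M q p + 1)) • (g' + rt p q)

theorem cap_push (hx : IsB f x) {s k K : ℤ} (hK : 1 ≤ K) (hg : Cone f x s k g) (hk : K * k ≤ s)
    (p q : Fin n) : (K - 1) * (cap f x M p q + 1) ≤ K * (cap f (x + g) M p q + 1) := by
  have key : ∀ X, (K - 1) * (slack f x X + 1) ≤ K * (slack f (x + g) X + 1) := fun X => by
    rw [slack_add]
    have h0 := slack_nonneg hx X
    by_cases hX : slack f x X ≤ s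
    · have h1 := hg.cl X hX
      nlinarith
    · have h1 := mul_le_mul_of_nonneg_left (hg.le X) (by omega : 0 ≤ K)
      nlinarith
  have hM : (0 : ℤ) ≤ M := Nat.cast_nonneg M
  have h1 := cap_le f x M p q
  have hK' : 0 ≤ K - 1 := by omega
  have h2 : (K - 1) * (cap f x M p q + 1) ≤ K * (M + 1) := by nlinarith [cap_nonneg hx hM p q]
  obtain ⟨X, -, hX⟩ := exists_mem_eq_inf' (s := (univ : Finset (Finset (Fin n)))) univ_nonempty
    fun X => if p ∈ X ∧ q ∉ X then min (M : ℤ) (slack f (x + g) X) else M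
  have h3 : cap f (x + g) M p q =
      if p ∈ X ∧ q ∉ X then min (M : ℤ) (slack f (x + g) X) else M := hX
  rw [h3]
  split_ifs with h4
  · rcases min_choice (M : ℤ) (slack f (x + g) X) with h5 | h5
    · rw [h5]
      exact h2
    · rw [h5]
      refine le_trans (mul_le_mul_of_nonneg_left ?_ hK') (key X)
      have h6 : cap f x M p q - 1 < cap f x M p q := by omega
      have h7 := (lt_cap_iff.1 h6).2 X h4.1 h4.2
      omega
  · exact h2

theorem one_le_pot (hx : IsB f x) : 1 ≤ pot f x M := by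
  unfold pot
  calc (1 : ℤ) = ∏ _e : Fin n × Fin n, (1 : ℤ) := by simp
    _ ≤ _ := prod_le_prod (fun _ _ => zero_le_one) fun e _ => by
      have := cap_nonneg hx (Nat.cast_nonneg M) e.1 e.2
      omega

theorem pot_le (hx : IsB f x) : pot f x M ≤ 2 ^ (n ^ 2 * M.size) := by
  unfold pot
  calc ∏ e : Fin n × Fin n, (cap f x M e.1 e.2 + 1) ≤ ∏ _e : Fin n × Fin n, (2 : ℤ) ^ M.size := by
        refine prod_le_prod (fun e _ => ?_) fun e _ => ?_
        · have := cap_nonneg hx (Nat.cast_nonneg M) e.1 e.2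
          omega
        · have h1 := cap_le f x M e.1 e.2
          have h2 : (M : ℤ) < 2 ^ M.size := by exact_mod_cast Nat.lt_size_self M
          omega
    _ = 2 ^ (n ^ 2 * M.size) := by
        rw [prod_const, card_univ, Fintype.card_prod, Fintype.card_fin, ← pow_mul, sq, mul_comm]

theorem PCen_two_le {p q : Fin n} (h : p ≠ q) : (2 : ℤ) ≤ n := by
  have h1 := p.2
  have h2 := q.2
  have h3 : (p : ℕ) ≠ q := fun h' => h (Fin.ext h')
  omega

theorem PCen_cones {p q : Fin n} {g' : Fin n → ℤ} {s t : ℤ} (ht : 0 ≤ t) (ha : Arc f₁ x s p q)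
    (hl : Lab f₁ f₂ x s ((n : ℤ) - 1) q p g') :
    Cone f₁ x s (t * n) (t • (g' + rt p q)) ∧ Cone f₂ x s (t * n) (t • (g' + rt p q)) := by
  refine ⟨Cone.smul ((hl.1.add ha.cone).mono le_rfl (by omega)) ht, Cone.smul ?_ ht⟩
  have h1 : g' + rt p q = g' - rt q p := by rw [sub_eq_add_neg, neg_rt]
  rw [h1]
  exact hl.2.mono le_rfl (by omega)

theorem PCen_bern {N : ℕ} (hN : 1 ≤ N) :
    (4 * (N : ℤ)) ^ (2 * N) ≤ 2 * (4 * (N : ℤ) - 1) ^ (2 * N) := by
  have hN' : (1 : ℝ) ≤ N := by exact_mod_cast hN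
  have h4 : (0 : ℝ) < 4 * N := by linarith
  have h1 := one_add_mul_le_pow (a := -(1 / (4 * (N : ℝ)))) (by
    have : 1 / (4 * (N : ℝ)) ≤ 1 := by rw [div_le_one h4]; linarith
    linarith) (2 * N)
  have h2 : 1 + ((2 * N : ℕ) : ℝ) * -(1 / (4 * (N : ℝ))) = 1 / 2 := by
    push_cast
    field_simp
    ring
  have h3 : 1 + -(1 / (4 * (N : ℝ))) = (4 * N - 1) / (4 * N) := by
    field_simp
    ring
  rw [h2, h3, div_pow, le_div_iff₀ (by positivity)] at h1
  have h5 : (4 * (N : ℝ)) ^ (2 * N) ≤ 2 * (4 * (N : ℝ) - 1) ^ (2 * N) := by linarith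
  exact_mod_cast h5

theorem Push.isB (h₁ : IsB f₁ x) (h₂ : IsB f₂ x) (h : Push f₁ f₂ x M g) :
    IsB f₁ (x + g) ∧ IsB f₂ (x + g) := by
  obtain ⟨p, q, g', hpq, -, ha, -, hl, rfl⟩ := h
  have hn := PCen_two_le hpq
  have hc := cap_nonneg h₁ (Nat.cast_nonneg M) q p
  obtain ⟨k₁, k₂⟩ := PCen_cones (t := 4 * (cap f₁ x M q p + 1)) (by omega) ha hl
  have hk : 4 * (cap f₁ x M q p + 1) * n ≤ cK n * (cap f₁ x M q p + 1) + 1 := by
    unfold cK
    have h1 : (n : ℤ) ≤ (n : ℤ) ^ 3 := le_self_pow₀ (by omega) (by norm_num)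
    nlinarith
  exact ⟨k₁.isB h₁ hk, k₂.isB h₂ hk⟩

theorem Push.pot (h₁ : IsB f₁ x) (h₂ : IsB f₂ x) (h : Push f₁ f₂ x M g) :
    2 * (pot f₁ x M * pot f₂ x M) ≤ pot f₁ (x + g) M * pot f₂ (x + g) M := by
  have hb := h.isB h₁ h₂
  obtain ⟨p, q, g', hpq, hM, ha, -, hl, hg⟩ := h
  have hn := PCen_two_le hpq
  have hc := cap_nonneg h₁ (Nat.cast_nonneg M) q p
  set c := cap f₁ x M q p with hcd
  obtain ⟨k₁, k₂⟩ := PCen_cones (t := 4 * (c + 1)) (by omega) ha hl
  rw [← hg] at k₁ k₂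
  set K : ℤ := 4 * ((n ^ 2 : ℕ) : ℤ) with hK
  have hK' : K = 4 * (n : ℤ) ^ 2 := by rw [hK]; push_cast; ring
  have hK1 : 16 ≤ K := by rw [hK']; nlinarith
  have hk : K * (4 * (c + 1) * n) = cK n * (c + 1) := by
    rw [hK']
    unfold cK
    ring
  have htn : 4 * (c + 1) ≤ 4 * (c + 1) * n := by nlinarith
  have hs : 2 * (4 * (c + 1) * n) ≤ cK n * (c + 1) := by
    rw [← hk]
    exact mul_le_mul_of_nonneg_right (by omega) (by omega)
  have hbig : 4 * (c + 1) - 1 < cap f₁ (x + g) M q p := by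
    refine lt_cap_iff.2 ⟨by omega, fun X hq hp => ?_⟩
    rw [slack_add]
    by_cases hX : slack f₁ x X ≤ cK n * (c + 1)
    · have h1 := hl.1.cl X hX
      have h2 := slack_nonneg h₁ X
      have h3 : ∑ j ∈ X, g j = 4 * (c + 1) * (∑ j ∈ X, g' j - 1) := by
        rw [hg]
        simp only [Pi.smul_apply, smul_eq_mul, ← mul_sum, Pi.add_apply, sum_add_distrib, sum_rt,
          if_pos hq, if_neg hp]
        ring
      rw [h3]
      nlinarith
    · have h1 := k₁.le X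
      omega
  have hcard : (univ : Finset (Fin n × Fin n)).card = n ^ 2 := by
    rw [card_univ, Fintype.card_prod, Fintype.card_fin, sq]
  have e₁ : 4 * ((K - 1) ^ n ^ 2 * R302B.pot f₁ x M) ≤ K ^ n ^ 2 * R302B.pot f₁ (x + g) M := by
    have h1 : ∏ e : Fin n × Fin n, ((if e = (q, p) then (4 : ℤ) else 1) *
        ((K - 1) * (cap f₁ x M e.1 e.2 + 1))) ≤
        ∏ e : Fin n × Fin n, (K * (cap f₁ (x + g) M e.1 e.2 + 1)) := by
      refine prod_le_prod (fun e _ => ?_) fun e _ => ?_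
      · have := cap_nonneg h₁ (Nat.cast_nonneg M) e.1 e.2
        refine mul_nonneg ?_ (mul_nonneg (by omega) (by omega))
        split_ifs <;> norm_num
      · split_ifs with he
        · rw [he]
          simp only
          rw [← hcd]
          nlinarith
        · rw [one_mul]
          exact cap_push h₁ (by omega) k₁ hk.le e.1 e.2
    rw [prod_mul_distrib, prod_mul_distrib, prod_mul_distrib, prod_const, prod_const, hcard,
      prod_ite_eq' univ (q, p), if_pos (mem_univ _)] at h1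
    exact h1
  have e₂ : (K - 1) ^ n ^ 2 * R302B.pot f₂ x M ≤ K ^ n ^ 2 * R302B.pot f₂ (x + g) M := by
    have h1 : ∏ e : Fin n × Fin n, ((K - 1) * (cap f₂ x M e.1 e.2 + 1)) ≤
        ∏ e : Fin n × Fin n, (K * (cap f₂ (x + g) M e.1 e.2 + 1)) := by
      refine prod_le_prod (fun e _ => ?_) fun e _ => cap_push h₂ (by omega) k₂ hk.le e.1 e.2
      have := cap_nonneg h₂ (Nat.cast_nonneg M) e.1 e.2
      exact mul_nonneg (by omega) (by omega)
    rw [prod_mul_distrib, prod_mul_distrib, prod_const, prod_const, hcard] at h1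
    exact h1
  have e₃ : K ^ (2 * n ^ 2) ≤ 2 * (K - 1) ^ (2 * n ^ 2) :=
    PCen_bern (Nat.one_le_pow _ _ (by omega))
  have a₁ := one_le_pot (M := M) h₁
  have a₂ := one_le_pot (M := M) h₂
  have a₃ := one_le_pot (M := M) hb.1
  have hKp : 0 < K ^ n ^ 2 := pow_pos (by omega) _
  have hKq : 0 ≤ (K - 1) ^ n ^ 2 := pow_nonneg (by omega) _
  have e₄ := mul_le_mul e₁ e₂ (mul_nonneg hKq (by omega)) (mul_nonneg hKp.le (by omega))
  rw [two_mul, pow_add, pow_add] at e₃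
  have e₅ := mul_le_mul_of_nonneg_right e₃
    (mul_nonneg (by omega) (by omega) : 0 ≤ R302B.pot f₁ x M * R302B.pot f₂ x M)
  refine le_of_mul_le_mul_left ?_ (mul_pos hKp hKp)
  nlinarith

theorem Push.not_cen (h : Push f₁ f₂ x M g) : ¬ Cen f₁ f₂ x := by
  intro hx
  obtain ⟨p, q, g', hpq, hM, ha, hr, -, -⟩ := h
  have hn := PCen_two_le hpq
  have hc := cap_nonneg hx.b₁ (Nat.cast_nonneg M) q p
  have h1 := hx.rev₁ _ hc p q (by rw [Fintype.card_fin]; exact ⟨ha.reach₁ f₂, hr⟩)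
    (by rw [Fintype.card_fin]; exact ha)
  have h2 : cap f₁ x M q p < M := by
    refine lt_of_le_of_lt ?_ hM
    unfold cK
    have := one_le_pow₀ (by omega : (1 : ℤ) ≤ n) (n := 3)
    nlinarith
  exact lt_irrefl _ (lt_cap_iff.2 ⟨h2, h1⟩)

theorem PCen_vec_map (t : ℤ) (l : List ℤ) : vec n (l.map fun z => t * z) = t • vec n l := by
  funext j
  simp only [vec, Pi.smul_apply, smul_eq_mul, List.getD_eq_getElem?_getD, List.getElem?_map]
  cases l[(j : ℕ)]? <;> simp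

theorem PCen_cK_nonneg (n : ℕ) : 0 ≤ cK n := by
  unfold cK
  positivity

theorem viol_some (h₁ : IsB f₁ x) (hc₁ : IsCaps f₁ x M c₁) (hc₂ : IsCaps f₂ x M c₂) {d : List ℤ}
    (h : viol n M c₁ c₂ = some d) : Push f₁ f₂ x M (vec n d) := by
  unfold viol at h
  obtain ⟨⟨a, b⟩, he, rfl⟩ := Option.map_eq_some_iff.1 h
  have h1 := List.find?_some he
  have h2 := List.mem_of_find?_eq_some he
  rw [List.mem_product, List.mem_range, List.mem_range] at h2
  obtain ⟨p, rfl⟩ : ∃ p : Fin n, (p : ℕ) = a := ⟨⟨a, h2.1⟩, rfl⟩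
  obtain ⟨q, rfl⟩ : ∃ q : Fin n, (q : ℕ) = b := ⟨⟨b, h2.2⟩, rfl⟩
  simp only [decide_eq_true_eq] at h1
  obtain ⟨h3, h4, h5⟩ := h1
  rw [hc₁ q p] at h4 h5
  rw [hc₁ p q] at h4
  have hc := cap_nonneg h₁ (Nat.cast_nonneg M) q p
  obtain ⟨h6, h7⟩ := lt_cap_iff.1 h4
  obtain ⟨h8, h9⟩ := (bf_spec hc₁ hc₂ q p).2.2.1 _
    (mul_nonneg (PCen_cK_nonneg n) (by omega)) h5
  refine ⟨p, q, _, fun h' => h3 (congrArg _ h'), h6, h7, h8, h9, ?_⟩
  simp only
  rw [PCen_vec_map, vec_vadd, hc₁ q p]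

theorem viol_none (h₁ : IsB f₁ x) (hM : Bd f₁ M) (hc₁ : IsCaps f₁ x M c₁) (hc₂ : IsCaps f₂ x M c₂)
    (h : viol n M c₁ c₂ = none) (s : ℤ) (hs : 0 ≤ s) (p q : Fin n)
    (hr : Scc f₁ f₂ x (cK n * (s + 1)) p q) (ha : Arc f₁ x (cK n * (s + 1)) p q) : Arc f₁ x s q p := by
  by_contra hq
  have hpq : p ≠ q := by
    rintro rfl
    exact hq (Arc.refl _ _ _ _)
  have h1 : cap f₁ x M q p ≤ s := not_lt.1 fun h' => hq (lt_cap_iff.1 h').2
  have h2 : cK n * (s + 1) < M := ha.lt hM h₁ hpq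
  have h3 : cK n * (cap f₁ x M q p + 1) ≤ cK n * (s + 1) :=
    mul_le_mul_of_nonneg_left (by omega) (PCen_cK_nonneg n)
  have h4 := lt_cap_iff.2 ⟨h2, ha⟩
  have h5 := (bf_spec hc₁ hc₂ q p).2.2.2 _ (mul_nonneg (PCen_cK_nonneg n) (by omega)) h2 hr.2
  unfold viol at h
  rw [Option.map_eq_none_iff, List.find?_eq_none] at h
  refine h ((p : ℕ), (q : ℕ)) (List.mem_product.2 ⟨List.mem_range.2 p.2, List.mem_range.2 q.2⟩) ?_
  simp only [decide_eq_true_eq]
  rw [hc₁ q p, hc₁ p q]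
  exact ⟨fun h' => hpq (Fin.ext h'), h3.trans_lt h4, h3.trans_lt h5⟩

theorem PCen_vec_cpush (hM : ∀ A, |f A| ≤ M) {z d : List ℤ}
    (hd : (viol n M c₁ c₂).getD ((viol n M c₂ c₁).getD []) = d) (hb : IsB f (vec n z + vec n d)) :
    vec n (cpush n M c₁ c₂ z) = vec n z + vec n d := by
  unfold cpush
  rw [vec_map_range, hd]
  funext j
  refine clip_eq ?_
  have := IsB.abs_le hM hb j
  push_cast
  exact this

theorem cenQ_spec (h₁ : Ev O n M f₁ fq₁) (h₂ : Ev O n M f₂ fq₂) {y : List ℤ} (hy : y.length = n)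
    (b₁ : IsB f₁ (vec n y)) (b₂ : IsB f₂ (vec n y)) :
    AllO O (fun z => z.length = n ∧ Cen f₁ f₂ (vec n z)) (cenQ fq₁ fq₂ n M y) := by
  have key := allO_iter_idx (O := O) (step := cenStep fq₁ fq₂ n M)
    (P := fun i z => z.length = n ∧ IsB f₁ (vec n z) ∧ IsB f₂ (vec n z) ∧
      (Cen f₁ f₂ (vec n z) ∨ 2 ^ i ≤ pot f₁ (vec n z) M * pot f₂ (vec n z) M))
    (2 * n ^ 2 * M.size + 1) (s := y) ?_ ?_
  · refine key.mono fun z hz => ⟨hz.1, hz.2.2.2.resolve_right fun h => ?_⟩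
    have h1 := pot_le (M := M) hz.2.1
    have h2 := pot_le (M := M) hz.2.2.1
    have h3 := one_le_pot (M := M) hz.2.2.1
    have h4 := mul_le_mul h1 h2 (by omega) (by positivity)
    rw [← pow_add] at h4
    have h5 := h.trans h4
    rw [pow_le_pow_iff_right₀ (by norm_num)] at h5
    have h6 : 2 * n ^ 2 * M.size = n ^ 2 * M.size + n ^ 2 * M.size := by ring
    omega
  · rintro i - z ⟨-, a₁, a₂, a₃⟩
    unfold cenStep
    refine (capsQ_spec h₁ z).bind fun c₁ hc₁ => ?_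
    rw [allO_map]
    refine (capsQ_spec h₂ z).mono fun c₂ hc₂ => ⟨by simp [cpush], ?_⟩
    rcases e₁ : viol n M c₁ c₂ with _ | d
    · rcases e₂ : viol n M c₂ c₁ with _ | d
      · have hv : vec n (cpush n M c₁ c₂ z) = vec n z := by
          rw [PCen_vec_cpush h₁.abs (d := []) (by rw [e₁, e₂]; rfl) (by rwa [vec_nil, add_zero]),
            vec_nil, add_zero]
        rw [hv]
        refine ⟨a₁, a₂, Or.inl ⟨a₁, a₂, fun s hs p q hr ha => ?_, fun s hs p q hr ha => ?_⟩⟩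
        · rw [Fintype.card_fin] at hr ha
          exact viol_none a₁ h₁.bd hc₁ hc₂ e₁ s hs p q hr ha
        · rw [Fintype.card_fin] at hr ha
          exact viol_none a₂ h₂.bd hc₂ hc₁ e₂ s hs p q hr.swap ha
      · have hp := viol_some a₂ hc₂ hc₁ e₂
        have hb := hp.isB a₂ a₁
        rw [PCen_vec_cpush h₁.abs (d := d) (by rw [e₁, e₂]; rfl) hb.2]
        refine ⟨hb.2, hb.1, Or.inr ?_⟩
        have h1 := a₃.resolve_left fun h => hp.not_cen h.swap
        have h2 := hp.pot a₂ a₁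
        rw [pow_succ]
        linarith
    · have hp := viol_some a₁ hc₁ hc₂ e₁
      have hb := hp.isB a₁ a₂
      rw [PCen_vec_cpush h₁.abs (d := d) (by rw [e₁]; rfl) hb.1]
      refine ⟨hb.1, hb.2, Or.inr ?_⟩
      have h1 := a₃.resolve_left hp.not_cen
      have h2 := hp.pot a₁ a₂
      rw [pow_succ]
      linarith
  · refine ⟨hy, b₁, b₂, Or.inr ?_⟩
    rw [pow_zero]
    exact one_le_mul_of_one_le_of_one_le (one_le_pot b₁) (one_le_pot b₂)

section pt

variable {α : Type} [Enc α] {N B : α → ℕ} {d₁ d₂ : α → List (List ℤ)}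

theorem PCen_pt_cK (hN : PT N) : PT fun a => cK (N a) := by
  have h : PT fun a => (16 : ℤ) * ((N a : ℤ) * ((N a : ℤ) * (N a : ℤ))) := by fun_prop
  refine h.of_eq fun a => ?_
  unfold cK
  ring

theorem PCen_pt_viol (hN : PT N) (hN' : PB N) (hB : PT B) (h₁ : PT d₁) (h₂ : PT d₂) :
    PT fun a => viol (N a) (B a) (d₁ a) (d₂ a) := by
  have e₁ : PT fun z : α × ℕ × ℕ => ent (d₁ z.1) z.2.2 z.2.1 :=
    pt_ent (by fun_prop) (by fun_prop) (by fun_prop)
  have e₂ : PT fun z : α × ℕ × ℕ => ent (d₁ z.1) z.2.1 z.2.2 :=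
    pt_ent (by fun_prop) (by fun_prop) (by fun_prop)
  have e₃ : PT fun z : α × ℕ × ℕ => bf (N z.1) (B z.1) (d₁ z.1) (d₂ z.1) z.2.2 :=
    pt_bf (by fun_prop) (hN'.comp PT.fst') (by fun_prop) (by fun_prop) (by fun_prop) (by fun_prop)
  have e₄ : PT fun z : α × ℕ × ℕ =>
      (bf (N z.1) (B z.1) (d₁ z.1) (d₂ z.1) z.2.2).getD z.2.1 (0, []) := by fun_prop
  have e₅ : PT fun z : α × ℕ × ℕ => cK (N z.1) := PCen_pt_cK (by fun_prop)
  have e₆ : PT fun z : α × ℕ × ℕ => vadd (N z.1)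
      ((bf (N z.1) (B z.1) (d₁ z.1) (d₂ z.1) z.2.2).getD z.2.1 (0, [])).2 z.2.1 z.2.2 :=
    pt_vadd (by fun_prop) (hN'.comp PT.fst') (by fun_prop) (by fun_prop) (by fun_prop)
  have e₇ : PT fun z : α × ℕ × ℕ => 4 * (ent (d₁ z.1) z.2.2 z.2.1 + 1) := by fun_prop
  unfold viol
  refine PT.option_map (PT.find? (by fun_prop) ?_) ?_
  · fun_prop
  · exact PT.map e₆ (PT.int_mul (e₇.comp PT.fst') PT.snd')

theorem PCen_pt_cpush {z : α → List ℤ} (hN : PT N) (hN' : PB N) (hB : PT B) (h₁ : PT d₁) (h₂ : PT d₂)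
    (hz : PT z) : PT fun a => cpush (N a) (B a) (d₁ a) (d₂ a) (z a) := by
  have e₁ := PCen_pt_viol hN hN' hB h₁ h₂
  have e₂ := PCen_pt_viol hN hN' hB h₂ h₁
  have e₃ : PT fun a => (viol (N a) (B a) (d₁ a) (d₂ a)).getD
      ((viol (N a) (B a) (d₂ a) (d₁ a)).getD []) := by fun_prop
  unfold cpush
  refine PT.map (by fun_prop) (pt_clip (by fun_prop) ?_)
  have e₄ := e₃.comp (PT.fst' : PT fun p : α × ℕ => p.1)
  fun_prop

end pt

theorem pto_cenQ {α : Type} [Enc α] {gq₁ gq₂ : α → List Bool → QT ℤ} {N B : α → ℕ} {y : α → List ℤ}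
    (hq₁ : PTO fun p : α × List Bool => gq₁ p.1 p.2) (hq₂ : PTO fun p : α × List Bool => gq₂ p.1 p.2)
    (hN : PT N) (hN' : PB N) (hB : PT B) (hy : PT y) :
    PTO fun a => cenQ (gq₁ a) (gq₂ a) (N a) (B a) (y a) := by
  unfold cenQ
  refine PTO.iter_inv (step := fun a => cenStep (gq₁ a) (gq₂ a) (N a) (B a))
    (fun a => esize (y a) + (N a * (esize (2 * B a) + 7) + 1))
    (fun a s => esize s ≤ esize (y a) + (N a * (esize (2 * B a) + 7) + 1)) ?_ ?_ hy ?_ ?_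
    (fun a => Nat.le_add_right _ _) (fun a s _ => ?_) fun a s h => h
  · have h : PT fun a => 2 * (N a * N a) * (B a).size + 1 := by fun_prop
    exact h.of_eq fun a => by rw [sq]
  · fun_prop
  · unfold cenStep
    refine PTO.bind (pto_capsQ (gq := fun p : α × List ℤ => gq₁ p.1)
      (hq₁.comp (g := fun z : (α × List ℤ) × List Bool => (z.1.1, z.2)) (by fun_prop))
      (by fun_prop) (hN'.comp PT.fst') (by fun_prop) (by fun_prop)) ?_
    refine PTO.map (pto_capsQ (gq := fun p : (α × List ℤ) × List (List ℤ) => gq₂ p.1.1)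
      (hq₂.comp (g := fun z : ((α × List ℤ) × List (List ℤ)) × List Bool => (z.1.1.1, z.2))
        (by fun_prop))
      (by fun_prop) (hN'.comp (by fun_prop)) (by fun_prop) (by fun_prop)) ?_
    exact PCen_pt_cpush (by fun_prop) (hN'.comp (by fun_prop)) (by fun_prop) (by fun_prop)
      (by fun_prop) (by fun_prop)
  · have h : PB fun a => esize (2 * B a) := PB.esize (by fun_prop)
    have h' := PB.esize hy
    fun_prop
  · unfold cenStep
    rw [all_bind]
    refine all_of_forall _ fun c₁ => ?_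
    rw [all_map]
    refine all_of_forall _ fun c₂ => le_add_left (esize_le_of_abs_le (by simp [cpush]) ?_)
    intro z hz
    unfold cpush at hz
    obtain ⟨j, -, rfl⟩ := List.mem_map.1 hz
    exact abs_clip_le _ _

end Crest.Agent.R302B
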