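import Crest.Agent.R302B.PMin

/-!
# Row 302 (binary layer), PREP: greedy orders
`l k = (gstep n σ)^[k] []` has length `k`, no duplicates and entries `< n` for `k ≤ n` (the list of unvisited points is not empty), and `l k` is a suffix of `l n`.
So `gord n σ` is a permutation `π` of `range n` (`Equiv.ofBijective`, `Finite.injective_iff_bijective`), and for `t < b < n`:
`ent σ (π t) (π b) ≤ ent σ (π t) (π (t+1))` (`π b` is unvisited after `t + 1` steps; `List.le_of_mem_argmax`).
`Ord.int`: induction on `t ≥ a`: `E s (π t) (π b)` gives `s < σ (π t) (π b) ≤ W t`, hence `E s (π t) (π (t+1))` and `E s (π (t+1)) (π b)`.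
`PT`: `PT.iterate` / `iterate_grow` (the new head is `0` or `< n`).
-/

set_option autoImplicit false

noncomputable section

namespace Crest.Agent.R302B

open Finset Crest.Agent.R302 Crest.Agent.R302.QT Crest.Agent.Lib.PolyTime

variable {n : ℕ}

theorem ent_symMin (c : List (List ℤ)) (p q : Fin n) :
    ent (symMin n c) p q = min (ent c p q) (ent c q p) := by
  have h : ∀ {β : Type} (g : ℕ → β) (d : β) (i : Fin n), ((List.range n).map g).getD i d = g i := by
    intro β g d i
    simp [List.getD_eq_getElem?_getD]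
  rw [ent, symMin, h, h]

/-- the point chosen at step `k` -/
def gx (n : ℕ) (σ : List (List ℤ)) (k : ℕ) : ℕ := ((gstep n σ)^[k + 1] []).headD 0

theorem gl_succ (n : ℕ) (σ : List (List ℤ)) (k : ℕ) :
    (gstep n σ)^[k + 1] [] = gx n σ k :: (gstep n σ)^[k] [] := by
  rw [gx, Function.iterate_succ_apply']
  rfl

theorem gl_eq (n : ℕ) (σ : List (List ℤ)) (k : ℕ) :
    (gstep n σ)^[k] [] = ((List.range k).map (gx n σ)).reverse := by
  induction k with
  | zero => rfl
  | succ k ih => rw [gl_succ, ih, List.range_succ]; simp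

theorem mem_gl {n : ℕ} {σ : List (List ℤ)} {k j : ℕ} :
    j ∈ (gstep n σ)^[k] [] ↔ ∃ i < k, gx n σ i = j := by
  simp [gl_eq]

theorem gx_spec {n : ℕ} (σ : List (List ℤ)) {k : ℕ} (hk : k < n) :
    gx n σ k < n ∧ gx n σ k ∉ (gstep n σ)^[k] [] ∧ ∀ j < n, j ∉ (gstep n σ)^[k] [] →
      ent σ (((gstep n σ)^[k] []).headD 0) j ≤ ent σ (((gstep n σ)^[k] []).headD 0) (gx n σ k) := by
  have hl : ((gstep n σ)^[k] []).length = k := by simp [gl_eq]
  rw [gx, Function.iterate_succ_apply']
  generalize (gstep n σ)^[k] [] = l at hl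
  obtain ⟨j, hj, hj'⟩ := Finset.exists_mem_notMem_of_card_lt_card (s := l.toFinset) (t := range n)
    ((List.toFinset_card_le l).trans_lt (by simpa [hl] using hk))
  have hne : ((List.range n).filter fun j => decide (j ∉ l)) ≠ [] :=
    List.ne_nil_of_mem (a := j) (by simpa using ⟨mem_range.1 hj, by simpa using hj'⟩)
  obtain ⟨m, hm⟩ := Option.ne_none_iff_exists'.1 fun h =>
    hne ((List.argmax_eq_none (f := ent σ (l.headD 0))).1 h)
  have h1 := List.argmax_mem (Option.mem_def.2 hm)
  simp only [List.mem_filter, List.mem_range, decide_eq_true_eq] at h1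
  simp only [gstep, hm, Option.getD_some, List.headD_cons]
  exact ⟨h1.1, h1.2, fun i hi hi' => List.le_of_mem_argmax (by simpa using ⟨hi, hi'⟩) (Option.mem_def.2 hm)⟩

theorem gx_ne {n : ℕ} (σ : List (List ℤ)) {i k : ℕ} (hi : i < k) (hk : k < n) : gx n σ i ≠ gx n σ k :=
  fun h => (gx_spec σ hk).2.1 (mem_gl.2 ⟨i, hi, h⟩)

theorem gord_spec (n : ℕ) (σ : List (List ℤ)) :
    ∃ π : Fin n ≃ Fin n, (gord n σ).length = n ∧ (∀ i : Fin n, (gord n σ).getD i 0 = π i) ∧
      ∀ t t' b : Fin n, (t' : ℕ) = t + 1 → t < b → ent σ (π t) (π b) ≤ ent σ (π t) (π t') := by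
  have hinj : Function.Injective fun i : Fin n => (⟨gx n σ i, (gx_spec σ i.2).1⟩ : Fin n) := by
    intro i k h
    have h' : gx n σ i = gx n σ k := congrArg Fin.val h
    rcases lt_trichotomy (i : ℕ) k with h1 | h1 | h1
    · exact absurd h' (gx_ne σ h1 k.2)
    · exact Fin.ext h1
    · exact absurd h'.symm (gx_ne σ h1 i.2)
  refine ⟨Equiv.ofBijective _ (Finite.injective_iff_bijective.1 hinj), by simp [gord, gl_eq], fun i => ?_,
    fun t t' b h1 h2 => ?_⟩
  · simp [gord, gl_eq, List.getD_eq_getElem?_getD]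
  · simp only [Equiv.ofBijective_apply]
    have h3 := (gx_spec σ t'.2).2.2 (gx n σ b) (gx_spec σ b.2).1 fun h => by
      obtain ⟨i, hi, h⟩ := mem_gl.1 h
      exact gx_ne σ (show i < b by have : (t : ℕ) < b := h2; omega) b.2 h
    rw [h1, gl_succ, List.headD_cons] at h3
    rw [h1]
    exact h3

theorem ordOut_spec {E : ℤ → Fin n → Fin n → Prop} {M : ℤ} {c : List (List ℤ)} (hM : 0 ≤ M)
    (hsymm : ∀ s p q, E s p q → E s q p) (htrans : ∀ s p q r, E s p q → E s q r → E s p r)
    (h0 : ∀ p q : Fin n, 0 ≤ ent c p q ∧ ent c p q ≤ M)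
    (hE : ∀ p q : Fin n, p ≠ q → ∀ s, s < min (ent c p q) (ent c q p) ↔ E s p q) :
    ∃ π W, Ord E π W ∧ (∀ t, W t ≤ M) ∧ Lists π W (ordOut n c) := by
  obtain ⟨π, h1, h2, h3⟩ := gord_spec n (symMin n c)
  have hW : ∀ a b : Fin n, (b : ℕ) = a + 1 →
      (ordOut n c).2.getD a 0 = ent (symMin n c) (π a) (π b) := by
    intro a b hb
    have : (a : ℕ) < n - 1 := by have := b.2; omega
    rw [← h2, ← h2, hb]
    simp [ordOut, List.getD_eq_getElem?_getD, this]
  have hW' : ∀ t, 0 ≤ (ordOut n c).2.getD t 0 ∧ (ordOut n c).2.getD t 0 ≤ M := by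
    intro t
    by_cases ht : t + 1 < n
    · have := hW ⟨t, by omega⟩ ⟨t + 1, ht⟩ rfl
      rw [ent_symMin] at this
      simp only at this
      rw [this]
      exact ⟨le_min (h0 _ _).1 (h0 _ _).1, (min_le_left _ _).trans (h0 _ _).2⟩
    · rw [List.getD_eq_default _ _ (by simp [ordOut]; omega)]
      exact ⟨le_rfl, hM⟩
  have hcon : ∀ a b : Fin n, (b : ℕ) = a + 1 → ∀ s, s < (ordOut n c).2.getD a 0 → E s (π a) (π b) := by
    intro a b hb s hs
    rw [hW a b hb, ent_symMin] at hs
    exact (hE _ _ (π.injective.ne fun h => by rw [h] at hb; omega) s).1 hs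
  have hlt : ∀ t b : Fin n, t < b → ∀ s, E s (π t) (π b) → s < (ordOut n c).2.getD t 0 := by
    intro t b htb s hs
    have h4 : (t : ℕ) + 1 < n := by have := b.2; have : (t : ℕ) < b := htb; omega
    rw [hW t ⟨t + 1, h4⟩ rfl]
    refine lt_of_lt_of_le ?_ (h3 t ⟨t + 1, h4⟩ b rfl htb)
    rw [ent_symMin]
    exact (hE _ _ (π.injective.ne htb.ne) s).2 hs
  refine ⟨π, fun t => (ordOut n c).2.getD t 0, ⟨fun t => (hW' t).1, hcon, fun a b t hat htb s hs => ?_⟩,
    fun t => (hW' t).2, ⟨h1, by simp [ordOut], h2, fun _ => rfl⟩⟩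
  have key : ∀ k, ∀ u : Fin n, (u : ℕ) = a + k → u < b → E s (π u) (π b) := by
    intro k
    induction k with
    | zero =>
      intro u hu _
      rwa [show u = a from Fin.ext hu]
    | succ k ih =>
      intro u hu hub
      have hub' : (u : ℕ) < b := hub
      have h4 : (a : ℕ) + k < n := by have := u.2; omega
      have h5 : (⟨a + k, h4⟩ : Fin n) < b := show (a : ℕ) + k < b by omega
      have h6 := ih ⟨a + k, h4⟩ rfl h5
      exact htrans _ _ _ _ (hsymm _ _ _ (hcon ⟨a + k, h4⟩ u hu s (hlt _ b h5 s h6))) h6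
  have h4 : t < n := htb.trans b.2
  exact hlt ⟨t, h4⟩ b htb s (key (t - a) ⟨t, h4⟩ (by simp only; omega) htb)

theorem pt_ent' {α : Type} [Enc α] {c : α → List (List ℤ)} {p q : α → ℕ} (hc : PT c) (hp : PT p) (hq : PT q) :
    PT fun a => ent (c a) (p a) (q a) := by
  unfold ent
  fun_prop

theorem pt_symMin {α : Type} [Enc α] {N : α → ℕ} {c : α → List (List ℤ)} (hN : PT N) (hN' : PB N)
    (hc : PT c) : PT fun a => symMin (N a) (c a) := by
  unfold symMin
  refine PT.map (PT.range hN hN') (PT.map (f := fun (p : α × ℕ) q => min (ent (c p.1) p.2 q) (ent (c p.1) q p.2))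
    (PT.range (hN.comp PT.fst') (hN'.comp PT.fst')) (PT.int_min ?_ ?_))
  · exact pt_ent' (by fun_prop) (by fun_prop) (by fun_prop)
  · exact pt_ent' (by fun_prop) (by fun_prop) (by fun_prop)

theorem pt_gord {α : Type} [Enc α] {N : α → ℕ} {σ : α → List (List ℤ)} (hN : PT N) (hN' : PB N)
    (hσ : PT σ) : PT fun a => gord (N a) (σ a) := by
  unfold gord
  refine PT.reverse (PT.iterate_grow (f := fun a => gstep (N a) (σ a)) (x := fun _ => [])
    (fun a => esize (N a) + 1) hN hN' (by fun_prop) ?_ (by fun_prop) fun a l => ?_)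
  · unfold gstep
    refine PT.cons (PT.option_getD (PT.argmax_int
      (f := fun (p : α × List ℕ) j => ent (σ p.1) (p.2.headD 0) j)
      (pt_ent' (by fun_prop) (by fun_prop) (by fun_prop))
      (PT.filter (f := fun (p : α × List ℕ) j => decide (j ∉ p.2))
        (PT.range (hN.comp PT.fst') (hN'.comp PT.fst')) (by fun_prop))) (by fun_prop)) (by fun_prop)
  · have h : (((List.range (N a)).filter fun j => decide (j ∉ l)).argmax (ent (σ a) (l.headD 0))).getD 0 ≤
        N a := by
      rcases h : ((List.range (N a)).filter fun j => decide (j ∉ l)).argmax (ent (σ a) (l.headD 0)) with _ | m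
      · simp
      · have h1 := List.argmax_mem (Option.mem_def.2 h)
        simp only [List.mem_filter, List.mem_range] at h1
        exact h1.1.le
    have := esize_nat_mono h
    rw [gstep, esize_cons]
    omega

theorem pt_ordOut {α : Type} [Enc α] {N : α → ℕ} {c : α → List (List ℤ)} (hN : PT N) (hN' : PB N)
    (hc : PT c) : PT fun a => ordOut (N a) (c a) := by
  have h1 := pt_symMin hN hN' hc
  have h2 := pt_gord hN hN' h1
  unfold ordOut
  refine PT.prodMk h2 (PT.map (f := fun a t => ent (symMin (N a) (c a))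
    ((gord (N a) (symMin (N a) (c a))).getD t 0) ((gord (N a) (symMin (N a) (c a))).getD (t + 1) 0))
    (PT.range (by fun_prop) (by fun_prop)) ?_)
  generalize hs : (fun a => symMin (N a) (c a)) = S at h1
  generalize hg : (fun a => gord (N a) (symMin (N a) (c a))) = G at h2
  have e : ∀ a, symMin (N a) (c a) = S a := congrFun hs
  have e' : ∀ a, gord (N a) (symMin (N a) (c a)) = G a := congrFun hg
  simp only [e']
  simp only [e]
  exact pt_ent' (by fun_prop) (by fun_prop) (by fun_prop)

end Crest.Agent.R302B
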