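import Crest.Agent.R302B.PMath

/-!
# Row 302 (binary layer), PREP: consequences for laminar orders
-/

set_option autoImplicit false
set_option linter.unusedSectionVars false

noncomputable section

namespace Crest.Agent.R302B

open Finset Crest.Agent.R302

variable {n : ℕ} {f f₁ f₂ : Finset (Fin n) → ℤ} {x a b v : Fin n → ℤ} {s M T : ℤ}
  {π π₁ π₂ ρ : Fin n ≃ Fin n} {W W₁ W₂ μ : ℕ → ℤ}

theorem mem_pre {t : ℕ} {j : Fin n} : j ∈ pre π t ↔ (π.symm j : ℕ) ≤ t := by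
  simp only [pre, mem_filter, mem_univ, true_and]

theorem apply_mem_pre {t : ℕ} {i : Fin n} : π i ∈ pre π t ↔ (i : ℕ) ≤ t := by
  rw [mem_pre, Equiv.symm_apply_apply]

theorem sum_pre (π : Fin n ≃ Fin n) (v : Fin n → ℤ) (t : ℕ) :
    ∑ j ∈ pre π t, v j = ∑ i ∈ univ.filter (fun i : Fin n => (i : ℕ) ≤ t), v (π i) := by
  refine (Finset.sum_equiv π (fun i => ?_) fun _ _ => rfl).symm
  simp only [mem_filter, mem_univ, true_and, apply_mem_pre]

theorem POrd_rot (k : Fin n) :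
    (finRotate n k : ℕ) = k + 1 ∨ ((k : ℕ) + 1 = n ∧ (finRotate n k : ℕ) = 0) := by
  cases n with
  | zero => exact k.elim0
  | succ m =>
    rw [coe_finRotate]
    split_ifs with h
    · right
      rw [h, Fin.val_last]
      exact ⟨rfl, rfl⟩
    · exact Or.inl rfl

theorem POrd_pre_univ (π : Fin n ≃ Fin n) {t : ℕ} (h : n ≤ t + 1) : pre π t = univ := by
  ext j
  have := (π.symm j).2
  simp only [mem_pre, mem_univ, iff_true]
  omega

/-- a vector of sum zero in terms of its prefix sums (`finRotate n i = i + 1`; the last prefix sum vanishes) -/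
theorem eq_sum_pre (π : Fin n ≃ Fin n) (hv : ∑ j, v j = 0) :
    v = ∑ i : Fin n, (∑ j ∈ pre π i, v j) • rt (π i) (π (finRotate n i)) := by
  funext j
  obtain ⟨k', rfl⟩ := π.surjective j
  obtain ⟨k, rfl⟩ := (finRotate n).surjective k'
  have h1 : ∀ i : Fin n, ((∑ j ∈ pre π i, v j) • rt (π i) (π (finRotate n i))) (π (finRotate n k))
      = (if i = finRotate n k then ∑ j ∈ pre π i, v j else 0)
        - (if i = k then ∑ j ∈ pre π i, v j else 0) := by
    intro i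
    simp only [rt, Pi.smul_apply, Pi.sub_apply, Pi.single_apply, EmbeddingLike.apply_eq_iff_eq,
      smul_eq_mul, mul_sub, mul_ite, mul_one, mul_zero, eq_comm]
  rw [Finset.sum_apply, Finset.sum_congr rfl fun i _ => h1 i, sum_sub_distrib, sum_ite_eq',
    sum_ite_eq', if_pos (mem_univ _), if_pos (mem_univ _)]
  rcases POrd_rot k with h | ⟨h, h'⟩
  · have e : pre π (finRotate n k) = insert (π (finRotate n k)) (pre π k) := by
      ext j
      obtain ⟨i, rfl⟩ := π.surjective j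
      rw [mem_insert, apply_mem_pre, apply_mem_pre, EmbeddingLike.apply_eq_iff_eq, Fin.ext_iff]
      omega
    rw [e, sum_insert (by rw [apply_mem_pre]; omega), add_sub_cancel_right]
  · have e : pre π (finRotate n k) = {π (finRotate n k)} := by
      ext j
      obtain ⟨i, rfl⟩ := π.surjective j
      rw [mem_singleton, apply_mem_pre, EmbeddingLike.apply_eq_iff_eq, Fin.ext_iff]
      omega
    rw [e, sum_singleton, POrd_pre_univ π h.ge, hv, sub_zero]

/-- Abel summation: a set that only separates consecutive points with small prefix sums -/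
theorem abs_sum_le_of_pre (π : Fin n ≃ Fin n) (hv : ∑ j, v j = 0) (hT : 0 ≤ T) {Y : Finset (Fin n)}
    (h : ∀ i i' : Fin n, (i' : ℕ) = i + 1 → ¬ (π i ∈ Y ↔ π i' ∈ Y) → |∑ j ∈ pre π i, v j| ≤ T) :
    |∑ j ∈ Y, v j| ≤ n * T := by
  have h1 : ∑ j ∈ Y, v j = ∑ i : Fin n, (∑ j ∈ pre π i, v j) *
      ((if π i ∈ Y then 1 else 0) - (if π (finRotate n i) ∈ Y then 1 else 0)) := by
    conv_lhs => rw [eq_sum_pre π hv]
    simp only [Finset.sum_apply, Pi.smul_apply, smul_eq_mul]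
    rw [sum_comm]
    exact sum_congr rfl fun i _ => by rw [← mul_sum, sum_rt]
  rw [h1]
  refine (abs_sum_le_sum_abs _ _).trans ((sum_le_card_nsmul _ _ T fun i _ => ?_).trans ?_)
  · rcases POrd_rot i with h2 | ⟨h2, -⟩
    · have h3 := h i _ h2
      by_cases h4 : π i ∈ Y <;> by_cases h5 : π (finRotate n i) ∈ Y
      · rw [if_pos h4, if_pos h5, sub_self, mul_zero, abs_zero]
        exact hT
      · rw [if_pos h4, if_neg h5, sub_zero, mul_one]
        exact h3 fun h6 => h5 (h6.1 h4)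
      · rw [if_neg h4, if_pos h5, zero_sub, mul_neg, mul_one, abs_neg]
        exact h3 fun h6 => h4 (h6.2 h5)
      · rw [if_neg h4, if_neg h5, sub_self, mul_zero, abs_zero]
        exact hT
    · rw [POrd_pre_univ π h2.ge, hv, zero_mul, abs_zero]
      exact hT
  · rw [card_univ, Fintype.card_fin, nsmul_eq_mul]

/-- prefix sets are unions of classes of scale `W t` -/
theorem Ord.pre_closed {E : ℤ → Fin n → Fin n → Prop} (h : Ord E π W)
    (hsymm : ∀ s p q, E s p q → E s q p) {t : ℕ} (hs : W t ≤ s) {p q : Fin n} (hE : E s p q) :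
    p ∈ pre π t ↔ q ∈ pre π t := by
  obtain ⟨a, rfl⟩ := π.surjective p
  obtain ⟨b, rfl⟩ := π.surjective q
  rw [apply_mem_pre, apply_mem_pre]
  constructor
  · intro ha
    by_contra hb
    exact absurd (h.int a b t ha (by omega) s hE) (not_lt.2 hs)
  · intro hb
    by_contra ha
    exact absurd (h.int b a t hb (by omega) s (hsymm _ _ _ hE)) (not_lt.2 hs)

theorem POrd_cone {p q : Fin n} (h : Eqv f x s p q) (c : ℤ) : Cone f x s |c| (c • rt p q) := by
  rcases le_total 0 c with hc | hc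
  · have := h.1.cone.smul hc
    rw [mul_one] at this
    rwa [abs_of_nonneg hc]
  · have := h.2.cone.smul (neg_nonneg.2 hc)
    rwa [mul_one, ← neg_rt, smul_neg, neg_smul, neg_neg, ← abs_of_nonpos hc] at this

theorem POrd_lab {p q : Fin n} (h : Scc f₁ f₂ x s p q) (c : ℤ) :
    ∃ g, Cone f₁ x s (|c| * (n - 1)) g ∧ Cone f₂ x s (|c| * (n - 1)) (g - c • rt p q) := by
  rcases le_total 0 c with hc | hc
  · obtain ⟨g, h1, h2⟩ := h.1.exists_lab
    rw [Fintype.card_fin] at h1 h2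
    rw [abs_of_nonneg hc]
    exact ⟨c • g, h1.smul hc, by rw [← smul_sub]; exact h2.smul hc⟩
  · obtain ⟨g, h1, h2⟩ := h.2.exists_lab
    rw [Fintype.card_fin] at h1 h2
    rw [abs_of_nonpos hc]
    refine ⟨(-c) • g, h1.smul (neg_nonneg.2 hc), ?_⟩
    have h3 := h2.smul (neg_nonneg.2 hc)
    rwa [smul_sub, ← neg_rt, smul_neg, neg_smul c (rt p q), neg_neg] at h3

/-- moves with small own-order prefix sums stay in the base polytope -/
theorem Ord.isB_add (h : Ord (Eqv f x) π W) (hx : IsB f x) (hv : ∑ j, v j = 0)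
    (hW : ∀ t, t + 1 < n → n * |∑ j ∈ pre π t, v j| ≤ W t) : IsB f (x + v) := by
  rw [eq_sum_pre π hv]
  refine isB_add_sum hx univ (σ := fun i : Fin n => W i - 1)
    (l := fun i : Fin n => |∑ j ∈ pre π i, v j|) (m := n) (by simp) (fun i _ => ?_) fun i _ => ?_
  · rcases POrd_rot i with h2 | ⟨h2, -⟩
    · exact POrd_cone (h.con i _ h2 _ (by omega)) _
    · rw [POrd_pre_univ π h2.ge, hv, zero_smul, abs_zero]
      exact Cone.zero _ _ _
  · rw [sub_add_cancel]
    rcases POrd_rot i with h2 | ⟨h2, -⟩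
    · exact hW i (h2 ▸ (finRotate n i).2)
    · rw [POrd_pre_univ π h2.ge, hv, abs_zero, mul_zero]
      exact h.nonneg _

/-- differences with small `ρ`-prefix sums are realised -/
theorem Ord.exists_pair (h : Ord (Scc f₁ f₂ x) ρ μ) (hx₁ : IsB f₁ x) (hx₂ : IsB f₂ x) (hv : ∑ j, v j = 0)
    (hμ : ∀ u, u + 1 < n → (n : ℤ) ^ 2 * |∑ j ∈ pre ρ u, v j| ≤ μ u) :
    ∃ a b, IsB f₁ a ∧ IsB f₂ b ∧ a - b = v := by
  have h1 : ∀ i : Fin n, ∃ g, Cone f₁ x (μ i - 1) (|∑ j ∈ pre ρ i, v j| * (n - 1)) g ∧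
      Cone f₂ x (μ i - 1) (|∑ j ∈ pre ρ i, v j| * (n - 1))
        (g - (∑ j ∈ pre ρ i, v j) • rt (ρ i) (ρ (finRotate n i))) := by
    intro i
    rcases POrd_rot i with h2 | ⟨h2, -⟩
    · exact POrd_lab (h.con i _ h2 _ (by omega)) _
    · rw [POrd_pre_univ ρ h2.ge, hv, zero_smul, abs_zero, zero_mul]
      exact ⟨0, Cone.zero _ _ _, by rw [sub_zero]; exact Cone.zero _ _ _⟩
  choose g hg₁ hg₂ using h1
  have h2 : ∀ i : Fin n, (n : ℤ) * (|∑ j ∈ pre ρ i, v j| * (n - 1)) ≤ μ i - 1 + 1 := by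
    intro i
    rw [sub_add_cancel]
    rcases POrd_rot i with h2 | ⟨h2, -⟩
    · refine le_trans ?_ (hμ i (h2 ▸ (finRotate n i).2))
      have h3 : 0 ≤ (n : ℤ) * |∑ j ∈ pre ρ i, v j| := by positivity
      linarith
    · rw [POrd_pre_univ ρ h2.ge, hv, abs_zero, zero_mul, mul_zero]
      exact h.nonneg _
  refine ⟨_, _, isB_add_sum hx₁ univ (m := n) (by simp) (fun i _ => hg₁ i) fun i _ => h2 i,
    isB_add_sum hx₂ univ (m := n) (by simp) (fun i _ => hg₂ i) fun i _ => h2 i, ?_⟩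
  rw [sum_sub_distrib, ← eq_sum_pre ρ hv]
  abel

theorem Prep.swap (h : Prep f₁ f₂ M x π₁ π₂ ρ W₁ W₂ μ) : Prep f₂ f₁ M x π₂ π₁ ρ W₂ W₁ μ := by
  exact ⟨h.cen.swap, h.o₂, h.o₁, by rw [scc_swap]; exact h.o, h.le₂, h.le₁, h.le⟩

/-- a `ρ`-prefix separating own-order neighbours has at least their scale -/
theorem Prep.compat (h : Prep f₁ f₂ M x π₁ π₂ ρ W₁ W₂ μ) {i i' : Fin n} (hi : (i' : ℕ) = i + 1) {u : ℕ}
    (hu : ¬ (π₁ i ∈ pre ρ u ↔ π₁ i' ∈ pre ρ u)) : W₁ i ≤ μ u := by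
  by_contra h1
  exact hu (h.o.pre_closed (fun _ _ _ => Scc.symm) le_rfl
    ((h.o₁.con i i' hi _ (not_le.1 h1)).scc₁ f₂))

/-- range of the own-order prefix sums (use `Prep.swap` for the second side) -/
theorem Prep.range (h₁ : Sub f₁) (h₂ : Sub f₂) (h : Prep f₁ f₂ M x π₁ π₂ ρ W₁ W₂ μ)
    (ha : IsB f₁ a) (hb : IsB f₂ b) (t : ℕ) (hT : 0 ≤ T)
    (hd : ∀ u, u + 1 < n → μ u ≤ cK n * (W₁ t + 1) → |∑ j ∈ pre ρ u, (a j - b j)| ≤ T) :
    |∑ j ∈ pre π₁ t, (a j - x j)| ≤ n * (2 * (n : ℤ) ^ 2 * (cK n * (W₁ t + 1)) + n * T) := by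
  have h0 : ∑ j, (a j - b j) = 0 := by
    rw [sum_sub_distrib, ha.2, hb.2, ← h.cen.b₁.2, ← h.cen.b₂.2, sub_self]
  have h1 := h.cen.range h₁ h₂ (h.o₁.nonneg t) ha hb (T := n * T) (A := pre π₁ t)
    (fun Y hY => abs_sum_le_of_pre ρ h0 hT fun i i' hi hne => hd i (hi ▸ i'.2) ?_)
    fun p q hE hp => (h.o₁.pre_closed (fun _ _ _ => Eqv.symm) le_rfl hE).1 hp
  · rwa [Fintype.card_fin] at h1
  · rw [Fintype.card_fin] at hY
    by_contra h2
    have h3 := h.o.con i i' hi _ (not_le.1 h2)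
    exact hne ⟨hY _ _ h3, hY _ _ h3.symm⟩

end Crest.Agent.R302B
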