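import Crest.Agent.R302B.PFirst
import Crest.Agent.R302B.PCen
import Crest.Agent.R302B.PGord
import Crest.Agent.R302B.POrd

/-!
# Row 302 (binary layer), PREP: the preparation
-/

set_option autoImplicit false

noncomputable section

namespace Crest.Agent.R302B

open Finset Crest.Agent.R302 Crest.Agent.R302.QT Crest.Agent.Lib.PolyTime

theorem Reach.lt {n M : ℕ} {f₁ f₂ : Finset (Fin n) → ℤ} {x : Fin n → ℤ} (hM₁ : Bd f₁ M) (hM₂ : Bd f₂ M)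
    (h₁ : IsB f₁ x) (h₂ : IsB f₂ x) {s : ℤ} {p q : Fin n} (h : Reach f₁ f₂ x s p q) (hpq : p ≠ q) :
    s < M := by
  induction h with
  | refl => exact absurd rfl hpq
  | @tail u v _ huv ih =>
    by_cases e : p = u
    · subst e
      rcases huv with h | h
      · exact h.lt hM₁ h₁ hpq
      · exact h.lt hM₂ h₂ hpq.symm
    · exact ih e

theorem ordOut_caps {n M : ℕ} {f : Finset (Fin n) → ℤ} {x : Fin n → ℤ} (hM : Bd f M) (hx : IsB f x)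
    {c : List (List ℤ)} (hc : IsCaps f x M c) :
    ∃ π W, Ord (Eqv f x) π W ∧ (∀ t, W t ≤ M) ∧ Lists π W (ordOut n c) := by
  refine ordOut_spec (Int.natCast_nonneg M) (fun _ _ _ h => h.symm) (fun _ _ _ _ h h' => h.trans h')
    (fun p q => ?_) fun p q hpq s => ?_
  · rw [hc]
    exact ⟨cap_nonneg hx (Int.natCast_nonneg M) p q, cap_le _ _ _ _ _⟩
  · rw [hc, hc, lt_min_iff, lt_cap_iff, lt_cap_iff]
    exact ⟨fun h => ⟨h.1.2, h.2.2⟩, fun h => ⟨⟨h.1.lt hM hx hpq, h.1⟩, h.1.lt hM hx hpq, h.2⟩⟩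

theorem ordOut_kap {n M : ℕ} {f₁ f₂ : Finset (Fin n) → ℤ} {x : Fin n → ℤ} (hM₁ : Bd f₁ M) (hM₂ : Bd f₂ M)
    (h₁ : IsB f₁ x) (h₂ : IsB f₂ x) {c₁ c₂ : List (List ℤ)} (hc₁ : IsCaps f₁ x M c₁)
    (hc₂ : IsCaps f₂ x M c₂) :
    ∃ π W, Ord (Scc f₁ f₂ x) π W ∧ (∀ t, W t ≤ M) ∧ Lists π W (ordOut n (kapM n M c₁ c₂)) := by
  refine ordOut_spec (Int.natCast_nonneg M) (fun _ _ _ h => h.symm) (fun _ _ _ _ h h' => h.trans h')
    (fun p q => ?_) fun p q hpq s => ?_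
  · rw [ent_kapM]
    exact ⟨(bf_spec hc₁ hc₂ p q).1, (bf_spec hc₁ hc₂ p q).2.1⟩
  · rw [ent_kapM, ent_kapM, lt_min_iff]
    obtain ⟨a1, -, a3, a4⟩ := bf_spec hc₁ hc₂ p q
    obtain ⟨b1, -, b3, b4⟩ := bf_spec hc₁ hc₂ q p
    rcases lt_or_ge s 0 with hs | hs
    · exact iff_of_true ⟨hs.trans_le a1, hs.trans_le b1⟩
        ⟨(arc_of_neg h₁ hs p q).reach₁ f₂, (arc_of_neg h₁ hs q p).reach₁ f₂⟩
    · refine ⟨fun h => ⟨(a3 s hs h.1).1, (b3 s hs h.2).1⟩, fun h => ?_⟩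
      have := Reach.lt hM₁ hM₂ h₁ h₂ h.1 hpq
      exact ⟨a4 s hs this h.1, b4 s hs this h.2⟩

theorem prepQ_spec {O : Orc} {n M : ℕ} {f₁ f₂ : Finset (Fin n) → ℤ} {fq₁ fq₂ : List Bool → QT ℤ}
    (h₁ : Ev O n M f₁ fq₁) (h₂ : Ev O n M f₂ fq₂) : AllO O (PSpec f₁ f₂ M) (prepQ fq₁ fq₂ n M) := by
  unfold prepQ
  refine (firstQ_spec h₁ h₂).bind fun x hx => ?_
  obtain ⟨b₁, d₁, e₁⟩ := memQ_spec h₁ x
  obtain ⟨b₂, d₂, e₂⟩ := memQ_spec h₂ x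
  rw [d₁.allO_bind, d₂.allO_bind]
  split_ifs with hb
  · refine (cenQ_spec h₁ h₂ hx.1 (e₁.1 hb.1) (e₂.1 hb.2)).bind fun y hy => ?_
    refine (capsQ_spec h₁ y).bind fun c₁ hc₁ => ?_
    rw [allO_map]
    refine (capsQ_spec h₂ y).mono fun c₂ hc₂ => ?_
    obtain ⟨π₁, W₁, o₁, l₁, L₁⟩ := ordOut_caps h₁.bd hy.2.b₁ hc₁
    obtain ⟨π₂, W₂, o₂, l₂, L₂⟩ := ordOut_caps h₂.bd hy.2.b₂ hc₂
    obtain ⟨ρ, μ, o, l, L⟩ := ordOut_kap h₁.bd h₂.bd hy.2.b₁ hy.2.b₂ hc₁ hc₂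
    exact ⟨hy.1, π₁, π₂, ρ, W₁, W₂, μ, ⟨hy.2, o₁, o₂, o, l₁, l₂, l⟩, L₁, L₂, L⟩
  · exact fun h => hb ⟨e₁.2 (hx.2 h).1, e₂.2 (hx.2 h).2⟩

theorem pto_prepQ {α : Type} [Enc α] {gq₁ gq₂ : α → List Bool → QT ℤ} {N B : α → ℕ}
    (hq₁ : PTO fun p : α × List Bool => gq₁ p.1 p.2) (hq₂ : PTO fun p : α × List Bool => gq₂ p.1 p.2)
    (hN : PT N) (hN' : PB N) (hB : PT B) : PTO fun a => prepQ (gq₁ a) (gq₂ a) (N a) (B a) := by
  unfold prepQ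
  have c1 : ∀ {β : Type} [Enc β] (g : β → α), PT g →
      PTO fun p : β × List Bool => gq₁ (g p.1) p.2 := fun {β} _ g hg =>
    hq₁.comp (g := fun p : β × List Bool => (g p.1, p.2)) ((hg.comp PT.fst').prodMk PT.snd')
  have c2 : ∀ {β : Type} [Enc β] (g : β → α), PT g →
      PTO fun p : β × List Bool => gq₂ (g p.1) p.2 := fun {β} _ g hg =>
    hq₂.comp (g := fun p : β × List Bool => (g p.1, p.2)) ((hg.comp PT.fst').prodMk PT.snd')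
  refine (pto_firstQ hq₁ hq₂ hN hN' hB).bind ?_
  refine PTO.bind (pto_memQ (gq := fun p : α × List ℤ => gq₁ p.1) (c1 (fun p : α × List ℤ => p.1) (by fun_prop)) (by fun_prop)
    (by fun_prop) (by fun_prop) (by fun_prop)) ?_
  refine PTO.bind (pto_memQ (gq := fun p : (α × List ℤ) × Bool => gq₂ p.1.1) 
    (c2 (fun p : (α × List ℤ) × Bool => p.1.1) (by fun_prop))
    (by fun_prop) (by fun_prop) (by fun_prop) (by fun_prop)) ?_
  refine PTO.ite (by fun_prop) ?_ (PTO.ret (PT.const _))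
  refine PTO.bind (pto_cenQ (gq₁ := fun p : ((α × List ℤ) × Bool) × Bool => gq₁ p.1.1.1)
    (gq₂ := fun p => gq₂ p.1.1.1) (c1 (fun p : ((α × List ℤ) × Bool) × Bool => p.1.1.1) (by fun_prop))
    (c2 (fun p : ((α × List ℤ) × Bool) × Bool => p.1.1.1) (by fun_prop))
    (by fun_prop) (by fun_prop) (by fun_prop) (by fun_prop)) ?_
  refine PTO.bind (pto_capsQ (gq := fun p : (((α × List ℤ) × Bool) × Bool) × List ℤ => gq₁ p.1.1.1.1)
    (c1 (fun p : (((α × List ℤ) × Bool) × Bool) × List ℤ => p.1.1.1.1) (by fun_prop)) (by fun_prop) (by fun_prop) (by fun_prop) (by fun_prop)) ?_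
  refine PTO.map (pto_capsQ
    (gq := fun p : ((((α × List ℤ) × Bool) × Bool) × List ℤ) × List (List ℤ) => gq₂ p.1.1.1.1.1)
    (c2 (fun p : ((((α × List ℤ) × Bool) × Bool) × List ℤ) × List (List ℤ) => p.1.1.1.1.1) (by fun_prop)) (by fun_prop) (by fun_prop) (by fun_prop) (by fun_prop)) ?_
  refine PT.some (PT.prodMk (by fun_prop) (PT.prodMk (pt_ordOut (by fun_prop) (by fun_prop) (by fun_prop))
    (PT.prodMk (pt_ordOut (by fun_prop) (by fun_prop) (by fun_prop))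
      (pt_ordOut (by fun_prop) (by fun_prop)
        (pt_kapM (by fun_prop) (by fun_prop) (by fun_prop) (by fun_prop) (by fun_prop))))))

end Crest.Agent.R302B
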