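import Crest.Agent.R302B.Glue
import Crest.Agent.R302B.PMain
import Crest.Agent.R302.Target

/-!
# Row 302 (binary layer): reduction of the target to the core counting problem

`Core A`: for every frame whose function is the ORACLE (`O b s = g (bset N s)`) and whose data are given by lists, `A` estimates `ng g cp 0`.
`exists_good`: run `prepQ`, then replay `A` with the oracle replaced by `glq` (`sim`).
-/

set_option autoImplicit false

noncomputable section

namespace Crest.Agent.R302B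

open Finset Crest.Polymatroid Crest.Agent.R302 Crest.Agent.R302.QT Crest.Agent.Lib.PolyTime

/-- evaluation of the glued function -/
def glq (fq₁ fq₂ : List Bool → QT ℤ) (n : ℕ) (o : POut) (s : List Bool) : QT ℤ :=
  (slackQ fq₁ n o.1 ((List.range n).map fun j => s.getD (o.2.1.1.idxOf j) false)).bind fun a =>
    (slackQ fq₂ n o.1 ((List.range n).map fun j => !s.getD (n + o.2.2.1.1.idxOf j) false)).map fun b => a + b

/-- the list of own scales -/
def wList (o : POut) : List ℤ := o.2.1.2 ++ 0 :: o.2.2.1.2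

/-- the list of positions -/
def cpList (o : POut) : List ℕ := (o.2.1.1 ++ o.2.2.1.1).map fun j => o.2.2.2.1.idxOf j

/-- input of the core problem: pad, `(n, N, M, K)`, `(ε, δ)`, `(W, cp, μ)` -/
abbrev CIn : Type := List Unit × (ℕ × ℕ × ℕ × ℕ) × (ℚ × ℚ) × (List ℤ × List ℕ × List ℤ)

/-- the oracle of the core problem as an evaluation procedure -/
def gq (M : ℕ) (s : List Bool) : QT ℤ := (query false s M).map Int.ofNat

/-- the core problem -/
def Core (A : CIn → QT (ℕ × ℕ)) : Prop :=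
  ∀ (O : Orc) (S n N M K : ℕ) (ε δ : ℚ) (g : Finset (Fin N) → ℤ) (cp : Fin N → Fin n)
    (Wl : List ℤ) (cl : List ℕ) (μl : List ℤ),
    Ev O N M g (gq M) → Frame g (fun t => Wl.getD t 0) cp (fun u => μl.getD u 0) →
    Flat g cp (fun u => μl.getD u 0) K → Function.Surjective cp →
    (∀ j : Fin N, cl.getD j 0 = cp j) → cl.length = N →
    (∀ t, Wl.getD t 0 ≤ M) → (∀ u, μl.getD u 0 ≤ M) →
    0 < ε → ε < 1 → 0 < δ → 2 ≤ S → N ≤ S → M < 2 ^ S → K ≤ S → 1 ≤ ε * S → 1 ≤ δ * 2 ^ S →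
    AllO O (fun y => 0 < y.2) (A (List.replicate S (), (n, N, M, K), (ε, δ), (Wl, cl, μl))) ∧
      pr O (A (List.replicate S (), (n, N, M, K), (ε, δ), (Wl, cl, μl)))
        (fun y => ¬ ((1 - ε) * ng g cp 0 ≤ (y.1 : ℚ) / y.2 ∧ (y.1 : ℚ) / y.2 ≤ (1 + ε) * ng g cp 0)) ≤ δ

theorem Lists.idxOf {n : ℕ} {π : Fin n ≃ Fin n} {W : ℕ → ℤ} {o : List ℕ × List ℤ} (h : Lists π W o)
    (j : Fin n) : o.1.idxOf (j : ℕ) = π.symm j := by
  have e : o.1 = List.ofFn fun i => (π i : ℕ) := by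
    refine List.ext_getElem (by simp [h.len]) fun i h1 h2 => ?_
    have := h.ord ⟨i, h.len ▸ h1⟩
    rw [List.getD_eq_getElem _ _ h1] at this
    simpa using this
  have nd : o.1.Nodup := by
    rw [e]
    exact List.nodup_ofFn.2 fun a b hab => π.injective (Fin.ext hab)
  have hl : (π.symm j : ℕ) < o.1.length := by rw [h.len]; exact (π.symm j).2
  have := h.ord (π.symm j)
  rw [List.getD_eq_getElem _ _ hl, Equiv.apply_symm_apply] at this
  rw [← this]
  exact nd.idxOf_getElem _ hl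

theorem Lists.last {n : ℕ} {π : Fin n ≃ Fin n} {W : ℕ → ℤ} {o : List ℕ × List ℤ} (h : Lists π W o)
    (t : ℕ) (ht : n ≤ t + 1) : W t = 0 := by
  rw [← h.sc, List.getD_eq_default _ _ (by rw [h.len']; omega)]

theorem wList_getD {n : ℕ} {π₁ π₂ : Fin n ≃ Fin n} {W₁ W₂ : ℕ → ℤ} {o : POut} (h₁ : Lists π₁ W₁ o.2.1)
    (h₂ : Lists π₂ W₂ o.2.2.1) : (fun t => (wList o).getD t 0) = wgl n W₁ W₂ := by
  funext t
  unfold wList wgl
  have l1 := h₁.len'
  rcases lt_trichotomy t (n - 1) with h | h | h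
  · rw [List.getD_append _ _ _ _ (by omega), if_pos (by omega), h₁.sc]
  · rw [List.getD_append_right _ _ _ _ (by omega), l1, h, Nat.sub_self, List.getD_cons_zero]
    split_ifs with h'
    · exact (h₁.last _ (by omega)).symm
    · exact (h₂.last _ (by omega)).symm
  · rw [List.getD_append_right _ _ _ _ (by omega), l1, if_neg (by omega)]
    obtain ⟨k, hk⟩ : ∃ k, t - (n - 1) = k + 1 := ⟨t - (n - 1) - 1, by omega⟩
    rw [hk, List.getD_cons_succ, h₂.sc]
    rcases Nat.eq_zero_or_pos n with h0 | h0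
    · rw [h₂.last _ (by omega), h₂.last _ (by omega)]
    · congr 1
      omega

theorem cpList_getD {n : ℕ} {π₁ π₂ ρ : Fin n ≃ Fin n} {W₁ W₂ μ : ℕ → ℤ} {o : POut}
    (h₁ : Lists π₁ W₁ o.2.1) (h₂ : Lists π₂ W₂ o.2.2.1) (h : Lists ρ μ o.2.2.2) (j : Fin (n + n)) :
    (cpList o).getD j 0 = cpf π₁ π₂ ρ j := by
  have l1 := h₁.len
  have l2 := h₂.len
  have hl : (j : ℕ) < (o.2.1.1 ++ o.2.2.1.1).length := by rw [List.length_append, l1, l2]; exact j.2
  unfold cpList
  rw [List.getD_eq_getElem _ _ (by simpa using hl), List.getElem_map,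
    ← List.getD_eq_getElem _ 0 hl]
  refine Fin.addCases (fun i => ?_) (fun i => ?_) j
  · rw [Fin.val_castAdd, List.getD_append _ _ _ _ (by rw [l1]; exact i.2), h₁.ord, h.idxOf]
    simp [cpf]
  · rw [Fin.val_natAdd, List.getD_append_right _ _ _ _ (by omega), l1, Nat.add_sub_cancel_left, h₂.ord,
      h.idxOf, cpf, Fin.addCases_right]

theorem glq_spec {O : Orc} {n M : ℕ} {f₁ f₂ : Finset (Fin n) → ℤ} {fq₁ fq₂ : List Bool → QT ℤ}
    (e₁ : Ev O n M f₁ fq₁) (e₂ : Ev O n M f₂ fq₂) {π₁ π₂ : Fin n ≃ Fin n} {W₁ W₂ : ℕ → ℤ} {o : POut}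
    (h₁ : Lists π₁ W₁ o.2.1) (h₂ : Lists π₂ W₂ o.2.2.1) (s : List Bool) :
    Det O (glq fq₁ fq₂ n o s) (gl f₁ f₂ (vec n o.1) π₁ π₂ (bset (n + n) s)) := by
  unfold glq gl
  have a1 : bset n ((List.range n).map fun j => s.getD (o.2.1.1.idxOf j) false) =
      side (emb₁ π₁) (bset (n + n) s) := by
    rw [bset_map_range]
    ext j
    simp [side, bset, emb₁, h₁.idxOf]
  have a2 : bset n ((List.range n).map fun j => !s.getD (n + o.2.2.1.1.idxOf j) false) =
      (side (emb₂ π₂) (bset (n + n) s))ᶜ := by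
    rw [bset_map_range]
    ext j
    simp [side, bset, emb₂, h₂.idxOf, Nat.add_comm]
  rw [← a1, ← a2]
  exact (slackQ_spec e₁ _ (by simp)).bind ((slackQ_spec e₂ _ (by simp)).map _)

theorem ev_rank {n R : ℕ} {O : Bool → Finset (Fin n) → ℕ} {b : Bool} (h : IsPolymatroidRank (O b))
    (e : O b univ = R) :
    Ev (ol n O) n R (fun X => (O b X : ℤ)) fun s => (query b s R).map Int.ofNat := by
  have le : ∀ X, O b X ≤ R := fun X => e ▸ h.2.1 X univ (subset_univ X)
  refine ⟨⟨by simp [h.1], fun A B => by exact_mod_cast h.2.2 A B⟩, fun A => ?_, fun X => ?_, fun s _ => ?_⟩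
  · rw [abs_of_nonneg (Int.natCast_nonneg _)]
    exact_mod_cast le A
  · have := le X
    have := le Xᶜ
    simp only [e]
    omega
  · exact (det_query (O := ol n O) b s (le _)).map Int.ofNat

open Classical in
theorem num_eq {n R : ℕ} {r₁ r₂ : Finset (Fin n) → ℕ} (h₁ : IsPolymatroidRank r₁) (e₁ : r₁ univ = R)
    (e₂ : r₂ univ = R) : numCommonIntBases R r₁ r₂ =
      #{a ∈ bases fun X => (r₁ X : ℤ) | IsB (fun X => (r₂ X : ℤ)) a} := by
  have le : ∀ X, r₁ X ≤ R := fun X => e₁ ▸ h₁.2.1 X univ (subset_univ X)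
  unfold numCommonIntBases
  refine card_bij (fun x _ j => ((x j : ℕ) : ℤ)) (fun x hx => ?_) (fun x _ y _ h => ?_) fun a ha => ?_
  · obtain ⟨-, h1, h2⟩ := mem_filter.1 hx
    refine mem_filter.2 ⟨mem_bases.2 ⟨fun A => ?_, ?_⟩, fun A => ?_, ?_⟩
    · beta_reduce; exact_mod_cast (h2 A).1
    · simp only [e₁]; exact_mod_cast h1
    · beta_reduce; exact_mod_cast (h2 A).2
    · simp only [e₂]; exact_mod_cast h1
  · funext j
    exact Fin.ext (by exact_mod_cast congrFun h j)
  · obtain ⟨h1, h2⟩ := mem_filter.1 ha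
    rw [mem_bases] at h1
    have b : ∀ j, 0 ≤ a j ∧ a j ≤ R := by
      intro j
      have c1 := h1.1 {j}
      have c2 := h1.1 {j}ᶜ
      have c3 := sum_add_sum_compl {j} a
      have c4 := h1.2
      have c5 := le {j}
      have c6 := le {j}ᶜ
      rw [sum_singleton] at c1 c3
      simp only [e₁] at c1 c2 c4
      constructor <;> omega
    have c : ∀ j, (((a j).toNat : ℕ) : ℤ) = a j := fun j => Int.toNat_of_nonneg (b j).1
    refine ⟨fun j => ⟨(a j).toNat, by have := b j; omega⟩, mem_filter.2 ⟨mem_univ _, ?_, fun A => ⟨?_, ?_⟩⟩,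
      funext c⟩
    · have := h1.2
      simp only [e₁] at this
      zify
      simp only [c]
      exact this
    · zify
      simp only [c]
      exact h1.1 A
    · zify
      simp only [c]
      exact h2.1 A

/-- the input of the core problem -/
def coreIn (a : List Unit × List ℕ) (o : POut) : CIn :=
  (List.replicate (2 * (a.1.length + 1) ^ 5) (),
    (min (a.2.getD 0 0) a.1.length, min (a.2.getD 0 0) a.1.length + min (a.2.getD 0 0) a.1.length,
      2 * a.2.getD 1 0, 2 * min (a.2.getD 0 0) a.1.length ^ 4 * ((a.2.getD 1 0).size + 1)),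
    ((a.2.getD 2 0 : ℚ) / a.2.getD 3 0, (a.2.getD 4 0 : ℚ) / a.2.getD 5 0), (wList o, cpList o, o.2.2.2.2))

/-- the rank oracles -/
def rq (a : List Unit × List ℕ) (b : Bool) (s : List Bool) : QT ℤ := (query b s (a.2.getD 1 0)).map Int.ofNat

/-- the whole algorithm -/
def whole (A : CIn → QT (ℕ × ℕ)) (d : CIn → ℕ) (a : List Unit × List ℕ) : QT (ℕ × ℕ) :=
  (prepQ (rq a false) (rq a true) (min (a.2.getD 0 0) a.1.length) (a.2.getD 1 0)).bind fun out =>
    out.elim (QT.ret (0, 1)) fun o =>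
      sim (fun _ s => (glq (rq a false) (rq a true) (min (a.2.getD 0 0) a.1.length) o s).map Int.toNat)
        (2 * a.2.getD 1 0) (A (coreIn a o)) (d (coreIn a o)) (0, 1)

theorem pto_rq {α : Type} [Enc α] {a : α → List Unit × List ℕ} (ha : PT a) (b : Bool) :
    PTO fun p : α × List Bool => rq (a p.1) b p.2 := by
  unfold rq
  exact (PTO.query (PT.const _) (by fun_prop) (by fun_prop)).map (by fun_prop)

theorem pt_coreIn : PT fun p : (List Unit × List ℕ) × POut => coreIn p.1 p.2 := by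
  unfold coreIn wList cpList
  fun_prop

theorem pto_whole {A : CIn → QT (ℕ × ℕ)} (hA : PTO A) {d : CIn → ℕ} (hd : PT d) (hd' : PB d) :
    PTO (whole A d) := by
  unfold whole
  refine PTO.bind (pto_prepQ (gq₁ := fun a => rq a false) (gq₂ := fun a => rq a true)
    (pto_rq PT.id' _) (pto_rq PT.id' _) (by fun_prop) (by fun_prop) (by fun_prop)) ?_
  refine PTO.option_elim (o := fun p : (List Unit × List ℕ) × Option POut => p.2) (by fun_prop)
    (PTO.ret (PT.const _)) ?_
  have hc : PT fun p : ((List Unit × List ℕ) × Option POut) × POut => coreIn p.1.1 p.2 :=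
    pt_coreIn.comp (g := fun p : ((List Unit × List ℕ) × Option POut) × POut => (p.1.1, p.2)) (by fun_prop)
  refine PTO.sim ?_ (by fun_prop) (hA.comp hc) (hd.comp hc) (hd'.comp hc) (PT.const _)
  unfold glq
  refine PTO.map (PTO.bind ?_ (PTO.map ?_ (by fun_prop))) (by fun_prop)
  · exact pto_slackQ
      (gq := fun p : (((List Unit × List ℕ) × Option POut) × POut) × Bool × List Bool => rq p.1.1.1 false)
      (pto_rq (a := fun p : (((List Unit × List ℕ) × Option POut) × POut) × Bool × List Bool => p.1.1.1)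
        (by fun_prop) _) (by fun_prop) (by fun_prop) (by fun_prop) (by fun_prop)
  · exact pto_slackQ
      (gq := fun p : ((((List Unit × List ℕ) × Option POut) × POut) × Bool × List Bool) × ℤ =>
        rq p.1.1.1.1 true)
      (pto_rq (a := fun p : ((((List Unit × List ℕ) × Option POut) × POut) × Bool × List Bool) × ℤ =>
        p.1.1.1.1) (by fun_prop) _) (by fun_prop) (by fun_prop) (by fun_prop) (by fun_prop)

theorem size_bounds (n R : ℕ) {ε δ : ℚ} (h1 : 0 < ε) (h3 : 0 < δ) {S₀ S : ℕ} (h₀ : S₀ = sizeParam n R ε δ)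
    (hS : S = 2 * (S₀ + 1) ^ 5) :
    n ≤ S₀ ∧ 2 ≤ S ∧ n + n ≤ S ∧ 2 * R < 2 ^ S ∧ 2 * n ^ 4 * (R.size + 1) ≤ S ∧ 1 ≤ ε * S ∧ 1 ≤ δ * 2 ^ S := by
  have a1 : n ≤ S₀ := by rw [h₀, sizeParam]; omega
  have a2 : Nat.clog 2 (R + 2) ≤ S₀ := by rw [h₀, sizeParam]; omega
  have a3 : Nat.clog 2 (δ.den + 2) ≤ S₀ := by rw [h₀, sizeParam]; omega
  have a4 : ⌈ε⁻¹⌉₊ ≤ S₀ := by rw [h₀, sizeParam]; omega
  have b1 : S₀ + 1 ≤ (S₀ + 1) ^ 5 := Nat.le_self_pow (by norm_num) _
  have b2 : R + 2 ≤ 2 ^ S₀ := (Nat.le_pow_clog (by norm_num) _).trans (Nat.pow_le_pow_right (by norm_num) a2)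
  have b3 : δ.den + 2 ≤ 2 ^ S₀ :=
    (Nat.le_pow_clog (by norm_num) _).trans (Nat.pow_le_pow_right (by norm_num) a3)
  have b4 : 2 ^ (S₀ + 1) ≤ 2 ^ S := Nat.pow_le_pow_right (by norm_num) (by omega)
  have b5 : R.size ≤ S₀ := Nat.size_le.2 (by omega)
  rw [pow_succ] at b4
  refine ⟨a1, by omega, by omega, by omega, ?_, ?_, ?_⟩
  · rw [hS, mul_assoc, pow_succ (S₀ + 1) 4]
    gcongr
    omega
  · have c1 : ε⁻¹ ≤ S := (Nat.le_ceil _).trans (by exact_mod_cast (by omega : ⌈ε⁻¹⌉₊ ≤ S))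
    calc (1 : ℚ) = ε * ε⁻¹ := (mul_inv_cancel₀ h1.ne').symm
      _ ≤ _ := by gcongr
  · have c1 : (δ.den : ℚ) ≤ 2 ^ S := by exact_mod_cast (by omega : δ.den ≤ 2 ^ S)
    have c2 : (1 : ℚ) ≤ δ.num := by exact_mod_cast Rat.num_pos.2 h3
    calc (1 : ℚ) ≤ δ.num := c2
      _ = δ * δ.den := (Rat.mul_den_eq_num δ).symm
      _ ≤ _ := by gcongr

theorem natAbs_div_den {q : ℚ} (h : 0 < q) : (q.num.natAbs : ℚ) / q.den = q := by
  rw [Nat.cast_natAbs, abs_of_pos (Rat.num_pos.2 h), Rat.num_div_den]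

theorem exists_good {A : CIn → QT (ℕ × ℕ)} (hA : PTO A) (h : Core A) : ∃ B, PTO B ∧ Good B := by
  classical
  obtain ⟨d, hd, hd', hdep⟩ := hA.exists_dep
  refine ⟨whole A d, pto_whole hA hd hd', fun n R r₁ r₂ ε δ h₁ h₂ e₁ e₂ ε0 ε1 δ0 δ1 => ?_⟩
  obtain ⟨s1, s2, s3, s4, s5, s6, s7⟩ := size_bounds n R ε0 δ0 rfl rfl
  set S₀ := sizeParam n R ε δ with hS₀
  set O' : Orc := ol n fun b => if b then r₂ else r₁ with hO'
  set a : List Unit × List ℕ := (List.replicate S₀ (), countInput n R ε δ) with ha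
  have an : min (a.2.getD 0 0) a.1.length = n := by simp [ha, countInput, s1]
  have aR : a.2.getD 1 0 = R := by simp [ha, countInput]
  have v₁ : Ev O' n R (fun X => (r₁ X : ℤ)) (rq a false) := by
    have := ev_rank (O := fun b => if b then r₂ else r₁) (b := false) h₁ e₁
    unfold rq
    rw [aR]
    exact this
  have v₂ : Ev O' n R (fun X => (r₂ X : ℤ)) (rq a true) := by
    have := ev_rank (O := fun b => if b then r₂ else r₁) (b := true) h₂ e₂
    unfold rq
    rw [aR]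
    exact this
  have key : ∀ out, PSpec (fun X => (r₁ X : ℤ)) (fun X => (r₂ X : ℤ)) R out →
      ∀ t, t = out.elim (QT.ret (0, 1)) (fun o =>
        sim (fun _ s => (glq (rq a false) (rq a true) n o s).map Int.toNat)
          (2 * R) (A (coreIn a o)) (d (coreIn a o)) (0, 1)) →
      AllO O' (fun y : ℕ × ℕ => 0 < y.2 ∧ (numCommonIntBases R r₁ r₂ = 0 → y.1 = 0)) t ∧
      pr O' t (fun y => ¬ ((1 - ε) * numCommonIntBases R r₁ r₂ ≤ (y.1 : ℚ) / y.2 ∧
          (y.1 : ℚ) / y.2 ≤ (1 + ε) * numCommonIntBases R r₁ r₂)) ≤ δ := by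
    intro out ho t ht
    rcases out with _ | o
    · have z : numCommonIntBases R r₁ r₂ = 0 := by
        rw [num_eq h₁ e₁ e₂, card_eq_zero, filter_eq_empty_iff]
        exact fun x hx hx' => ho ⟨x, mem_bases.1 hx, hx'⟩
      subst ht
      refine ⟨by simp, ?_⟩
      simp only [Option.elim, pr, ex_ret, z]
      simp [R309.ind, δ0.le]
    · obtain ⟨-, π₁, π₂, ρ, W₁, W₂, μ, hP, L₁, L₂, L⟩ := ho
      have b₁ := hP.cen.b₁
      have b₂ := hP.cen.b₂
      set g := gl (fun X => (r₁ X : ℤ)) (fun X => (r₂ X : ℤ)) (vec n o.1) π₁ π₂ with hg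
      have g0 : ∀ X, 0 ≤ g X := fun X => add_nonneg (slack_nonneg b₁ _) (slack_nonneg b₂ _)
      have g1 : ∀ X, |g X| ≤ ((2 * R : ℕ) : ℤ) := abs_gl_le v₁.bd v₂.bd b₁ b₂
      set O : Orc := fun _ s => (g (bset (n + n) s)).toNat with hO
      have hM : ∀ b s, O b s ≤ 2 * R := fun b s => by
        have := (abs_le.1 (g1 (bset (n + n) s))).2
        simp only [hO]
        omega
      have hh : ∀ b s, Det O' ((glq (rq a false) (rq a true) n o s).map Int.toNat) (O b s) :=
        fun b s => (glq_spec v₁ v₂ L₁ L₂ s).map _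
      have ev : Ev O (n + n) (2 * R) g (gq (2 * R)) := by
        refine ⟨sub_gl v₁.sub v₂.sub b₂, g1, bd_gl v₁.bd v₂.bd b₂, fun s _ => ?_⟩
        have := (det_query (O := O) false s (hM false s)).map Int.ofNat
        rwa [show Int.ofNat (O false s) = g (bset (n + n) s) from Int.toNat_of_nonneg (g0 _)] at this
      have eμ : (fun u => o.2.2.2.2.getD u 0) = μ := funext L.sc
      have eN : ng g (cpf π₁ π₂ ρ) 0 = numCommonIntBases R r₁ r₂ := by
        rw [num_eq h₁ e₁ e₂, hg, ng_gl v₁.sub v₂.sub b₁ b₂, ← cnt_dual_zero v₂.sub]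
        rfl
      have fr := hP.frame v₁.sub v₂.sub L₁.last L₂.last L.last
      have hc := h O (2 * (S₀ + 1) ^ 5) n (n + n) (2 * R) (2 * n ^ 4 * (R.size + 1)) ε δ g (cpf π₁ π₂ ρ)
        (wList o) (cpList o) o.2.2.2.2 ev (by rw [wList_getD L₁ L₂, eμ]; exact fr)
        (by rw [eμ]; exact hP.flat v₁.sub v₂.sub v₁.bd)
        (fun u => ⟨Fin.castAdd n (π₁.symm (ρ u)), by simp [cpf]⟩) (cpList_getD L₁ L₂ L)
        (by simp [cpList, L₁.len, L₂.len])
        (fun t => by
          rw [congrFun (wList_getD L₁ L₂) t, wgl]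
          have := hP.le₁ t
          have := hP.le₂ (t - n)
          split_ifs <;> push_cast <;> linarith [Int.natCast_nonneg R])
        (fun u => by
          rw [L.sc]
          have := hP.le u
          push_cast
          linarith [Int.natCast_nonneg R]) ε0 ε1 δ0 s2 s3 s4 s5 s6 s7
      have ec : coreIn a o = (List.replicate (2 * (S₀ + 1) ^ 5) (),
          (n, n + n, 2 * R, 2 * n ^ 4 * (R.size + 1)), (ε, δ), (wList o, cpList o, o.2.2.2.2)) := by
        unfold coreIn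
        rw [an, aR]
        simp [ha, countInput, -Nat.cast_natAbs, natAbs_div_den ε0, natAbs_div_den δ0]
      rw [← ec, eN] at hc
      subst ht
      refine ⟨(allO_sim hh hM (hdep _) _ hc.1).mono fun y hy => ⟨hy, fun z => ?_⟩, ?_⟩
      · have := fr.one_le_ng
        rw [← hg, eN, z] at this
        omega
      · simp only [Option.elim, pr]
        rw [ex_sim hh hM (hdep _)]
        exact hc.2
  have sp := prepQ_spec v₁ v₂
  unfold whole
  rw [an, aR]
  refine ⟨sp.bind fun out ho => (key out ho _ rfl).1, ?_⟩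
  unfold pr
  rw [ex_bind]
  exact (ex_mono_on sp fun out ho => (key out ho _ rfl).2).trans_eq (ex_const _ _)

end Crest.Agent.R302B
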