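import Crest.Agent.R302B.Mod0
import Crest.Agent.R302B.GlueQ
import Crest.Agent.R302.Ann2

/-!
# Row 302 (binary layer): Alg
The core algorithm (DEFINITIONS ONLY; do not edit, message helper19).  States are lists of length `N`.
A stage is `(i, ρ, ρ', h, num, den)`: index, box radius, previous box radius, fields, numerator and denominator of the estimate.
-/

set_option autoImplicit false
set_option linter.unusedSectionVars false

noncomputable section

namespace Crest.Agent.R302B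

open Finset Crest.Agent.R302 Crest.Agent.R302.QT Crest.Agent.Lib.PolyTime

/-- stages -/
abbrev Tht : Type := ℕ × ℕ × ℕ × List ℕ × ℕ × ℕ

/-- `log₂ S` -/
def aB (a : CIn) : ℕ := a.1.length.size + 12

/-- the size parameter -/
def aS (a : CIn) : ℕ := 2 ^ aB a

/-- number of coordinates -/
def aN (a : CIn) : ℕ := a.2.2.2.2.1.length

/-- number of positions -/
def an (a : CIn) : ℕ := min a.2.1.1 (aN a)

/-- bound for the oracle -/
def aM (a : CIn) : ℕ := a.2.1.2.2.1

/-- own scales -/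
def aW (a : CIn) (t : ℕ) : ℤ := a.2.2.2.1.getD t 0

/-- positions -/
def aC (a : CIn) (j : ℕ) : ℕ := a.2.2.2.2.1.getD j 0

/-- combined scales -/
def aU (a : CIn) (u : ℕ) : ℤ := a.2.2.2.2.2.getD u 0

/-- fat positions -/
def fmL (a : CIn) (u : ℕ) : Bool := decide (u + 1 < an a ∧ ((aS a ^ 28 : ℕ) : ℤ) ≤ aU a u)

/-- flat radii -/
def sgL (a : CIn) (u : ℕ) : ℕ := (aU a u).toNat / aS a ^ 6

/-- the mismatch -/
def gamL (a : CIn) (s : List ℤ) (u : ℕ) : ℤ :=
  (((List.range (aN a)).filter fun j => decide (aC a j = u)).map fun j => s.getD j 0).sum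

/-- block sums of the mismatch -/
def gthL (a : CIn) (s : List ℤ) (u : ℕ) : ℤ :=
  (((List.range (u + 1)).filter fun j => (List.range u).all fun r => decide (r < j) || fmL a r).map (gamL a s)).sum

/-- the sector -/
def secL (a : CIn) (s : List ℤ) : List ℤ :=
  (List.range (an a)).map fun u => if fmL a u = true then 0 else gthL a s u

/-- all entries are at most `ρ` in absolute value -/
def inB (ρ : ℕ) (s : List ℤ) : Bool := s.all fun x => decide (x.natAbs ≤ ρ)

/-- the fat block sums are at most `c` times the flat radius -/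
def trL (a : CIn) (c : ℕ) (s : List ℤ) : Bool :=
  (List.range (an a)).all fun u => !fmL a u || decide ((gthL a s u).natAbs ≤ c * sgL a u)

/-- the tests that define the state space (besides membership) -/
def okL (a : CIn) (ρ : ℕ) (s : List ℤ) : Bool := inB ρ s && decide (l1 (secL a s) ≤ 100) && trL a 2 s

/-- `(K - 1) ^ e * K ^ (E - e)` with `e` clamped -/
def tw (K E e : ℕ) : ℕ := (K - 1) ^ min e E * K ^ (E - min e E)

/-- the field exponent -/
def fe (a : CIn) (h : List ℕ) (s : List ℤ) : ℕ :=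
  min (((100 * aS a ^ 18 : ℕ) : ℤ) -
    ((List.range (an a)).map fun u => (h.getD u 0 : ℤ) * (secL a s).getD u 0).sum).toNat (200 * aS a ^ 18)

/-- the integer weight -/
def wN (a : CIn) (θ : Tht) (s : List ℤ) : ℕ :=
  tw (aS a ^ 16) (jj (aS a) θ.1 * (aN a * min θ.2.1 (aS a ^ 15))) (jj (aS a) θ.1 * l1 s) * 2 ^ fe a θ.2.2.2.1 s *
    (aS a ^ 5) ^ (100 - l1 (secL a s)) *
    ((List.range (an a)).map fun u =>
      if fmL a u = true then (2 * sgL a u - ((gthL a s u).natAbs - sgL a u)) ^ aS a ^ 20 else 1).prod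

/-- the weight as a procedure -/
def wqL (a : CIn) (θ : Tht) (s : List ℤ) : QT ℕ :=
  (memQ (gq (aM a)) (aN a) (aM a) s).map fun b => if b = true ∧ okL a θ.2.1 s = true then wN a θ s else 0

/-- fat own positions -/
def foL (a : CIn) (ρ t : ℕ) : Bool := decide (t + 1 < aN a ∧ ((aS a ^ 66 : ℕ) : ℤ) ≤ min (aW a t) ρ)

/-- exponents of the proposal box -/
def jeL (a : CIn) (ρ t : ℕ) : ℕ :=
  if foL a ρ t = true then ((min (aW a t) ρ).toNat / aS a ^ 40).size - 1 else 0

/-- a displacement from uniform numbers and tokens -/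
def xL (N : ℕ) (y k : List ℕ) : List ℤ :=
  (List.range N).map fun t => (y.getD t 0 : ℤ) + (k.count t : ℤ) - (k.count (N + t) : ℤ)

/-- a random displacement -/
def xQ (a : CIn) (ρ : ℕ) : QT (List ℤ) :=
  (mapQ (fun t => unif (jeL a ρ t)) (List.range (aN a))).bind fun y => (rep 100 (unif (aB a))).map (xL (aN a) y)

/-- the move -/
def mvL (a : CIn) (ρ : ℕ) (s x x' : List ℤ) : List ℤ :=
  (List.range (aN a)).map fun j => s.getD j 0 + (x.getD j 0 - x'.getD j 0) -
    if 0 < j ∧ foL a ρ (j - 1) = true then x.getD (j - 1) 0 - x'.getD (j - 1) 0 else 0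

/-- the proposal -/
def propL (a : CIn) (θ : Tht) (s : List ℤ) : QT (List ℤ) :=
  (xQ a θ.2.1).bind fun x => (xQ a θ.2.1).map fun x' => mvL a θ.2.1 s x x'

/-- the chain -/
def stepL (a : CIn) (θ : Tht) : List ℤ → QT (List ℤ) := metro (wqL a θ) (propL a θ)

/-- the scale of the ratio statistic -/
def dnL (a : CIn) : ℕ := (aS a ^ 16) ^ (aN a * aS a ^ 15)

/-- the ratio statistic -/
def aV (a : CIn) (θ : Tht) (s : List ℤ) : ℕ :=
  if l1 (secL a s) = 0 ∧ inB θ.2.2.1 s = true then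
    tw (aS a ^ 16) (aN a * aS a ^ 15) ((jj (aS a) (θ.1 - 1) - jj (aS a) θ.1) * l1 s) else 0

/-- sector `0` -/
def e0L (a : CIn) (s : List ℤ) : Bool := decide (l1 (secL a s) = 0)

/-- the flat event -/
def flL (a : CIn) (s : List ℤ) : Bool := e0L a s && trL a 1 s

/-- the sector event of `p` -/
def epL (a : CIn) (p : ℕ) (s : List ℤ) : Bool := decide ((secL a s).getD p 0 = 1 ∧ l1 (secL a s) = 2)

/-- the size of the flat ball -/
def ballL (a : CIn) : ℕ := ((List.range (an a)).map fun u => if fmL a u = true then 2 * sgL a u + 1 else 1).prod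

/-- the controller -/
def nxtL (a : CIn) (θ : Tht) (l : List (List ℤ)) : Tht :=
  (θ.1 + 1,
    (if θ.1 = 0 then aS a ^ 15 else if θ.1 ≤ aS a ^ 17 then θ.2.1 else θ.2.1 + θ.2.1 / aS a ^ 15),
    θ.2.1,
    (List.range (an a)).map (fun p => θ.2.2.2.1.getD p 0 +
      if 3 * pC (an a) * l.countP (e0L a) < 8 * aS a ^ 10 * l.countP (epL a p) then 1 else 0),
    θ.2.2.2.2.1 * ((if θ.1 = mL (aS a) then l.countP (flL a) else l.countP (e0L a)) * dnL a),
    θ.2.2.2.2.2 * (max (l.map (aV a θ)).sum 1 * if θ.1 = mL (aS a) then ballL a else 1))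

/-- the core algorithm -/
def coreL (a : CIn) : QT (ℕ × ℕ) :=
  (ctlQ (stepL a) (nxtL a) (QT.ret (List.replicate (aN a) 0)) (aS a ^ 1837) (aS a ^ 42) (mL (aS a) + 1)
    (0, 0, 0, [], 1, 1)).map fun θ => θ.2.2.2.2

/-- the input represents the model -/
structure Rp {n N : ℕ} (O : Orc) (a : CIn) (m : Md n N) : Prop where
  hN : aN a = N
  hn : an a = n
  hW : ∀ t, aW a t = m.W t
  hC : ∀ j : Fin N, aC a j = m.cp j
  hU : ∀ u, aU a u = m.μ u
  ev : Ev O N (aM a) m.g (gq (aM a))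
  ok : m.OK (aM a)
  sz : Sz N (aM a) (aS a)

/-- the fields of a stage -/
def hOf (n : ℕ) (θ : Tht) : Fin n → ℕ := fun u => θ.2.2.2.1.getD u 0

open Classical in
/-- the state space of a stage -/
def OmL {n N : ℕ} (m : Md n N) (S : ℕ) (θ : Tht) : Finset (List ℤ) := ((m.box θ.2.1).Om S).image List.ofFn

/-- the weight of a stage -/
def WL {n N : ℕ} (m : Md n N) (S : ℕ) (θ : Tht) (s : List ℤ) : ℝ := m.Wt S (jj S θ.1) (hOf n θ) (vec N s)

/-- the quantity estimated after `i` rounds -/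
def tgt {n N : ℕ} (m : Md n N) (S i : ℕ) : ℝ :=
  if i ≤ mL S then (m.box (rho S (i - 1))).n0' S (jj S (i - 1)) else (m.box (rho S (mL S))).Zf S / m.ball S

/-- the invariant of the controller -/
structure GI {n N : ℕ} (m : Md n N) (S i : ℕ) (θ : Tht) : Prop where
  idx : θ.1 = i
  r : θ.2.1 = rho S i
  rp : θ.2.2.1 = rho S (i - 1)
  hb : ∀ u, hOf n θ u ≤ i
  inv : i ≤ mL S → (m.box (rho S i)).Inv S (jj S i) (hOf n θ) (pC n)
  prev : i ≤ mL S → (m.box (rho S i)).n0 S (jj S i) ≤ 3 / 2 * (m.box (rho S (i - 1))).n0 S (jj S (i - 1))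
  den : 0 < θ.2.2.2.2.2
  lo : (1 - 1 / (S : ℝ) ^ 19) ^ i * tgt m S i * θ.2.2.2.2.2 ≤ θ.2.2.2.2.1
  hi : (θ.2.2.2.2.1 : ℝ) ≤ (1 + 1 / (S : ℝ) ^ 19) ^ i * tgt m S i * θ.2.2.2.2.2

end Crest.Agent.R302B
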