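import Crest.Agent.R302B.Z0

/-!
# Row 302 (binary layer): BL
The discrete Brascamp–Lieb inequality by triangular flows.
* `sum_shift`: bijection `u ↦ u + ez l` between the points of the box with `u l < hi l` and those with `lo l < u l`.
* `exists_flow`: induction on `k ≤ N` for flows `ψ j`, `j < k`, such that the residual `ρ u - ∑_{j<k} (ψ j u c j u - ψ j (u - e_j) c j (u - e_j))` has zero
  sum over every fibre `{u' ∈ box | ∀ j < k, u' j = u j}`.  Step: with `marg h u = ∑_{u' ∈ box, ∀ j ≤ k, u' j = u j} h u'` put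
  `ψ k u = (∑_{s ∈ Icc (lo k) (u k)} marg res (update u k s)) / marg (c k) u` if `lo k ≤ u k < hi k` and all `u j`, `j < k`, are in range, else `0`.
* `bochner`: symmetrise the mixed term.  For `k < l` the terms `ψ_k(u) ψ_l(u) Φ(u)` and `ψ_k(u) ψ_l(u - e_l) Φ(u - e_l)` cancel
  (`Φ z = F (z+e_k+e_l) H z`, `sum_shift` in the direction `l`), and so do the two terms with `ψ_k (u - e_k)`.  For `k = l` the three terms add up
  to `∑ F (u + e_k) H (u - e_k) (ψ_k u - ψ_k (u - e_k))^2`.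
* `bl`: `m` the mean, `ρ = F H (h - m)`, `c k u = F (u + e_k) H u`; `v k = ψ k u F (u+e_k) / F u`, `v' k = ψ k (u - e_k) H (u - e_k) / H u`;
  `h u - m = ∑ v - ∑ v'`; the summand of `bochner` is `F H ((h - m)^2 - A_x v v - A_y v' v')` with `A_y ≥ 0` (`DLZ.psd` at `-u`), so
  `∑ F H A_x v v ≤ V := ∑ F H (h - m)^2`; and `V = ∑ ρ h = ∑_u F H ∑_k v k (h u - h (u + e_k)) ≤ (V + ∑ F H D) / 2`.
-/

set_option autoImplicit false
set_option linter.unusedSectionVars false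

noncomputable section

namespace Crest.Agent.R302B

open Finset Crest.Agent.R302

variable {N : ℕ} {lo hi : Fin N → ℤ}

theorem BL_sub_self (u : Fin N → ℤ) (l : Fin N) : (u - ez l) l = u l - 1 := by simp [ez]

theorem BL_sub_ne (u : Fin N → ℤ) {l j : Fin N} (h : j ≠ l) : (u - ez l) j = u j := by
  simp [ez, Pi.single_eq_of_ne h]

theorem BL_sub_mem {u : Fin N → ℤ} {l : Fin N} (hu : u ∈ ibox lo hi) (h : u l ≠ lo l) :
    u - ez l ∈ ibox lo hi := by
  rw [mem_ibox] at hu ⊢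
  intro k
  have h1 := hu k
  by_cases hk : k = l
  · subst hk
    rw [BL_sub_self]
    omega
  · rwa [BL_sub_ne u hk]

theorem sum_shift (l : Fin N) {Θ : (Fin N → ℤ) → ℝ} (h : ∀ u, u l = hi l ∨ u l = lo l - 1 → Θ u = 0) :
    ∑ u ∈ ibox lo hi, Θ (u - ez l) = ∑ u ∈ ibox lo hi, Θ u := by
  refine sum_bij_ne_zero (fun u _ _ => u - ez l) (fun u hu h0 => BL_sub_mem hu fun h1 => ?_)
    (fun u _ _ u' _ _ he => sub_left_injective he) (fun u hu h0 => ?_) (fun _ _ _ => rfl)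
  · exact h0 (h _ (Or.inr (by rw [BL_sub_self, h1])))
  · refine ⟨u + ez l, ?_, by rwa [add_sub_cancel_right], add_sub_cancel_right _ _⟩
    rw [mem_ibox] at hu ⊢
    intro k
    have h1 := hu k
    by_cases hk : k = l
    · subst hk
      have h2 : u k ≠ hi k := fun h3 => h0 (h _ (Or.inl h3))
      simp only [ez, Pi.add_apply, Pi.single_eq_same]
      omega
    · simpa [ez, Pi.single_eq_of_ne hk] using h1

/-- triangular flows -/
structure Tri (lo hi : Fin N → ℤ) (ψ : Fin N → (Fin N → ℤ) → ℝ) : Prop where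
  bd : ∀ k u, u k = hi k ∨ u k = lo k - 1 → ψ k u = 0
  tri : ∀ k u u', (∀ j, j ≤ k → u j = u' j) → ψ k u = ψ k u'

/-- the fibre through `u` of the projection to the first `k` coordinates -/
def BL_fib (lo hi : Fin N → ℤ) (k : ℕ) (u : Fin N → ℤ) : Finset (Fin N → ℤ) :=
  (ibox lo hi).filter fun u' => ∀ j : Fin N, j.val < k → u' j = u j

theorem BL_mem_fib {k : ℕ} {u u' : Fin N → ℤ} :
    u' ∈ BL_fib lo hi k u ↔ u' ∈ ibox lo hi ∧ ∀ j : Fin N, j.val < k → u' j = u j := mem_filter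

theorem BL_fib_congr {k : ℕ} {u w : Fin N → ℤ} (h : ∀ j : Fin N, j.val < k → u j = w j) :
    BL_fib lo hi k u = BL_fib lo hi k w := by
  ext z
  simp only [BL_mem_fib]
  exact and_congr_right fun _ => forall₂_congr fun j hj => by rw [h j hj]

theorem BL_fib_succ (K : Fin N) (u : Fin N → ℤ) (s : ℤ) :
    BL_fib lo hi (K + 1) (Function.update u K s) = (BL_fib lo hi K u).filter fun z => z K = s := by
  ext z
  simp only [mem_filter, BL_mem_fib, and_assoc]
  refine and_congr_right fun _ => ⟨fun h => ⟨fun j hj => ?_, ?_⟩, fun h j hj => ?_⟩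
  · rw [h j (by omega), Function.update_of_ne (fun h1 => by subst h1; omega)]
  · rw [h K (by omega), Function.update_self]
  · by_cases h1 : j = K
    · rw [h1, Function.update_self, h.2]
    · rw [Function.update_of_ne h1, h.1 j (by have := Fin.val_ne_of_ne h1; omega)]

theorem BL_step (K : Fin N) {c r : (Fin N → ℤ) → ℝ} (hc : ∀ u, 0 < c u)
    (hr : ∀ u, ∑ z ∈ BL_fib lo hi K u, r z = 0) :
    ∃ δ : (Fin N → ℤ) → ℝ, (∀ u, u K = hi K ∨ u K = lo K - 1 → δ u = 0) ∧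
      (∀ u u', (∀ j, j ≤ K → u j = u' j) → δ u = δ u') ∧
      ∀ u, ∑ z ∈ BL_fib lo hi (K + 1) u, (r z - (δ z * c z - δ (z - ez K) * c (z - ez K))) = 0 := by
  obtain ⟨G, hG⟩ : ∃ G : (Fin N → ℤ) → ℝ, ∀ u, G u =
    ∑ s ∈ Icc (lo K) (u K), ∑ z ∈ (BL_fib lo hi K u).filter fun z => z K = s, r z := ⟨_, fun _ => rfl⟩
  obtain ⟨δ, hδ⟩ : ∃ δ : (Fin N → ℤ) → ℝ, ∀ u, δ u = G u / ∑ z ∈ BL_fib lo hi (K + 1) u, c z :=
    ⟨_, fun _ => rfl⟩
  have g0 : ∀ u, u K = hi K ∨ u K = lo K - 1 → G u = 0 := by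
    rintro u (h | h)
    · rw [hG, h, sum_fiberwise_of_maps_to, hr]
      intro z hz
      exact mem_Icc.2 (mem_ibox.1 (BL_mem_fib.1 hz).1 K)
    · rw [hG, h, Icc_eq_empty (by omega), sum_empty]
  have d0 : ∀ u, u K = hi K ∨ u K = lo K - 1 → δ u = 0 := fun u h => by rw [hδ, g0 u h, zero_div]
  have d1 : ∀ u u', (∀ j, j ≤ K → u j = u' j) → δ u = δ u' := fun u u' h => by
    rw [hδ, hδ, hG, hG, h K le_rfl, BL_fib_congr (k := K) fun j hj => h j (le_of_lt hj),
      BL_fib_congr (k := K + 1) fun j hj => h j (Nat.lt_succ_iff.1 hj)]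
  have d2 : ∀ w, (BL_fib lo hi (K + 1) w).Nonempty ∨ w K = lo K - 1 →
      ∑ z ∈ BL_fib lo hi (K + 1) w, δ z * c z = G w := by
    intro w hw
    rw [sum_congr rfl fun z hz => by
      rw [d1 z w fun j hj => (BL_mem_fib.1 hz).2 j (Nat.lt_succ_iff.2 hj)], ← mul_sum]
    rcases hw with hw | hw
    · rw [hδ, div_mul_cancel₀ _ (sum_pos (fun z _ => hc z) hw).ne']
    · rw [d0 w (Or.inr hw), g0 w (Or.inr hw), zero_mul]
  refine ⟨δ, d0, d1, fun u => ?_⟩
  rcases (BL_fib lo hi (K + 1) u).eq_empty_or_nonempty with h | ⟨u₀, h⟩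
  · rw [h, sum_empty]
  obtain ⟨h1, h2⟩ := BL_mem_fib.1 h
  have h3 : lo K ≤ u K := by
    rw [← h2 K (by omega)]
    exact (mem_ibox.1 h1 K).1
  have e1 : ∀ z, (∀ j : Fin N, j.val < K + 1 → (z - ez K) j = (u - ez K) j) ↔
      ∀ j : Fin N, j.val < K + 1 → z j = u j := fun z => by simp
  have e2 : ∑ z ∈ BL_fib lo hi (K + 1) u, δ (z - ez K) * c (z - ez K)
      = ∑ z ∈ BL_fib lo hi (K + 1) (u - ez K), δ z * c z := by
    rw [BL_fib, BL_fib, sum_filter, sum_filter, ← sum_shift K (Θ := fun z =>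
      if ∀ j : Fin N, j.val < K + 1 → z j = (u - ez K) j then δ z * c z else 0)
      fun z hz => by simp [d0 z hz]]
    simp only [e1]
  have e3 : (BL_fib lo hi (K + 1) (u - ez K)).Nonempty ∨ (u - ez K) K = lo K - 1 := by
    by_cases h4 : u K = lo K
    · exact Or.inr (by rw [BL_sub_self, h4])
    · exact Or.inl ⟨u₀ - ez K, BL_mem_fib.2 ⟨BL_sub_mem h1 (by rwa [h2 K (by omega)]),
        (e1 u₀).2 h2⟩⟩
  have e4 : Icc (lo K) (u K) = insert (u K) (Icc (lo K) (u K - 1)) := by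
    ext s
    simp only [mem_Icc, mem_insert]
    omega
  rw [sum_sub_distrib, sum_sub_distrib, e2, d2 u (Or.inl ⟨u₀, h⟩), d2 _ e3, hG, hG, BL_sub_self,
    BL_fib_congr (k := K) (u := u - ez K) (w := u)
      fun j hj => BL_sub_ne u fun h1 => by subst h1; omega, e4, sum_insert (by simp),
    ← BL_fib_succ, Function.update_eq_self]
  ring

theorem exists_flow (hlo : lo ≤ hi) {c : Fin N → (Fin N → ℤ) → ℝ} (hc : ∀ k u, 0 < c k u)
    {ρ : (Fin N → ℤ) → ℝ} (hρ : ∑ u ∈ ibox lo hi, ρ u = 0) :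
    ∃ ψ, Tri lo hi ψ ∧ ∀ u ∈ ibox lo hi,
      ρ u = ∑ k, (ψ k u * c k u - ψ k (u - ez k) * c k (u - ez k)) := by
  have key : ∀ k : ℕ, k ≤ N → ∃ ψ, Tri lo hi ψ ∧ ∀ u, ∑ z ∈ BL_fib lo hi k u,
      (ρ z - ∑ j, (ψ j z * c j z - ψ j (z - ez j) * c j (z - ez j))) = 0 := by
    intro k
    induction k with
    | zero => exact fun _ => ⟨0, ⟨fun _ _ _ => rfl, fun _ _ _ _ => rfl⟩, fun u => by
        simpa [BL_fib] using hρ⟩
    | succ k ih =>
      intro hk
      obtain ⟨ψ, hψ, h⟩ := ih (by omega)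
      obtain ⟨δ, d0, d1, d2⟩ := BL_step ⟨k, hk⟩ (hc ⟨k, hk⟩) h
      refine ⟨fun j u => ψ j u + if j = ⟨k, hk⟩ then δ u else 0, ⟨fun j u hu => ?_,
        fun j u u' hu => ?_⟩, fun u => ?_⟩
      · rw [hψ.bd j u hu, zero_add]
        split_ifs with hj
        · exact d0 u (hj ▸ hu)
        · rfl
      · rw [hψ.tri j u u' hu]
        split_ifs with hj
        · rw [d1 u u' (hj ▸ hu)]
        · rfl
      · refine Eq.trans (sum_congr rfl fun z _ => ?_) (d2 u)
        simp only [add_mul, ite_mul, zero_mul, sum_sub_distrib, sum_add_distrib, sum_ite_eq',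
          mem_univ, if_true]
        ring
  obtain ⟨ψ, hψ, h⟩ := key N le_rfl
  refine ⟨ψ, hψ, fun u hu => ?_⟩
  have e : BL_fib lo hi N u = {u} := by
    ext z
    rw [BL_mem_fib, mem_singleton]
    exact ⟨fun h => funext fun j => h.2 j j.2, fun h => ⟨h ▸ hu, fun j _ => by rw [h]⟩⟩
  have h1 := h u
  rwa [e, sum_singleton, sub_eq_zero] at h1

theorem BL_pair {ψ : Fin N → (Fin N → ℤ) → ℝ} (hψ : Tri lo hi ψ) (F H : (Fin N → ℤ) → ℝ)
    {k l : Fin N} (hkl : k < l) :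
    ∑ u ∈ ibox lo hi, ψ k u * ψ l (u - ez l) * (F (u + ez k) * H (u - ez l))
      = ∑ u ∈ ibox lo hi, ψ k u * ψ l u * (F (u + ez k + ez l) * H u) ∧
    ∑ u ∈ ibox lo hi, ψ k (u - ez k) * ψ l (u - ez l) * (F u * H (u - ez k - ez l))
      = ∑ u ∈ ibox lo hi, ψ l u * ψ k (u - ez k) * (F (u + ez l) * H (u - ez k)) := by
  have e : ∀ u, ψ k (u - ez l) = ψ k u := fun u =>
    hψ.tri k _ _ fun j hj => BL_sub_ne u (hj.trans_lt hkl).ne
  constructor
  · rw [← sum_shift l (Θ := fun u => ψ k u * ψ l u * (F (u + ez k + ez l) * H u))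
      fun u hu => by simp [hψ.bd l u hu]]
    refine sum_congr rfl fun u _ => ?_
    rw [e, show u - ez l + ez k + ez l = u + ez k by abel]
  · rw [← sum_shift l (Θ := fun u => ψ l u * ψ k (u - ez k) * (F (u + ez l) * H (u - ez k)))
      fun u hu => by simp [hψ.bd l u hu]]
    refine sum_congr rfl fun u _ => ?_
    rw [sub_right_comm u (ez l) (ez k), e, sub_add_cancel, mul_comm (ψ k _)]

theorem bochner {ψ : Fin N → (Fin N → ℤ) → ℝ} (hψ : Tri lo hi ψ) {F H : (Fin N → ℤ) → ℝ}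
    (hF : ∀ u, 0 ≤ F u) (hH : ∀ u, 0 ≤ H u) :
    0 ≤ ∑ u ∈ ibox lo hi, ∑ k, ∑ l,
      (ψ k u * ψ l u * (F (u + ez k + ez l) * H u) -
        2 * (ψ k u * ψ l (u - ez l) * (F (u + ez k) * H (u - ez l))) +
        ψ k (u - ez k) * ψ l (u - ez l) * (F u * H (u - ez k - ez l))) := by
  obtain ⟨A, hA⟩ : ∃ A : Fin N → Fin N → ℝ, ∀ k l,
    A k l = ∑ u ∈ ibox lo hi, ψ k u * ψ l u * (F (u + ez k + ez l) * H u) := ⟨_, fun _ _ => rfl⟩
  obtain ⟨B, hB⟩ : ∃ B : Fin N → Fin N → ℝ, ∀ k l,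
    B k l = ∑ u ∈ ibox lo hi, ψ k u * ψ l (u - ez l) * (F (u + ez k) * H (u - ez l)) :=
    ⟨_, fun _ _ => rfl⟩
  obtain ⟨C, hC⟩ : ∃ C : Fin N → Fin N → ℝ, ∀ k l,
    C k l = ∑ u ∈ ibox lo hi, ψ k (u - ez k) * ψ l (u - ez l) * (F u * H (u - ez k - ez l)) :=
    ⟨_, fun _ _ => rfl⟩
  have hAs : ∀ k l, A k l = A l k := fun k l => by
    rw [hA, hA]
    exact sum_congr rfl fun u _ => by rw [add_right_comm, mul_comm (ψ k u)]
  have hCs : ∀ k l, C k l = C l k := fun k l => by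
    rw [hC, hC]
    exact sum_congr rfl fun u _ => by rw [sub_right_comm, mul_comm (ψ k _)]
  have h1 : ∀ k l, k < l → A k l - B k l - B l k + C k l = 0 := fun k l hkl => by
    obtain ⟨p1, p2⟩ := BL_pair hψ F H hkl
    rw [hA, hB, hB, hC, p1, p2]
    ring
  have h2 : ∀ k l, 0 ≤ A k l - B k l - B l k + C k l := by
    intro k l
    rcases lt_trichotomy k l with h | rfl | h
    · exact (h1 k l h).ge
    · rw [hA, hB, hC, ← sum_shift k (Θ := fun u => ψ k u * ψ k u * (F (u + ez k + ez k) * H u))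
        fun u hu => by simp [hψ.bd k u hu]]
      have e : ∑ u ∈ ibox lo hi, ψ k (u - ez k) * ψ k (u - ez k) * (F u * H (u - ez k - ez k))
          = ∑ u ∈ ibox lo hi, ψ k u * ψ k u * (F (u + ez k) * H (u - ez k)) := by
        rw [← sum_shift k (Θ := fun u => ψ k u * ψ k u * (F (u + ez k) * H (u - ez k)))
          fun u hu => by simp [hψ.bd k u hu]]
        simp only [sub_add_cancel]
      rw [e, ← sum_sub_distrib, ← sum_sub_distrib, ← sum_add_distrib]
      refine sum_nonneg fun u _ => ?_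
      rw [sub_add_cancel]
      nlinarith [mul_nonneg (mul_nonneg (hF (u + ez k)) (hH (u - ez k)))
        (sq_nonneg (ψ k u - ψ k (u - ez k)))]
    · have := h1 l k h
      rw [hAs, hCs]
      linarith
  have h3 : ∑ k, ∑ l, B l k = ∑ k, ∑ l, B k l := sum_comm
  have h4 : 0 ≤ ∑ k, ∑ l, (A k l - B k l - B l k + C k l) :=
    sum_nonneg fun k _ => sum_nonneg fun l _ => h2 k l
  rw [sum_comm, sum_congr rfl fun k _ => sum_comm]
  simp only [sum_add_distrib, sum_sub_distrib, ← mul_sum, ← hA, ← hB, ← hC] at h4 ⊢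
  linarith

theorem bl (hlo : lo ≤ hi) {F H : (Fin N → ℤ) → ℝ} (hF : ∀ u, 0 < F u) (hH : DLZ fun u => H (-u))
    (h D : (Fin N → ℤ) → ℝ)
    (hS : ∀ u ∈ ibox lo hi, ∀ v : Fin N → ℝ, 2 * ∑ k, v k * (h u - h (u + ez k)) ≤
      ((∑ k, v k) ^ 2 -
        ∑ i, ∑ j, v i * v j * (F u * F (u + ez i + ez j) / (F (u + ez i) * F (u + ez j)))) + D u) :
    ∃ m : ℝ, ∑ u ∈ ibox lo hi, F u * H u * (h u - m) ^ 2 ≤ ∑ u ∈ ibox lo hi, F u * H u * D u := by
  have hH0 : ∀ u, 0 < H u := fun u => by simpa using hH.pos (-u)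
  have hW : 0 < ∑ u ∈ ibox lo hi, F u * H u :=
    sum_pos (fun u _ => mul_pos (hF u) (hH0 u)) ⟨lo, mem_ibox.2 fun k => ⟨le_rfl, hlo k⟩⟩
  obtain ⟨m, hm⟩ : ∃ m : ℝ, ∑ u ∈ ibox lo hi, F u * H u * (h u - m) = 0 := by
    refine ⟨(∑ u ∈ ibox lo hi, F u * H u * h u) / ∑ u ∈ ibox lo hi, F u * H u, ?_⟩
    simp only [mul_sub, sum_sub_distrib, ← sum_mul]
    rw [mul_div_cancel₀ _ hW.ne', sub_self]
  obtain ⟨ψ, hψ, hρ⟩ := exists_flow hlo (c := fun k u => F (u + ez k) * H u)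
    (fun k u => mul_pos (hF _) (hH0 _)) hm
  simp only [sub_add_cancel] at hρ
  obtain ⟨v, hv⟩ : ∃ v : (Fin N → ℤ) → Fin N → ℝ, ∀ u k, v u k = ψ k u * F (u + ez k) / F u :=
    ⟨_, fun _ _ => rfl⟩
  obtain ⟨w, hw⟩ : ∃ w : (Fin N → ℤ) → Fin N → ℝ,
    ∀ u k, w u k = ψ k (u - ez k) * H (u - ez k) / H u := ⟨_, fun _ _ => rfl⟩
  obtain ⟨X, hX⟩ : ∃ X : (Fin N → ℤ) → ℝ, ∀ u, X u = ∑ i, ∑ j, v u i * v u j *
    (F u * F (u + ez i + ez j) / (F (u + ez i) * F (u + ez j))) := ⟨_, fun _ => rfl⟩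
  have h1 : ∀ u ∈ ibox lo hi, h u - m = ∑ k, v u k - ∑ k, w u k := by
    intro u hu
    refine mul_left_cancel₀ (mul_pos (hF u) (hH0 u)).ne' ?_
    rw [hρ u hu, ← sum_sub_distrib, mul_sum]
    refine sum_congr rfl fun k _ => ?_
    have := (hF u).ne'
    have := (hH0 u).ne'
    rw [hv, hw]
    field_simp
  have h2 : ∑ u ∈ ibox lo hi, F u * H u * ((∑ k, v u k) ^ 2 - X u)
      ≤ ∑ u ∈ ibox lo hi, F u * H u * (h u - m) ^ 2 := by
    rw [← sub_nonneg, ← sum_sub_distrib]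
    refine (bochner hψ (fun u => (hF u).le) fun u => (hH0 u).le).trans (sum_le_sum fun u hu => ?_)
    have a1 := hH.psd (-u) (w u)
    simp only [neg_add_rev, neg_neg] at a1
    have a2 : ∑ k, ∑ l, (ψ k u * ψ l u * (F (u + ez k + ez l) * H u) -
        2 * (ψ k u * ψ l (u - ez l) * (F (u + ez k) * H (u - ez l))) +
        ψ k (u - ez k) * ψ l (u - ez l) * (F u * H (u - ez k - ez l)))
        = F u * H u * (X u - 2 * ((∑ k, v u k) * ∑ k, w u k)
          + ∑ i, ∑ j, w u i * w u j * (H u * H (-ez j + (-ez i + u))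
            / (H (-ez i + u) * H (-ez j + u)))) := by
      rw [hX, sum_mul_sum]
      simp only [mul_sum, ← sum_sub_distrib, ← sum_add_distrib]
      refine sum_congr rfl fun k _ => sum_congr rfl fun l _ => ?_
      rw [neg_add_eq_sub, neg_add_eq_sub, neg_add_eq_sub, hv, hv, hw, hw]
      have := (hF u).ne'
      have := (hH0 u).ne'
      have := (hF (u + ez k)).ne'
      have := (hF (u + ez l)).ne'
      have := (hH0 (u - ez k)).ne'
      have := (hH0 (u - ez l)).ne'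
      field_simp
    rw [a2, h1 u hu, ← mul_sub]
    exact mul_le_mul_of_nonneg_left (by linarith) (mul_pos (hF u) (hH0 u)).le
  have h3 : ∑ u ∈ ibox lo hi, F u * H u * (h u - m) ^ 2
      = ∑ u ∈ ibox lo hi, F u * H u * ∑ k, v u k * (h u - h (u + ez k)) := by
    have a1 : ∑ u ∈ ibox lo hi, F u * H u * (h u - m) ^ 2
        = ∑ u ∈ ibox lo hi, F u * H u * (h u - m) * h u
          - (∑ u ∈ ibox lo hi, F u * H u * (h u - m)) * m := by
      rw [sum_mul, ← sum_sub_distrib]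
      exact sum_congr rfl fun u _ => by ring
    rw [a1, hm, zero_mul, sub_zero, sum_congr rfl fun u hu => by rw [hρ u hu, sum_mul], sum_comm]
    simp only [mul_sum]
    rw [sum_comm (s := ibox lo hi)]
    refine sum_congr rfl fun k _ => ?_
    have a2 := sum_shift (lo := lo) (hi := hi) k
      (Θ := fun u => ψ k u * (F (u + ez k) * H u) * h (u + ez k)) fun u hu => by
        simp [hψ.bd k u hu]
    simp only [sub_add_cancel] at a2
    simp only [sub_mul, sum_sub_distrib, a2]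
    rw [← sum_sub_distrib]
    refine sum_congr rfl fun u _ => ?_
    have := (hF u).ne'
    rw [hv]
    field_simp
  have h4 : 2 * ∑ u ∈ ibox lo hi, F u * H u * ∑ k, v u k * (h u - h (u + ez k))
      ≤ ∑ u ∈ ibox lo hi, F u * H u * ((∑ k, v u k) ^ 2 - X u)
        + ∑ u ∈ ibox lo hi, F u * H u * D u := by
    rw [mul_sum, ← sum_add_distrib]
    refine sum_le_sum fun u hu => ?_
    rw [mul_left_comm, ← mul_add, hX]
    exact mul_le_mul_of_nonneg_left (hS u hu (v u)) (mul_pos (hF u) (hH0 u)).le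
  exact ⟨m, by linarith⟩

end Crest.Agent.R302B
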