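import Crest.Agent.R302B.Z0

/-!
# Row 302 (binary layer): Blk
Blocks of consecutive coordinates.  `fat t` glues `t` and `t + 1`.  `blk fat t` is the part of the block of `t` up to `t`, `th` the corresponding
sums, `dd fat t = e_t - [fat t] e_{t+1}` the dual basis, `bk fat j` the last point of the block of `j`.
-/

set_option autoImplicit false
set_option linter.unusedSectionVars false

noncomputable section

namespace Crest.Agent.R302B

open Finset Crest.Agent.R302

variable {N : ℕ}

/-- successor -/
def nx (t : Fin N) : Fin N := if h : t.val + 1 < N then ⟨t.val + 1, h⟩ else t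

/-- the last point is not glued -/
def FatOK (N : ℕ) (fat : ℕ → Bool) : Prop := ∀ t, fat t = true → t + 1 < N

/-- the part of the block of `t` up to `t` -/
def blk (fat : ℕ → Bool) (t : Fin N) : Finset (Fin N) :=
  univ.filter fun j => j ≤ t ∧ ∀ r ∈ Ico j.val t.val, fat r = true

/-- in-block prefix sums -/
def th {R : Type} [AddCommMonoid R] (fat : ℕ → Bool) (v : Fin N → R) (t : Fin N) : R := ∑ j ∈ blk fat t, v j

/-- `e_{t+1}` if `t` is fat -/
def up (fat : ℕ → Bool) (t : Fin N) : Fin N → ℤ := if fat t = true then ez (nx t) else 0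

/-- the dual basis -/
def dd (fat : ℕ → Bool) (t : Fin N) : Fin N → ℤ := ez t - up fat t

/-- the vector with given in-block prefix sums -/
def dv (fat : ℕ → Bool) (y : Fin N → ℤ) : Fin N → ℤ := ∑ t, y t • dd fat t

/-- the last point of the block of `j` -/
def bk (fat : ℕ → Bool) (j : Fin N) : Fin N :=
  (univ.filter fun t : Fin N => j ∈ blk fat t).max' ⟨j, by simp [blk]; omega⟩

/-- global prefix sums -/
def ps (v : Fin N → ℤ) (t : ℕ) : ℤ := ∑ j ∈ univ.filter (fun j : Fin N => j.val ≤ t), v j

variable {fat : ℕ → Bool}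

theorem nx_val {t : Fin N} (h : t.val + 1 < N) : (nx t).val = t.val + 1 := by
  simp [nx, h]

theorem mem_blk {t j : Fin N} : j ∈ blk fat t ↔ j ≤ t ∧ ∀ r, j.val ≤ r → r < t.val → fat r = true := by
  simp only [blk, mem_filter, mem_univ, true_and, mem_Ico, and_imp]

theorem self_mem_blk (t : Fin N) : t ∈ blk fat t :=
  mem_blk.2 ⟨le_rfl, fun r h1 h2 => absurd h2 (by omega)⟩

theorem blk_subset {t j : Fin N} (h : j ∈ blk fat t) : blk fat j ⊆ blk fat t := by
  intro k hk
  rw [mem_blk] at h hk ⊢
  refine ⟨hk.1.trans h.1, fun r h1 h2 => ?_⟩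
  by_cases c : r < j.val
  · exact hk.2 r h1 c
  · exact h.2 r (by omega) h2

theorem Blk_mid {t t' k : Fin N} (h : k ∈ blk fat t) (h' : k ∈ blk fat t') (hle : t ≤ t') :
    t ∈ blk fat t' := by
  rw [mem_blk] at h h' ⊢
  refine ⟨hle, fun r h1 h2 => h'.2 r ?_ h2⟩
  have := Fin.le_def.1 h.1
  omega

theorem blk_lam (fat : ℕ → Bool) (t t' : Fin N) :
    blk fat t ⊆ blk fat t' ∨ blk fat t' ⊆ blk fat t ∨ Disjoint (blk fat t) (blk fat t') := by
  by_cases h : Disjoint (blk fat t) (blk fat t')
  · exact Or.inr (Or.inr h)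
  · obtain ⟨k, hk, hk'⟩ := not_disjoint_iff.1 h
    rcases le_total t t' with c | c
    · exact Or.inl (blk_subset (Blk_mid hk hk' c))
    · exact Or.inr (Or.inl (blk_subset (Blk_mid hk' hk c)))

theorem fat_of_mem_blk {t j : Fin N} (h : j ∈ blk fat t) (hne : j ≠ t) : fat j = true := by
  rw [mem_blk] at h
  exact h.2 _ le_rfl (Fin.lt_def.1 (lt_of_le_of_ne h.1 hne))

theorem Blk_ind {P : Fin N → Prop} (h0 : ∀ t : Fin N, t.val = 0 → P t)
    (hs : ∀ s : Fin N, s.val + 1 < N → P s → P (nx s)) (t : Fin N) : P t := by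
  obtain ⟨n, hn⟩ := t
  induction n with
  | zero => exact h0 _ rfl
  | succ n ih =>
    have := hs ⟨n, by omega⟩ hn (ih (by omega))
    have e : nx (⟨n, by omega⟩ : Fin N) = ⟨n + 1, hn⟩ := Fin.ext (nx_val hn)
    rwa [e] at this

theorem Blk_first {t : Fin N} (h : t.val = 0) : blk fat t = {t} := by
  ext j
  rw [mem_blk, mem_singleton, Fin.le_def, Fin.ext_iff]
  constructor
  · intro h1; omega
  · intro h1; exact ⟨by omega, fun r _ _ => by omega⟩

theorem Blk_nx_notMem {s : Fin N} (h : s.val + 1 < N) : nx s ∉ blk fat s := by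
  rw [mem_blk, Fin.le_def, nx_val h]
  omega

theorem Blk_nx_fat {s : Fin N} (h : s.val + 1 < N) (hs : fat s = true) :
    blk fat (nx s) = insert (nx s) (blk fat s) := by
  ext j
  rw [mem_insert, mem_blk, mem_blk, Fin.le_def, Fin.le_def, Fin.ext_iff, nx_val h]
  constructor
  · rintro ⟨h1, h2⟩
    by_cases c : j.val = s.val + 1
    · exact Or.inl c
    · exact Or.inr ⟨by omega, fun r a b => h2 r a (by omega)⟩
  · rintro (h1 | ⟨h1, h2⟩)
    · exact ⟨by omega, fun r _ _ => by omega⟩
    · refine ⟨by omega, fun r a b => ?_⟩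
      by_cases c : r = s.val
      · rw [c]; exact hs
      · exact h2 r a (by omega)

theorem Blk_nx_thin {s : Fin N} (h : s.val + 1 < N) (hs : ¬ fat s = true) :
    blk fat (nx s) = {nx s} := by
  ext j
  rw [mem_singleton, mem_blk, Fin.le_def, Fin.ext_iff, nx_val h]
  constructor
  · rintro ⟨h1, h2⟩
    by_contra c
    exact hs (h2 _ (by omega) (by omega))
  · intro h1
    exact ⟨by omega, fun r _ _ => by omega⟩

theorem Blk_mem_bk (j : Fin N) : j ∈ blk fat (bk fat j) := by
  have := max'_mem (univ.filter fun t : Fin N => j ∈ blk fat t) ⟨j, by simp [self_mem_blk]⟩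
  exact (mem_filter.1 this).2

theorem Blk_le_bk {j t : Fin N} (h : j ∈ blk fat t) : t ≤ bk fat j :=
  le_max' (univ.filter fun t : Fin N => j ∈ blk fat t) t (mem_filter.2 ⟨mem_univ _, h⟩)

theorem bk_thin (hf : FatOK N fat) (j : Fin N) : fat (bk fat j) = false := by
  by_contra c
  have c' : fat (bk fat j) = true := by simpa using c
  have h := hf _ c'
  have h1 : j ∈ blk fat (nx (bk fat j)) := by
    rw [Blk_nx_fat h c']
    exact mem_insert_of_mem (Blk_mem_bk j)
  have h2 := Fin.le_def.1 (Blk_le_bk h1)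
  rw [nx_val h] at h2
  omega

theorem mem_blk_iff_bk (hf : FatOK N fat) {t : Fin N} (ht : fat t = false) (j : Fin N) :
    j ∈ blk fat t ↔ bk fat j = t := by
  have _ := hf
  constructor
  · intro h
    by_contra c
    have h1 := fat_of_mem_blk (Blk_mid h (Blk_mem_bk j) (Blk_le_bk h)) (Ne.symm c)
    rw [ht] at h1
    exact Bool.false_ne_true h1
  · rintro rfl
    exact Blk_mem_bk j

theorem Blk_sum_blocks {M : Type} [AddCommMonoid M] (hf : FatOK N fat) (F : Fin N → M) :
    ∑ k, F k = ∑ t ∈ univ.filter (fun t : Fin N => fat t = false), ∑ k ∈ blk fat t, F k := by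
  rw [← sum_fiberwise_of_maps_to (s := univ) (t := univ.filter (fun t : Fin N => fat t = false))
    (g := bk fat) (fun j _ => mem_filter.2 ⟨mem_univ _, bk_thin hf j⟩)]
  refine sum_congr rfl fun t ht => sum_congr ?_ fun _ _ => rfl
  ext j
  rw [mem_blk_iff_bk hf (mem_filter.1 ht).2]
  simp

section
variable {R : Type} [CommRing R]

theorem th_add (u v : Fin N → R) : th fat (u + v) = th fat u + th fat v := by
  funext t
  simp only [th, Pi.add_apply, sum_add_distrib]

theorem th_neg (u : Fin N → R) : th fat (-u) = -th fat u := by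
  funext t
  simp only [th, Pi.neg_apply, sum_neg_distrib]

theorem th_sub (u v : Fin N → R) : th fat (u - v) = th fat u - th fat v := by
  funext t
  simp only [th, Pi.sub_apply, sum_sub_distrib]

theorem th_smul (a : R) (u : Fin N → R) : th fat (a • u) = a • th fat u := by
  funext t
  simp only [th, Pi.smul_apply, smul_eq_mul, mul_sum]

theorem th_zero : th fat (0 : Fin N → R) = 0 := by
  funext t
  simp only [th, Pi.zero_apply, sum_const_zero]

theorem th_first (v : Fin N → R) {t : Fin N} (h : t.val = 0) : th fat v t = v t := by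
  rw [th, Blk_first h, sum_singleton]

theorem th_nx (v : Fin N → R) {t : Fin N} (h : t.val + 1 < N) :
    th fat v (nx t) = v (nx t) + if fat t = true then th fat v t else 0 := by
  split_ifs with c
  · rw [th, Blk_nx_fat h c, sum_insert (Blk_nx_notMem h), th]
  · rw [th, Blk_nx_thin h c, sum_singleton, add_zero]

/-- Abel summation inside a block -/
theorem sum_blk_mul_eq_th (v η : Fin N → R) (t : Fin N) :
    ∑ k ∈ blk fat t, v k * η k =
      th fat v t * η t + ∑ j ∈ (blk fat t).erase t, th fat v j * (η j - η (nx j)) := by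
  induction t using Blk_ind with
  | h0 t h => rw [th_first v h, Blk_first h]; simp
  | hs s h ih =>
    rw [th_nx v h]
    by_cases c : fat s = true
    · rw [if_pos c, Blk_nx_fat h c, sum_insert (Blk_nx_notMem h), erase_insert (Blk_nx_notMem h), ih,
        ← add_sum_erase _ _ (self_mem_blk s)]
      ring
    · rw [if_neg c, Blk_nx_thin h c]
      simp

/-- Abel summation -/
theorem sum_mul_eq_th (hf : FatOK N fat) (v η : Fin N → R) :
    ∑ k, v k * η k = ∑ t, th fat v t * (η t - if fat t = true then η (nx t) else 0) := by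
  rw [Blk_sum_blocks hf, Blk_sum_blocks hf
    (fun t => th fat v t * (η t - if fat t = true then η (nx t) else 0))]
  refine sum_congr rfl fun t ht => ?_
  have h1 : fat t = false := (mem_filter.1 ht).2
  rw [sum_blk_mul_eq_th, ← add_sum_erase _ _ (self_mem_blk t), if_neg (by simp [h1]), sub_zero]
  congr 1
  refine sum_congr rfl fun j hj => ?_
  rw [if_pos (fat_of_mem_blk (mem_erase.1 hj).2 (mem_erase.1 hj).1)]

theorem sum_th_thin (hf : FatOK N fat) (v : Fin N → R) :
    ∑ t ∈ univ.filter (fun t : Fin N => fat t = false), th fat v t = ∑ k, v k := by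
  rw [Blk_sum_blocks hf v]
  rfl

theorem sum_bk_mul (hf : FatOK N fat) (h v : Fin N → R) :
    ∑ j, h (bk fat j) * v j = ∑ t ∈ univ.filter (fun t : Fin N => fat t = false), h t * th fat v t := by
  rw [Blk_sum_blocks hf]
  refine sum_congr rfl fun t ht => ?_
  rw [th, mul_sum]
  refine sum_congr rfl fun j hj => ?_
  rw [(mem_blk_iff_bk hf (mem_filter.1 ht).2 j).1 hj]

theorem Blk_th_inj {u v : Fin N → R} (h : th fat u = th fat v) : u = v := by
  funext t
  induction t using Blk_ind with
  | h0 t h0 => rw [← th_first (fat := fat) u h0, ← th_first (fat := fat) v h0, h]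
  | hs s hs _ =>
    have h1 := th_nx (fat := fat) u hs
    have h2 := th_nx (fat := fat) v hs
    rw [h] at h1
    exact add_right_cancel (h1.symm.trans h2)

end

theorem Blk_ez_apply (k j : Fin N) : ez k j = if j = k then 1 else 0 := by
  simp [ez, Pi.single_apply]

theorem th_ez (k t : Fin N) : th fat (ez k) t = if k ∈ blk fat t then 1 else 0 := by
  simp only [th, Blk_ez_apply, sum_ite_eq']

theorem dd_fat {t : Fin N} (h : fat t = true) : dd fat t = rt t (nx t) := by
  rw [dd, up, if_pos h, rt_eq]

theorem dd_thin {t : Fin N} (h : fat t = false) : dd fat t = ez t := by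
  rw [dd, up, if_neg (by simp [h]), sub_zero]

theorem th_dd (hf : FatOK N fat) (t : Fin N) : th fat (dd fat t) = ez t := by
  funext u
  rw [Blk_ez_apply]
  by_cases c : fat t = true
  · have h := hf _ c
    rw [dd, up, if_pos c, th_sub, Pi.sub_apply, th_ez, th_ez]
    by_cases e : u = t
    · subst e
      rw [if_pos (self_mem_blk u), if_neg (Blk_nx_notMem h), if_pos rfl, sub_zero]
    · rw [if_neg e]
      have : t ∈ blk fat u ↔ nx t ∈ blk fat u := by
        constructor
        · intro h1
          rw [mem_blk, Fin.le_def] at h1 ⊢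
          rw [nx_val h]
          have : u.val ≠ t.val := fun h2 => e (Fin.ext h2)
          exact ⟨by omega, fun r a b => h1.2 r (by omega) b⟩
        · intro h1
          apply blk_subset h1
          rw [Blk_nx_fat h c]
          exact mem_insert_of_mem (self_mem_blk t)
      simp only [this, sub_self]
  · rw [dd_thin (by simpa using c), th_ez]
    by_cases e : u = t
    · subst e
      rw [if_pos (self_mem_blk u), if_pos rfl]
    · rw [if_neg e, if_neg fun h1 => c (fat_of_mem_blk h1 (Ne.symm e))]

theorem th_dv (hf : FatOK N fat) (y : Fin N → ℤ) : th fat (dv fat y) = y := by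
  funext u
  have h1 : th fat (dv fat y) u = ∑ t, y t * th fat (dd fat t) u := by
    simp only [th, dv, Finset.sum_apply, Pi.smul_apply, smul_eq_mul, mul_sum]
    exact sum_comm
  rw [h1]
  simp only [th_dd hf, Blk_ez_apply, mul_ite, mul_one, mul_zero, sum_ite_eq, mem_univ, if_true]

theorem dv_th (hf : FatOK N fat) (v : Fin N → ℤ) : dv fat (th fat v) = v :=
  Blk_th_inj (fat := fat) (th_dv hf _)

theorem dv_add (y y' : Fin N → ℤ) : dv fat (y + y') = dv fat y + dv fat y' := by
  simp only [dv, Pi.add_apply, add_smul, sum_add_distrib]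

theorem dv_neg (y : Fin N → ℤ) : dv fat (-y) = -dv fat y := by
  simp only [dv, Pi.neg_apply, neg_smul, sum_neg_distrib]

theorem dv_sub (y y' : Fin N → ℤ) : dv fat (y - y') = dv fat y - dv fat y' := by
  simp only [dv, Pi.sub_apply, sub_smul, sum_sub_distrib]

theorem dv_zero : dv fat (0 : Fin N → ℤ) = 0 := by
  simp only [dv, Pi.zero_apply, zero_smul, sum_const_zero]

theorem dv_ez (t : Fin N) : dv fat (ez t) = dd fat t := by
  simp only [dv, Blk_ez_apply, ite_smul, one_smul, zero_smul, sum_ite_eq', mem_univ, if_true]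

theorem dv_apply (hf : FatOK N fat) (y : Fin N → ℤ) (j : Fin N) :
    dv fat y j = y j - if h : 0 < j.val ∧ fat (j.val - 1) = true then y ⟨j.val - 1, by omega⟩ else 0 := by
  by_cases h0 : j.val = 0
  · rw [dif_neg (by omega), sub_zero, ← th_first (fat := fat) (dv fat y) h0, th_dv hf]
  · have hj := j.isLt
    have h : (⟨j.val - 1, by omega⟩ : Fin N).val + 1 < N := by simp only; omega
    have e : nx (⟨j.val - 1, by omega⟩ : Fin N) = j := Fin.ext (by rw [nx_val h]; simp only; omega)
    have h1 := th_nx (fat := fat) (dv fat y) h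
    rw [e, th_dv hf] at h1
    simp only at h1
    by_cases c : fat (j.val - 1) = true
    · rw [if_pos c] at h1
      rw [dif_pos ⟨by omega, c⟩, h1, add_sub_cancel_right]
    · rw [if_neg c] at h1
      rw [dif_neg fun h2 => c h2.2, h1, add_zero, sub_zero]

theorem Blk_step_nat {Φ : (Fin N → ℤ) → ℝ} {d : Fin N → ℤ} {η : ℝ}
    (h : ∀ u, Φ (u + d) ≤ Real.exp η * Φ u) (n : ℕ) (u : Fin N → ℤ) :
    Φ (u + (n : ℤ) • d) ≤ Real.exp (η * n) * Φ u := by
  induction n with
  | zero => simp
  | succ n ih =>
    have e : u + ((n + 1 : ℕ) : ℤ) • d = (u + (n : ℤ) • d) + d := by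
      push_cast
      rw [add_smul, one_smul, add_assoc]
    rw [e]
    calc _ ≤ Real.exp η * Φ (u + (n : ℤ) • d) := h _
      _ ≤ Real.exp η * (Real.exp (η * n) * Φ u) := mul_le_mul_of_nonneg_left ih (Real.exp_pos _).le
      _ = _ := by
        rw [← mul_assoc, ← Real.exp_add]
        congr 2
        push_cast
        ring

theorem Blk_step_int {Φ : (Fin N → ℤ) → ℝ} {d : Fin N → ℤ} {η : ℝ} (m : ℤ)
    (h : m ≠ 0 → ∀ u, Φ (u + d) ≤ Real.exp η * Φ u ∧ Φ (u - d) ≤ Real.exp η * Φ u) (u : Fin N → ℤ) :
    Φ (u + m • d) ≤ Real.exp (η * |(m : ℝ)|) * Φ u := by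
  by_cases h0 : m = 0
  · subst h0; simp
  have h' := h h0
  obtain ⟨n, rfl | rfl⟩ := m.eq_nat_or_neg
  · have := Blk_step_nat (fun u => (h' u).1) n u
    simpa using this
  · have := Blk_step_nat (d := -d) (fun u => by rw [← sub_eq_add_neg]; exact (h' u).2) n u
    simpa using this

/-- a function with one-step ratios along the dual basis -/
theorem le_exp_dv {Φ : (Fin N → ℤ) → ℝ} {η : Fin N → ℝ} (y : Fin N → ℤ)
    (h : ∀ t, y t ≠ 0 → ∀ u, Φ (u + dd fat t) ≤ Real.exp (η t) * Φ u ∧ Φ (u - dd fat t) ≤ Real.exp (η t) * Φ u)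
    (u : Fin N → ℤ) : Φ (u + dv fat y) ≤ Real.exp (∑ t, η t * |(y t : ℝ)|) * Φ u := by
  have key : ∀ s : Finset (Fin N), Φ (u + ∑ t ∈ s, y t • dd fat t) ≤
      Real.exp (∑ t ∈ s, η t * |(y t : ℝ)|) * Φ u := by
    intro s
    induction s using Finset.induction_on with
    | empty => simp
    | insert a s ha ih =>
      rw [sum_insert ha, sum_insert ha, add_comm (y a • dd fat a), ← add_assoc, Real.exp_add, mul_assoc]
      exact (Blk_step_int (y a) (h a) _).trans (mul_le_mul_of_nonneg_left ih (Real.exp_pos _).le)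
  exact key univ

theorem ps_eq (v : Fin N → ℤ) (t : ℕ) : ps v t = ∑ j ∈ pre (Equiv.refl (Fin N)) t, v j := rfl

theorem Blk_ps_first (v : Fin N → ℤ) {t : Fin N} (h : t.val = 0) : ps v t = v t := by
  have : univ.filter (fun j : Fin N => j.val ≤ t.val) = {t} := by
    ext j
    simp only [mem_filter, mem_univ, true_and, mem_singleton, Fin.ext_iff]
    omega
  rw [ps, this, sum_singleton]

theorem Blk_ps_nx (v : Fin N → ℤ) {s : Fin N} (h : s.val + 1 < N) :
    ps v (nx s) = v (nx s) + ps v s := by
  have : univ.filter (fun j : Fin N => j.val ≤ (nx s).val) =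
      insert (nx s) (univ.filter (fun j : Fin N => j.val ≤ s.val)) := by
    ext j
    simp only [mem_filter, mem_univ, true_and, mem_insert, Fin.ext_iff, nx_val h]
    omega
  rw [ps, this, sum_insert (by simp only [mem_filter, mem_univ, true_and, nx_val h]; omega), ps]

/-- in-block prefix sums are differences of global prefix sums -/
theorem th_eq_ps (v : Fin N → ℤ) (t : Fin N) :
    th fat v t = ps v t ∨ ∃ r < t.val, fat r = false ∧ th fat v t = ps v t - ps v r := by
  induction t using Blk_ind with
  | h0 t h => exact Or.inl (by rw [th_first v h, Blk_ps_first v h])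
  | hs s h ih =>
    rw [th_nx v h, Blk_ps_nx v h]
    by_cases c : fat s = true
    · rw [if_pos c]
      rcases ih with ih | ⟨r, h1, h2, h3⟩
      · exact Or.inl (by rw [ih])
      · exact Or.inr ⟨r, by rw [nx_val h]; omega, h2, by rw [h3]; ring⟩
    · rw [if_neg c]
      exact Or.inr ⟨s.val, by rw [nx_val h]; omega, by simpa using c, by ring⟩

/-- global prefix sums in terms of the in-block prefix sums -/
theorem ps_eq_th (v : Fin N → ℤ) (t : Fin N) :
    ps v t = th fat v t + ∑ r ∈ univ.filter (fun r : Fin N => fat r = false ∧ r < t), th fat v r := by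
  induction t using Blk_ind with
  | h0 t h =>
    have : univ.filter (fun r : Fin N => fat r = false ∧ r < t) = ∅ := by
      ext j
      simp only [mem_filter, mem_univ, true_and, notMem_empty, iff_false, not_and, Fin.lt_def]
      omega
    rw [this, sum_empty, add_zero, th_first v h, Blk_ps_first v h]
  | hs s h ih =>
    rw [th_nx v h, Blk_ps_nx v h, ih]
    by_cases c : fat s = true
    · have : univ.filter (fun r : Fin N => fat r = false ∧ r < nx s) =
          univ.filter (fun r : Fin N => fat r = false ∧ r < s) := by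
        ext j
        simp only [mem_filter, mem_univ, true_and, Fin.lt_def, nx_val h]
        constructor
        · rintro ⟨h1, h2⟩
          refine ⟨h1, ?_⟩
          by_contra h3
          have : j.val = s.val := by omega
          rw [this, c] at h1
          exact Bool.noConfusion h1
        · rintro ⟨h1, h2⟩
          exact ⟨h1, by omega⟩
      rw [if_pos c, this]
      ring
    · have : univ.filter (fun r : Fin N => fat r = false ∧ r < nx s) =
          insert s (univ.filter (fun r : Fin N => fat r = false ∧ r < s)) := by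
        ext j
        simp only [mem_filter, mem_univ, true_and, mem_insert, Fin.lt_def, nx_val h, Fin.ext_iff]
        constructor
        · rintro ⟨h1, h2⟩
          by_cases h3 : j.val = s.val
          · exact Or.inl h3
          · exact Or.inr ⟨h1, by omega⟩
        · rintro (h1 | ⟨h1, h2⟩)
          · exact ⟨by rw [h1]; simpa using c, by omega⟩
          · exact ⟨h1, by omega⟩
      rw [if_neg c, this, sum_insert (by simp)]
      ring

theorem Blk_sep {u a b : Fin N} (ha : a ∈ blk fat u) (hb : b ∉ blk fat u) :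
    (a.val ≤ u.val ∧ ¬ b.val ≤ u.val) ∨ ∃ r, fat r = false ∧ b.val ≤ r ∧ ¬ a.val ≤ r := by
  rw [mem_blk, Fin.le_def] at ha hb
  by_cases c : b.val ≤ u.val
  · right
    by_contra hc
    apply hb
    refine ⟨c, fun r h1 h2 => ?_⟩
    by_contra h3
    apply hc
    exact ⟨r, by simpa using h3, h1, fun h4 => h3 (ha.2 r h4 h2)⟩
  · exact Or.inl ⟨ha.1, c⟩

/-- if `blk fat u` separates `a` and `b`, then so does the prefix `u` or a thin prefix -/
theorem sep_blk {u a b : Fin N} (h : ¬ (a ∈ blk fat u ↔ b ∈ blk fat u)) :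
    ¬ (a.val ≤ u.val ↔ b.val ≤ u.val) ∨ ∃ r, fat r = false ∧ ¬ (a.val ≤ r ↔ b.val ≤ r) := by
  by_cases ha : a ∈ blk fat u
  · have hb : b ∉ blk fat u := fun hb => h ⟨fun _ => hb, fun _ => ha⟩
    rcases Blk_sep ha hb with h1 | ⟨r, h1, h2⟩
    · exact Or.inl (by tauto)
    · exact Or.inr ⟨r, h1, by tauto⟩
  · have hb : b ∈ blk fat u := by
      by_contra hb
      exact h ⟨fun h1 => absurd h1 ha, fun h1 => absurd h1 hb⟩
    rcases Blk_sep hb ha with h1 | ⟨r, h1, h2⟩
    · exact Or.inl (by tauto)
    · exact Or.inr ⟨r, h1, by tauto⟩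

end Crest.Agent.R302B
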