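import Crest.Agent.R302B.Z0

/-!
# Row 302 (binary layer): Ker
Flat-top kernels `ft σ r θ = ∏_{i < |θ| - σ} r i`.
* `hub_prod_le`: `∏_{i<m} hub l i ≤ exp (-(m - l) / l)` for `m ≥ l`.
* `hub_tail`: the term `|θ| = σ + l (1+k) + i` (`i ≥ 1`) is at most `exp (-k) exp (η (σ + l (1+k))) exp (-i / (2 l))`, and `∑_{i ≥ 1} exp (-i/(2l)) ≤ 2 l`.
* `nm1_tail`: `[c < |v|] ≤ y ^ (|v| - (c+1))` with `y = 1 / (4 N x) ≥ 1`, `Finset.prod_univ_sum`, `geo_sum`, `(1 + 1/N)^N ≤ 3` (treat `x = 0`, `N = 0` apart).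
* `card_nm1_le`: induction on `c`: a vector of norm `≤ c + 1` is a vector of norm `≤ c` plus `0` or `± ez j`.
-/

set_option autoImplicit false
set_option linter.unusedSectionVars false

noncomputable section

namespace Crest.Agent.R302B

open Finset Crest.Agent.R302

/-- flat-top kernel -/
def ft (σ : ℕ) (r : ℕ → ℝ) (θ : ℤ) : ℝ := ∏ i ∈ range (θ.natAbs - σ), r i

/-- admissible ratio sequences -/
structure Rat (r : ℕ → ℝ) (lo : ℝ) : Prop where
  pos : 0 < lo
  lo_le : ∀ i, lo ≤ r i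
  le_one : ∀ i, r i ≤ 1
  anti : ∀ i, r (i + 1) ≤ r i

/-- Huber ratios -/
def hub (l : ℕ) (i : ℕ) : ℝ := Real.exp (-((min i l : ℕ) : ℝ) / (l : ℝ) ^ 2)

/-- polynomial ratios -/
def pk (L k : ℕ) (i : ℕ) : ℝ := ((2 * (L : ℝ) - (min i L : ℕ) - 1) / (2 * (L : ℝ) - (min i L : ℕ))) ^ k

variable {σ : ℕ} {r : ℕ → ℝ} {lo : ℝ}

/-- the kernel as a function of `|θ|` -/
def Ker_g (σ : ℕ) (r : ℕ → ℝ) (n : ℕ) : ℝ := ∏ i ∈ range (n - σ), r i

/-- its ratios -/
def Ker_q (σ : ℕ) (r : ℕ → ℝ) (n : ℕ) : ℝ := if n < σ then 1 else r (n - σ)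

theorem Ker_ft (σ : ℕ) (r : ℕ → ℝ) (θ : ℤ) : ft σ r θ = Ker_g σ r θ.natAbs := rfl

theorem Ker_g_zero (σ : ℕ) (r : ℕ → ℝ) : Ker_g σ r 0 = 1 := by simp [Ker_g]

theorem Ker_g_succ (σ : ℕ) (r : ℕ → ℝ) (n : ℕ) : Ker_g σ r (n + 1) = Ker_g σ r n * Ker_q σ r n := by
  unfold Ker_g Ker_q
  split_ifs with h
  · rw [show n + 1 - σ = 0 by omega, show n - σ = 0 by omega, mul_one]
  · rw [show n + 1 - σ = n - σ + 1 by omega, prod_range_succ]

theorem Rat.Ker_pos (h : Rat r lo) (i : ℕ) : 0 < r i := h.pos.trans_le (h.lo_le i)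

theorem Rat.Ker_g_pos (h : Rat r lo) (σ n : ℕ) : 0 < Ker_g σ r n := prod_pos fun i _ => h.Ker_pos i

theorem Rat.Ker_g_le (h : Rat r lo) (σ n : ℕ) : Ker_g σ r n ≤ 1 :=
  prod_le_one (fun i _ => (h.Ker_pos i).le) fun i _ => h.le_one i

theorem Rat.Ker_lo_q (h : Rat r lo) (σ n : ℕ) : lo ≤ Ker_q σ r n := by
  unfold Ker_q
  split_ifs
  · exact (h.lo_le 0).trans (h.le_one 0)
  · exact h.lo_le _

theorem Rat.Ker_q_le (h : Rat r lo) (σ n : ℕ) : Ker_q σ r n ≤ 1 := by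
  unfold Ker_q
  split_ifs
  · exact le_rfl
  · exact h.le_one _

theorem Rat.Ker_q_anti (h : Rat r lo) (σ n : ℕ) : Ker_q σ r (n + 1) ≤ Ker_q σ r n := by
  by_cases h1 : n < σ
  · rw [show Ker_q σ r n = 1 from if_pos h1]
    exact h.Ker_q_le σ _
  · unfold Ker_q
    rw [if_neg h1, if_neg (by omega), show n + 1 - σ = n - σ + 1 by omega]
    exact h.anti _

theorem Ker_nb (σ : ℕ) (r : ℕ → ℝ) (t : ℤ) :
    (t = 0 ∧ ft σ r (t + 1) * ft σ r (t - 1) = Ker_q σ r 0 ^ 2 ∧ ft σ r t = 1) ∨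
      ∃ n, ft σ r t = Ker_g σ r n * Ker_q σ r n ∧ ft σ r (t + 1) * ft σ r (t - 1) =
        Ker_g σ r n ^ 2 * Ker_q σ r n * Ker_q σ r (n + 1) := by
  simp only [Ker_ft]
  rcases lt_trichotomy t 0 with h | h | h
  · refine Or.inr ⟨(t + 1).natAbs, ?_, ?_⟩
    · rw [← Ker_g_succ]
      congr 1
      omega
    · rw [show (t - 1).natAbs = (t + 1).natAbs + 1 + 1 by omega, Ker_g_succ, Ker_g_succ]
      ring
  · subst h
    refine Or.inl ⟨rfl, ?_, Ker_g_zero σ r⟩
    rw [show ((0 : ℤ) + 1).natAbs = 0 + 1 by rfl, show ((0 : ℤ) - 1).natAbs = 0 + 1 by rfl,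
      Ker_g_succ, Ker_g_zero]
    ring
  · refine Or.inr ⟨(t - 1).natAbs, ?_, ?_⟩
    · rw [← Ker_g_succ]
      congr 1
      omega
    · rw [show (t + 1).natAbs = (t - 1).natAbs + 1 + 1 by omega, Ker_g_succ, Ker_g_succ]
      ring

theorem Ker_tail {x : ℝ} (h0 : 0 ≤ x) (h1 : x < 1) (c : ℕ) (T : Finset ℤ)
    (hT : ∀ θ ∈ T, c < θ.natAbs) : ∑ θ ∈ T, x ^ (θ.natAbs - c) ≤ 2 * (x / (1 - x)) := by
  have hmaps : ∀ θ ∈ T, θ.natAbs ∈ Ico (c + 1) (T.sup Int.natAbs + 1) := fun θ hθ =>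
    mem_Ico.2 ⟨hT θ hθ, Nat.lt_succ_of_le (le_sup hθ)⟩
  rw [← sum_fiberwise_of_maps_to hmaps]
  calc _ ≤ ∑ n ∈ Ico (c + 1) (T.sup Int.natAbs + 1), 2 * x ^ (n - c) := by
        refine sum_le_sum fun n _ => ?_
        rw [sum_congr rfl (g := fun _ => x ^ (n - c)) fun θ hθ => by rw [(mem_filter.1 hθ).2],
          sum_const, nsmul_eq_mul]
        refine mul_le_mul_of_nonneg_right ?_ (pow_nonneg h0 _)
        have : T.filter (fun θ => θ.natAbs = n) ⊆ {(n : ℤ), -(n : ℤ)} := fun θ hθ => by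
          have := (mem_filter.1 hθ).2
          simp only [mem_insert, mem_singleton]
          omega
        exact_mod_cast (card_le_card this).trans card_le_two
    _ = 2 * (x * ∑ n ∈ Ico 0 (T.sup Int.natAbs + 1 - (c + 1)), x ^ n) := by
        rw [← mul_sum, sum_Ico_eq_sum_range, ← range_eq_Ico]
        congr 1
        rw [mul_sum]
        refine sum_congr rfl fun n _ => ?_
        rw [show c + 1 + n - c = n + 1 by omega, pow_succ']
    _ ≤ 2 * (x * (x ^ 0 / (1 - x))) := by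
        have := geom_sum_Ico_le_of_lt_one (m := 0) (n := T.sup Int.natAbs + 1 - (c + 1)) h0 h1
        gcongr
    _ = _ := by rw [pow_zero, mul_one_div]

theorem Ker_split (f : ℤ → ℝ) (c : ℕ) (T : Finset ℤ) {A B : ℝ} (hA : 0 ≤ A)
    (h1 : ∀ θ : ℤ, θ.natAbs ≤ c → f θ ≤ A)
    (h2 : ∑ θ ∈ T.filter (fun θ => ¬θ.natAbs ≤ c), f θ ≤ B) :
    ∑ θ ∈ T, f θ ≤ (2 * c + 1) * A + B := by
  rw [← sum_filter_add_sum_filter_not T fun θ => θ.natAbs ≤ c]
  refine add_le_add ((sum_le_card_nsmul _ _ A fun θ hθ => h1 θ (mem_filter.1 hθ).2).trans ?_) h2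
  rw [nsmul_eq_mul]
  refine mul_le_mul_of_nonneg_right ?_ hA
  have h3 : T.filter (fun θ => θ.natAbs ≤ c) ⊆ Icc (-(c : ℤ)) c := fun θ hθ => by
    have := (mem_filter.1 hθ).2
    rw [mem_Icc]
    omega
  have h4 : #(T.filter fun θ => θ.natAbs ≤ c) ≤ 2 * c + 1 := by
    refine (card_le_card h3).trans ?_
    rw [Int.card_Icc]
    omega
  exact_mod_cast h4

theorem Ker_geo {t : ℝ} (ht : 0 < t) : Real.exp (-t) / (1 - Real.exp (-t)) ≤ 1 / t := by
  have h1 : Real.exp (-t) < 1 := Real.exp_lt_one_iff.2 (by linarith)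
  rw [div_le_div_iff₀ (by linarith) ht]
  have h2 : (t + 1) * Real.exp (-t) ≤ Real.exp t * Real.exp (-t) :=
    mul_le_mul_of_nonneg_right (Real.add_one_le_exp t) (Real.exp_pos _).le
  rw [← Real.exp_add, add_neg_cancel, Real.exp_zero] at h2
  linarith

theorem Ker_ratio {L : ℕ} (hL : 2 ≤ L) (i : ℕ) :
    (2 * (L : ℝ) - (min i L : ℕ) - 1) / (2 * (L : ℝ) - (min i L : ℕ)) =
      1 - 1 / (2 * (L : ℝ) - (min i L : ℕ)) ∧ (L : ℝ) ≤ 2 * (L : ℝ) - (min i L : ℕ) ∧
      2 * (L : ℝ) - (min i L : ℕ) ≤ 2 * L := by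
  have h1 : ((min i L : ℕ) : ℝ) ≤ L := by exact_mod_cast min_le_right i L
  have h2 : (2 : ℝ) ≤ L := by exact_mod_cast hL
  have h3 : (0 : ℝ) ≤ ((min i L : ℕ) : ℝ) := Nat.cast_nonneg _
  refine ⟨?_, by linarith, by linarith⟩
  rw [sub_div, div_self (by linarith)]

theorem ft_neg (σ : ℕ) (r : ℕ → ℝ) (θ : ℤ) : ft σ r (-θ) = ft σ r θ := by
  simp [ft]

theorem ft_flat (r : ℕ → ℝ) {θ : ℤ} (h : |θ| ≤ σ) : ft σ r θ = 1 := by
  have : θ.natAbs - σ = 0 := by
    rw [abs_le] at h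
    omega
  rw [ft, this, prod_range_zero]

theorem ft_const (x : ℝ) (θ : ℤ) : ft 0 (fun _ => x) θ = x ^ θ.natAbs := by
  simp [ft]

theorem Rat.ft_pos (h : Rat r lo) (σ : ℕ) (θ : ℤ) : 0 < ft σ r θ := by
  exact h.Ker_g_pos σ _

theorem Rat.ft_le_one (h : Rat r lo) (σ : ℕ) (θ : ℤ) : ft σ r θ ≤ 1 := by
  exact h.Ker_g_le σ _

theorem Rat.lcz (h : Rat r lo) (σ : ℕ) : LCZ (ft σ r) := by
  refine ⟨h.ft_pos σ, fun t => ?_⟩
  rw [mul_comm]
  have hq : ∀ n, 0 ≤ Ker_q σ r n := fun n => h.pos.le.trans (h.Ker_lo_q σ n)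
  rcases Ker_nb σ r t with ⟨-, h1, h2⟩ | ⟨n, h1, h2⟩
  · rw [h1, h2]
    exact pow_le_pow_left₀ (hq 0) (h.Ker_q_le σ 0) 2
  · rw [h1, h2]
    have := mul_le_mul_of_nonneg_left (h.Ker_q_anti σ n)
      (mul_nonneg (sq_nonneg (Ker_g σ r n)) (hq n))
    linarith

theorem Rat.step (h : Rat r lo) (σ : ℕ) {θ θ' : ℤ} (hθ : |θ' - θ| ≤ 1) : lo * ft σ r θ ≤ ft σ r θ' := by
  rw [abs_le] at hθ
  have h1 : lo ≤ 1 := (h.lo_le 0).trans (h.le_one 0)
  simp only [Ker_ft]
  have h2 : θ'.natAbs = θ.natAbs + 1 ∨ θ'.natAbs = θ.natAbs ∨ θ.natAbs = θ'.natAbs + 1 := by omega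
  rcases h2 with h2 | h2 | h2
  · rw [h2, Ker_g_succ, mul_comm]
    exact mul_le_mul_of_nonneg_left (h.Ker_lo_q σ _) (h.Ker_g_pos σ _).le
  · rw [h2]
    exact mul_le_of_le_one_left (h.Ker_g_pos σ _).le h1
  · rw [h2]
    refine (mul_le_of_le_one_left (h.Ker_g_pos σ _).le h1).trans ?_
    rw [Ker_g_succ]
    exact mul_le_of_le_one_right (h.Ker_g_pos σ _).le (h.Ker_q_le σ _)

/-- decay in the non-flat part -/
theorem Rat.decay (h : Rat r lo) {hi : ℝ} (hhi : ∀ i, r i ≤ hi) (σ : ℕ) {θ : ℤ} (hθ : (σ : ℤ) ≤ θ) (j : ℕ) :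
    ft σ r (θ + j) ≤ hi ^ j * ft σ r θ := by
  have h0 : 0 ≤ hi := (h.Ker_pos 0).le.trans (hhi 0)
  induction j with
  | zero => simp
  | succ j ih =>
    rw [Ker_ft, show (θ + (j + 1 : ℕ)).natAbs = (θ + j).natAbs + 1 by omega, Ker_g_succ, ← Ker_ft,
      pow_succ', mul_assoc, mul_comm]
    refine mul_le_mul ?_ ih (h.ft_pos σ _).le h0
    unfold Ker_q
    rw [if_neg (by omega)]
    exact hhi _

theorem rat_const {x : ℝ} (h0 : 0 < x) (h1 : x ≤ 1) : Rat (fun _ => x) x := by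
  exact ⟨h0, fun _ => le_rfl, fun _ => h1, fun _ => le_rfl⟩

theorem rat_hub {l : ℕ} (hl : 0 < l) : Rat (hub l) (Real.exp (-1 / l)) := by
  have hl' : (0 : ℝ) < l := by exact_mod_cast hl
  refine ⟨Real.exp_pos _, fun i => Real.exp_le_exp.2 ?_, fun i => Real.exp_le_one_iff.2 ?_,
    fun i => Real.exp_le_exp.2 ?_⟩
  · have h1 : ((min i l : ℕ) : ℝ) ≤ l := by exact_mod_cast min_le_right i l
    rw [div_le_div_iff₀ hl' (by positivity)]
    nlinarith
  · exact div_nonpos_of_nonpos_of_nonneg (neg_nonpos.2 (Nat.cast_nonneg _)) (sq_nonneg _)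
  · have h1 : ((min i l : ℕ) : ℝ) ≤ (min (i + 1) l : ℕ) := by
      exact_mod_cast min_le_min_right l (Nat.le_succ i)
    exact div_le_div_of_nonneg_right (neg_le_neg h1) (sq_nonneg _)

theorem hub_second {l : ℕ} (hl : 0 < l) (σ : ℕ) (θ : ℤ) :
    Real.exp (-1 / (l : ℝ) ^ 2) * ft σ (hub l) θ ^ 2 ≤ ft σ (hub l) (θ + 1) * ft σ (hub l) (θ - 1) := by
  have hr := rat_hub hl
  have h0 : hub l 0 = 1 := by simp [hub]
  have he : Real.exp (-1 / (l : ℝ) ^ 2) ≤ 1 :=
    Real.exp_le_one_iff.2 (div_nonpos_of_nonpos_of_nonneg (by norm_num) (sq_nonneg _))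
  rcases Ker_nb σ (hub l) θ with ⟨-, h1, h2⟩ | ⟨n, h1, h2⟩
  · have h3 : Ker_q σ (hub l) 0 = 1 := by
      unfold Ker_q
      split_ifs
      · rfl
      · rw [Nat.zero_sub, h0]
    rw [h1, h2, h3]
    linarith
  · have h3 : Real.exp (-1 / (l : ℝ) ^ 2) * Ker_q σ (hub l) n ≤ Ker_q σ (hub l) (n + 1) := by
      by_cases hn : n < σ
      · have h4 : Ker_q σ (hub l) (n + 1) = 1 := by
          unfold Ker_q
          split_ifs
          · rfl
          · rw [show n + 1 - σ = 0 by omega, h0]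
        rw [h4, show Ker_q σ (hub l) n = 1 from if_pos hn, mul_one]
        exact he
      · unfold Ker_q hub
        rw [if_neg hn, if_neg (by omega), ← Real.exp_add, ← add_div]
        have h4 : ((min (n + 1 - σ) l : ℕ) : ℝ) ≤ (min (n - σ) l : ℕ) + 1 := by
          exact_mod_cast (show min (n + 1 - σ) l ≤ min (n - σ) l + 1 by omega)
        exact Real.exp_le_exp.2 (div_le_div_of_nonneg_right (by linarith) (sq_nonneg _))
    rw [h1, h2]
    have hq : 0 ≤ Ker_q σ (hub l) n := hr.pos.le.trans (hr.Ker_lo_q σ n)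
    have := mul_le_mul_of_nonneg_left h3 (mul_nonneg (sq_nonneg (Ker_g σ (hub l) n)) hq)
    linarith

theorem Ker_hub_prod {l : ℕ} (hl : 0 < l) (j : ℕ) :
    ∏ i ∈ range (l + j), hub l i ≤ Real.exp (-(j : ℝ) / l) := by
  have hr := rat_hub hl
  have hl' : (0 : ℝ) < l := by exact_mod_cast hl
  induction j with
  | zero =>
    simp only [Nat.cast_zero, neg_zero, zero_div, Real.exp_zero]
    exact prod_le_one (fun i _ => (hr.Ker_pos i).le) fun i _ => hr.le_one i
  | succ j ih =>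
    rw [← add_assoc, prod_range_succ]
    refine (mul_le_mul_of_nonneg_right ih (hr.Ker_pos _).le).trans (le_of_eq ?_)
    unfold hub
    rw [← Real.exp_add, min_eq_right (Nat.le_add_right l j)]
    congr 1
    push_cast
    field_simp
    ring

theorem hub_tail {l : ℕ} (hl : 0 < l) (σ k : ℕ) {η : ℝ} (h0 : 0 ≤ η) (h1 : 2 * l * η ≤ 1) (T : Finset ℤ)
    (hT : ∀ θ ∈ T, ((σ + l * (1 + k) : ℕ) : ℤ) < |θ|) :
    ∑ θ ∈ T, ft σ (hub l) θ * Real.exp (η * |(θ : ℝ)|) ≤
      4 * l * Real.exp (-k) * Real.exp (η * (σ + l * (1 + k) : ℕ)) := by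
  have hl' : (0 : ℝ) < l := by exact_mod_cast hl
  set c : ℕ := σ + l * (1 + k) with hc
  have ht : (0 : ℝ) < 1 / (2 * l) := by positivity
  have hT' : ∀ θ ∈ T, c < θ.natAbs := fun θ hθ => by
    have := hT θ hθ
    rw [← Int.natCast_natAbs] at this
    exact_mod_cast this
  have h2 := Ker_tail (Real.exp_pos (-(1 / (2 * (l : ℝ))))).le (Real.exp_lt_one_iff.2 (by linarith)) c T hT'
  have h3 := Ker_geo ht
  rw [one_div_one_div] at h3
  calc _ ≤ ∑ θ ∈ T, Real.exp (-k) * Real.exp (η * c) *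
          Real.exp (-(1 / (2 * (l : ℝ)))) ^ (θ.natAbs - c) := by
        refine sum_le_sum fun θ hθ => ?_
        obtain ⟨i, hi⟩ := Nat.exists_eq_add_of_le (hT' θ hθ).le
        have e1 : θ.natAbs - σ = l + (l * k + i) := by
          rw [hi, hc, mul_add]
          omega
        have e2 : |(θ : ℝ)| = c + i := by
          rw [← Int.cast_abs, ← Int.natCast_natAbs, hi]
          push_cast
          rfl
        rw [ft, e1, e2, hi, Nat.add_sub_cancel_left]
        refine (mul_le_mul_of_nonneg_right (Ker_hub_prod hl _) (Real.exp_pos _).le).trans ?_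
        rw [← Real.exp_nat_mul, ← Real.exp_add, ← Real.exp_add, ← Real.exp_add]
        refine Real.exp_le_exp.2 ?_
        have e3 : -((l * k + i : ℕ) : ℝ) / l = -k - 2 * (i * (1 / (2 * l))) := by
          push_cast
          field_simp
          ring
        have e4 : η ≤ 1 / (2 * l) := by
          rw [le_div_iff₀ (by positivity)]
          linarith
        have e5 := mul_le_mul_of_nonneg_left e4 (Nat.cast_nonneg (α := ℝ) i)
        rw [e3]
        linarith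
    _ = Real.exp (-k) * Real.exp (η * c) *
          ∑ θ ∈ T, Real.exp (-(1 / (2 * (l : ℝ)))) ^ (θ.natAbs - c) := by rw [mul_sum]
    _ ≤ Real.exp (-k) * Real.exp (η * c) * (2 * (2 * l)) :=
        mul_le_mul_of_nonneg_left (by linarith) (by positivity)
    _ = _ := by ring

theorem hub_sum {l : ℕ} (hl : 0 < l) (σ k : ℕ) {η : ℝ} (h0 : 0 ≤ η) (h1 : 2 * l * η ≤ 1) (T : Finset ℤ) :
    ∑ θ ∈ T, ft σ (hub l) θ * Real.exp (η * |(θ : ℝ)|) ≤
      (2 * σ + 1 + 6 * (l * (1 + k))) * Real.exp (η * (σ + l * (1 + k) : ℕ)) := by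
  have hr := rat_hub hl
  have hl' : (0 : ℝ) < l := by exact_mod_cast hl
  have h2 := Ker_split (fun θ => ft σ (hub l) θ * Real.exp (η * |(θ : ℝ)|)) (σ + l * (1 + k)) T
    (Real.exp_pos (η * (σ + l * (1 + k) : ℕ))).le
    (fun θ hθ => by
      refine (mul_le_of_le_one_left (Real.exp_pos _).le (hr.ft_le_one σ θ)).trans
        (Real.exp_le_exp.2 (mul_le_mul_of_nonneg_left ?_ h0))
      rw [← Int.cast_abs, ← Int.natCast_natAbs]
      exact_mod_cast hθ)
    (hub_tail hl σ k h0 h1 _ fun θ hθ => by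
      have := (mem_filter.1 hθ).2
      rw [← Int.natCast_natAbs]
      exact_mod_cast not_le.1 this)
  refine h2.trans ?_
  rw [← add_mul]
  refine mul_le_mul_of_nonneg_right ?_ (Real.exp_pos _).le
  have h3 : Real.exp (-k) ≤ 1 + k :=
    (Real.exp_le_one_iff.2 (neg_nonpos.2 (Nat.cast_nonneg k))).trans
      (le_add_of_nonneg_right (Nat.cast_nonneg k))
  have h4 := mul_le_mul_of_nonneg_left h3 hl'.le
  push_cast
  linarith

theorem geo_sum {x : ℝ} (h0 : 0 ≤ x) (h1 : x ≤ 1 / 2) (T : Finset ℤ) : ∑ θ ∈ T, x ^ θ.natAbs ≤ 1 + 4 * x := by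
  have h2 := Ker_split (fun θ => x ^ θ.natAbs) 0 T zero_le_one
    (fun θ _ => pow_le_one₀ h0 (by linarith))
    (Ker_tail h0 (by linarith) 0 _ fun θ hθ => not_le.1 (mem_filter.1 hθ).2)
  have h3 : x / (1 - x) ≤ 2 * x := by
    rw [div_le_iff₀ (by linarith)]
    nlinarith
  push_cast at h2
  linarith

theorem nm1_tail {ι : Type} [Fintype ι] [DecidableEq ι] {x : ℝ} (h0 : 0 ≤ x) (h1 : 4 * Fintype.card ι * x ≤ 1) (c : ℕ)
    (T : Finset (ι → ℤ)) (hT : ∀ v ∈ T, c < nm1 v) :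
    ∑ v ∈ T, x ^ nm1 v ≤ 3 * (4 * Fintype.card ι * x) ^ (c + 1) := by
  rcases Nat.eq_zero_or_pos (Fintype.card ι) with hN | hN
  · have := Fintype.card_eq_zero_iff.1 hN
    rw [sum_eq_zero fun v hv => absurd (hT v hv) (by simp [nm1])]
    positivity
  have hN' : (1 : ℝ) ≤ Fintype.card ι := by exact_mod_cast hN
  set N : ℝ := (Fintype.card ι : ℝ) with hNd
  have hz0 : 0 ≤ 1 / (4 * N) := by positivity
  have hz1 : 1 / (4 * N) ≤ 1 / 2 := one_div_le_one_div_of_le (by norm_num) (by linarith)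
  have hx : x = 4 * N * x * (1 / (4 * N)) := by field_simp
  have hy0 : 0 ≤ 4 * N * x := by positivity
  calc _ ≤ ∑ v ∈ T, (4 * N * x) ^ (c + 1) * ∏ j, (1 / (4 * N)) ^ (v j).natAbs := by
        refine sum_le_sum fun v hv => ?_
        rw [prod_pow_eq_pow_sum]
        calc x ^ nm1 v = (4 * N * x) ^ nm1 v * (1 / (4 * N)) ^ nm1 v := by rw [← mul_pow, ← hx]
          _ ≤ _ := mul_le_mul_of_nonneg_right (pow_le_pow_of_le_one hy0 h1 (hT v hv))
            (pow_nonneg hz0 _)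
    _ ≤ (4 * N * x) ^ (c + 1) * 3 := by
        rw [← mul_sum]
        refine mul_le_mul_of_nonneg_left ?_ (pow_nonneg hy0 _)
        calc _ ≤ ∑ v ∈ Fintype.piFinset fun j => T.image fun v => v j,
              ∏ j, (1 / (4 * N)) ^ (v j).natAbs :=
              sum_le_sum_of_subset_of_nonneg
                (fun v hv => Fintype.mem_piFinset.2 fun j => mem_image_of_mem _ hv)
                fun v _ _ => prod_nonneg fun j _ => pow_nonneg hz0 _
          _ = ∏ j, ∑ θ ∈ T.image fun v => v j, (1 / (4 * N)) ^ θ.natAbs :=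
              (prod_univ_sum (fun j => T.image fun v => v j)
                fun _ θ => (1 / (4 * N)) ^ θ.natAbs).symm
          _ ≤ ∏ _j : ι, Real.exp (1 / N) := by
              refine prod_le_prod (fun j _ => sum_nonneg fun θ _ => pow_nonneg hz0 _) fun j _ => ?_
              refine (geo_sum hz0 hz1 _).trans ?_
              have e : 4 * (1 / (4 * N)) = 1 / N := by field_simp
              rw [e, add_comm]
              exact Real.add_one_le_exp _
          _ = Real.exp 1 := by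
              rw [prod_const, card_univ, ← Real.exp_nat_mul, ← hNd]
              congr 1
              field_simp
          _ ≤ 3 := by linarith [Real.exp_one_lt_d9]
    _ = _ := mul_comm _ _

theorem card_nm1_le {ι : Type} [Fintype ι] [DecidableEq ι] (c : ℕ) (T : Finset (ι → ℤ)) (hT : ∀ v ∈ T, nm1 v ≤ c) :
    #T ≤ (2 * Fintype.card ι + 1) ^ c := by
  induction c generalizing T with
  | zero =>
    rw [pow_zero]
    refine card_le_one.2 fun v hv w hw => funext fun j => ?_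
    have h1 := sum_eq_zero_iff.1 (Nat.le_zero.1 (hT v hv)) j (mem_univ j)
    have h2 := sum_eq_zero_iff.1 (Nat.le_zero.1 (hT w hw)) j (mem_univ j)
    omega
  | succ c ih =>
    set S : Finset (ι → ℤ) := insert 0 (univ.image (fun j => ez j) ∪ univ.image fun j => -ez j)
      with hS
    have hc : #S ≤ 2 * Fintype.card ι + 1 := by
      refine (card_insert_le _ _).trans (Nat.succ_le_succ ((card_union_le _ _).trans ?_))
      have h1 := card_image_le (s := (univ : Finset ι)) (f := fun j => ez j)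
      have h2 := card_image_le (s := (univ : Finset ι)) (f := fun j => -ez j)
      rw [card_univ] at h1 h2
      omega
    have hsub : T ⊆ S.biUnion fun s => T.filter fun v => nm1 (v - s) ≤ c := by
      intro v hv
      rw [mem_biUnion]
      by_cases h0 : ∀ j, v j = 0
      · refine ⟨0, mem_insert_self _ _, mem_filter.2 ⟨hv, ?_⟩⟩
        simp [nm1, h0]
      · obtain ⟨j, hj⟩ := not_forall.1 h0
        have key : ∀ s : ι → ℤ, (∀ i, i ≠ j → s i = 0) → (v j - s j).natAbs < (v j).natAbs →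
            nm1 (v - s) ≤ c := by
          intro s h1 h2
          refine Nat.le_of_lt_succ (lt_of_lt_of_le ?_ (hT v hv))
          refine sum_lt_sum (fun i _ => ?_) ⟨j, mem_univ j, h2⟩
          by_cases hi : i = j
          · rw [hi]
            exact h2.le
          · rw [Pi.sub_apply, h1 i hi, sub_zero]
        rcases lt_or_gt_of_ne hj with h1 | h1
        · refine ⟨-ez j, mem_insert_of_mem (mem_union_right _ (mem_image_of_mem _ (mem_univ j))),
            mem_filter.2 ⟨hv, key _ (fun i hi => by simp [ez, hi]) ?_⟩⟩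
          simp only [ez, Pi.neg_apply, Pi.single_eq_same]
          omega
        · refine ⟨ez j, mem_insert_of_mem (mem_union_left _ (mem_image_of_mem _ (mem_univ j))),
            mem_filter.2 ⟨hv, key _ (fun i hi => by simp [ez, hi]) ?_⟩⟩
          simp only [ez, Pi.single_eq_same]
          omega
    refine (card_le_card hsub).trans (card_biUnion_le.trans ?_)
    refine (sum_le_card_nsmul _ _ ((2 * Fintype.card ι + 1) ^ c) fun s _ => ?_).trans ?_
    · rw [← card_image_of_injective _ (sub_left_injective (b := s))]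
      refine ih _ fun w hw => ?_
      obtain ⟨v, hv, rfl⟩ := mem_image.1 hw
      exact (mem_filter.1 hv).2
    · rw [smul_eq_mul, pow_succ']
      exact Nat.mul_le_mul_right _ hc

theorem rat_pk {L : ℕ} (hL : 2 ≤ L) (k : ℕ) : Rat (pk L k) (Real.exp (-(2 * k) / L)) := by
  have h2 : (2 : ℝ) ≤ L := by exact_mod_cast hL
  have hlo : ∀ i, 1 - 1 / (L : ℝ) ≤ 1 - 1 / (2 * (L : ℝ) - (min i L : ℕ)) := fun i =>
    sub_le_sub_left (one_div_le_one_div_of_le (by linarith) (Ker_ratio hL i).2.1) 1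
  have ht : 1 / (L : ℝ) ≤ 1 / 2 := one_div_le_one_div_of_le (by norm_num) h2
  have ht0 : 0 < 1 / (L : ℝ) := by positivity
  refine ⟨Real.exp_pos _, fun i => ?_, fun i => ?_, fun i => ?_⟩
  · have e : -(2 * (k : ℝ)) / L = k * -(2 * (1 / L)) := by ring
    rw [e, Real.exp_nat_mul, pk, (Ker_ratio hL i).1]
    refine pow_le_pow_left₀ (Real.exp_pos _).le (le_trans ?_ (hlo i)) k
    rw [Real.exp_neg, inv_le_iff_one_le_mul₀ (Real.exp_pos _)]
    have h3 := mul_le_mul_of_nonneg_left (Real.add_one_le_exp (2 * (1 / (L : ℝ))))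
      (show 0 ≤ 1 - 1 / (L : ℝ) by linarith)
    nlinarith
  · rw [pk, (Ker_ratio hL i).1]
    refine pow_le_one₀ (le_trans (by linarith) (hlo i)) (sub_le_self _ ?_)
    exact one_div_nonneg.2 (le_trans (by linarith) (Ker_ratio hL i).2.1)
  · rw [pk, pk, (Ker_ratio hL i).1, (Ker_ratio hL (i + 1)).1]
    refine pow_le_pow_left₀ (le_trans (by linarith) (hlo _)) (sub_le_sub_left
      (one_div_le_one_div_of_le (lt_of_lt_of_le (by linarith) (Ker_ratio hL (i + 1)).2.1) ?_) 1) k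
    have h1 : ((min i L : ℕ) : ℝ) ≤ (min (i + 1) L : ℕ) := by
      exact_mod_cast min_le_min_right L (Nat.le_succ i)
    linarith

theorem pk_le {L : ℕ} (hL : 2 ≤ L) (k i : ℕ) : pk L k i ≤ Real.exp (-k / (2 * L)) := by
  have h2 : (2 : ℝ) ≤ L := by exact_mod_cast hL
  have e : -(k : ℝ) / (2 * L) = k * -(1 / (2 * L)) := by ring
  have h3 := (Ker_ratio hL i).2
  rw [e, Real.exp_nat_mul, pk, (Ker_ratio hL i).1]
  refine pow_le_pow_left₀ (sub_nonneg.2 ?_) ?_ k
  · rw [div_le_one (by linarith)]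
    linarith
  · have h4 := one_div_le_one_div_of_le (by linarith) h3.2
    linarith [Real.add_one_le_exp (-(1 / (2 * (L : ℝ))))]

theorem ft_pk {L : ℕ} (hL : 2 ≤ L) (k σ : ℕ) {θ : ℤ} (h : θ.natAbs ≤ σ + L) :
    ft σ (pk L k) θ = (((2 * L - (θ.natAbs - σ) : ℕ) : ℝ) / (2 * L)) ^ k := by
  have h2 : (2 : ℝ) ≤ L := by exact_mod_cast hL
  have key : ∀ m ≤ L, ∏ i ∈ range m, pk L k i = (((2 * L - m : ℕ) : ℝ) / (2 * L)) ^ k := by
    intro m hm
    induction m with
    | zero =>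
      rw [prod_range_zero, Nat.sub_zero]
      push_cast
      rw [div_self (by linarith), one_pow]
    | succ m ih =>
      have hm' : (m : ℝ) + 1 ≤ L := by exact_mod_cast hm
      rw [prod_range_succ, ih (by omega), pk, ← mul_pow, min_eq_left (by omega),
        Nat.cast_sub (by omega), Nat.cast_sub (by omega)]
      congr 1
      push_cast
      have : (2 * (L : ℝ) - m) ≠ 0 := by linarith
      field_simp
      ring
  exact key _ (by omega)

theorem pk_sum {L k : ℕ} (hL : 2 ≤ L) (hk : 0 < k) (σ : ℕ) (T : Finset ℤ) :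
    ∑ θ ∈ T, ft σ (pk L k) θ ≤ 2 * σ + 1 + 4 * L / k := by
  have h2 : (2 : ℝ) ≤ L := by exact_mod_cast hL
  have hk' : (0 : ℝ) < k := by exact_mod_cast hk
  have hr := rat_pk hL k
  have ht : (0 : ℝ) < k / (2 * L) := by positivity
  have h3 := Ker_geo ht
  have h5 : ∀ θ : ℤ, ft σ (pk L k) θ ≤ Real.exp (-((k : ℝ) / (2 * L))) ^ (θ.natAbs - σ) := by
    intro θ
    refine (prod_le_prod (fun i _ => (hr.Ker_pos i).le) fun i _ => pk_le hL k i).trans_eq ?_
    rw [prod_const, card_range, neg_div]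
  have h4 := Ker_split (ft σ (pk L k)) σ T zero_le_one (fun θ _ => hr.ft_le_one σ θ)
    (le_trans (sum_le_sum fun θ _ => h5 θ)
    (Ker_tail (Real.exp_pos (-((k : ℝ) / (2 * L)))).le (Real.exp_lt_one_iff.2 (by linarith)) σ _
      fun θ hθ => not_le.1 (mem_filter.1 hθ).2))
  have e : 4 * (L : ℝ) / k = 2 * (1 / (k / (2 * L))) := by
    field_simp
    ring
  rw [e]
  linarith

end Crest.Agent.R302B
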