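import Crest.Agent.R302B.Frame
import Crest.Agent.R302B.Ker

/-!
# Row 302 (binary layer): from weighted sums over the sector `0` to the count
-/

set_option autoImplicit false
set_option linter.unusedSectionVars false

noncomputable section

namespace Crest.Agent.R302B

open Finset Crest.Agent.R302

variable {n N : ℕ} {g : Finset (Fin N) → ℤ} {cp : Fin N → Fin n} {μ : ℕ → ℤ} {K : ℕ} {fat : ℕ → Bool}

/-- a sum over the bases of a function of the block sums of the difference vector -/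
theorem sum_th_eq (hf : FatOK n fat) (g : Finset (Fin N) → ℤ) (cp : Fin N → Fin n) (T : Finset (Fin n → ℤ))
    (φ : (Fin n → ℤ) → ℝ) :
    ∑ s ∈ (bases g).filter (fun s => th fat (psh cp s) ∈ T), φ (th fat (psh cp s)) =
      ∑ y ∈ T, ng g cp (dv fat y) * φ y := by
  rw [← sum_fiberwise_of_maps_to (g := fun s => th fat (psh cp s)) (t := T) fun s hs => (mem_filter.1 hs).2]
  refine sum_congr rfl fun y hy => ?_
  rw [sum_congr rfl (g := fun _ => φ y) fun s hs => by rw [(mem_filter.1 hs).2], sum_const, nsmul_eq_mul, ng]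
  congr 3
  ext s
  simp only [mem_filter]
  constructor
  · rintro ⟨⟨h1, -⟩, rfl⟩
    exact ⟨h1, (dv_th hf _).symm⟩
  · rintro ⟨h1, h2⟩
    have : th fat (psh cp s) = y := by rw [h2, th_dv hf]
    exact ⟨⟨h1, this ▸ hy⟩, this⟩

theorem Flat.dv (h : Flat g cp μ K) (hf : FatOK n fat) {δ : ℝ} (h0 : 0 ≤ δ) (h1 : δ ≤ 1) {y : Fin n → ℤ}
    (hy : ∀ u : Fin n, fat u = false → y u = 0) (hK : ∀ u : Fin n, K * |(y u : ℝ)| ≤ δ * μ u) :
    (ng g cp (dv fat y) : ℝ) ≤ ng g cp 0 * Real.exp δ ∧ (ng g cp 0 : ℝ) ≤ ng g cp (dv fat y) * Real.exp δ := by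
  refine h δ _ h1 ?_ (fun u hu => ?_) h0
  · rw [← sum_th_thin hf, th_dv hf]
    exact sum_eq_zero fun u hu => hy u (mem_filter.1 hu).2
  · have e := ps_eq_th (fat := fat) (R302B.dv fat y) ⟨u, by omega⟩
    rw [th_dv hf, sum_eq_zero fun r hr => hy r (mem_filter.1 hr).2.1, add_zero] at e
    rw [show ps (R302B.dv fat y) u = y ⟨u, by omega⟩ from e]
    exact hK ⟨u, by omega⟩

/-- weighted sums over the sector `0`: `r u` is the radius (`0` for thin `u`), `κ u` the weight -/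
theorem Flat.sum (h : Flat g cp μ K) (hf : FatOK n fat) {δ : ℝ} (h0 : 0 ≤ δ) (h1 : δ ≤ 1) {r : Fin n → ℕ}
    (hr : ∀ u : Fin n, fat u = false → r u = 0) (hK : ∀ u : Fin n, (K * r u : ℝ) ≤ δ * μ u)
    {κ : Fin n → ℤ → ℝ} (hκ : ∀ u θ, 0 ≤ κ u θ) :
    ∑ s ∈ (bases g).filter (fun s => ∀ u, |th fat (psh cp s) u| ≤ r u), ∏ u, κ u (th fat (psh cp s) u) ≤
        ng g cp 0 * Real.exp δ * ∏ u, ∑ θ ∈ Icc (-(r u : ℤ)) (r u), κ u θ ∧
      ng g cp 0 * ∏ u, ∑ θ ∈ Icc (-(r u : ℤ)) (r u), κ u θ ≤ Real.exp δ *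
        ∑ s ∈ (bases g).filter (fun s => ∀ u, |th fat (psh cp s) u| ≤ r u), ∏ u, κ u (th fat (psh cp s) u) := by
  have e : (bases g).filter (fun s => ∀ u, |th fat (psh cp s) u| ≤ r u) =
      (bases g).filter (fun s => th fat (psh cp s) ∈ Fintype.piFinset fun u => Icc (-(r u : ℤ)) (r u)) :=
    filter_congr fun s _ => by simp only [Fintype.mem_piFinset, mem_Icc, abs_le]
  have key : ∀ y ∈ Fintype.piFinset fun u => Icc (-(r u : ℤ)) (r u),
      (ng g cp (R302B.dv fat y) : ℝ) ≤ ng g cp 0 * Real.exp δ ∧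
        (ng g cp 0 : ℝ) ≤ ng g cp (R302B.dv fat y) * Real.exp δ := by
    intro y hy
    simp only [Fintype.mem_piFinset, mem_Icc, ← abs_le] at hy
    refine h.dv hf h0 h1 (fun u hu => ?_) fun u => le_trans ?_ (hK u)
    · have := hy u
      rw [hr u hu] at this
      simpa using this
    · exact mul_le_mul_of_nonneg_left (by exact_mod_cast hy u) (Nat.cast_nonneg _)
  rw [e, sum_th_eq hf g cp _ fun y => ∏ u, κ u (y u), prod_univ_sum, mul_sum, mul_sum, mul_sum]
  refine ⟨sum_le_sum fun y hy => ?_, sum_le_sum fun y hy => ?_⟩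
  · exact mul_le_mul_of_nonneg_right (key y hy).1 (prod_nonneg fun u _ => hκ u _)
  · rw [← mul_assoc, mul_comm (Real.exp δ)]
    exact mul_le_mul_of_nonneg_right (key y hy).2 (prod_nonneg fun u _ => hκ u _)

/-- the number of bases whose difference vector lies in the ball -/
theorem Flat.card (h : Flat g cp μ K) (hf : FatOK n fat) {δ : ℝ} (h0 : 0 ≤ δ) (h1 : δ ≤ 1) {r : Fin n → ℕ}
    (hr : ∀ u : Fin n, fat u = false → r u = 0) (hK : ∀ u : Fin n, (K * r u : ℝ) ≤ δ * μ u) :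
    (#((bases g).filter fun s => ∀ u, |th fat (psh cp s) u| ≤ r u) : ℝ) ≤
        ng g cp 0 * Real.exp δ * ∏ u, (2 * (r u : ℝ) + 1) ∧
      ng g cp 0 * ∏ u, (2 * (r u : ℝ) + 1) ≤
        Real.exp δ * #((bases g).filter fun s => ∀ u, |th fat (psh cp s) u| ≤ r u) := by
  have := h.sum hf h0 h1 hr hK (κ := fun _ _ => 1) fun _ _ => zero_le_one
  have e : ∀ u, ∑ _θ ∈ Icc (-(r u : ℤ)) (r u), (1 : ℝ) = 2 * (r u : ℝ) + 1 := fun u => by
    rw [sum_const, Int.card_Icc, nsmul_eq_mul, mul_one,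
      show ((r u : ℤ) + 1 - -(r u : ℤ)).toNat = 2 * r u + 1 by omega]
    push_cast
    rfl
  simpa only [e, prod_const_one, sum_const, nsmul_eq_mul, mul_one] using this

end Crest.Agent.R302B
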