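import Crest.Agent.R302B.Mod2
import Crest.Agent.R302B.CountA

/-!
# Row 302 (binary layer): Cnt
The final count.  Group the states of sector `0` by `y = gth s` (fat-supported; `psh cp s = dv y`, `ps (dv y) u = y u`); `Flat` with `δ = 1 / (8 S)` applies to all
`|y u| ≤ 2 sg u`; `pk_sum`, `Finset.prod_univ_sum`.
-/

set_option autoImplicit false
set_option linter.unusedSectionVars false

noncomputable section

namespace Crest.Agent.R302B

open Finset Crest.Agent.R302

variable {n N R S j : ℕ} {m : Md n N} {h : Fin n → ℕ}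


namespace Md

theorem cnt_iff (r : Fin n → ℕ) (s : Fin N → ℤ) :
    (∀ u, |th (m.fm S) (psh m.cp s) u| ≤ ((if m.fm S u = true then r u else 0 : ℕ) : ℤ)) ↔
      m.sec S s = 0 ∧ ∀ u : Fin n, m.fm S u = true → (m.gth S s u).natAbs ≤ r u := by
  simp only [sec, funext_iff, thn, Pi.zero_apply, ← forall_and]
  refine forall_congr' fun u => ?_
  unfold gth
  split_ifs with c
  · simp only [c, true_and, forall_const, abs_le]
    omega
  · simp [c]

theorem OK.flat (hm : m.OK R) (hS : Sz N R S) {K : ℕ} (hF : Flat m.g m.cp m.μ K) (hK : K ≤ S) :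
    (1 - 1 / (S : ℝ)) * (m.ball S * ng m.g m.cp 0) ≤ m.Zf S ∧
      (m.Zf S : ℝ) ≤ (1 + 1 / (S : ℝ)) * (m.ball S * ng m.g m.cp 0) ∧ m.n0' S 0 ≤ 2 * m.Zf S := by
  classical
  have S0 : (4096 : ℝ) ≤ S := by exact_mod_cast hS.big
  have S1 : (0 : ℝ) < S := by linarith
  set δ : ℝ := 1 / (8 * S) with hδ
  have δ0 : 0 ≤ δ := by positivity
  have δ1 : δ ≤ 1 / 8 := one_div_le_one_div_of_le (by norm_num) (by linarith)
  have hK' : (K : ℝ) ≤ S := by exact_mod_cast hK
  have rad : ∀ (a : ℕ), a ≤ 2 → ∀ u : Fin n,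
      (K * ((if m.fm S u = true then a * m.sg S u else 0 : ℕ) : ℝ)) ≤ δ * m.μ u := by
    intro a ha u
    have μ0 : (0 : ℝ) ≤ m.μ u := by exact_mod_cast hm.fr.nonneg u
    split_ifs with c
    · have c1 := (sg_ge hS c).2.2
      have a2 : (a : ℝ) ≤ 2 := by exact_mod_cast ha
      have c2 : (16 : ℝ) * S ^ 2 ≤ S ^ 6 := by
        calc (16 : ℝ) * S ^ 2 ≤ S ^ 4 * S ^ 2 := by
              gcongr
              calc (16 : ℝ) = 2 ^ 4 := by norm_num
                _ ≤ _ := by gcongr; linarith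
          _ = _ := by ring
      rw [hδ, one_div_mul_eq_div, le_div_iff₀ (by positivity)]
      push_cast
      calc (K : ℝ) * (a * m.sg S u) * (8 * S) ≤ S * (2 * m.sg S u) * (8 * S) := by gcongr
        _ = 16 * S ^ 2 * m.sg S u := by ring
        _ ≤ S ^ 6 * m.sg S u := by gcongr
        _ ≤ _ := c1
    · simp only [Nat.cast_zero, mul_zero]
      positivity
  have c := hF.card (m.fm_ok S) δ0 (by linarith) (r := fun u => if m.fm S u = true then 1 * m.sg S u else 0)
    (fun u hu => by simp [hu]) (rad 1 (by norm_num))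
  have eZ : #((bases m.g).filter fun s => ∀ u, |th (m.fm S) (psh m.cp s) u| ≤
      ((if m.fm S u = true then 1 * m.sg S u else 0 : ℕ) : ℤ)) = m.Zf S := by
    unfold Zf
    congr 1
    ext s
    simp only [mem_filter, cnt_iff, Fl, one_mul]
  have eB : ∏ u : Fin n, (2 * ((if m.fm S u = true then 1 * m.sg S u else 0 : ℕ) : ℝ) + 1) = m.ball S := by
    unfold ball
    push_cast
    exact prod_congr rfl fun u _ => by split_ifs <;> simp
  rw [eZ, eB] at c
  have B0 : (0 : ℝ) ≤ m.ball S * ng m.g m.cp 0 := by positivity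
  have Z0 : (0 : ℝ) ≤ m.Zf S := Nat.cast_nonneg _
  have x1 : Real.exp δ ≤ 1 + 1 / S := by
    have a := Real.abs_exp_sub_one_le (x := δ) (by rw [abs_of_nonneg δ0]; linarith)
    rw [abs_of_nonneg δ0] at a
    have : 2 * δ ≤ 1 / S := by
      rw [hδ, mul_one_div, div_le_div_iff₀ (by positivity) S1]
      linarith
    linarith [(abs_le.1 a).2]
  have x2 : 0 ≤ 1 - 1 / (S : ℝ) := by
    rw [sub_nonneg, div_le_one S1]
    linarith
  refine ⟨?_, ?_, ?_⟩
  · calc _ ≤ (1 - 1 / (S : ℝ)) * ((1 + 1 / S) * m.Zf S) := by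
          refine mul_le_mul_of_nonneg_left ?_ x2
          rw [mul_comm]
          exact c.2.trans (mul_le_mul_of_nonneg_right x1 Z0)
      _ = (1 - (1 / (S : ℝ)) ^ 2) * m.Zf S := by ring
      _ ≤ _ := mul_le_of_le_one_left Z0 (by linarith [sq_nonneg (1 / (S : ℝ))])
  · calc _ ≤ _ := c.1
      _ = Real.exp δ * (m.ball S * ng m.g m.cp 0) := by ring
      _ ≤ _ := mul_le_mul_of_nonneg_right x1 B0
  · have Sp : 0 < S ^ 20 := by have := hS.big; positivity
    have L2 : ∀ u : Fin n, m.fm S u = true → 2 ≤ m.sg S u := fun u hu => by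
      have a1 := (sg_ge hS hu).1
      have a2 : S ≤ S ^ 22 := Nat.le_self_pow (by norm_num) _
      have := hS.big
      omega
    have d := (hF.sum (m.fm_ok S) δ0 (by linarith)
      (r := fun u => if m.fm S u = true then 2 * m.sg S u else 0)
      (fun u hu => by simp [hu]) (rad 2 le_rfl)
      (κ := fun u θ => if m.fm S u = true then ft (m.sg S u) (pk (m.sg S u) (S ^ 20)) θ else 1)
      (fun u θ => by
        split_ifs with c
        · exact ((rat_pk (L2 u c) _).ft_pos _ _).le
        · exact zero_le_one)).1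
    have e0 : m.n0' S 0 = ∑ s ∈ (bases m.g).filter (fun s => ∀ u, |th (m.fm S) (psh m.cp s) u| ≤
        ((if m.fm S u = true then 2 * m.sg S u else 0 : ℕ) : ℤ)), ∏ u : Fin n,
          if m.fm S u = true then ft (m.sg S u) (pk (m.sg S u) (S ^ 20)) (th (m.fm S) (psh m.cp s) u) else 1 := by
      unfold n0' ms Om
      refine sum_congr ?_ fun s hs => ?_
      · ext s
        simp only [mem_filter, cnt_iff, Tr]
        exact ⟨fun h => ⟨h.1.1, h.2, h.1.2.2⟩, fun h => ⟨⟨h.1, by simp [h.2.1, nm1], h.2.2⟩, h.2.1⟩⟩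
      · have := ((cnt_iff _ s).1 (mem_filter.1 hs).2).1
        simp [Wt, wt, Hh, Hf, this, nm1, gth]
    have p : ∏ u : Fin n, ∑ θ ∈ Icc (-((if m.fm S u = true then 2 * m.sg S u else 0 : ℕ) : ℤ))
        ((if m.fm S u = true then 2 * m.sg S u else 0 : ℕ) : ℤ),
        (if m.fm S u = true then ft (m.sg S u) (pk (m.sg S u) (S ^ 20)) θ else 1) ≤
          Real.exp (1 / 4) * m.ball S := by
      have y0 : (0 : ℝ) < (S ^ 20 : ℕ) := by exact_mod_cast Sp
      calc _ ≤ ∏ u : Fin n, (Real.exp (2 / (S ^ 20 : ℕ)) *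
            ((if m.fm S u = true then 2 * m.sg S u + 1 else 1 : ℕ) : ℝ)) := by
            refine prod_le_prod (fun u _ => sum_nonneg fun θ _ => ?_) fun u _ => ?_
            · split_ifs with c
              · exact ((rat_pk (L2 u c) _).ft_pos _ _).le
              · exact zero_le_one
            · have y1 := Real.add_one_le_exp (2 / ((S ^ 20 : ℕ) : ℝ))
              have y2 : (0 : ℝ) ≤ 2 / ((S ^ 20 : ℕ) : ℝ) := by positivity
              split_ifs with c
              · refine (pk_sum (L2 u c) Sp _ _).trans ?_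
                rw [Nat.cast_add, Nat.cast_mul, Nat.cast_one, Nat.cast_ofNat]
                refine le_trans ?_ (mul_le_mul_of_nonneg_right y1 (by positivity))
                have : (4 : ℝ) * m.sg S u / (S ^ 20 : ℕ) = 2 / (S ^ 20 : ℕ) * (2 * m.sg S u) := by ring
                rw [this]
                nlinarith
              · simp only [Nat.cast_zero, neg_zero, Icc_self, sum_singleton, Nat.cast_one, mul_one]
                linarith
        _ = Real.exp (n * (2 / (S ^ 20 : ℕ))) * m.ball S := by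
            rw [prod_mul_distrib, prod_const, card_univ, Fintype.card_fin, Real.exp_nat_mul, ball,
              Nat.cast_prod]
        _ ≤ _ := by
            gcongr
            have a1 := hm.fr.le
            have a2 := hS.N_le
            have a3 : S ≤ S ^ 20 := Nat.le_self_pow (by norm_num) _
            have a4 : (8 * n : ℝ) ≤ (S ^ 20 : ℕ) := by exact_mod_cast (by omega : 8 * n ≤ S ^ 20)
            rw [← mul_div_assoc, div_le_div_iff₀ y0 (by norm_num)]
            linarith
    rw [e0]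
    refine d.trans ?_
    calc _ ≤ ng m.g m.cp 0 * Real.exp δ * (Real.exp (1 / 4) * m.ball S) := by gcongr
      _ = Real.exp δ * Real.exp (1 / 4) * (ng m.g m.cp 0 * m.ball S) := by ring
      _ ≤ Real.exp δ * Real.exp (1 / 4) * (Real.exp δ * m.Zf S) :=
          mul_le_mul_of_nonneg_left c.2 (by positivity)
      _ = Real.exp (δ + 1 / 4 + δ) * m.Zf S := by rw [Real.exp_add, Real.exp_add]; ring
      _ ≤ _ := by
          refine mul_le_mul_of_nonneg_right ?_ Z0
          have a := Real.abs_exp_sub_one_le (x := 1 / 2) (by norm_num [abs_of_nonneg])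
          rw [abs_of_nonneg (by norm_num : (0 : ℝ) ≤ 1 / 2)] at a
          exact (Real.exp_le_exp.2 (by linarith)).trans (by linarith [(abs_le.1 a).2] : Real.exp (1 / 2) ≤ 2)

theorem ms_Fl (hS : Sz N R S) (h : Fin n → ℕ) : m.ms S 0 h (m.Om S) (m.Fl S) = m.Zf S := by
  classical
  unfold ms Zf Om
  rw [card_eq_sum_ones, Nat.cast_sum]
  refine sum_congr ?_ fun s hs => ?_
  · ext s
    simp only [mem_filter]
    exact ⟨fun h => ⟨h.1.1, h.2⟩, fun h => ⟨⟨h.1, by simp [h.2.1, nm1], fun u hu => by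
      have := h.2.2 u hu; omega⟩, h.2⟩⟩
  · obtain ⟨-, h1, h2⟩ := mem_filter.1 hs
    have : m.Hf S s = 1 := prod_eq_one fun u _ => by
      split_ifs with c
      · have := h2 u c
        exact ft_flat _ (abs_le.2 ⟨by omega, by omega⟩)
      · rfl
    simp [Wt, wt, Hh, this, h1, nm1]

theorem OK.bases_box (hm : m.OK R) {ρ : ℕ} (hρ : R ≤ ρ) : bases (m.box ρ).g = bases m.g := by
  ext s
  rw [hm.mem_box]
  exact ⟨fun h => h.1, fun h => ⟨h, fun k => (hm.bd s (mem_bases.1 h) k).trans (by exact_mod_cast hρ)⟩⟩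

/-- the last stage -/
theorem OK.flat_box (hm : m.OK R) (hS : Sz N R S) {K : ℕ} (hF : Flat m.g m.cp m.μ K) (hK : K ≤ S) {ρ : ℕ} (hρ : R ≤ ρ) :
    (1 - 1 / (S : ℝ)) * (m.ball S * ng m.g m.cp 0) ≤ (m.box ρ).Zf S ∧
      ((m.box ρ).Zf S : ℝ) ≤ (1 + 1 / (S : ℝ)) * (m.ball S * ng m.g m.cp 0) ∧
      (m.box ρ).n0' S 0 ≤ 2 * (m.box ρ).Zf S := by
  have e1 : (m.box ρ).Zf S = m.Zf S := by
    unfold Zf
    rw [hm.bases_box hρ]
    rfl
  have e2 : (m.box ρ).n0' S 0 = m.n0' S 0 := by
    unfold n0' Om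
    rw [hm.bases_box hρ]
    rfl
  rw [e1, e2]
  exact hm.flat hS hF hK

theorem ball_pos (m : Md n N) (S : ℕ) : 0 < m.ball S := by
  exact prod_pos fun u _ => by split_ifs <;> omega

end Md

end Crest.Agent.R302B
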