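import Crest.Agent.R302B.Z0

/-!
# Row 302 (binary layer): Conv
Convolutions and marginals.
* `DLZ.msumZ`: for a base `l`, apply `DL.msum` (R302/Msum) with `N k = (hi k - lo k).toNat` to the array at the base
  `l + ∑_{k ∈ K} (lo k • e_{x k} - hi k • e_{y k})`; reindex `box N K` by `a ↦ lo + a` (compare the proof of `conv_lc` in AFlat).
* `dlz_conv`, `wlc_marg`: on `ι ⊕ ι` take `G z = ε ^ dfc g (z ∘ inl) * w (z ∘ inl) * K (z ∘ inr)` (`Sub.dl_dfc`, `DLZ.mul_sep`, `DLZ.comp`, `DLZ.mul`),
  merge over the box `bbox g` (all pairs, resp. all pairs except `k`), restrict with `DLZ.psh inr 0`, resp. take `DLZ.line` in the direction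
  `rt (inl k) (inr k)`; let `ε → 0` (`Sub.dfc_eq_zero`, `DLZ.lim`, `WLC.lim`).
-/

set_option autoImplicit false
set_option linter.unusedSectionVars false

noncomputable section

namespace Crest.Agent.R302B

open Finset Crest.Agent.R302

variable {ι J : Type} [Fintype ι] [DecidableEq ι] [Fintype J] [DecidableEq J]

theorem DLZ.msumZ {G : (J → ℤ) → ℝ} (hG : DLZ G) (x y : ι → J) (K : Finset ι) {lo hi : ι → ℤ}
    (h : ∀ k, lo k ≤ hi k) :
    DLZ fun z => ∑ a ∈ Fintype.piFinset (fun k => if k ∈ K then Icc (lo k) (hi k) else {0}),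
      G (z + ∑ k ∈ K, a k • rt (x k) (y k)) := by
  intro l
  set N : ι → ℕ := fun k => (hi k - lo k).toNat with hN
  have hNk : ∀ k, (N k : ℤ) = hi k - lo k := fun k => by
    have := h k
    simp only [hN]; omega
  have hS := DL.msum x y N (hG (l + ∑ k ∈ K, (lo k • ez (x k) - hi k • ez (y k)))) K
  convert hS using 1
  funext u
  unfold msum
  symm
  refine sum_nbij' (fun a k => if k ∈ K then lo k + a k else 0)
    (fun z k => if k ∈ K then (z k - lo k).toNat else 0) ?_ ?_ ?_ ?_ ?_
  · intro a ha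
    have := (Msum_mem_box N).1 ha
    refine Fintype.mem_piFinset.2 fun k => ?_
    by_cases hk : k ∈ K
    · simp only [if_pos hk]
      have h1 := (this k).1 hk
      have h2 := hNk k
      exact mem_Icc.2 (by omega)
    · simp only [if_neg hk, mem_singleton]
  · intro z hz
    refine (Msum_mem_box N).2 fun k => ⟨fun hk => ?_, fun hk => if_neg hk⟩
    have h1 := Fintype.mem_piFinset.1 hz k
    rw [if_pos hk, mem_Icc] at h1
    have h2 := hNk k
    simp only [if_pos hk]
    omega
  · intro a ha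
    have := (Msum_mem_box N).1 ha
    funext k
    by_cases hk : k ∈ K
    · simp [hk]
    · simp only [if_neg hk]
      exact ((this k).2 hk).symm
  · intro z hz
    funext k
    have h1 := Fintype.mem_piFinset.1 hz k
    by_cases hk : k ∈ K
    · rw [if_pos hk, mem_Icc] at h1
      simp only [if_pos hk]
      omega
    · rw [if_neg hk, mem_singleton] at h1
      simp only [if_neg hk]
      exact h1.symm
  · intro a ha
    have := (Msum_mem_box N).1 ha
    show G _ = G _
    congr 1
    funext j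
    simp only [Pi.add_apply, emb, Finset.sum_apply, Nat.cast_add, Nat.cast_sum]
    rw [add_add_add_comm, ← sum_add_distrib]
    congr 1
    refine sum_congr rfl fun k hk => ?_
    have h1 := (this k).1 hk
    have h2 := hNk k
    have h3 : ((N k - a k : ℕ) : ℤ) = hi k - lo k - a k := by omega
    simp only [if_pos hk, rt, ez, e1, Pi.sub_apply, Pi.smul_apply, smul_eq_mul, Nat.cast_mul, h3,
      Pi.single_apply, Nat.cast_ite, Nat.cast_one, Nat.cast_zero]
    ring

variable {g : Finset ι → ℤ} {w K : (ι → ℤ) → ℝ}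

theorem Sub.dlz_dfc (hg : Sub g) {ε : ℝ} (h0 : 0 < ε) (h1 : ε ≤ 1) : DLZ fun u => ε ^ dfc g u := by
  intro l
  exact hg.dl_dfc l h0 h1

/-- the merged array on `ι ⊕ ι` -/
theorem Conv_merge (hg : Sub g) (hw : Sep w) (hK : DLZ K) {ε : ℝ} (h0 : 0 < ε) (h1 : ε ≤ 1) (A : Finset ι) :
    DLZ fun z : ι ⊕ ι → ℤ =>
      ∑ a ∈ Fintype.piFinset (fun j => if j ∈ A then Icc (g univ - g {j}ᶜ) (g {j}) else {0}),
        ε ^ dfc g ((fun i => z (Sum.inl i)) + a) *
          (w ((fun i => z (Sum.inl i)) + a) * K ((fun i => z (Sum.inr i)) - a)) := by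
  have hlo : ∀ k, g univ - g {k}ᶜ ≤ g {k} := by
    intro k
    have := hg.sub {k} {k}ᶜ
    rw [union_compl, inter_compl, show g ∅ = 0 from hg.empty] at this
    omega
  have hG : DLZ fun z : ι ⊕ ι → ℤ => (ε ^ dfc g (fun i => z (Sum.inl i)) * w fun i => z (Sum.inl i)) *
      K fun i => z (Sum.inr i) := by
    refine DLZ.mul (((Sub.dlz_dfc hg h0 h1).mul_sep hw).comp (f := Sum.inl) Sum.inl_injective)
      (hK.comp (f := Sum.inr) Sum.inr_injective) ?_
    rintro (j | j)
    · right; intro u; simp [ez]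
    · left; intro u; simp [ez]
  have h2 := hG.msumZ Sum.inl Sum.inr A hlo
  convert h2 using 2 with z
  refine sum_congr rfl fun a ha => ?_
  have ha0 : ∀ j, j ∉ A → a j = 0 := fun j hj => by
    have := Fintype.mem_piFinset.1 ha j
    rwa [if_neg hj, mem_singleton] at this
  have e1 : (fun i => (z + ∑ k ∈ A, a k • rt (Sum.inl k) (Sum.inr k)) (Sum.inl i)) =
      (fun i => z (Sum.inl i)) + a := by
    funext i
    by_cases hi : i ∈ A
    · simp [rt, Finset.sum_apply, Pi.single_apply, hi]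
    · simp [rt, Finset.sum_apply, Pi.single_apply, hi, ha0 i hi]
  have e2 : (fun i => (z + ∑ k ∈ A, a k • rt (Sum.inl k) (Sum.inr k)) (Sum.inr i)) =
      (fun i => z (Sum.inr i)) - a := by
    funext i
    by_cases hi : i ∈ A
    · simp [rt, Finset.sum_apply, Pi.single_apply, hi, sub_eq_add_neg]
    · simp [rt, Finset.sum_apply, Pi.single_apply, hi, ha0 i hi]
  rw [e1, e2, mul_assoc]

open Filter Topology Classical in
theorem Conv_lim (hg : Sub g) (B : Finset (ι → ℤ)) (φ : (ι → ℤ) → ι → ℤ) (F : (ι → ℤ) → ℝ) :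
    Tendsto (fun ε : ℝ => ∑ a ∈ B, ε ^ dfc g (φ a) * F a) (𝓝[>] 0)
      (𝓝 (∑ a ∈ B, if IsB g (φ a) then F a else 0)) := by
  have hc : Continuous fun ε : ℝ => ∑ a ∈ B, ε ^ dfc g (φ a) * F a := by fun_prop
  have h0 : ∑ a ∈ B, (0 : ℝ) ^ dfc g (φ a) * F a = ∑ a ∈ B, if IsB g (φ a) then F a else 0 := by
    refine sum_congr rfl fun a _ => ?_
    by_cases c : IsB g (φ a)
    · rw [if_pos c, (hg.dfc_eq_zero _).2 c, pow_zero, one_mul]
    · rw [if_neg c, zero_pow fun h => c ((hg.dfc_eq_zero _).1 h), zero_mul]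
  rw [← h0]
  exact (hc.tendsto 0).mono_left nhdsWithin_le_nhds

theorem dlz_conv (hg : Sub g) (hne : (bases g).Nonempty) (hw : Sep w) (hK : DLZ K) :
    DLZ fun u => ∑ s ∈ bases g, w s * K (u - s) := by
  refine DLZ.lim (cs := fun ε u => ∑ a ∈ bbox g, ε ^ dfc g a * (w a * K (u - a))) (fun ε h0 h1 => ?_)
    (fun u => ?_) fun u => sum_pos (fun s _ => mul_pos (hw.pos _) (hK.pos _)) hne
  · have h2 := (Conv_merge hg hw hK h0 h1 univ).psh (Sum.inr : ι → ι ⊕ ι) 0
    convert h2 using 2 with u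
    have e1 : (fun i => (0 + psh (Sum.inr : ι → ι ⊕ ι) u) (Sum.inl i)) = 0 := by
      funext i
      simp [psh]
    have e2 : (fun i => (0 + psh (Sum.inr : ι → ι ⊕ ι) u) (Sum.inr i)) = u := by
      funext i
      simp [psh, Finset.filter_eq']
    rw [e1, e2]
    simp only [mem_univ, if_true, zero_add]
    rfl
  · have h2 := Conv_lim hg (bbox g) (fun a => a) fun a => w a * K (u - a)
    rwa [← sum_filter] at h2

theorem wlc_marg (hg : Sub g) (hne : (bases g).Nonempty) (hw : Sep w) (hK : DLZ K) (k : ι) :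
    WLC fun t => ∑ s ∈ (bases g).filter (fun s => s k = t), w s * K (-s) := by
  classical
  set B : Finset (ι → ℤ) := Fintype.piFinset
    fun j => if j ∈ univ.erase k then Icc (g univ - g {j}ᶜ) (g {j}) else {0} with hB
  refine WLC.lim (κs := fun ε t => ∑ a ∈ B, ε ^ dfc g (t • ez k + a) *
    (w (t • ez k + a) * K (-(t • ez k + a)))) (fun ε h0 h1 => ?_) fun t => ?_
  · have h2 := ((Conv_merge hg hw hK h0 h1 (univ.erase k)).line 0 (Sum.inl k) (Sum.inr k)).wlc
    convert h2 using 2 with t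
    have e1 : (fun i => (0 + t • rt (Sum.inl k) (Sum.inr k) : ι ⊕ ι → ℤ) (Sum.inl i)) = t • ez k := by
      funext i
      simp [rt, ez, Pi.single_apply]
    have e2 : (fun i => (0 + t • rt (Sum.inl k) (Sum.inr k) : ι ⊕ ι → ℤ) (Sum.inr i)) = -(t • ez k) := by
      funext i
      simp [rt, ez, Pi.single_apply]
    rw [e1, e2]
    refine sum_congr rfl fun a _ => ?_
    rw [neg_add']
  · have h2 := Conv_lim hg B (fun a => t • ez k + a) fun a => w (t • ez k + a) * K (-(t • ez k + a))
    rw [← sum_filter] at h2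
    convert h2 using 2
    symm
    have hB0 : ∀ a ∈ B, a k = 0 := fun a ha => by
      have := Fintype.mem_piFinset.1 ha k
      rwa [if_neg (notMem_erase _ _), mem_singleton] at this
    refine sum_nbij' (fun a => t • ez k + a) (fun s => s - t • ez k) ?_ ?_ ?_ ?_ fun _ _ => rfl
    · intro a ha
      obtain ⟨h1, h3⟩ := mem_filter.1 ha
      refine mem_filter.2 ⟨mem_bases.2 h3, ?_⟩
      simp [ez, hB0 a h1]
    · intro s hs
      obtain ⟨h1, h3⟩ := mem_filter.1 hs
      have h4 := mem_bases.1 h1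
      refine mem_filter.2 ⟨Fintype.mem_piFinset.2 fun j => ?_, by rwa [add_sub_cancel]⟩
      by_cases hj : j = k
      · subst hj
        rw [if_neg (notMem_erase _ _), mem_singleton]
        simp [ez, h3]
      · rw [if_pos (mem_erase.2 ⟨hj, mem_univ _⟩)]
        have h5 := Fintype.mem_piFinset.1 (mem_bbox h4) j
        simpa [ez, Pi.single_eq_of_ne hj] using h5
    · intro a _
      exact add_sub_cancel_left _ _
    · intro s _
      exact add_sub_cancel _ _

end Crest.Agent.R302B
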