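import Crest.Agent.R302B.Blk
import Crest.Agent.R302B.POrd
import Crest.Agent.R302B.AChord

/-!
# Row 302 (binary layer): Enl
Enlarging the base polytope by segments along consecutive coordinates at most doubles a smooth weight.
A good point of `B (g + cutf σ)` outside `B g` violates some `X`; take the widest cut edge `t` of `X` and the scale `s' = W t / Q`.
`exists_arc` (classes of `Eqv g 0 s'`) gives an arc entering `X` inside a class, `chord_count` bounds the mass of these points.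
-/

set_option autoImplicit false
set_option linter.unusedSectionVars false

noncomputable section

namespace Crest.Agent.R302B

open Finset Crest.Agent.R302

variable {N : ℕ}

/-- weighted cut function of the path -/
def cutf (σ : Fin N → ℕ) (X : Finset (Fin N)) : ℤ := ∑ t, if (t ∈ X ↔ nx t ∈ X) then 0 else (σ t : ℤ)

variable {g : Finset (Fin N) → ℤ} {σ : Fin N → ℕ} {W : ℕ → ℤ}

theorem Sub.add_cutf (hg : Sub g) (σ : Fin N → ℕ) : Sub fun X => g X + cutf σ X := by
  refine ⟨by simp [cutf, hg.empty], fun A B => ?_⟩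
  have h1 := hg.sub A B
  have h2 : cutf σ (A ∪ B) + cutf σ (A ∩ B) ≤ cutf σ A + cutf σ B := by
    unfold cutf
    rw [← sum_add_distrib, ← sum_add_distrib]
    refine sum_le_sum fun t _ => ?_
    have : (0 : ℤ) ≤ σ t := Nat.cast_nonneg _
    by_cases a1 : t ∈ A <;> by_cases a2 : t ∈ B <;> by_cases a3 : nx t ∈ A <;> by_cases a4 : nx t ∈ B <;>
      simp [a1, a2, a3, a4]
  show g (A ∪ B) + cutf σ (A ∪ B) + (g (A ∩ B) + cutf σ (A ∩ B)) ≤ g A + cutf σ A + (g B + cutf σ B)
  linarith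

theorem cutf_univ (σ : Fin N → ℕ) : cutf σ univ = 0 := by simp [cutf]

theorem cutf_nonneg (σ : Fin N → ℕ) (X : Finset (Fin N)) : 0 ≤ cutf σ X :=
  sum_nonneg fun t _ => by split_ifs <;> simp

theorem Enl_sum (s y : Fin N → ℤ) (S X : Finset (Fin N)) :
    ∑ j ∈ X, (s + ∑ t ∈ S, y t • rt t (nx t)) j =
      ∑ j ∈ X, s j + ∑ t ∈ S, y t * ((if t ∈ X then 1 else 0) - (if nx t ∈ X then 1 else 0)) := by
  simp only [Pi.add_apply, sum_add_distrib, Finset.sum_apply, Pi.smul_apply, smul_eq_mul]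
  rw [sum_comm]
  simp only [← mul_sum, sum_rt]

theorem isB_add_cutf {s y : Fin N → ℤ} (hs : IsB g s) (hy : ∀ t, |y t| ≤ σ t) :
    IsB (fun X => g X + cutf σ X) (s + ∑ t, y t • rt t (nx t)) := by
  refine ⟨fun X => ?_, ?_⟩
  · rw [Enl_sum]
    refine add_le_add (hs.1 X) (sum_le_sum fun t _ => ?_)
    have := abs_le.1 (hy t)
    by_cases a1 : t ∈ X <;> by_cases a2 : nx t ∈ X <;> simp [a1, a2] <;> omega
  · rw [Enl_sum]
    simp [cutf_univ, hs.2]

theorem Enl_seg {ι : Type} [Fintype ι] [DecidableEq ι] {f : Finset ι → ℤ} (hf : Sub f) (p q : ι) (c : ℕ)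
    {z : ι → ℤ} (hz : IsB (fun X => f X + if (p ∈ X ↔ q ∈ X) then 0 else (c : ℤ)) z) :
    ∃ j : ℤ, |j| ≤ c ∧ IsB f (z - j • rt p q) := by
  set j : ℤ := (univ : Finset (Finset ι)).sup' univ_nonempty fun X =>
    if p ∈ X ∧ q ∉ X then ∑ i ∈ X, z i - f X else -c with hj
  have hc : (0 : ℤ) ≤ c := Nat.cast_nonneg _
  have e : ∀ X : Finset ι, ∑ i ∈ X, (z - j • rt p q) i =
      ∑ i ∈ X, z i - j * ((if p ∈ X then 1 else 0) - (if q ∈ X then 1 else 0)) := by
    intro X
    simp only [Pi.sub_apply, sum_sub_distrib, Pi.smul_apply, smul_eq_mul, ← mul_sum, sum_rt]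
  refine ⟨j, abs_le.2 ⟨?_, ?_⟩, fun X => ?_, ?_⟩
  · refine le_trans ?_ (le_sup' _ (mem_univ ∅))
    simp
  · refine sup'_le _ _ fun X _ => ?_
    split_ifs with h
    · have := hz.1 X
      simp only [h.1, h.2, iff_false, not_true, if_false] at this
      omega
    · omega
  · rw [e]
    have h1 := hz.1 X
    by_cases a1 : p ∈ X <;> by_cases a2 : q ∈ X
    · simpa [a1, a2] using h1
    · have : ∑ i ∈ X, z i - f X ≤ j := by
        refine le_trans ?_ (le_sup' _ (mem_univ X))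
        simp [a1, a2]
      simp only [a1, a2, if_true, if_false]
      omega
    · have : j ≤ f X - ∑ i ∈ X, z i := by
        refine sup'_le _ _ fun Y _ => ?_
        split_ifs with h
        · have b1 := hz.1 (X ∪ Y)
          have b2 := hz.1 (X ∩ Y)
          have b3 := hf.sub X Y
          have b4 := sum_union_inter (s₁ := X) (s₂ := Y) (f := z)
          simp only [mem_union, mem_inter, a1, a2, h.1, h.2, or_true, or_false, and_false, false_and,
            if_true, add_zero] at b1 b2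
          omega
        · simp only [a1, a2, iff_true, if_false] at h1
          omega
      simp only [a1, a2, if_true, if_false]
      omega
    · simpa [a1, a2] using h1
  · rw [e]
    simpa using hz.2

theorem exists_decomp (hg : Sub g) {z : Fin N → ℤ} (hz : IsB (fun X => g X + cutf σ X) z) :
    ∃ s y : Fin N → ℤ, IsB g s ∧ (∀ t, |y t| ≤ σ t) ∧ z = s + ∑ t, y t • rt t (nx t) := by
  have key : ∀ (S : Finset (Fin N)) (z : Fin N → ℤ),
      IsB (fun X => g X + cutf (fun t => if t ∈ S then σ t else 0) X) z →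
      ∃ s y : Fin N → ℤ, IsB g s ∧ (∀ t, |y t| ≤ σ t) ∧ z = s + ∑ t ∈ S, y t • rt t (nx t) := by
    intro S
    induction S using Finset.induction_on with
    | empty =>
      intro z hz
      refine ⟨z, 0, ?_, by simp, by simp⟩
      simpa [cutf] using hz
    | insert a S ha ih =>
      intro z hz
      have e : (fun X => g X + cutf (fun t => if t ∈ insert a S then σ t else 0) X) = fun X =>
          (g X + cutf (fun t => if t ∈ S then σ t else 0) X) +
            if (a ∈ X ↔ nx a ∈ X) then 0 else (σ a : ℤ) := by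
        funext X
        unfold cutf
        rw [add_assoc, ← add_sum_erase _ _ (mem_univ a), ← add_sum_erase univ _ (mem_univ a)]
        simp only [mem_insert_self, ha, if_true, if_false, Nat.cast_zero, ite_self, zero_add]
        rw [add_comm (ite _ _ _)]
        congr 2
        refine sum_congr rfl fun t ht => ?_
        simp only [mem_insert, (mem_erase.1 ht).1, false_or]
      rw [e] at hz
      obtain ⟨j, hj, hB⟩ := Enl_seg (Sub.add_cutf hg _) a (nx a) (σ a) hz
      obtain ⟨s, y, h1, h2, h3⟩ := ih _ hB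
      refine ⟨s, Function.update y a j, h1, fun t => ?_, ?_⟩
      · by_cases c : t = a
        · subst c; simpa using hj
        · simpa [c] using h2 t
      · rw [sum_insert ha, Function.update_self, sum_congr rfl (g := fun t => y t • rt t (nx t))
          fun t ht => by rw [Function.update_of_ne (by rintro rfl; exact ha ht)],
          add_left_comm, ← h3]
        abel
  exact key univ z (by simpa using hz)

theorem Enl_path {ω : (Fin N → ℤ) → ℝ} {c : ℝ} (hc : 0 ≤ c) (d : ℕ) :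
    ∀ k l : Fin N, l.val = k.val + d → (∀ r : Fin N, k ≤ r → r < l → ∀ s,
      ω s ≤ c * ω (s + rt r (nx r)) ∧ ω s ≤ c * ω (s - rt r (nx r))) →
      ∀ s, ω s ≤ c ^ d * ω (s + rt k l) ∧ ω s ≤ c ^ d * ω (s - rt k l) := by
  induction d with
  | zero =>
    intro k l h _ s
    obtain rfl : l = k := Fin.ext h
    simp [rt_self]
  | succ d ih =>
    intro k l h hs s
    have hl := l.2
    set l' : Fin N := ⟨k.val + d, by omega⟩ with hl'
    have e : nx l' = l := Fin.ext (by rw [nx_val (by simp only [hl']; omega)]; simp only [hl']; omega)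
    have i1 := ih k l' rfl (fun r h1 h2 => hs r h1 (h2.trans (by rw [Fin.lt_def]; simp only [hl']; omega))) s
    have i2 := hs l' (by rw [Fin.le_def]; simp only [hl']; omega) (by rw [Fin.lt_def]; simp only [hl']; omega)
    rw [e] at i2
    have p := pow_nonneg hc d
    rw [← rt_add_rt k l' l, ← add_assoc, ← sub_sub, pow_succ, mul_assoc, mul_assoc]
    exact ⟨i1.1.trans (mul_le_mul_of_nonneg_left (i2 _).1 p), i1.2.trans (mul_le_mul_of_nonneg_left (i2 _).2 p)⟩

theorem Enl_iter {ω : (Fin N → ℤ) → ℝ} {c : ℝ} (hc : 0 ≤ c) {v : Fin N → ℤ} (h : ∀ s, ω s ≤ c * ω (s + v))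
    (t : ℕ) (s : Fin N → ℤ) : ω s ≤ c ^ t * ω (s + (t : ℤ) • v) := by
  induction t with
  | zero => simp
  | succ t ih =>
    rw [pow_succ, mul_assoc, Nat.cast_succ, add_smul, one_smul, ← add_assoc]
    exact ih.trans (mul_le_mul_of_nonneg_left (h _) (pow_nonneg hc t))

/-- smoothness along a root inside a class -/
theorem Enl_smooth (hO : Ord (Eqv g 0) (Equiv.refl (Fin N)) W) {ω : (Fin N → ℤ) → ℝ} (hω : ∀ s, 0 ≤ ω s)
    {P' V : ℕ} (hsm : ∀ r : Fin N, r.val + 1 < N → (V : ℤ) ≤ W r → ∀ s,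
      ω s ≤ Real.exp (P' / W r) * ω (s + rt r (nx r)) ∧ ω s ≤ Real.exp (P' / W r) * ω (s - rt r (nx r)))
    {s' : ℤ} (h0 : 0 < s') (hV : (V : ℤ) ≤ s') {k l : Fin N} (h : Eqv g 0 s' k l) (s : Fin N → ℤ) :
    ω s ≤ Real.exp (P' / s') ^ N * ω (s + rt k l) := by
  have hs : (0 : ℝ) < s' := by exact_mod_cast h0
  have h1 : 1 ≤ Real.exp (P' / s') := Real.one_le_exp (by positivity)
  have key : ∀ k l : Fin N, k ≤ l → Eqv g 0 s' k l → ∀ s,
      ω s ≤ Real.exp (P' / s') ^ N * ω (s + rt k l) ∧ ω s ≤ Real.exp (P' / s') ^ N * ω (s - rt k l) := by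
    intro k l hkl h s
    have hl := l.2
    have hkl' : k.val ≤ l.val := hkl
    have := Enl_path (ω := ω) (Real.exp_pos (P' / s')).le (l.val - k.val) k l (by omega) (fun r r1 r2 s => ?_) s
    · have e : Real.exp (P' / s') ^ (l.val - k.val) ≤ Real.exp (P' / s') ^ N :=
        pow_le_pow_right₀ h1 (by omega)
      exact ⟨this.1.trans (mul_le_mul_of_nonneg_right e (hω _)),
        this.2.trans (mul_le_mul_of_nonneg_right e (hω _))⟩
    · have r2' : r.val < l.val := r2
      have w1 : s' < W r := hO.int k l r r1 r2 s' h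
      have w2 : (s' : ℝ) ≤ W r := by exact_mod_cast w1.le
      have e : Real.exp (P' / W r) ≤ Real.exp (P' / s') := by gcongr
      have := hsm r (by omega) (by omega) s
      exact ⟨this.1.trans (mul_le_mul_of_nonneg_right e (hω _)),
        this.2.trans (mul_le_mul_of_nonneg_right e (hω _))⟩
  rcases le_total k l with c | c
  · exact (key k l c h s).1
  · have := (key l k c h.symm s).2
    rwa [sub_eq_add_neg, neg_rt] at this

/-- the arc entering a violated set -/
theorem Enl_arc (hg : Sub g) (h0 : IsB g 0) (hO : Ord (Eqv g 0) (Equiv.refl (Fin N)) W) {a : Fin N → ℤ}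
    (ha : IsB (fun X => g X + cutf σ X) a) {P : ℕ} {s' T : ℤ} (hs : 0 ≤ s') (hT : 0 ≤ T) (hT' : N * T ≤ s')
    (hrg : ∀ t, t + 1 < N → W t ≤ s' → |ps a t| ≤ 2 * P * s')
    (hσ : ∀ t : Fin N, σ t ≠ 0 → (σ t : ℤ) ≤ W t) {X : Finset (Fin N)} (hX : g X < ∑ j ∈ X, a j)
    (hX' : 6 * N ^ 2 * (N + P) * s' ≤ g X) :
    ∃ k l, k ∉ X ∧ l ∈ X ∧ Eqv g 0 s' k l ∧ Arc (fun X => g X + cutf σ X) a T k l := by
  classical
  have h0p : IsB (fun X => g X + cutf σ X) 0 := by simpa using isB_add_cutf (σ := σ) (y := 0) h0 (by simp)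
  have hsum : ∑ j, a j = 0 := by
    rw [ha.2, ← h0p.2]
    simp
  have cl : ∀ Z : Finset (Fin N), (∀ p ∈ Z, ∀ q, Arc g 0 s' p q → q ∈ Z) →
      slack (fun X => g X + cutf σ X) a Z ≤ N ^ 2 * s' + N * s' + N * (2 * P * s') ∧
        ∑ j ∈ Z, (a j - (0 : Fin N → ℤ) j) ≤ N * (2 * P * s') := by
    intro Z hZ
    have sep : ∀ i i' : Fin N, (i' : ℕ) = i + 1 → ¬ (i ∈ Z ↔ i' ∈ Z) → W i ≤ s' := by
      intro i i' hi hne
      by_contra hW
      have := hO.con i i' hi s' (not_le.1 hW)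
      exact hne ⟨fun h => hZ _ h _ this.1, fun h => hZ _ h _ this.2⟩
    have c1 := slack_le_of_closed hg h0 hs hZ
    have c2 : cutf σ Z ≤ N * s' := by
      unfold cutf
      refine (sum_le_card_nsmul _ _ s' fun t _ => ?_).trans (by simp)
      split_ifs with c
      · exact hs
      · by_cases c' : σ t = 0
        · rw [c']; exact hs
        · have : t.val + 1 < N := by
            by_contra hn
            exact c (by simp [nx, hn])
          exact (hσ t c').trans (sep t (nx t) (nx_val this) c)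
    have c3 : |∑ j ∈ Z, a j| ≤ N * (2 * P * s') := by
      refine abs_sum_le_of_pre (Equiv.refl _) hsum (by positivity) fun i i' hi hne => ?_
      rw [← ps_eq]
      exact hrg i (hi ▸ i'.2) (sep i i' hi hne)
    simp only [slack, Pi.zero_apply, sum_const_zero, sub_zero, Fintype.card_fin] at c1 ⊢
    have := abs_le.1 c3
    constructor <;> linarith
  have hcl : ∀ i j : Fin N, univ.filter (Eqv g 0 s' j) = univ.filter (Eqv g 0 s' i) ↔ Eqv g 0 s' i j := by
    intro i j
    refine ⟨fun h => ?_, fun h => filter_congr fun r _ => ⟨fun h' => h.trans h', fun h' => h.symm.trans h'⟩⟩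
    have : j ∈ univ.filter (Eqv g 0 s' j) := mem_filter.2 ⟨mem_univ _, Eqv.refl _ _ _ _⟩
    rw [h] at this
    exact (mem_filter.1 this).2
  have hU : ∀ i : Fin N, (univ.filter fun q => Arc g 0 s' i q ∧ ¬ Eqv g 0 s' i q) ∪
      (univ.filter fun j => univ.filter (Eqv g 0 s' j) = univ.filter (Eqv g 0 s' i)) =
      univ.filter fun q => Arc g 0 s' i q := by
    intro i
    ext q
    simp only [mem_union, mem_filter, mem_univ, true_and, hcl]
    exact ⟨fun h => h.elim (fun h => h.1) fun h => h.1, fun h => by tauto⟩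
  have c1 : ∀ i : Fin N, ∀ p ∈ univ.filter fun q => Arc g 0 s' i q, ∀ q, Arc g 0 s' p q →
      q ∈ univ.filter fun q => Arc g 0 s' i q := fun i p hp q h =>
    mem_filter.2 ⟨mem_univ _, (mem_filter.1 hp).2.trans h⟩
  obtain ⟨k, l, h1, h2, h3, h4⟩ := exists_arc (Sub.add_cutf hg σ) ha h0p (fun i => univ.filter (Eqv g 0 s' i))
    (fun i => univ.filter fun q => Arc g 0 s' i q ∧ ¬ Eqv g 0 s' i q) (T := T)
    (θ := N ^ 2 * s' + N * s' + N * (2 * P * s')) (θ' := N * (2 * P * s')) hT (by positivity) (by positivity)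
    (fun i j hj h => (mem_filter.1 hj).2.2 ((hcl i j).1 h))
    (fun i => (cl _ fun p hp q h => mem_filter.2 ⟨mem_univ _, (mem_filter.1 hp).2.1.trans h,
      fun h' => (mem_filter.1 hp).2.2 ⟨(mem_filter.1 hp).2.1, h.trans h'.2⟩⟩).1)
    (fun i => by rw [hU]; exact (cl _ (c1 i)).1) (fun i => by rw [hU]; exact (cl _ (c1 i)).2) (X := X) (by
      simp only [slack, Pi.zero_apply, sum_const_zero, sub_zero, Fintype.card_fin]
      have n0 : (0 : ℤ) ≤ N := Nat.cast_nonneg _
      have e1 : (N : ℤ) * (N * (N * T)) ≤ N * (N * s') := by gcongr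
      have e2 : (N : ℤ) ^ 2 * s' ≤ N ^ 3 * s' := by
        rcases Nat.eq_zero_or_pos N with c | c
        · simp [c]
        · have : (1 : ℤ) ≤ N := by exact_mod_cast c
          gcongr
          norm_num
      have e3 : (0 : ℤ) ≤ N ^ 3 * s' := by positivity
      nlinarith)
  exact ⟨k, l, h1, h2, (hcl l k).1 h3 |>.symm, h4⟩

theorem enl (hg : Sub g) (h0 : IsB g 0) (hO : Ord (Eqv g 0) (Equiv.refl (Fin N)) W)
    {ω : (Fin N → ℤ) → ℝ} (hω : ∀ s, 0 ≤ ω s) (Gd : (Fin N → ℤ) → Prop) [DecidablePred Gd]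
    {P P' Q V κ : ℕ} (hP' : 0 < P') (hV : 2 * N * P' ≤ V) (hQ : 12 * N ^ 2 * (N + P) < Q)
    (hκ : 128 * N ^ 5 * P' * Q ≤ κ)
    (hsm : ∀ r : Fin N, r.val + 1 < N → (V : ℤ) ≤ W r → ∀ s,
      ω s ≤ Real.exp (P' / W r) * ω (s + rt r (nx r)) ∧ ω s ≤ Real.exp (P' / W r) * ω (s - rt r (nx r)))
    (hrg : ∀ s, IsB (fun X => g X + cutf σ X) s → Gd s → ∀ t, t + 1 < N → |ps s t| ≤ P * (W t + V))
    (hσ : ∀ t : Fin N, σ t ≠ 0 → t.val + 1 < N ∧ (κ * σ t : ℤ) ≤ W t ∧ (Q * V : ℤ) ≤ W t)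
    (htail : 2 * ∑ s ∈ (bases fun X => g X + cutf σ X).filter (fun s => ¬ Gd s), ω s ≤
      ∑ s ∈ bases g, ω s) :
    ∑ s ∈ bases (fun X => g X + cutf σ X), ω s ≤ 2 * ∑ s ∈ bases g, ω s := by
  classical
  have hQ0 : 0 < Q := by omega
  have hQ1 : (0 : ℤ) < Q := by exact_mod_cast hQ0
  set S := (bases fun X => g X + cutf σ X).filter fun s => Gd s ∧ ¬ IsB g s with hS
  have hA : 0 ≤ ∑ s ∈ bases (fun X => g X + cutf σ X), ω s := sum_nonneg fun s _ => hω s
  have main : ∑ s ∈ S, ω s ≤ (∑ s ∈ bases (fun X => g X + cutf σ X), ω s) / 8 := by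
    rcases Nat.eq_zero_or_pos N with hN | hN
    · have : S = ∅ := by
        refine eq_empty_of_forall_notMem fun s hs => (mem_filter.1 hs).2.2 ?_
        subst hN
        rwa [Subsingleton.elim s 0]
      rw [this, sum_empty]
      positivity
    have hN1 : (0 : ℤ) < 2 * N * P' := by positivity
    have hNr : (0 : ℝ) < N := by exact_mod_cast hN
    have hκ1 : (1 : ℤ) ≤ κ := by
      have : 0 < 128 * N ^ 5 * P' * Q := by positivity
      omega
    have hσ' : ∀ t : Fin N, σ t ≠ 0 → (σ t : ℤ) ≤ W t := fun t ht => by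
      have := (hσ t ht).2.1
      have : (0 : ℤ) ≤ σ t := Nat.cast_nonneg _
      nlinarith
    have c := chord_count (g := fun X => g X + cutf σ X) (S := S) (S' := bases fun X => g X + cutf σ X)
      (fun a ha => mem_bases.1 (mem_filter.1 ha).1) (w := ω) (w' := fun s => 2 * ω s)
      (fun y _ => mul_nonneg zero_le_two (hω y)) (η := 1 / (16 * N ^ 3)) (by positivity)
      (univ.filter fun t : Fin N => σ t ≠ 0) (fun t => N * σ t - 1)
      (fun t => (W t / Q / (2 * N * P')).toNat) (fun t ht => ?_) fun a ha => ?_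
    · refine c.trans ?_
      rw [← mul_sum, Fintype.card_fin]
      have : (#(univ.filter fun t : Fin N => σ t ≠ 0) : ℝ) ≤ N := by
        exact_mod_cast (card_filter_le _ _).trans (by simp)
      calc _ ≤ (N : ℝ) * N ^ 2 * (1 / (16 * N ^ 3)) * (2 * ∑ s ∈ bases (fun X => g X + cutf σ X), ω s) := by
            gcongr
        _ = _ := by field_simp; ring
    · have ht' := (mem_filter.1 ht).2
      have a1 : (64 * N ^ 4 * σ t : ℤ) ≤ W t / Q / (2 * N * P') := by
        refine Int.le_ediv_of_mul_le hN1 (Int.le_ediv_of_mul_le hQ1 (le_trans ?_ (hσ t ht').2.1))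
        have : ((128 * N ^ 5 * P' * Q : ℕ) : ℤ) ≤ κ := by exact_mod_cast hκ
        push_cast at this
        calc _ = (128 * N ^ 5 * P' * Q : ℤ) * σ t := by ring
          _ ≤ _ := by gcongr
      have a2 : 64 * N ^ 4 * σ t ≤ (W t / Q / (2 * N * P')).toNat := by
        zify
        exact a1.trans (Int.self_le_toNat _)
      have a3 : N * σ t - 1 + 1 = N * σ t := Nat.sub_add_cancel (Nat.mul_pos hN (Nat.pos_of_ne_zero ht'))
      have a4 : ((64 * N ^ 4 * σ t : ℕ) : ℝ) ≤ (W t / Q / (2 * N * P')).toNat := by exact_mod_cast a2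
      rw [← Nat.cast_succ, Nat.succ_eq_add_one, a3, one_div_mul_eq_div, le_div_iff₀ (by positivity)]
      refine le_trans ?_ a4
      push_cast
      have : (0 : ℝ) ≤ N ^ 4 * σ t := by positivity
      linarith
    · obtain ⟨ha1, ha2, ha3⟩ := mem_filter.1 ha
      have ha1 := mem_bases.1 ha1
      obtain ⟨X, hX⟩ : ∃ X, g X < ∑ j ∈ X, a j := by
        by_contra hn
        push Not at hn
        exact ha3 ⟨hn, by simpa [cutf_univ] using ha1.2⟩
      have b1 : 0 < cutf σ X := by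
        have := ha1.1 X
        simp only at this
        omega
      obtain ⟨t, ht, hmax⟩ := exists_max_image (univ.filter fun t : Fin N => ¬ (t ∈ X ↔ nx t ∈ X)) σ (by
        by_contra hn
        rw [not_nonempty_iff_eq_empty, filter_eq_empty_iff] at hn
        refine b1.ne' (sum_eq_zero fun t ht => if_pos (not_not.1 (hn ht))))
      have b2 : cutf σ X ≤ N * σ t := by
        unfold cutf
        refine (sum_le_card_nsmul _ _ (σ t : ℤ) fun r _ => ?_).trans (by simp)
        split_ifs with c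
        · exact Nat.cast_nonneg _
        · exact_mod_cast hmax r (mem_filter.2 ⟨mem_univ _, c⟩)
      have b3 : σ t ≠ 0 := by
        intro h
        rw [h] at b2
        simp only [Nat.cast_zero, mul_zero] at b2
        omega
      obtain ⟨d1, d2, d3⟩ := hσ t b3
      set s' : ℤ := W t / Q with hs'
      have e1 : (V : ℤ) ≤ s' := Int.le_ediv_of_mul_le hQ1 (by linarith)
      have e2 : (2 * N * P' : ℤ) ≤ V := by exact_mod_cast hV
      have e3 : s' * Q ≤ W t := Int.ediv_mul_le _ hQ1.ne'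
      have e4 : s' / (2 * N * P') * (2 * N * P') ≤ s' := Int.ediv_mul_le _ hN1.ne'
      have e5 : 0 ≤ s' / (2 * N * P') := Int.ediv_nonneg (by omega) hN1.le
      have e6 : W t ≤ g X := by
        have f1 := hO.con t (nx t) (nx_val d1) (W t - 1) (by omega)
        have f2 := (mem_filter.1 ht).2
        by_cases c : t ∈ X
        · have := f1.1 X c fun h => f2 ⟨fun _ => h, fun _ => c⟩
          simp only [slack, Pi.zero_apply, sum_const_zero, sub_zero] at this
          omega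
        · have := f1.2 X (by_contra fun h => f2 ⟨fun h' => absurd h' c, fun h' => absurd h' h⟩) c
          simp only [slack, Pi.zero_apply, sum_const_zero, sub_zero] at this
          omega
      have p1 : (1 : ℤ) ≤ P' := by exact_mod_cast hP'
      have n0 : (0 : ℤ) ≤ N := Nat.cast_nonneg _
      obtain ⟨k, l, k1, k2, k3, k4⟩ := Enl_arc hg h0 hO ha1 (P := P) (s' := s') (T := s' / (2 * N * P'))
        (by omega) e5 (by nlinarith [mul_nonneg n0 e5])
        (fun r r1 r2 => (hrg a ha1 ha2 r r1).trans (by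
          have : (0 : ℤ) ≤ P := Nat.cast_nonneg _
          nlinarith)) hσ' hX (by
          have f1 : ((12 * N ^ 2 * (N + P) : ℕ) : ℤ) ≤ Q := by exact_mod_cast hQ.le
          push_cast at f1
          have f2 : (0 : ℤ) ≤ N ^ 2 * (N + P) := by positivity
          nlinarith)
      refine ⟨t, mem_filter.2 ⟨mem_univ _, b3⟩, k, l, X, k1, k2, ?_, fun τ hτ => ?_⟩
      · have : 1 ≤ N * σ t := Nat.mul_pos hN (Nat.pos_of_ne_zero b3)
        simp only [slack]
        push_cast [this]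
        omega
      have hτ' : (τ : ℤ) ≤ s' / (2 * N * P') := by
        have : τ < (s' / (2 * N * P')).toNat := hτ
        omega
      refine ⟨mem_bases.2 ?_, ?_⟩
      · exact Cone.isB ha1 (k4.cone.smul (Nat.cast_nonneg τ)) (by omega)
      · have f1 := Enl_iter (by positivity) (Enl_smooth hO hω hsm (by omega) e1 k3) τ a
        refine f1.trans (mul_le_mul_of_nonneg_right ?_ (hω _))
        rw [← pow_mul, ← Real.exp_nat_mul]
        have f2 : (τ : ℤ) * (2 * N * P') ≤ s' := le_trans (by gcongr) e4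
        have f3 : (τ : ℝ) * (2 * N * P') ≤ s' := by exact_mod_cast f2
        have f4 : (0 : ℝ) < s' := by exact_mod_cast (show 0 < s' by omega)
        have f5 : ((N * τ : ℕ) : ℝ) * (P' / s') ≤ 1 / 2 := by
          rw [← mul_div_assoc, div_le_iff₀ f4]
          push_cast
          linarith
        refine (Real.exp_le_exp.2 f5).trans ?_
        have := Real.exp_bound_div_one_sub_of_interval (x := 1 / 2) (by norm_num) (by norm_num)
        linarith
  have split : ∑ s ∈ bases (fun X => g X + cutf σ X), ω s ≤ ∑ s ∈ bases g, ω s +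
      ∑ s ∈ (bases fun X => g X + cutf σ X).filter (fun s => ¬ Gd s), ω s + ∑ s ∈ S, ω s := by
    rw [← sum_filter_add_sum_filter_not _ Gd, add_right_comm]
    refine add_le_add ?_ le_rfl
    rw [← sum_filter_add_sum_filter_not _ (IsB g), filter_filter, filter_filter]
    refine add_le_add (sum_le_sum_of_subset_of_nonneg (fun s hs => mem_bases.2 (mem_filter.1 hs).2.2)
      fun s _ _ => hω s) le_rfl
  have hB : 0 ≤ ∑ s ∈ bases g, ω s := sum_nonneg fun s _ => hω s
  linarith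

/-- intersection with a box around the centre -/
def gB (g : Finset (Fin N) → ℤ) (lo hi : Fin N → ℕ) (X : Finset (Fin N)) : ℤ :=
  (univ : Finset (Finset (Fin N))).inf' univ_nonempty fun Y =>
    g Y + ∑ j ∈ X \ Y, (hi j : ℤ) + ∑ j ∈ Y \ X, (lo j : ℤ)

theorem gB_le (g : Finset (Fin N) → ℤ) (lo hi : Fin N → ℕ) (X Y : Finset (Fin N)) :
    gB g lo hi X ≤ g Y + ∑ j ∈ X \ Y, (hi j : ℤ) + ∑ j ∈ Y \ X, (lo j : ℤ) := inf'_le _ (mem_univ Y)

theorem exists_gB (g : Finset (Fin N) → ℤ) (lo hi : Fin N → ℕ) (X : Finset (Fin N)) :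
    ∃ Y, gB g lo hi X = g Y + ∑ j ∈ X \ Y, (hi j : ℤ) + ∑ j ∈ Y \ X, (lo j : ℤ) := by
  obtain ⟨Y, -, h⟩ := exists_mem_eq_inf' (s := (univ : Finset (Finset (Fin N)))) univ_nonempty fun Y =>
    g Y + ∑ j ∈ X \ Y, (hi j : ℤ) + ∑ j ∈ Y \ X, (lo j : ℤ)
  exact ⟨Y, h⟩

theorem gB_le_self (g : Finset (Fin N) → ℤ) (lo hi : Fin N → ℕ) (X : Finset (Fin N)) : gB g lo hi X ≤ g X := by
  simpa using gB_le g lo hi X X

theorem gB_nonneg (h0 : IsB g 0) (lo hi : Fin N → ℕ) (X : Finset (Fin N)) : 0 ≤ gB g lo hi X := by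
  obtain ⟨Y, h⟩ := exists_gB g lo hi X
  have : 0 ≤ g Y := by simpa using h0.1 Y
  rw [h]
  positivity

theorem Enl_sdiff (h : Fin N → ℕ) (A B Y Z : Finset (Fin N)) :
    ∑ j ∈ (A ∪ B) \ (Y ∪ Z), (h j : ℤ) + ∑ j ∈ (A ∩ B) \ (Y ∩ Z), (h j : ℤ) ≤
      ∑ j ∈ A \ Y, (h j : ℤ) + ∑ j ∈ B \ Z, (h j : ℤ) := by
  have e : ∀ S : Finset (Fin N), ∑ j ∈ S, (h j : ℤ) = ∑ j, if j ∈ S then (h j : ℤ) else 0 := fun S => by
    rw [sum_ite_mem, univ_inter]
  simp only [e, ← sum_add_distrib]
  refine sum_le_sum fun j _ => ?_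
  by_cases a1 : j ∈ A <;> by_cases a2 : j ∈ B <;> by_cases a3 : j ∈ Y <;> by_cases a4 : j ∈ Z <;>
    simp [a1, a2, a3, a4]

theorem Sub.gB (hg : Sub g) (h0 : IsB g 0) (lo hi : Fin N → ℕ) : Sub (gB g lo hi) := by
  refine ⟨le_antisymm ((gB_le_self g lo hi ∅).trans hg.empty.le) (gB_nonneg h0 lo hi ∅), fun A B => ?_⟩
  obtain ⟨Y, hY⟩ := exists_gB g lo hi A
  obtain ⟨Z, hZ⟩ := exists_gB g lo hi B
  have h1 := gB_le g lo hi (A ∪ B) (Y ∪ Z)
  have h2 := gB_le g lo hi (A ∩ B) (Y ∩ Z)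
  have h3 := hg.sub Y Z
  have h4 := Enl_sdiff hi A B Y Z
  have h5 := Enl_sdiff lo Y Z A B
  linarith

theorem isB_gB (hg : Sub g) (h0 : IsB g 0) (lo hi : Fin N → ℕ) (s : Fin N → ℤ) :
    IsB (gB g lo hi) s ↔ IsB g s ∧ ∀ j, -(lo j : ℤ) ≤ s j ∧ s j ≤ hi j := by
  have hu : g univ = 0 := by simpa using h0.2.symm
  have hu' : gB g lo hi univ = 0 := le_antisymm ((gB_le_self g lo hi _).trans hu.le) (gB_nonneg h0 lo hi _)
  constructor
  · intro h
    refine ⟨⟨fun X => (h.1 X).trans (gB_le_self g lo hi X), by rw [h.2, hu, hu']⟩, fun j => ⟨?_, ?_⟩⟩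
    · have h1 := (h.1 {j}ᶜ).trans (gB_le g lo hi _ univ)
      have h2 := h.2
      rw [← sum_add_sum_compl {j}, sum_singleton, hu'] at h2
      rw [hu, sdiff_eq_empty_iff_subset.2 (subset_univ _), ← compl_eq_univ_sdiff, compl_compl, sum_empty,
        sum_singleton] at h1
      omega
    · simpa [hg.empty] using (h.1 {j}).trans (gB_le g lo hi _ ∅)
  · rintro ⟨h1, h2⟩
    refine ⟨fun X => ?_, by rw [h1.2, hu, hu']⟩
    obtain ⟨Y, hY⟩ := exists_gB g lo hi X
    have a1 := h1.1 Y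
    have a2 : ∑ j ∈ X \ Y, s j ≤ ∑ j ∈ X \ Y, (hi j : ℤ) := sum_le_sum fun j _ => (h2 j).2
    have a3 : ∑ j ∈ Y \ X, -(lo j : ℤ) ≤ ∑ j ∈ Y \ X, s j := sum_le_sum fun j _ => (h2 j).1
    have a4 := sum_sdiff_sub_sum_sdiff (s₁ := Y) (s₂ := X) (f := s)
    rw [sum_neg_distrib] at a3
    linarith

theorem arc_gB (hg : Sub g) (h0 : IsB g 0) (ρ : ℕ) {s : ℤ} {p q : Fin N} (hpq : p ≠ q) :
    Arc (gB g (fun _ => ρ) fun _ => ρ) 0 s p q ↔ Arc g 0 s p q ∧ s < ρ := by
  unfold Arc
  simp only [slack, Pi.zero_apply, sum_const_zero, sub_zero]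
  constructor
  · intro h
    refine ⟨fun X hp hq => (h X hp hq).trans_le (gB_le_self _ _ _ _), ?_⟩
    simpa [hg.empty] using (h {p} (by simp) (by simpa using hpq.symm)).trans_le (gB_le g _ _ _ ∅)
  · rintro ⟨h1, h2⟩ X hp hq
    obtain ⟨Y, hY⟩ := exists_gB g (fun _ => ρ) (fun _ => ρ) X
    have a1 : 0 ≤ g Y := by simpa using h0.1 Y
    have a2 : (0 : ℤ) ≤ ∑ _j ∈ X \ Y, (ρ : ℤ) := by positivity
    have a3 : (0 : ℤ) ≤ ∑ _j ∈ Y \ X, (ρ : ℤ) := by positivity
    rw [hY]
    by_cases c1 : p ∈ Y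
    · by_cases c2 : q ∈ Y
      · have := single_le_sum (f := fun _ : Fin N => (ρ : ℤ)) (fun _ _ => Nat.cast_nonneg ρ)
          (mem_sdiff.2 ⟨c2, hq⟩)
        linarith
      · linarith [h1 Y c1 c2]
    · have := single_le_sum (f := fun _ : Fin N => (ρ : ℤ)) (fun _ _ => Nat.cast_nonneg ρ)
        (mem_sdiff.2 ⟨hp, c1⟩)
      linarith

theorem ord_gB (hg : Sub g) (h0 : IsB g 0) (hO : Ord (Eqv g 0) (Equiv.refl (Fin N)) W) (ρ : ℕ) :
    Ord (Eqv (gB g (fun _ => ρ) fun _ => ρ) 0) (Equiv.refl (Fin N)) fun t => min (W t) ρ := by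
  refine ⟨fun t => le_min (hO.nonneg t) (Nat.cast_nonneg _), fun a b hab s hs => ?_,
    fun a b t h1 h2 s hs => ?_⟩
  · have hne : a ≠ b := fun h => by rw [h] at hab; omega
    have := hO.con a b hab s (lt_min_iff.1 hs).1
    exact ⟨(arc_gB hg h0 ρ hne).2 ⟨this.1, (lt_min_iff.1 hs).2⟩,
      (arc_gB hg h0 ρ hne.symm).2 ⟨this.2, (lt_min_iff.1 hs).2⟩⟩
  · have hne : a ≠ b := fun h => by rw [h] at h1; omega
    have a1 := (arc_gB hg h0 ρ hne).1 hs.1
    have a2 := (arc_gB hg h0 ρ hne.symm).1 hs.2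
    exact lt_min (hO.int a b t h1 h2 s ⟨a1.1, a2.1⟩) a1.2

end Crest.Agent.R302B
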