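import Crest.Agent.R302B.POrd
import Crest.Agent.R302B.Blk

/-!
# Row 302 (binary layer): frames

Everything after the preparation only depends on a `Frame`: a submodular `g` on `Fin N` with base `0`, ordered by its own laminar order with scales `W`, a map
`cp : Fin N → Fin n` (position in the combined order) and the scales `μ` of the combined order.  We count `ng g cp 0`.
-/

set_option autoImplicit false
set_option linter.unusedSectionVars false

noncomputable section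

namespace Crest.Agent.R302B

open Finset Crest.Agent.R302

section box

variable {ι : Type} [Fintype ι] [DecidableEq ι] {g : Finset ι → ℤ}

theorem slack_zero (g : Finset ι → ℤ) (X : Finset ι) : slack g 0 X = g X := by
  simp [slack]

theorem abs_le_of_bd {M : ℤ} (hM : Bd g M) (h0 : IsB g 0) {s : ι → ℤ} (hs : IsB g s) (j : ι) :
    |s j| ≤ M := by
  have a1 := slack_le hM h0 {j}
  have a2 := slack_le hM h0 {j}ᶜ
  rw [slack_zero] at a1 a2
  have b1 := hs.1 {j}
  have b2 := hs.1 {j}ᶜ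
  have b3 := sum_add_sum_compl {j} s
  have b4 := hs.2
  have b5 := h0.2
  rw [sum_singleton] at b1 b3
  simp only [Pi.zero_apply, sum_const_zero] at b5
  exact abs_le.2 ⟨by linarith, by linarith⟩

theorem card_bases_le {M : ℕ} (hM : Bd g M) : #(bases g) ≤ (M + 1) ^ Fintype.card ι := by
  refine (card_le_card (show bases g ⊆ bbox g from fun a ha => mem_bbox (mem_bases.1 ha))).trans ?_
  rw [bbox, Fintype.card_piFinset, ← card_univ, ← prod_const]
  refine prod_le_prod' fun k _ => ?_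
  have := hM {k}
  rw [Int.card_Icc]
  omega

end box

variable {n N : ℕ}

/-- the number of bases with a given difference vector -/
def ng (g : Finset (Fin N) → ℤ) (cp : Fin N → Fin n) (v : Fin n → ℤ) : ℕ := #{s ∈ bases g | psh cp s = v}

/-- frames -/
structure Frame (g : Finset (Fin N) → ℤ) (W : ℕ → ℤ) (cp : Fin N → Fin n) (μ : ℕ → ℤ) : Prop where
  le : n ≤ N
  sub : Sub g
  zero : IsB g 0
  ord : Ord (Eqv g 0) (Equiv.refl _) W
  last : ∀ t, N ≤ t + 1 → W t = 0
  nonneg : ∀ u, 0 ≤ μ u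
  last' : ∀ u, n ≤ u + 1 → μ u = 0
  compat : ∀ i : Fin N, ∀ u : ℕ, ¬ ((cp i).val ≤ u ↔ (cp (nx i)).val ≤ u) → W i ≤ μ u
  range : ∀ a, IsB g a → ∀ (t : ℕ) (T : ℤ), 0 ≤ T →
    (∀ u, u + 1 < n → μ u ≤ cK N * (W t + 1) → |ps (psh cp a) u| ≤ T) →
    |ps a t| ≤ 32 * (N : ℤ) ^ 6 * (W t + 1) + (N : ℤ) ^ 2 * T

/-- the count is flat on small balls; `K` is the loss -/
def Flat (g : Finset (Fin N) → ℤ) (cp : Fin N → Fin n) (μ : ℕ → ℤ) (K : ℕ) : Prop :=
  ∀ (δ : ℝ) (v : Fin n → ℤ), δ ≤ 1 → ∑ u, v u = 0 →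
    (∀ u, u + 1 < n → K * |((ps v u : ℤ) : ℝ)| ≤ δ * μ u) → 0 ≤ δ →
      (ng g cp v : ℝ) ≤ ng g cp 0 * Real.exp δ ∧ (ng g cp 0 : ℝ) ≤ ng g cp v * Real.exp δ

theorem Frame.one_le_ng {g : Finset (Fin N) → ℤ} {W μ : ℕ → ℤ} {cp : Fin N → Fin n} (h : Frame g W cp μ) :
    1 ≤ ng g cp 0 :=
  card_pos.2 ⟨0, mem_filter.2 ⟨mem_bases.2 h.zero, psh_zero cp⟩⟩

end Crest.Agent.R302B
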