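import Crest.Agent.R302B.Frame

/-!
# Row 302 (binary layer): the frame of a preparation

`gl X = slack f₁ x (side₁ X) + slack f₂ x (side₂ X)ᶜ` on `Fin (n + n)`; `s ↦ (x + s|₁, x - s|₂)` is a bijection from its bases to pairs of bases.
* `Prep.frame`.  `ord.con`: `gl X ≥` each of the two slacks.  `ord.int`: copies of sets (`A.map (emb₁ π₁)` has `side₁ = A`, `side₂ = ∅`, `slack f₂ x univ = 0`;
  the copy of `Aᶜ` on the second side has value `slack f₂ x A`); the first block has value `0`.  `range`: `Prep.range`, `Prep.swap`, the first block has sum `0`;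
  `ps (psh cp s) u = ∑ j ∈ pre ρ u, (a j - b j)`.
* `Prep.flat`: `ng = cnt f₁ (dual f₂) (v ∘ ρ.symm)`; `cnt_flat` with `T u = (μ u / n²).toNat`, over the `u : Fin n` with `u + 1 < n`, `0 < T u`, roots `ρ u, ρ (finRotate n u)`, positivity by `Ord.exists_pair`,
  `eq_sum_pre`; the bound `(M+1)^n ≤ 2 ^ (n * size M)`, `log 2 ≤ 1`; `μ u ≤ 2 n² T u` if `0 < T u`; if `T u = 0` then the prefix sum vanishes.
-/

set_option autoImplicit false
set_option linter.unusedSectionVars false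

noncomputable section

namespace Crest.Agent.R302B

open Finset Crest.Agent.R302

variable {n : ℕ}

/-- first copy -/
def emb₁ (π : Fin n ≃ Fin n) : Fin n ↪ Fin (n + n) :=
  ⟨fun j => Fin.castAdd n (π.symm j), fun _ _ h => π.symm.injective (Fin.castAdd_injective _ _ h)⟩

/-- second copy -/
def emb₂ (π : Fin n ≃ Fin n) : Fin n ↪ Fin (n + n) :=
  ⟨fun j => Fin.natAdd n (π.symm j), fun _ _ h => π.symm.injective (Fin.natAdd_injective _ _ h)⟩

/-- trace of a set on a copy -/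
def side (e : Fin n ↪ Fin (n + n)) (X : Finset (Fin (n + n))) : Finset (Fin n) :=
  univ.filter fun j => e j ∈ X

/-- the glued function -/
def gl (f₁ f₂ : Finset (Fin n) → ℤ) (x : Fin n → ℤ) (π₁ π₂ : Fin n ≃ Fin n) (X : Finset (Fin (n + n))) : ℤ :=
  slack f₁ x (side (emb₁ π₁) X) + slack f₂ x (side (emb₂ π₂) X)ᶜ

/-- positions in the combined order -/
def cpf (π₁ π₂ ρ : Fin n ≃ Fin n) : Fin (n + n) → Fin n :=
  Fin.addCases (fun i => ρ.symm (π₁ i)) fun i => ρ.symm (π₂ i)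

/-- the glued scales -/
def wgl (n : ℕ) (W₁ W₂ : ℕ → ℤ) (t : ℕ) : ℤ := if t < n then W₁ t else W₂ (t - n)

variable {f₁ f₂ : Finset (Fin n) → ℤ} {x : Fin n → ℤ} {π₁ π₂ ρ : Fin n ≃ Fin n} {W₁ W₂ μ : ℕ → ℤ} {M : ℕ}

theorem Glue_mem_side {e : Fin n ↪ Fin (n + n)} {X : Finset (Fin (n + n))} {j : Fin n} :
    j ∈ side e X ↔ e j ∈ X := by
  simp [side]

theorem Glue_val₁ (π : Fin n ≃ Fin n) (j : Fin n) : (emb₁ π j).val = (π.symm j).val := rfl

theorem Glue_val₂ (π : Fin n ≃ Fin n) (j : Fin n) : (emb₂ π j).val = n + (π.symm j).val := rfl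

theorem Glue_ne (π₁ π₂ : Fin n ≃ Fin n) (i j : Fin n) : emb₁ π₁ i ≠ emb₂ π₂ j := fun h => by
  have h1 := congrArg Fin.val h
  rw [Glue_val₁, Glue_val₂] at h1
  have := (π₁.symm i).2
  omega

theorem Glue_cases (π₁ π₂ : Fin n ≃ Fin n) (k : Fin (n + n)) :
    (∃ i, k = emb₁ π₁ (π₁ i) ∧ k.val = i.val) ∨ ∃ i, k = emb₂ π₂ (π₂ i) ∧ k.val = n + i.val := by
  refine Fin.addCases (fun i => Or.inl ⟨i, Fin.ext ?_, rfl⟩) (fun i => Or.inr ⟨i, Fin.ext ?_, rfl⟩) k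
  · rw [Glue_val₁, Equiv.symm_apply_apply]
    rfl
  · rw [Glue_val₂, Equiv.symm_apply_apply]
    rfl

theorem Glue_side_map (e : Fin n ↪ Fin (n + n)) (A : Finset (Fin n)) : side e (A.map e) = A := by
  ext j
  rw [Glue_mem_side, mem_map']

theorem Glue_side₂₁ (π₁ π₂ : Fin n ≃ Fin n) (A : Finset (Fin n)) :
    side (emb₂ π₂) (A.map (emb₁ π₁)) = ∅ := by
  refine eq_empty_of_forall_notMem fun j hj => ?_
  obtain ⟨i, -, hi⟩ := mem_map.1 (Glue_mem_side.1 hj)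
  exact Glue_ne π₁ π₂ i j hi

theorem Glue_side₁₂ (π₁ π₂ : Fin n ≃ Fin n) (A : Finset (Fin n)) :
    side (emb₁ π₁) (A.map (emb₂ π₂)) = ∅ := by
  refine eq_empty_of_forall_notMem fun j hj => ?_
  obtain ⟨i, -, hi⟩ := mem_map.1 (Glue_mem_side.1 hj)
  exact Glue_ne π₁ π₂ j i hi.symm

theorem Glue_side_union (e : Fin n ↪ Fin (n + n)) (X Y : Finset (Fin (n + n))) :
    side e (X ∪ Y) = side e X ∪ side e Y := by
  ext j
  simp only [Glue_mem_side, mem_union]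

theorem Glue_side_inter (e : Fin n ↪ Fin (n + n)) (X Y : Finset (Fin (n + n))) :
    side e (X ∩ Y) = side e X ∩ side e Y := by
  ext j
  simp only [Glue_mem_side, mem_inter]

theorem Glue_side_compl (e : Fin n ↪ Fin (n + n)) (X : Finset (Fin (n + n))) :
    side e Xᶜ = (side e X)ᶜ := by
  ext j
  simp only [Glue_mem_side, mem_compl]

theorem Glue_side_univ (e : Fin n ↪ Fin (n + n)) : side e univ = univ := by
  ext j
  simp only [Glue_mem_side, mem_univ]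

theorem Glue_side_empty (e : Fin n ↪ Fin (n + n)) : side e ∅ = ∅ := by
  ext j
  simp only [Glue_mem_side, notMem_empty]

theorem Glue_gl₁ (b₂ : IsB f₂ x) (A : Finset (Fin n)) :
    gl f₁ f₂ x π₁ π₂ (A.map (emb₁ π₁)) = slack f₁ x A := by
  rw [gl, Glue_side_map, Glue_side₂₁, compl_empty, slack_univ b₂, add_zero]

theorem Glue_gl₂ (h₁ : Sub f₁) (A : Finset (Fin n)) :
    gl f₁ f₂ x π₁ π₂ (Aᶜ.map (emb₂ π₂)) = slack f₂ x A := by
  rw [gl, Glue_side_map, Glue_side₁₂, compl_compl, slack_empty h₁, zero_add]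

theorem Glue_cpf₁ (π₁ π₂ ρ : Fin n ≃ Fin n) (j : Fin n) :
    cpf π₁ π₂ ρ (emb₁ π₁ j) = ρ.symm j := by
  change cpf π₁ π₂ ρ (Fin.castAdd n (π₁.symm j)) = _
  rw [cpf, Fin.addCases_left, Equiv.apply_symm_apply]

theorem Glue_cpf₂ (π₁ π₂ ρ : Fin n ≃ Fin n) (j : Fin n) :
    cpf π₁ π₂ ρ (emb₂ π₂ j) = ρ.symm j := by
  change cpf π₁ π₂ ρ (Fin.natAdd n (π₂.symm j)) = _
  rw [cpf, Fin.addCases_right, Equiv.apply_symm_apply]

theorem Glue_isB_dual {ι : Type} [Fintype ι] [DecidableEq ι] {f : Finset ι → ℤ} (h : Sub f)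
    {c : ι → ℤ} : IsB (dual f) c ↔ IsB f (-c) := by
  have h0 := h.empty
  simp only [IsB, dual, compl_univ, h0, Pi.neg_apply, sum_neg_distrib]
  constructor
  · rintro ⟨h1, h2⟩
    refine ⟨fun A => ?_, by linarith⟩
    have h3 := h1 Aᶜ
    have h4 := sum_add_sum_compl A c
    rw [compl_compl] at h3
    linarith
  · rintro ⟨h1, h2⟩
    refine ⟨fun A => ?_, by linarith⟩
    have h3 := h1 Aᶜ
    have h4 := sum_add_sum_compl A c
    linarith

theorem sum_side (π₁ π₂ : Fin n ≃ Fin n) (s : Fin (n + n) → ℤ) (X : Finset (Fin (n + n))) :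
    ∑ j ∈ X, s j = ∑ j ∈ side (emb₁ π₁) X, s (emb₁ π₁ j) + ∑ j ∈ side (emb₂ π₂) X, s (emb₂ π₂ j) := by
  rw [side, side, sum_filter, sum_filter, ← sum_ite_mem_eq, Fin.sum_univ_add]
  congr 1
  · exact (π₁.symm.sum_comp fun i =>
      if Fin.castAdd n i ∈ X then s (Fin.castAdd n i) else 0).symm
  · exact (π₂.symm.sum_comp fun i =>
      if Fin.natAdd n i ∈ X then s (Fin.natAdd n i) else 0).symm

theorem sub_gl (h₁ : Sub f₁) (h₂ : Sub f₂) (b₂ : IsB f₂ x) : Sub (gl f₁ f₂ x π₁ π₂) := by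
  refine ⟨?_, fun X Y => ?_⟩
  · rw [gl, Glue_side_empty, Glue_side_empty, compl_empty, slack_empty h₁, slack_univ b₂, add_zero]
  · simp only [gl, Glue_side_union, Glue_side_inter, compl_union, compl_inter]
    have a1 := slack_sub h₁ x (side (emb₁ π₁) X) (side (emb₁ π₁) Y)
    have a2 := slack_sub h₂ x (side (emb₂ π₂) X)ᶜ (side (emb₂ π₂) Y)ᶜ
    linarith

theorem isB_gl (h₁ : Sub f₁) (h₂ : Sub f₂) (b₁ : IsB f₁ x) (b₂ : IsB f₂ x) {s : Fin (n + n) → ℤ} :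
    IsB (gl f₁ f₂ x π₁ π₂) s ↔
      IsB f₁ (fun j => x j + s (emb₁ π₁ j)) ∧ IsB f₂ fun j => x j - s (emb₂ π₂ j) := by
  have hu : gl f₁ f₂ x π₁ π₂ univ = 0 := by
    rw [gl, Glue_side_univ, Glue_side_univ, compl_univ, slack_univ b₁, slack_empty h₂, add_zero]
  have hs := sum_side π₁ π₂ s univ
  rw [Glue_side_univ, Glue_side_univ] at hs
  have e₁ := b₁.2
  have e₂ := b₂.2
  simp only [IsB, sum_add_distrib, sum_sub_distrib, hu]
  constructor
  · rintro ⟨h1, h2⟩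
    have a1 : ∀ A, ∑ j ∈ A, s (emb₁ π₁ j) ≤ f₁ A - ∑ j ∈ A, x j := fun A => by
      have := h1 (A.map (emb₁ π₁))
      rwa [Glue_gl₁ b₂, sum_map] at this
    have a2 : ∀ A, ∑ j ∈ Aᶜ, s (emb₂ π₂ j) ≤ f₂ A - ∑ j ∈ A, x j := fun A => by
      have := h1 (Aᶜ.map (emb₂ π₂))
      rwa [Glue_gl₂ h₁, sum_map] at this
    have a3 := a1 univ
    have a4 := a2 ∅
    rw [compl_empty, h₂.empty, sum_empty] at a4
    refine ⟨⟨fun A => by linarith [a1 A], by linarith⟩, fun A => ?_, by linarith⟩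
    have a5 := sum_add_sum_compl A fun j => s (emb₂ π₂ j)
    linarith [a2 A]
  · rintro ⟨⟨h1, h2⟩, h3, h4⟩
    refine ⟨fun X => ?_, by linarith⟩
    have a1 := h1 (side (emb₁ π₁) X)
    have a2 := h3 (side (emb₂ π₂) X)ᶜ
    have a3 := sum_add_sum_compl (side (emb₂ π₂) X) fun j => s (emb₂ π₂ j)
    rw [sum_side π₁ π₂, gl, slack, slack]
    linarith

theorem psh_cpf (π₁ π₂ ρ : Fin n ≃ Fin n) (s : Fin (n + n) → ℤ) (u : Fin n) :
    psh (cpf π₁ π₂ ρ) s u = s (emb₁ π₁ (ρ u)) + s (emb₂ π₂ (ρ u)) := by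
  have e₁ : side (emb₁ π₁) (univ.filter fun j => cpf π₁ π₂ ρ j = u) = {ρ u} := by
    ext j
    simp [Glue_mem_side, Glue_cpf₁, Equiv.symm_apply_eq]
  have e₂ : side (emb₂ π₂) (univ.filter fun j => cpf π₁ π₂ ρ j = u) = {ρ u} := by
    ext j
    simp [Glue_mem_side, Glue_cpf₂, Equiv.symm_apply_eq]
  rw [psh, sum_side π₁ π₂, e₁, e₂, sum_singleton, sum_singleton]

theorem bd_gl (m₁ : Bd f₁ M) (m₂ : Bd f₂ M) (b₂ : IsB f₂ x) :
    Bd (gl f₁ f₂ x π₁ π₂) ((2 * M : ℕ) : ℤ) := by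
  intro X
  have a1 := m₁ (side (emb₁ π₁) X)
  have a2 := m₂ (side (emb₂ π₂) X)
  have a3 := sum_add_sum_compl (side (emb₁ π₁) X) x
  have a4 := sum_add_sum_compl (side (emb₂ π₂) X) x
  have a5 := b₂.1 ∅
  have a6 := b₂.2
  simp only [gl, slack, Glue_side_compl, Glue_side_univ, compl_compl, compl_univ, sum_empty] at a5 ⊢
  push_cast
  linarith

theorem abs_gl_le (m₁ : Bd f₁ M) (m₂ : Bd f₂ M) (b₁ : IsB f₁ x) (b₂ : IsB f₂ x) (X : Finset (Fin (n + n))) :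
    |gl f₁ f₂ x π₁ π₂ X| ≤ ((2 * M : ℕ) : ℤ) := by
  have a1 := slack_le m₁ b₁ (side (emb₁ π₁) X)
  have a2 := slack_le m₂ b₂ (side (emb₂ π₂) X)ᶜ
  have a3 := slack_nonneg b₁ (side (emb₁ π₁) X)
  have a4 := slack_nonneg b₂ (side (emb₂ π₂) X)ᶜ
  rw [gl, abs_of_nonneg (add_nonneg a3 a4)]
  push_cast
  linarith

theorem ng_gl (h₁ : Sub f₁) (h₂ : Sub f₂) (b₁ : IsB f₁ x) (b₂ : IsB f₂ x) (v : Fin n → ℤ) :
    ng (gl f₁ f₂ x π₁ π₂) (cpf π₁ π₂ ρ) v = cnt f₁ (dual f₂) fun j => v (ρ.symm j) := by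
  classical
  unfold ng cnt
  refine card_bij (fun s _ j => x j + s (emb₁ π₁ j)) (fun s hs => ?_) (fun s hs s' hs' h => ?_)
    fun a ha => ?_
  · obtain ⟨hs1, hs2⟩ := mem_filter.1 hs
    obtain ⟨c₁, c₂⟩ := (isB_gl h₁ h₂ b₁ b₂).1 (mem_bases.1 hs1)
    refine mem_filter.2 ⟨mem_bases.2 c₁, (Glue_isB_dual h₂).2 ?_⟩
    convert c₂ using 1
    funext j
    have := congrFun hs2 (ρ.symm j)
    rw [psh_cpf, Equiv.apply_symm_apply] at this
    simp only [Pi.neg_apply, Pi.sub_apply]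
    linarith
  · have a1 : ∀ j, s (emb₁ π₁ j) = s' (emb₁ π₁ j) := fun j => add_left_cancel (congrFun h j)
    funext k
    rcases Glue_cases π₁ π₂ k with ⟨i, rfl, -⟩ | ⟨i, rfl, -⟩
    · exact a1 _
    · have a2 := congrFun ((mem_filter.1 hs).2.trans (mem_filter.1 hs').2.symm) (ρ.symm (π₂ i))
      rw [psh_cpf, psh_cpf, Equiv.apply_symm_apply, a1] at a2
      exact add_left_cancel a2
  · obtain ⟨ha1, ha2⟩ := mem_filter.1 ha
    rw [Glue_isB_dual h₂] at ha2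
    let s : Fin (n + n) → ℤ := Fin.addCases (fun i => a (π₁ i) - x (π₁ i))
      fun i => x (π₂ i) - a (π₂ i) + v (ρ.symm (π₂ i))
    have s₁ : ∀ j, s (emb₁ π₁ j) = a j - x j := fun j => by
      change s (Fin.castAdd n (π₁.symm j)) = _
      simp only [s, Fin.addCases_left, Equiv.apply_symm_apply]
    have s₂ : ∀ j, s (emb₂ π₂ j) = x j - a j + v (ρ.symm j) := fun j => by
      change s (Fin.natAdd n (π₂.symm j)) = _
      simp only [s, Fin.addCases_right, Equiv.apply_symm_apply]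
    have e₁ : (fun j => x j + s (emb₁ π₁ j)) = a := funext fun j => by rw [s₁, add_sub_cancel]
    refine ⟨s, mem_filter.2 ⟨mem_bases.2 ((isB_gl h₁ h₂ b₁ b₂).2 ⟨?_, ?_⟩), funext fun u => ?_⟩, e₁⟩
    · rw [e₁]
      exact mem_bases.1 ha1
    · convert ha2 using 1
      funext j
      simp only [s₂, Pi.neg_apply, Pi.sub_apply]
      ring
    · rw [psh_cpf, s₁, s₂, Equiv.symm_apply_apply]
      ring

open Classical in
theorem cnt_dual_zero (h₂ : Sub f₂) : cnt f₁ (dual f₂) 0 = #{a ∈ bases f₁ | IsB f₂ a} := by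
  unfold cnt
  congr 1
  ext a
  simp only [mem_filter, Glue_isB_dual h₂, zero_sub, neg_neg]

theorem Glue_arc₁ (b₂ : IsB f₂ x) {s : ℤ} {p q : Fin n} :
    Arc (gl f₁ f₂ x π₁ π₂) 0 s (emb₁ π₁ p) (emb₁ π₁ q) ↔ Arc f₁ x s p q := by
  constructor
  · intro h A hp hq
    have := h (A.map (emb₁ π₁)) (mem_map_of_mem _ hp) (by rwa [mem_map'])
    rwa [slack_zero, Glue_gl₁ b₂] at this
  · intro h X hp hq
    rw [slack_zero, gl]
    exact (h _ (Glue_mem_side.2 hp) fun h' => hq (Glue_mem_side.1 h')).trans_le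
      (le_add_of_nonneg_right (slack_nonneg b₂ _))

theorem Glue_arc₂ (h₁ : Sub f₁) (b₁ : IsB f₁ x) {s : ℤ} {p q : Fin n} :
    Arc (gl f₁ f₂ x π₁ π₂) 0 s (emb₂ π₂ p) (emb₂ π₂ q) ↔ Arc f₂ x s q p := by
  constructor
  · intro h A hq hp
    have := h (Aᶜ.map (emb₂ π₂)) (mem_map_of_mem _ (mem_compl.2 hp))
      (by rwa [mem_map', mem_compl, not_not])
    rwa [slack_zero, Glue_gl₂ h₁] at this
  · intro h X hp hq
    rw [slack_zero, gl]
    exact (h _ (mem_compl.2 fun h' => hq (Glue_mem_side.1 h'))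
      fun h' => mem_compl.1 h' (Glue_mem_side.2 hp)).trans_le
      (le_add_of_nonneg_left (slack_nonneg b₁ _))

theorem Prep.frame (h₁ : Sub f₁) (h₂ : Sub f₂) (h : Prep f₁ f₂ M x π₁ π₂ ρ W₁ W₂ μ)
    (l₁ : ∀ t, n ≤ t + 1 → W₁ t = 0) (l₂ : ∀ t, n ≤ t + 1 → W₂ t = 0) (l : ∀ t, n ≤ t + 1 → μ t = 0) :
    Frame (gl f₁ f₂ x π₁ π₂) (wgl n W₁ W₂) (cpf π₁ π₂ ρ) μ := by
  have b₁ := h.cen.b₁
  have b₂ := h.cen.b₂
  have hz : IsB (gl f₁ f₂ x π₁ π₂) 0 := (isB_gl h₁ h₂ b₁ b₂).2 ⟨by simpa using b₁, by simpa using b₂⟩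
  have hW : ∀ t, 0 ≤ wgl n W₁ W₂ t := fun t => by
    unfold wgl
    split_ifs
    exacts [h.o₁.nonneg _, h.o₂.nonneg _]
  have w₁ : ∀ t, t < n → wgl n W₁ W₂ t = W₁ t := fun t ht => if_pos ht
  have w₂ : ∀ t, n ≤ t → wgl n W₁ W₂ t = W₂ (t - n) := fun t ht => if_neg (not_lt.2 ht)
  refine ⟨Nat.le_add_right n n, sub_gl h₁ h₂ b₂, hz, ⟨hW, ?_, ?_⟩, fun t ht => ?_, h.o.nonneg, l,
    ?_, ?_⟩
  · intro a b hab s hs
    simp only [Equiv.refl_apply]
    rcases Glue_cases π₁ π₂ a with ⟨i, ha, hi⟩ | ⟨i, ha, hi⟩ <;>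
      rcases Glue_cases π₁ π₂ b with ⟨i', hb, hi'⟩ | ⟨i', hb, hi'⟩
    · rw [hi, w₁ _ i.2] at hs
      have := h.o₁.con i i' (by omega) s hs
      rw [ha, hb]
      exact ⟨(Glue_arc₁ b₂).2 this.1, (Glue_arc₁ b₂).2 this.2⟩
    · rw [hi, w₁ _ i.2, l₁ _ (by omega)] at hs
      exact ⟨arc_of_neg hz hs _ _, arc_of_neg hz hs _ _⟩
    · have := i'.2
      omega
    · rw [hi, w₂ _ (Nat.le_add_right _ _), Nat.add_sub_cancel_left] at hs
      have := h.o₂.con i i' (by omega) s hs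
      rw [ha, hb]
      exact ⟨(Glue_arc₂ h₁ b₁).2 this.2, (Glue_arc₂ h₁ b₁).2 this.1⟩
  · intro a b t hat htb s hs
    simp only [Equiv.refl_apply] at hs
    rcases Glue_cases π₁ π₂ a with ⟨i, ha, hi⟩ | ⟨i, ha, hi⟩ <;>
      rcases Glue_cases π₁ π₂ b with ⟨i', hb, hi'⟩ | ⟨i', hb, hi'⟩
    · have := i'.2
      rw [w₁ _ (by omega)]
      rw [ha, hb] at hs
      exact h.o₁.int i i' t (by omega) (by omega) s ⟨(Glue_arc₁ b₂).1 hs.1, (Glue_arc₁ b₂).1 hs.2⟩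
    · have h1 := hs.1 (univ.map (emb₁ π₁)) (ha ▸ mem_map_of_mem _ (mem_univ _)) fun hb' => by
        obtain ⟨j, -, hj⟩ := mem_map.1 hb'
        exact Glue_ne π₁ π₂ _ _ (hj.trans hb)
      rw [slack_zero, Glue_gl₁ b₂, slack_univ b₁] at h1
      exact h1.trans_le (hW t)
    · have := i'.2
      omega
    · rw [w₂ _ (by omega)]
      rw [ha, hb] at hs
      exact h.o₂.int i i' (t - n) (by omega) (by omega) s
        ⟨(Glue_arc₂ h₁ b₁).1 hs.2, (Glue_arc₂ h₁ b₁).1 hs.1⟩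
  · rw [w₂ _ (by omega)]
    exact l₂ _ (by omega)
  · intro a u hu
    by_cases hlast : a.val + 1 < n + n
    · have hab := nx_val hlast
      rcases Glue_cases π₁ π₂ a with ⟨i, ha, hi⟩ | ⟨i, ha, hi⟩ <;>
        rcases Glue_cases π₁ π₂ (nx a) with ⟨i', hb, hi'⟩ | ⟨i', hb, hi'⟩
      · rw [hb, congrArg (cpf π₁ π₂ ρ) ha, Glue_cpf₁, Glue_cpf₁, ← mem_pre, ← mem_pre] at hu
        rw [hi, w₁ _ i.2]
        exact h.compat (by omega) hu
      · rw [hi, w₁ _ i.2, l₁ _ (by omega)]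
        exact h.o.nonneg u
      · have := i'.2
        omega
      · rw [hb, congrArg (cpf π₁ π₂ ρ) ha, Glue_cpf₂, Glue_cpf₂, ← mem_pre, ← mem_pre] at hu
        rw [hi, w₂ _ (Nat.le_add_right _ _), Nat.add_sub_cancel_left]
        exact h.swap.compat (by omega) hu
    · have := a.2
      rw [w₂ _ (by omega), l₂ _ (by omega)]
      exact h.o.nonneg u
  · intro a ha t T hT hd
    obtain ⟨c₁, c₂⟩ := (isB_gl h₁ h₂ b₁ b₂).1 ha
    have hps : ∀ u, ps (psh (cpf π₁ π₂ ρ) a) u =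
        ∑ j ∈ pre ρ u, ((x j + a (emb₁ π₁ j)) - (x j - a (emb₂ π₂ j))) := fun u => by
      rw [sum_pre, ps]
      exact sum_congr rfl fun i _ => by rw [psh_cpf]; ring
    have hn : (0 : ℤ) ≤ n := Int.natCast_nonneg n
    have hcK : ∀ w : ℤ, 0 ≤ w → cK n * (w + 1) ≤ cK (n + n) * (w + 1) := fun w hw => by
      unfold cK
      push_cast
      gcongr
      linarith
    have hfin : ∀ w : ℤ, 0 ≤ w → n * (2 * (n : ℤ) ^ 2 * (cK n * (w + 1)) + n * T) ≤
        32 * ((n + n : ℕ) : ℤ) ^ 6 * (w + 1) + ((n + n : ℕ) : ℤ) ^ 2 * T := fun w hw => by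
      have e : n * (2 * (n : ℤ) ^ 2 * (cK n * (w + 1)) + n * T) =
          32 * (n : ℤ) ^ 6 * (w + 1) + (n : ℤ) ^ 2 * T := by
        unfold cK
        ring
      rw [e]
      push_cast
      gcongr <;> linarith
    rw [ps, sum_side π₁ π₂]
    rcases lt_or_ge t n with ht | ht
    · have e₁ : side (emb₁ π₁) (univ.filter fun j : Fin (n + n) => j.val ≤ t) = pre π₁ t := by
        ext j
        simp only [Glue_mem_side, mem_filter, mem_univ, true_and, Glue_val₁, mem_pre]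
      have e₂ : side (emb₂ π₂) (univ.filter fun j : Fin (n + n) => j.val ≤ t) = ∅ := by
        ext j
        simp only [Glue_mem_side, mem_filter, mem_univ, true_and, Glue_val₂, notMem_empty,
          iff_false]
        omega
      rw [w₁ t ht] at hd ⊢
      have := h.range h₁ h₂ c₁ c₂ t hT fun u hu hμ => by
        rw [← hps]
        exact hd u hu (hμ.trans (hcK _ (h.o₁.nonneg t)))
      simp only [add_sub_cancel_left] at this
      rw [e₁, e₂, sum_empty, add_zero]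
      exact this.trans (hfin _ (h.o₁.nonneg t))
    · have e₁ : side (emb₁ π₁) (univ.filter fun j : Fin (n + n) => j.val ≤ t) = univ := by
        ext j
        have := (π₁.symm j).2
        simp only [Glue_mem_side, mem_filter, mem_univ, true_and, Glue_val₁, iff_true]
        omega
      have e₂ : side (emb₂ π₂) (univ.filter fun j : Fin (n + n) => j.val ≤ t) = pre π₂ (t - n) := by
        ext j
        simp only [Glue_mem_side, mem_filter, mem_univ, true_and, Glue_val₂, mem_pre]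
        omega
      have e₃ : ∑ j, a (emb₁ π₁ j) = 0 := by
        have a1 := c₁.2
        have a2 := b₁.2
        rw [sum_add_distrib] at a1
        linarith
      rw [w₂ t ht] at hd ⊢
      have := h.swap.range h₂ h₁ c₂ c₁ (t - n) hT fun u hu hμ => by
        have a1 := hd u hu (hμ.trans (hcK _ (h.o₂.nonneg _)))
        rw [hps, ← abs_neg, ← sum_neg_distrib] at a1
        simpa only [neg_sub] using a1
      simp only [sub_sub_cancel_left, sum_neg_distrib, abs_neg] at this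
      rw [e₁, e₂, e₃, zero_add]
      exact this.trans (hfin _ (h.o₂.nonneg _))

theorem Glue_sum_rt (S : Finset (Fin n)) (j : Fin n → ℤ) (p q : Fin n → Fin n)
    (Y : Finset (Fin n)) : ∑ k ∈ Y, (∑ u ∈ S, j u • rt (p u) (q u)) k =
      ∑ u ∈ S, j u * ((if p u ∈ Y then 1 else 0) - (if q u ∈ Y then 1 else 0)) := by
  simp only [Finset.sum_apply, Pi.smul_apply, smul_eq_mul]
  rw [sum_comm]
  exact sum_congr rfl fun i _ => by rw [← mul_sum, sum_rt]

theorem Glue_pre_rt (ρ : Fin n ≃ Fin n) (S : Finset (Fin n)) (hS : ∀ t ∈ S, t.val + 1 < n)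
    (j : Fin n → ℤ) (u : Fin n) :
    ∑ k ∈ pre ρ u, (∑ t ∈ S, j t • rt (ρ t) (ρ (finRotate n t))) k = if u ∈ S then j u else 0 := by
  rw [Glue_sum_rt, ← sum_ite_eq]
  refine sum_congr rfl fun t ht => ?_
  have h1 : (finRotate n t : ℕ) = t + 1 := by
    have := hS t ht
    rcases POrd_rot t with h | ⟨h, -⟩ <;> omega
  simp only [apply_mem_pre, h1, Fin.ext_iff]
  split_ifs <;> omega

theorem Prep.flat (h₁ : Sub f₁) (h₂ : Sub f₂) (m₁ : Bd f₁ M) (h : Prep f₁ f₂ M x π₁ π₂ ρ W₁ W₂ μ) :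
    Flat (gl f₁ f₂ x π₁ π₂) (cpf π₁ π₂ ρ) μ (2 * n ^ 4 * (M.size + 1)) := by
  classical
  intro δ v hδ1 hv hK hδ0
  have b₁ := h.cen.b₁
  have b₂ := h.cen.b₂
  rw [ng_gl h₁ h₂ b₁ b₂, ng_gl h₁ h₂ b₁ b₂]
  rcases Nat.eq_zero_or_pos n with rfl | hn
  · rw [Subsingleton.elim v 0]
    have := le_mul_of_one_le_right (Nat.cast_nonneg (α := ℝ) (cnt f₁ (dual f₂) fun j =>
      (0 : Fin 0 → ℤ) (ρ.symm j))) (Real.one_le_exp hδ0)
    exact ⟨this, this⟩
  have hn' : (1 : ℝ) ≤ n := by exact_mod_cast hn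
  have hn2 : (0 : ℤ) < (n : ℤ) ^ 2 := by positivity
  set T : Fin n → ℕ := fun u => (μ u / (n : ℤ) ^ 2).toNat with hT
  set S : Finset (Fin n) := univ.filter fun u => u.val + 1 < n ∧ 0 < T u with hS
  have hT1 : ∀ u : Fin n, (T u : ℤ) = μ u / (n : ℤ) ^ 2 := fun u =>
    Int.toNat_of_nonneg (Int.ediv_nonneg (h.o.nonneg u) hn2.le)
  have hT2 : ∀ u : Fin n, (n : ℤ) ^ 2 * T u ≤ μ u := fun u => by
    rw [hT1]
    exact Int.mul_ediv_self_le hn2.ne'
  have hT3 : ∀ u : Fin n, (μ u : ℝ) < (n : ℝ) ^ 2 * (T u + 1) := fun u => by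
    have := Int.lt_mul_ediv_self_add (x := μ u) hn2
    rw [← hT1] at this
    have h2 : μ u < (n : ℤ) ^ 2 * (T u + 1) := by linarith
    exact_mod_cast h2
  have hμ : ∀ u, (0 : ℝ) ≤ μ u := fun u => by exact_mod_cast h.o.nonneg u
  have hsz : (1 : ℝ) ≤ (M.size : ℝ) + 1 := le_add_of_nonneg_left (Nat.cast_nonneg _)
  have hKc : ((2 * n ^ 4 * (M.size + 1) : ℕ) : ℝ) = 2 * (n : ℝ) ^ 2 * ((n : ℝ) ^ 2 * (M.size + 1)) := by
    push_cast
    ring
  have hn4 : (1 : ℝ) ≤ (n : ℝ) ^ 2 * (M.size + 1) := one_le_mul_of_one_le_of_one_le (one_le_pow₀ hn') hsz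
  -- the prefix sums in terms of `T`
  have hA : ∀ u ∈ S, (n : ℝ) ^ 2 * (M.size + 1) * |((ps v u : ℤ) : ℝ)| ≤ δ * T u := fun u hu => by
    obtain ⟨hu1, hu2⟩ := (mem_filter.1 hu).2
    have a1 := hK u hu1
    have a2 : (1 : ℝ) ≤ T u := by exact_mod_cast hu2
    have a3 : (μ u : ℝ) ≤ 2 * (n : ℝ) ^ 2 * T u := by nlinarith [hT3 u, sq_nonneg (n : ℝ)]
    rw [hKc, mul_assoc] at a1
    refine le_of_mul_le_mul_left (a := 2 * (n : ℝ) ^ 2) (a1.trans ?_) (by positivity)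
    calc δ * μ u ≤ δ * (2 * (n : ℝ) ^ 2 * T u) := mul_le_mul_of_nonneg_left a3 hδ0
      _ = _ := by ring
  have hγ0 : ∑ j, v (ρ.symm j) = 0 := (ρ.symm.sum_comp v).trans hv
  have hpre : ∀ u : ℕ, ∑ j ∈ pre ρ u, v (ρ.symm j) = ps v u := fun u => by
    rw [sum_pre, ps]
    simp only [Equiv.symm_apply_apply]
  have hB : ∀ u, u ∉ S → ps v u = 0 := fun u hu => by
    by_cases hu1 : u.val + 1 < n
    · have hu2 : T u = 0 := by
        by_contra h0
        exact hu (mem_filter.2 ⟨mem_univ _, hu1, Nat.pos_of_ne_zero h0⟩)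
      have a1 := hK u hu1
      have a2 := hT3 u
      rw [hu2, Nat.cast_zero, zero_add, mul_one] at a2
      rw [hKc] at a1
      have a3 : δ * μ u ≤ μ u := mul_le_of_le_one_left (hμ u) hδ1
      have a4 : (n : ℝ) ^ 2 * |((ps v u : ℤ) : ℝ)| ≤
          2 * (n : ℝ) ^ 2 * ((n : ℝ) ^ 2 * (M.size + 1)) * |((ps v u : ℤ) : ℝ)| :=
        mul_le_mul_of_nonneg_right (by nlinarith [sq_nonneg (n : ℝ)]) (abs_nonneg _)
      have a5 : |((ps v u : ℤ) : ℝ)| < 1 :=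
        lt_of_mul_lt_mul_left (a := (n : ℝ) ^ 2) (by linarith) (by positivity)
      exact Int.abs_lt_one_iff.1 (by exact_mod_cast a5)
    · rw [← hpre, POrd_pre_univ ρ (not_lt.1 hu1), hγ0]
  have hγ : (fun j => v (ρ.symm j)) = 0 + ∑ u ∈ S, ps v u •
      (Pi.single (ρ u) 1 - Pi.single (ρ (finRotate n u)) 1 : Fin n → ℤ) := by
    rw [zero_add, eq_sum_pre ρ hγ0]
    simp only [hpre]
    exact (sum_subset (subset_univ S) fun u _ hu => by rw [hB u hu, zero_smul]).symm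
  have hM : ∀ γ, cnt f₁ (dual f₂) γ ≤ (M + 1) ^ n := fun γ => by
    have := (cnt_le f₁ (dual f₂) γ).trans (card_bases_le m₁)
    rwa [Fintype.card_fin] at this
  have key := cnt_flat h₁ h₂.dual S (fun u => ρ u) (fun u => ρ (finRotate n u)) T
    (fun u hu => (mem_filter.1 hu).2.2) 0 (M := (M + 1) ^ n) (by positivity) hM
    (fun j hj => by
      obtain ⟨a, b, ha, hb, hab⟩ := h.o.exists_pair b₁ b₂
        (v := ∑ u ∈ S, j u • rt (ρ u) (ρ (finRotate n u)))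
        (by
          rw [Glue_sum_rt]
          simp)
        fun u hu => by
          rw [Glue_pre_rt ρ S (fun t ht => (mem_filter.1 ht).2.1) j ⟨u, by omega⟩]
          split_ifs with hu'
          · exact (mul_le_mul_of_nonneg_left (hj _ hu') hn2.le).trans (hT2 ⟨u, by omega⟩)
          · rw [abs_zero, mul_zero]
            exact h.o.nonneg u
      refine one_le_cnt ha ((Glue_isB_dual h₂ (c := -b)).2 (by rwa [neg_neg])) ?_
      rw [zero_add, ← sub_eq_add_neg, hab]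
      rfl)
    (fun u => ps v u)
    (fun u hu => by
      have a1 := hA u hu
      have a2 : δ * T u ≤ T u := mul_le_of_le_one_left (Nat.cast_nonneg _) hδ1
      have a3 := le_mul_of_one_le_left (abs_nonneg ((ps v u : ℤ) : ℝ)) hn4
      have a4 : |((ps v u : ℤ) : ℝ)| ≤ T u := by linarith
      exact_mod_cast a4)
  rw [← hγ] at key
  have hlog : Real.log (((M + 1) ^ n : ℕ) : ℝ) ≤ n * (M.size + 1) := by
    rw [Nat.cast_pow, Real.log_pow]
    refine mul_le_mul_of_nonneg_left ?_ (Nat.cast_nonneg _)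
    have a1 : ((M + 1 : ℕ) : ℝ) ≤ 2 ^ M.size := by exact_mod_cast Nat.lt_size_self M
    have a2 := Real.log_le_log (by positivity) a1
    have a3 : Real.log 2 ≤ 1 := by linarith [Real.log_le_sub_one_of_pos two_pos]
    rw [Real.log_pow] at a2
    have a4 := mul_le_of_le_one_right (Nat.cast_nonneg (α := ℝ) M.size) a3
    linarith
  have hexp : (∑ u ∈ S, |((ps v u : ℤ) : ℝ)| / T u) * Real.log (((M + 1) ^ n : ℕ) : ℝ) ≤ δ := by
    have a1 : ∑ u ∈ S, |((ps v u : ℤ) : ℝ)| / T u ≤ n * (δ / ((n : ℝ) ^ 2 * (M.size + 1))) := by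
      refine (sum_le_card_nsmul _ _ (δ / ((n : ℝ) ^ 2 * (M.size + 1))) fun u hu => ?_).trans ?_
      · have a2 : (0 : ℝ) < T u := by exact_mod_cast (mem_filter.1 hu).2.2
        rw [div_le_div_iff₀ a2 (by positivity), mul_comm]
        exact hA u hu
      · rw [nsmul_eq_mul]
        refine mul_le_mul_of_nonneg_right ?_ (by positivity)
        exact_mod_cast (card_le_univ S).trans (Fintype.card_fin n).le
    calc _ ≤ n * (δ / ((n : ℝ) ^ 2 * (M.size + 1))) * (n * (M.size + 1)) :=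
          mul_le_mul a1 hlog (Real.log_natCast_nonneg _) (by positivity)
      _ = δ := by field_simp
  have he := Real.exp_le_exp.2 hexp
  exact ⟨key.1.trans (mul_le_mul_of_nonneg_left he (Nat.cast_nonneg _)),
    key.2.trans (mul_le_mul_of_nonneg_left he (Nat.cast_nonneg _))⟩

end Crest.Agent.R302B
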