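import Crest.Agent.R302B.Enl
import Crest.Agent.R302B.Conv

/-!
# Row 302 (binary layer): growing the box
The marginal of one coordinate is log-concave, so a slightly larger box has only slightly more mass.
-/

set_option autoImplicit false
set_option linter.unusedSectionVars false

noncomputable section

namespace Crest.Agent.R302B

open Finset Crest.Agent.R302

/-- the mass just beyond `ρ` -/
theorem WLC.new_le {κ : ℤ → ℝ} (hκ : WLC κ) {ρ d m : ℕ} {Λ Z : ℝ} (h0 : 1 ≤ κ 0) (hm : 0 < m) (hρ : 2 * m ≤ ρ)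
    (hZ : ∀ T : Finset ℤ, (∀ t ∈ T, t ≤ ρ) → ∑ t ∈ T, κ t ≤ Z) (hΛ : Z ≤ Real.exp Λ)
    (hd : (m + d) * Λ ≤ (ρ : ℝ) - m) : ∑ t ∈ Ioc (ρ : ℤ) (ρ + d), κ t ≤ 3 * d / m * Z := by
  obtain ⟨D, rfl⟩ : ∃ D, ρ = D + m := ⟨ρ - m, by omega⟩
  have hD : 0 < D := by omega
  have hD' : (0 : ℝ) < D := by exact_mod_cast hD
  have hm' : (0 : ℝ) < m := by exact_mod_cast hm
  have one : ∀ t : ℤ, t ≤ (D + m : ℕ) → κ t ≤ Z := fun t ht => by
    simpa using hZ {t} (by simpa using ht)
  have hΛ0 : 0 ≤ Λ := by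
    have := (h0.trans (one 0 (by positivity))).trans hΛ
    exact Real.one_le_exp_iff.1 this
  have a1 : κ (0 + D) ≤ Real.exp Λ * κ 0 :=
    ((one _ (by push_cast; omega)).trans hΛ).trans (le_mul_of_one_le_right (Real.exp_pos _).le h0)
  have a2 : ∀ y ∈ Ioc ((D + m : ℕ) : ℤ) ((D + m : ℕ) + d), m * κ y ≤ 3 * Z := by
    intro y hy
    rw [mem_Ioc] at hy
    push_cast at hy
    have b : ∀ t ∈ Ioc (D : ℤ) (D + m), κ y ≤ 3 * κ t := by
      intro t ht
      rw [mem_Ioc] at ht
      obtain ⟨j, hj⟩ : ∃ j : ℕ, y = t + j := ⟨(y - t).toNat, by omega⟩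
      have c := hκ.growth hD (by linarith) a1 (t := t) (by omega) j
      rw [← hj] at c
      refine c.trans (mul_le_mul_of_nonneg_right ?_ (hκ.nonneg t))
      have c1 : (j : ℝ) ≤ m + d := by exact_mod_cast (by omega : j ≤ m + d)
      have c2 : (j : ℝ) * Λ / D ≤ 1 := by
        rw [div_le_one hD']
        push_cast at hd
        nlinarith
      exact (Real.exp_le_exp.2 c2).trans (Real.exp_one_lt_d9.le.trans (by norm_num))
    have c := sum_le_sum b
    rw [sum_const, Int.card_Ioc, ← mul_sum, nsmul_eq_mul] at c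
    have e : ((D : ℤ) + m - D).toNat = m := by omega
    rw [e] at c
    have := hZ (Ioc (D : ℤ) (D + m)) fun t ht => by
      rw [mem_Ioc] at ht
      push_cast
      exact ht.2
    linarith
  have a3 := sum_le_sum a2
  rw [sum_const, Int.card_Ioc, ← mul_sum, nsmul_eq_mul] at a3
  have e : (((D + m : ℕ) : ℤ) + d - (D + m : ℕ)).toNat = d := by omega
  rw [e] at a3
  rw [div_mul_eq_mul_div, le_div_iff₀ hm']
  linarith

variable {N : ℕ} {g : Finset (Fin N) → ℤ} {w K : (Fin N → ℤ) → ℝ}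

/-- the mass of a box -/
def zb (g : Finset (Fin N) → ℤ) (w K : (Fin N → ℤ) → ℝ) (lo hi : Fin N → ℕ) : ℝ :=
  ∑ s ∈ bases (gB g lo hi), w s * K (-s)

theorem grow_aux (hg : Sub g) (h0 : IsB g 0) (hw : Sep w) (hK : DLZ K) (h1 : 1 ≤ w 0 * K 0)
    {lo hi lo' hi' : Fin N → ℕ} (k : Fin N) (σ : ℤ) (hσ : σ = 1 ∨ σ = -1) {ρ d m : ℕ} {Λ : ℝ}
    (hold : ∀ s : Fin N → ℤ, (∀ j, -(lo j : ℤ) ≤ s j ∧ s j ≤ hi j) ↔
      (∀ j, -(lo' j : ℤ) ≤ s j ∧ s j ≤ hi' j) ∧ σ * s k ≤ ρ)
    (hnew : ∀ s : Fin N → ℤ, (∀ j, -(lo' j : ℤ) ≤ s j ∧ s j ≤ hi' j) → σ * s k ≤ ρ + d)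
    (hm : 0 < m) (hρ : 2 * m ≤ ρ) (hΛ : zb g w K lo hi ≤ Real.exp Λ) (hd : (m + d) * Λ ≤ (ρ : ℝ) - m) :
    zb g w K lo' hi' ≤ (1 + 3 * d / m) * zb g w K lo hi := by
  have z0 : (0 : Fin N → ℤ) ∈ bases (gB g lo' hi') :=
    mem_bases.2 ((isB_gB hg h0 lo' hi' 0).2 ⟨h0, fun j => by simp⟩)
  have pos : ∀ s, 0 ≤ w s * K (-s) := fun s => (mul_pos (hw.pos s) (hK.pos _)).le
  have marg := wlc_marg (Sub.gB hg h0 lo' hi') ⟨0, z0⟩ hw hK k
  set κ : ℤ → ℝ := fun t => ∑ s ∈ (bases (gB g lo' hi')).filter (fun s => σ * s k = t), w s * K (-s) with hκ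
  have hκ' : WLC κ := by
    rcases hσ with rfl | rfl
    · simpa only [hκ, one_mul] using marg
    · have := marg.neg
      refine (congrArg WLC (funext fun t => ?_)).mp this
      refine sum_congr (filter_congr fun s _ => ?_) fun _ _ => rfl
      constructor <;> intro h <;> linarith
  have fib : ∀ T : Finset ℤ, ∑ t ∈ T, κ t =
      ∑ s ∈ (bases (gB g lo' hi')).filter (fun s => σ * s k ∈ T), w s * K (-s) := fun T =>
    sum_fiberwise_eq_sum_filter _ T (fun s : Fin N → ℤ => σ * s k) _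
  have old : bases (gB g lo hi) = (bases (gB g lo' hi')).filter fun s => σ * s k ≤ ρ := by
    ext s
    rw [mem_filter, mem_bases, mem_bases, isB_gB hg h0, isB_gB hg h0, hold, and_assoc]
  have a := hκ'.new_le (Z := zb g w K lo hi) (d := d) (by
      refine h1.trans ?_
      have := single_le_sum (f := fun s => w s * K (-s)) (fun s _ => pos s)
        (show (0 : Fin N → ℤ) ∈ (bases (gB g lo' hi')).filter (fun s => σ * s k = 0) from
          mem_filter.2 ⟨z0, by simp⟩)
      rwa [neg_zero] at this) hm hρ (fun T hT => by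
      rw [fib, zb, old]
      refine sum_le_sum_of_subset_of_nonneg (fun s hs => ?_) fun s _ _ => pos s
      exact mem_filter.2 ⟨(mem_filter.1 hs).1, hT _ (mem_filter.1 hs).2⟩) hΛ hd
  rw [fib] at a
  have split := sum_filter_add_sum_filter_not (bases (gB g lo' hi')) (fun s => σ * s k ≤ ρ)
    fun s => w s * K (-s)
  have e : (bases (gB g lo' hi')).filter (fun s => ¬ σ * s k ≤ ρ) =
      (bases (gB g lo' hi')).filter (fun s => σ * s k ∈ Ioc (ρ : ℤ) (ρ + d)) := by
    refine filter_congr fun s hs => ?_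
    have := hnew s ((isB_gB hg h0 _ _ _).1 (mem_bases.1 hs)).2
    rw [mem_Ioc]
    omega
  rw [e, ← old] at split
  unfold zb at a ⊢
  linarith

/-- **Box growth.** -/
theorem grow (hg : Sub g) (h0 : IsB g 0) (hw : Sep w) (hK : DLZ K) (h1 : 1 ≤ w 0 * K 0) {ρ d m : ℕ} {Λ : ℝ}
    (hm : 0 < m) (hρ : 2 * m ≤ ρ) (hΛ : zb g w K (fun _ => ρ) (fun _ => ρ) ≤ Real.exp Λ)
    (hd : (m + d) * (Λ + 1) ≤ (ρ : ℝ) - m) (hN : 6 * N * d ≤ m) :
    zb g w K (fun _ => ρ + d) (fun _ => ρ + d) ≤ (1 + 12 * N * d / m) * zb g w K (fun _ => ρ) fun _ => ρ := by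
  have hm' : (0 : ℝ) < m := by exact_mod_cast hm
  set x : ℝ := 3 * d / m with hx
  have x0 : 0 ≤ x := by positivity
  have x1 : 2 * N * x ≤ 1 := by
    have : (6 * N * d : ℝ) ≤ m := by exact_mod_cast hN
    rw [hx, ← mul_div_assoc, div_le_one hm']
    linarith
  set Z := zb g w K (fun _ => ρ) (fun _ => ρ) with hZ
  have Z0 : 0 ≤ Z := sum_nonneg fun s _ => (mul_pos (hw.pos s) (hK.pos _)).le
  have pw : ∀ i ≤ 2 * N, (1 + x) ^ i ≤ Real.exp (2 * N * x) := fun i hi => by
    calc (1 + x) ^ i ≤ Real.exp x ^ i := by gcongr; linarith [Real.add_one_le_exp x]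
      _ = Real.exp (i * x) := (Real.exp_nat_mul _ _).symm
      _ ≤ _ := by gcongr; exact_mod_cast hi
  have key : ∀ i ≤ 2 * N, zb g w K (fun j => if N + j.val < i then ρ + d else ρ)
      (fun j => if j.val < i then ρ + d else ρ) ≤ (1 + x) ^ i * Z := by
    intro i
    induction i with
    | zero => intro _; simp [hZ]
    | succ i ih =>
      intro hi
      have ih' := ih (by omega)
      have b : zb g w K (fun j => if N + j.val < i then ρ + d else ρ)
          (fun j => if j.val < i then ρ + d else ρ) ≤ Real.exp (Λ + 1) := by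
        refine ih'.trans ?_
        rw [add_comm Λ, Real.exp_add]
        exact mul_le_mul ((pw i (by omega)).trans (Real.exp_le_exp.2 x1)) hΛ Z0 (Real.exp_pos _).le
      rw [pow_succ', mul_assoc]
      refine le_trans ?_ (mul_le_mul_of_nonneg_left ih' (by linarith))
      rcases lt_or_ge i N with c | c
      · refine grow_aux hg h0 hw hK h1 ⟨i, c⟩ 1 (Or.inl rfl) (fun s => ⟨fun h => ⟨fun j => ?_, ?_⟩,
          fun h j => ?_⟩) (fun s h => ?_) hm hρ b hd
        · have := h j
          split_ifs at this ⊢ <;> push_cast at this ⊢ <;> omega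
        · have := h ⟨i, c⟩
          simp only [lt_irrefl, if_false] at this
          omega
        · have a1 := h.1 j
          have a2 := h.2
          by_cases e : j = ⟨i, c⟩
          · subst e
            simp only [lt_irrefl, if_false] at a1 ⊢
            split_ifs at a1 ⊢ <;> push_cast at a1 ⊢ <;> omega
          · have : j.val ≠ i := fun e' => e (Fin.ext e')
            split_ifs at a1 ⊢ <;> push_cast at a1 ⊢ <;> omega
        · have := h ⟨i, c⟩
          split_ifs at this <;> push_cast at this <;> omega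
      · have c' : i - N < N := by omega
        refine grow_aux hg h0 hw hK h1 ⟨i - N, c'⟩ (-1) (Or.inr rfl) (fun s => ⟨fun h => ⟨fun j => ?_, ?_⟩,
          fun h j => ?_⟩) (fun s h => ?_) hm hρ b hd
        · have := h j
          have := j.2
          split_ifs at * <;> push_cast at * <;> omega
        · have := h ⟨i - N, c'⟩
          rw [if_neg (by simp only; omega)] at this
          omega
        · have a1 := h.1 j
          have a2 := h.2
          have a3 := j.2
          by_cases e : j = ⟨i - N, c'⟩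
          · subst e
            simp only at a1 a3 ⊢
            split_ifs at a1 ⊢ <;> push_cast at a1 ⊢ <;> omega
          · have : j.val ≠ i - N := fun e' => e (Fin.ext e')
            split_ifs at a1 ⊢ <;> push_cast at a1 ⊢ <;> omega
        · have := h ⟨i - N, c'⟩
          split_ifs at this <;> push_cast at this <;> omega
  have fin := key (2 * N) le_rfl
  have e1 : (fun j : Fin N => if N + j.val < 2 * N then ρ + d else ρ) = fun _ => ρ + d :=
    funext fun j => if_pos (by omega)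
  have e2 : (fun j : Fin N => if j.val < 2 * N then ρ + d else ρ) = fun _ => ρ + d :=
    funext fun j => if_pos (by omega)
  rw [e1, e2] at fin
  refine fin.trans (mul_le_mul_of_nonneg_right ((pw _ le_rfl).trans ?_) Z0)
  have a := Real.abs_exp_sub_one_le (x := 2 * N * x) (by rw [abs_of_nonneg (by positivity)]; exact x1)
  rw [abs_of_nonneg (by positivity : (0 : ℝ) ≤ 2 * N * x)] at a
  have e : (12 * N * d / m : ℝ) = 2 * (2 * N * x) := by rw [hx]; ring
  rw [e]
  linarith [(abs_le.1 a).2]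

end Crest.Agent.R302B
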