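import Crest.Agent.R302B.Conv

/-!
# Row 302 (binary layer): Hub
Limits of DL arrays (`WDL`) and the hub bound.
`hubZ n D d = ∑_{p, q ∈ [0, D]^ι, |p| = |q| = d} n (p - q)` is `WLC` in `d`: on `J = ι ⊕ ι ⊕ ι ⊕ Bool` (coordinates `x, p', q, u', v'`) take
`G = cs ε x * ε ^ |∑ p' + u'| * ε ^ |∑ q + v'|` (`DLZ.comp`, `dlz_lam` or `DLZ.gadget_mul`, `DLZ.mul`), merge twice with `DLZ.msumZ`
(`a ∈ [0, D]` along `rt x_k p'_k`, `a ∈ [0, D]` along `rt q_k x_k`), take `DLZ.line` at `0` in the direction `rt u' v'` and let `ε → 0`.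
`WDL.hub`: `D = d + 1`; `γ ↦ (γ⁺, γ⁻)` is injective, so `∑_{γ ∈ Γ} n γ ≤ hubZ d`; `hubZ 0 = n 0`, `hubZ 1 = ∑_{p,q} n (rt p q)`;
`hubZ (t+1) * hubZ 0 ≤ hubZ t * hubZ 1`.
-/

set_option autoImplicit false
set_option linter.unusedSectionVars false

noncomputable section

namespace Crest.Agent.R302B

open Finset Crest.Agent.R302

open Filter Topology

variable {ι : Type} [Fintype ι] [DecidableEq ι]

/-- limits of DL arrays -/
def WDL (n : (ι → ℤ) → ℝ) : Prop :=
  ∃ cs : ℝ → (ι → ℤ) → ℝ, (∀ ε, 0 < ε → ε ≤ 1 → DLZ (cs ε)) ∧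
    ∀ b, Tendsto (fun ε => cs ε b) (𝓝[>] 0) (𝓝 (n b))

variable {n : (ι → ℤ) → ℝ}

theorem WDL.nonneg (h : WDL n) (b : ι → ℤ) : 0 ≤ n b := by
  obtain ⟨cs, h1, h2⟩ := h
  refine ge_of_tendsto (h2 b) ?_
  filter_upwards [Ioc_mem_nhdsGT (show (0 : ℝ) < 1 by norm_num)] with ε hε
  exact ((h1 ε hε.1 hε.2).pos b).le

theorem WDL.tri (h : WDL n) (p q s : ι) : n (rt p q) * n (rt q s) ≤ 2 * (n (rt p s) * n 0) := by
  obtain ⟨cs, h1, h2⟩ := h
  refine le_of_tendsto_of_tendsto ((h2 _).mul (h2 _)) (((h2 _).mul (h2 _)).const_mul 2) ?_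
  filter_upwards [Ioc_mem_nhdsGT (show (0 : ℝ) < 1 by norm_num)] with ε hε
  simpa using (h1 ε hε.1 hε.2).tri 0 p q s

/-- the sums of the hub bound -/
def hubZ (n : (ι → ℤ) → ℝ) (D : ℕ) (d : ℤ) : ℝ :=
  ∑ p ∈ (ibox (0 : ι → ℤ) fun _ => D).filter (fun p => ∑ k, p k = d),
    ∑ q ∈ (ibox (0 : ι → ℤ) fun _ => D).filter (fun q => ∑ k, q k = d), n (p - q)

theorem WDL.hubZ (h : WDL n) (D : ℕ) : WLC (hubZ n D) := by
  obtain ⟨cs, h1, h2⟩ := h
  refine WLC.lim (κs := fun ε d => ∑ q ∈ ibox (0 : ι → ℤ) fun _ => D, ∑ p ∈ ibox (0 : ι → ℤ) fun _ => D,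
    cs ε (p - q) * (ε ^ (d - ∑ k, p k).natAbs * ε ^ (∑ k, q k - d).natAbs)) (fun ε e0 e1 => ?_) fun d => ?_
  · have hw : Sep fun y : ι ⊕ Bool → ℤ => ε ^ (y (Sum.inr true)).natAbs * ε ^ (y (Sum.inr false)).natAbs := by
      refine ⟨Sum.elim (fun _ t => (1 : ℝ) ^ t.natAbs) fun _ t => ε ^ t.natAbs, ?_, fun y => ?_⟩
      · rintro (j | j)
        · exact lcz_pow_abs one_pos le_rfl
        · exact lcz_pow_abs e0 e1
      · simp [Fintype.prod_sum_type]
    have hC := ((h1 ε e0 e1).comp (f := (Sum.inl : ι → ι ⊕ Bool)) Sum.inl_injective).mul_sep hw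
    have hD : ∀ k, (0 : ι → ℤ) k ≤ (fun _ : ι => (D : ℤ)) k := fun k => Nat.cast_nonneg D
    have h3 := (((hC.msumZ Sum.inl (fun _ => Sum.inr true) univ hD).msumZ (fun _ => Sum.inr false) Sum.inl
      univ hD).line 0 (Sum.inr true) (Sum.inr false)).wlc
    convert h3 using 2 with d
    simp only [mem_univ, if_true]
    refine sum_congr rfl fun q _ => sum_congr rfl fun p _ => ?_
    congr 2
    · funext i
      simp [rt, Finset.sum_apply, Pi.single_apply]
      ring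
    · simp [rt, Finset.sum_apply, Pi.single_apply, sub_eq_add_neg]
    · simp [rt, Finset.sum_apply, Pi.single_apply, sub_eq_add_neg, add_comm]
  · unfold R302B.hubZ
    rw [sum_comm]
    simp only [sum_filter]
    refine tendsto_finsetSum _ fun q _ => ?_
    have e : (if ∑ k, q k = d then ∑ p ∈ ibox (0 : ι → ℤ) fun _ => D, if ∑ k, p k = d then n (p - q) else 0
        else 0) = ∑ p ∈ ibox (0 : ι → ℤ) fun _ => D,
          n (p - q) * ((0 : ℝ) ^ (d - ∑ k, p k).natAbs * (0 : ℝ) ^ (∑ k, q k - d).natAbs) := by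
      split_ifs with c
      · refine sum_congr rfl fun p _ => ?_
        split_ifs with c'
        · simp [c, c']
        · rw [zero_pow (n := (d - ∑ k, p k).natAbs) (by omega)]
          simp
      · refine (sum_eq_zero fun p _ => ?_).symm
        rw [zero_pow (n := (∑ k, q k - d).natAbs) (by omega)]
        simp
    rw [e]
    refine tendsto_finsetSum _ fun p _ => (h2 _).mul ?_
    have : Continuous fun ε : ℝ => ε ^ (d - ∑ k, p k).natAbs * ε ^ (∑ k, q k - d).natAbs := by fun_prop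
    exact (this.tendsto 0).mono_left nhdsWithin_le_nhds

theorem Hub_zero (D : ℕ) : (ibox (0 : ι → ℤ) fun _ => D).filter (fun p => ∑ k, p k = 0) = {0} := by
  ext p
  simp only [mem_filter, mem_ibox, Pi.zero_apply, mem_singleton]
  constructor
  · rintro ⟨h1, h2⟩
    funext k
    exact (sum_eq_zero_iff_of_nonneg fun k _ => (h1 k).1).1 h2 k (mem_univ _)
  · rintro rfl
    simp

theorem Hub_one (D : ℕ) : (ibox (0 : ι → ℤ) fun _ => D).filter (fun p => ∑ k, p k = 1) ⊆ univ.image ez := by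
  intro p hp
  simp only [mem_filter, mem_ibox, Pi.zero_apply] at hp
  obtain ⟨h1, h2⟩ := hp
  obtain ⟨k, -, hk⟩ := exists_ne_zero_of_sum_ne_zero (s := univ) (f := p) (by omega)
  refine mem_image.2 ⟨k, mem_univ _, funext fun j => ?_⟩
  rw [← add_sum_erase _ _ (mem_univ k)] at h2
  have h3 : 0 ≤ ∑ x ∈ univ.erase k, p x := sum_nonneg fun x _ => (h1 x).1
  have h4 := (h1 k).1
  by_cases c : j = k
  · subst c
    simp only [ez, Pi.single_eq_same]
    omega
  · have h5 : ∑ x ∈ univ.erase k, p x = 0 := by omega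
    rw [(sum_eq_zero_iff_of_nonneg fun k _ => (h1 k).1).1 h5 j (mem_erase.2 ⟨c, mem_univ _⟩)]
    simp [ez, c]

theorem Hub_nm1 (γ : ι → ℤ) (h : ∑ k, γ k = 0) :
    2 * ∑ k, max (γ k) 0 = nm1 γ ∧ 2 * ∑ k, max (-γ k) 0 = nm1 γ := by
  have h1 : ∑ k, max (γ k) 0 + ∑ k, max (-γ k) 0 = nm1 γ := by
    unfold nm1
    rw [← sum_add_distrib, Nat.cast_sum]
    exact sum_congr rfl fun k _ => by omega
  have h2 : ∑ k, max (γ k) 0 - ∑ k, max (-γ k) 0 = ∑ k, γ k := by
    rw [← sum_sub_distrib]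
    exact sum_congr rfl fun k _ => by omega
  omega

theorem WDL.hub (h : WDL n) (h0 : 0 < n 0) {A : ℝ} (hA : ∑ p, ∑ q, n (rt p q) ≤ A * n 0) (d : ℕ)
    (Γ : Finset (ι → ℤ)) (hΓ : ∀ γ ∈ Γ, ∑ k, γ k = 0 ∧ nm1 γ = 2 * d) : ∑ γ ∈ Γ, n γ ≤ A ^ d * n 0 := by
  have hW := h.hubZ (d + 1)
  have z0 : R302B.hubZ n (d + 1) 0 = n 0 := by simp only [R302B.hubZ, Hub_zero, sum_singleton, sub_zero]
  have hinj : Function.Injective (ez : ι → ι → ℤ) := fun p q hpq => by
    by_contra c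
    simpa [ez, c] using congrFun hpq p
  have z1 : R302B.hubZ n (d + 1) 1 ≤ A * n 0 := by
    refine le_trans ?_ hA
    unfold R302B.hubZ
    calc _ ≤ ∑ p ∈ univ.image ez, ∑ q ∈ univ.image ez, n (p - q) := by
          refine (sum_le_sum fun p _ => sum_le_sum_of_subset_of_nonneg (Hub_one _)
            fun q _ _ => h.nonneg _).trans (sum_le_sum_of_subset_of_nonneg (Hub_one _)
            fun p _ _ => sum_nonneg fun q _ => h.nonneg _)
      _ = _ := by simp only [sum_image (hinj.injOn), rt_eq]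
  have hA0 : 0 ≤ A := by
    by_contra c
    have := mul_neg_of_neg_of_pos (not_le.1 c) h0
    linarith [hW.nonneg 1]
  have key : ∀ t : ℕ, R302B.hubZ n (d + 1) t ≤ A ^ t * n 0 := by
    intro t
    induction t with
    | zero => simp [z0]
    | succ t ih =>
      have a := hW.lc 0 t (Nat.cast_nonneg t)
      rw [z0, zero_add] at a
      have b := hW.nonneg t
      push_cast
      refine le_of_mul_le_mul_right (a.trans ?_) h0
      calc _ ≤ A ^ t * n 0 * (A * n 0) := mul_le_mul ih z1 (hW.nonneg 1) (by positivity)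
        _ = _ := by ring
  refine le_trans ?_ (key d)
  unfold R302B.hubZ
  rw [← sum_product']
  have e : ∀ γ : ι → ℤ, (fun k => max (γ k) 0) - (fun k => max (-γ k) 0) = γ := fun γ => by
    funext k
    simp only [Pi.sub_apply]
    omega
  calc ∑ γ ∈ Γ, n γ = ∑ x ∈ Γ.image (fun γ => ((fun k => max (γ k) 0), fun k => max (-γ k) 0)),
        n (x.1 - x.2) := by
        rw [sum_image fun γ _ γ' _ hγ => by
          rw [← e γ, ← e γ', (Prod.mk.inj hγ).1, (Prod.mk.inj hγ).2]]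
        simp only [e]
    _ ≤ _ := by
        refine sum_le_sum_of_subset_of_nonneg (fun x hx => ?_) fun x _ _ => h.nonneg _
        obtain ⟨γ, hγ, rfl⟩ := mem_image.1 hx
        obtain ⟨g1, g2⟩ := hΓ γ hγ
        obtain ⟨g3, g4⟩ := Hub_nm1 γ g1
        rw [g2] at g3 g4
        push_cast at g3 g4
        refine mem_product.2 ⟨mem_filter.2 ⟨mem_ibox.2 fun k => ⟨le_max_right _ _, ?_⟩, by dsimp only; omega⟩,
          mem_filter.2 ⟨mem_ibox.2 fun k => ⟨le_max_right _ _, ?_⟩, by dsimp only; omega⟩⟩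
        · have := single_le_sum (f := fun k => max (γ k) 0) (fun k _ => le_max_right _ _) (mem_univ k)
          push_cast
          omega
        · have := single_le_sum (f := fun k => max (-γ k) 0) (fun k _ => le_max_right _ _) (mem_univ k)
          push_cast
          omega

/-- geometric tails -/
theorem WDL.tail (h : WDL n) (h0 : 0 < n 0) {A lam : ℝ} (hA : ∑ p, ∑ q, n (rt p q) ≤ A * n 0) (hl : 0 ≤ lam)
    (hx : lam ^ 2 * A ≤ 1 / 2) (d : ℕ) (Γ : Finset (ι → ℤ)) (hΓ : ∀ γ ∈ Γ, ∑ k, γ k = 0 ∧ 2 * d ≤ nm1 γ + 1) :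
    ∑ γ ∈ Γ, lam ^ nm1 γ * n γ ≤ 2 * (lam ^ 2 * A) ^ d * n 0 := by
  have hA0 : 0 ≤ A := by
    by_contra c
    have a := mul_neg_of_neg_of_pos (not_le.1 c) h0
    have b : 0 ≤ ∑ p, ∑ q, n (rt p q) := sum_nonneg fun p _ => sum_nonneg fun q _ => h.nonneg _
    linarith
  have hx0 : 0 ≤ lam ^ 2 * A := by positivity
  obtain ⟨M, hM⟩ := (Γ.image fun γ => nm1 γ / 2).bddAbove
  have hev : ∀ γ ∈ Γ, nm1 γ = 2 * (nm1 γ / 2) := fun γ hγ => by
    have := (Hub_nm1 γ (hΓ γ hγ).1).1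
    omega
  rw [← sum_fiberwise_of_maps_to (s := Γ) (t := Ico d (M + 1)) (g := fun γ => nm1 γ / 2) fun γ hγ => by
    have a := hM (mem_coe.2 (mem_image_of_mem _ hγ))
    have b := (hΓ γ hγ).2
    have c := hev γ hγ
    exact mem_Ico.2 ⟨by omega, by omega⟩]
  calc _ ≤ ∑ e ∈ Ico d (M + 1), (lam ^ 2 * A) ^ e * n 0 := by
        refine sum_le_sum fun e _ => ?_
        have a := h.hub h0 hA e (Γ.filter fun γ => nm1 γ / 2 = e) fun γ hγ => by
          obtain ⟨b1, b2⟩ := mem_filter.1 hγ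
          exact ⟨(hΓ γ b1).1, by rw [hev γ b1, b2]⟩
        rw [sum_congr rfl (g := fun γ => (lam ^ 2) ^ e * n γ) fun γ hγ => by
          obtain ⟨b1, b2⟩ := mem_filter.1 hγ
          rw [hev γ b1, b2, pow_mul], ← mul_sum, mul_pow, mul_assoc]
        exact mul_le_mul_of_nonneg_left a (by positivity)
    _ ≤ _ := by
        rw [← sum_mul]
        refine mul_le_mul_of_nonneg_right ((geom_sum_Ico_le_of_lt_one hx0 (by linarith)).trans ?_) h0.le
        rw [div_le_iff₀ (by linarith)]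
        nlinarith [pow_nonneg hx0 d]

end Crest.Agent.R302B
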