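import Crest.Agent.R302B.Strong
import Crest.Agent.R302B.Ker
import Crest.Agent.R302B.Conv
import Crest.Agent.R302.Mix

/-!
# Row 302 (binary layer): IO0
In-and-Out: the data of the abstract weak Poincaré inequality (DEFINITIONS ONLY; do not edit, message helper19).
The hidden variable `u` has joint weight `w s * ker (u - s) * H u` with the state `s ∈ bases g`.
-/

set_option autoImplicit false
set_option linter.unusedSectionVars false

noncomputable section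

namespace Crest.Agent.R302B

open Finset Crest.Agent.R302

variable {N : ℕ}

/-- the thin part of a vector of block sums -/
def thn (fat : ℕ → Bool) (x : Fin N → ℤ) : Fin N → ℤ := fun t => if fat t = true then 0 else x t

/-- data -/
structure InO (N : ℕ) where
  fat : ℕ → Bool
  g : Finset (Fin N) → ℤ
  w : (Fin N → ℤ) → ℝ
  H : (Fin N → ℤ) → ℝ
  Ω : Finset (Fin N → ℤ)
  Ωp : Finset (Fin N → ℤ)
  sp : Fin N → ℕ
  l : Fin N → ℕ
  k : ℕ
  c : ℕ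
  lam : ℝ
  Λ : ℝ
  η : Fin N → ℝ
  L : Fin N → ℝ
  κ : ℝ
  M : ℝ
  τ : ℝ
  KE : ℝ

namespace InO

variable (I : InO N)

/-- the weight of a state -/
def W (s : Fin N → ℤ) : ℝ := I.w s * I.H s

/-- the total weight -/
def Z : ℝ := ∑ s ∈ I.Ω, I.W s

/-- the flat radius -/
def σ (t : Fin N) : ℕ := I.sp t - I.l t * (1 + I.k)

/-- one-dimensional kernels -/
def kap (t : Fin N) : ℤ → ℝ := if I.fat t = true then ft (I.σ t) (hub (I.l t)) else ft 0 fun _ => I.lam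

/-- the kernel -/
def ker (y : Fin N → ℤ) : ℝ := ∏ t, I.kap t (th I.fat y t)

/-- the smoothed weight -/
def F (u : Fin N → ℤ) : ℝ := ∑ s ∈ bases I.g, I.w s * I.ker (u - s)

/-- the size of the flat box -/
def Pi : ℝ := ∏ t : Fin N, if I.fat t = true then 2 * (I.σ t : ℝ) + 1 else 1

/-- the good displacements (in block sums) -/
def X : Finset (Fin N → ℤ) :=
  (ibox (fun t : Fin N => if I.fat t = true then -(I.sp t : ℤ) else -(I.c : ℤ))
    fun t : Fin N => if I.fat t = true then (I.sp t : ℤ) else (I.c : ℤ)).filter fun x => nm1 (thn I.fat x) ≤ I.c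

/-- conditional mean -/
def G (f : (Fin N → ℤ) → ℝ) (u : Fin N → ℤ) : ℝ := (∑ s ∈ bases I.g, I.w s * I.ker (u - s) * f s) / I.F u

/-- conditional variance (not normalised) -/
def V (f : (Fin N → ℤ) → ℝ) (u : Fin N → ℤ) : ℝ := ∑ s ∈ bases I.g, I.w s * I.ker (u - s) * (f s - I.G f u) ^ 2

/-- the Brascamp–Lieb constant -/
def C1 : ℝ := 64 * N * (64 * I.Λ * I.κ ^ 2 + I.M ^ 2) / I.lam ^ 6

/-- hypotheses -/
structure OK : Prop where
  ok : FatOK N I.fat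
  sub : Sub I.g
  Ω_sub : I.Ω ⊆ bases I.g
  ne : I.Ω.Nonempty
  sep : Sep I.w
  w_inv : ∀ t : Fin N, I.fat t = true → ∀ s, I.w (s + dd I.fat t) = I.w s
  H_dl : DLZ fun u => I.H (-u)
  H_lip : ∀ t u, I.H (u + dd I.fat t) ≤ Real.exp (I.η t) * I.H u ∧ I.H (u - dd I.fat t) ≤ Real.exp (I.η t) * I.H u
  η_nonneg : ∀ t, 0 ≤ I.η t
  η_fat : ∀ t : Fin N, I.fat t = true → 4 * N * I.η t * I.sp t ≤ 1
  η_thin : ∀ t : Fin N, I.fat t = false → Real.exp (I.η t) ≤ I.Λ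
  one_le : 1 ≤ I.Λ
  lam_pos : 0 < I.lam
  lam_le : I.lam ≤ 1
  lam_small : 8 * N * (I.lam * I.Λ) ≤ 1
  l_ge : ∀ t : Fin N, I.fat t = true → 2 * N ≤ I.l t
  sp_ge : ∀ t : Fin N, I.fat t = true → 4 * N * (I.l t * (1 + I.k)) ≤ I.sp t
  L_pos : ∀ t, 0 < I.L t
  range : ∀ s ∈ I.Ω, ∀ t : Fin N,
    N * (|((th I.fat s t : ℤ) : ℝ)| + if I.fat t = true then (I.sp t : ℝ) else 0) ^ 2 ≤ I.L t ^ 2
  sum_le : ∑ t, 1 / I.L t ^ 2 ≤ 1 / 2
  abs : ∀ t : Fin N, I.fat t = true → 1536 * N * I.L t ^ 2 * ∑ r, 1 / I.L r ^ 2 ≤ I.lam ^ 4 * (I.l t : ℝ) ^ 2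
  L_fat : ∀ t : Fin N, I.fat t = true → I.L t ≤ I.κ * I.l t
  L_thin : ∀ t : Fin N, I.fat t = false → I.L t ≤ I.M
  out : ∑ s ∈ bases I.g \ I.Ω, I.W s ≤ I.τ * I.Z
  mem_Ωp : ∀ s ∈ I.Ω, ∀ y : Fin N → ℤ, (∀ t : Fin N, |y t| ≤ if I.fat t = true then (I.sp t : ℤ) else 0) →
    s + dv I.fat y ∈ I.Ωp
  enl : ∑ s ∈ I.Ωp, I.W s ≤ I.KE * I.Z

end InO

end Crest.Agent.R302B
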