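import Crest.Agent.R302B.IO0

/-!
# Row 302 (binary layer): IO1
The kernel and the smoothed weight.
`th (y + dd t) = th y + ez t`; `th (y + ez k) r = th y r + [k ∈ blk r]`, and at most one `r` with `k ∈ blk r` is thin (`mem_blk_iff_bk`), `∑_{fat} 1 / l ≤ 1/2`,
`exp (-1/2) ≥ 1/2`.  `F_second`: Cauchy–Schwarz, `(∑ w √(ker₊ ker₋))^2 ≤ F₊ F₋`.  `H_ez`: `ez k = dv (th (ez k))`, `le_exp_dv`, `∑_{fat} η ≤ 1/4`.
-/

set_option autoImplicit false
set_option linter.unusedSectionVars false

noncomputable section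

namespace Crest.Agent.R302B

open Finset Crest.Agent.R302

variable {N : ℕ} {I : InO N}

namespace InO.OK

theorem H_pos (h : I.OK) (u : Fin N → ℤ) : 0 < I.H u := by
  simpa using h.H_dl.pos (-u)

theorem W_pos (h : I.OK) (s : Fin N → ℤ) : 0 < I.W s := by
  exact mul_pos (h.sep.pos s) (h.H_pos s)

theorem Z_pos (h : I.OK) : 0 < I.Z := by
  exact sum_pos (fun s _ => h.W_pos s) h.ne

theorem one_le_Pi (I : InO N) : 1 ≤ I.Pi := by
  refine Finset.one_le_prod fun t _ => ?_
  split_ifs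
  · have : (0 : ℝ) ≤ I.σ t := Nat.cast_nonneg _
    linarith
  · exact le_rfl

theorem C1_nonneg (h : I.OK) : 0 ≤ I.C1 := by
  have h1 := h.one_le
  have h2 := h.lam_pos
  unfold InO.C1
  have h3 : 0 ≤ I.Λ := by linarith
  positivity

theorem IO1_l_pos (h : I.OK) {t : Fin N} (ht : I.fat t = true) : 0 < I.l t := by
  have h1 := h.l_ge t ht
  have h2 := t.pos
  omega

/-- the lower ratio bound of `kap t` -/
def IO1_lo (I : InO N) (t : Fin N) : ℝ := if I.fat t = true then Real.exp (-1 / I.l t) else I.lam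

theorem IO1_rat (h : I.OK) (t : Fin N) : ∃ σ r, Rat r (IO1_lo I t) ∧ I.kap t = ft σ r := by
  unfold IO1_lo InO.kap
  split_ifs with c
  · exact ⟨_, _, rat_hub (h.IO1_l_pos c), rfl⟩
  · exact ⟨_, _, rat_const h.lam_pos h.lam_le, rfl⟩

theorem IO1_lo_pos (h : I.OK) (t : Fin N) : 0 < IO1_lo I t := by
  obtain ⟨σ, r, h1, -⟩ := h.IO1_rat t
  exact h1.pos

theorem IO1_kap_step (h : I.OK) (t : Fin N) {θ θ' : ℤ} (hθ : |θ' - θ| ≤ 1) :
    IO1_lo I t * I.kap t θ ≤ I.kap t θ' := by
  obtain ⟨σ, r, h1, h2⟩ := h.IO1_rat t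
  rw [h2]
  exact h1.step σ hθ

theorem kap_lcz (h : I.OK) (t : Fin N) : LCZ (I.kap t) := by
  obtain ⟨σ, r, h1, h2⟩ := h.IO1_rat t
  rw [h2]
  exact h1.lcz σ

theorem ker_pos (h : I.OK) (y : Fin N → ℤ) : 0 < I.ker y := by
  exact prod_pos fun t _ => (h.kap_lcz t).pos _

theorem ker_le_one (h : I.OK) (y : Fin N → ℤ) : I.ker y ≤ 1 := by
  refine prod_le_one (fun t _ => ((h.kap_lcz t).pos _).le) fun t _ => ?_
  obtain ⟨σ, r, h1, h2⟩ := h.IO1_rat t
  rw [h2]
  exact h1.ft_le_one σ _

theorem ker_dlz (h : I.OK) : DLZ I.ker := by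
  exact dlz_lam univ (blk I.fat) h.kap_lcz (blk_lam I.fat)

/-- a general step -/
theorem IO1_ker_step (h : I.OK) (A : Finset (Fin N)) {y y' : Fin N → ℤ}
    (h1 : ∀ r, |th I.fat y' r - th I.fat y r| ≤ 1) (h2 : ∀ r, r ∉ A → th I.fat y' r = th I.fat y r) :
    (∏ r, if r ∈ A then IO1_lo I r else 1) * I.ker y ≤ I.ker y' := by
  unfold InO.ker
  rw [← prod_mul_distrib]
  refine prod_le_prod (fun r _ => mul_nonneg ?_ ((h.kap_lcz r).pos _).le) fun r _ => ?_
  · split_ifs
    · exact (h.IO1_lo_pos r).le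
    · exact zero_le_one
  · split_ifs with c
    · exact h.IO1_kap_step r (h1 r)
    · rw [one_mul, h2 r c]

theorem IO1_ker_dd (h : I.OK) (t : Fin N) (y : Fin N → ℤ) :
    IO1_lo I t * I.ker y ≤ I.ker (y + dd I.fat t) ∧ IO1_lo I t * I.ker (y + dd I.fat t) ≤ I.ker y := by
  have e : (∏ r, if r ∈ ({t} : Finset (Fin N)) then IO1_lo I r else 1) = IO1_lo I t := by
    simp
  have e1 : ∀ r, th I.fat (y + dd I.fat t) r = th I.fat y r + if r = t then 1 else 0 := fun r => by
    rw [th_add, th_dd h.ok, Pi.add_apply, Blk_ez_apply]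
  rw [← e]
  constructor
  · refine h.IO1_ker_step _ (fun r => ?_) fun r hr => ?_
    · rw [e1]
      split_ifs <;> simp
    · rw [e1, if_neg (by simpa using hr), add_zero]
  · refine h.IO1_ker_step _ (fun r => ?_) fun r hr => ?_
    · rw [e1]
      split_ifs <;> simp
    · rw [e1, if_neg (by simpa using hr), add_zero]

theorem IO1_inv {a x y : ℝ} (ha : 0 < a) (h : a * x ≤ y) : x ≤ a⁻¹ * y := by
  rwa [le_inv_mul_iff₀ ha]

theorem ker_fat (h : I.OK) {t : Fin N} (ht : I.fat t = true) (y : Fin N → ℤ) :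
    I.ker (y + dd I.fat t) ≤ Real.exp (1 / I.l t) * I.ker y ∧ I.ker y ≤ Real.exp (1 / I.l t) * I.ker (y + dd I.fat t) := by
  have h1 := h.IO1_ker_dd t y
  have e : Real.exp (1 / I.l t) = (IO1_lo I t)⁻¹ := by
    rw [IO1_lo, if_pos ht, ← Real.exp_neg, neg_div, neg_neg]
  rw [e]
  exact ⟨IO1_inv (h.IO1_lo_pos t) h1.2, IO1_inv (h.IO1_lo_pos t) h1.1⟩

theorem ker_thin (h : I.OK) {t : Fin N} (ht : I.fat t = false) (y : Fin N → ℤ) :
    I.ker (y + ez t) ≤ I.lam⁻¹ * I.ker y ∧ I.ker y ≤ I.lam⁻¹ * I.ker (y + ez t) := by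
  have h1 := h.IO1_ker_dd t y
  have e : IO1_lo I t = I.lam := by
    rw [IO1_lo, if_neg (by simp [ht])]
  rw [e, dd_thin ht] at h1
  exact ⟨IO1_inv h.lam_pos h1.2, IO1_inv h.lam_pos h1.1⟩

theorem IO1_prod_exp (a : ℝ) (k : Fin N) : ∏ _t : Fin N, Real.exp (a / N) = Real.exp a := by
  have : (0 : ℝ) < N := by exact_mod_cast k.pos
  rw [prod_const, card_univ, Fintype.card_fin, ← Real.exp_nat_mul]
  congr 1
  field_simp

theorem IO1_lo_prod (h : I.OK) (k : Fin N) :
    I.lam / 2 ≤ ∏ r, if r ∈ univ.filter (fun r => k ∈ blk I.fat r) then IO1_lo I r else 1 := by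
  have hN : (0 : ℝ) < N := by exact_mod_cast k.pos
  have hl := h.lam_pos
  have hl1 := h.lam_le
  have he : Real.exp (-(1 / 2) / N) ≤ 1 :=
    Real.exp_le_one_iff.2 (div_nonpos_of_nonpos_of_nonneg (by norm_num) hN.le)
  calc I.lam / 2 ≤ Real.exp (-(1 / 2)) * I.lam := by
        have := Real.add_one_le_exp (-(1 / 2))
        nlinarith
    _ = ∏ r : Fin N, Real.exp (-(1 / 2) / N) * if r = bk I.fat k then I.lam else 1 := by
        rw [prod_mul_distrib, IO1_prod_exp _ k]
        simp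
    _ ≤ _ := by
        refine prod_le_prod (fun r _ => mul_nonneg (Real.exp_pos _).le ?_) fun r _ => ?_
        · split_ifs
          · exact hl.le
          · exact zero_le_one
        have hi : (if r = bk I.fat k then I.lam else 1) ≤ 1 := by
          split_ifs
          · exact hl1
          · exact le_rfl
        simp only [mem_filter, mem_univ, true_and]
        by_cases c : k ∈ blk I.fat r
        · rw [if_pos c, IO1_lo]
          by_cases c' : I.fat r = true
          · rw [if_pos c']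
            refine (mul_le_of_le_one_right (Real.exp_pos _).le hi).trans (Real.exp_le_exp.2 ?_)
            have h1 : (2 * N : ℝ) ≤ I.l r := by exact_mod_cast h.l_ge r c'
            rw [div_le_div_iff₀ hN (by linarith)]
            linarith
          · rw [if_neg c', if_pos ((mem_blk_iff_bk h.ok (by simpa using c') k).1 c).symm]
            exact mul_le_of_le_one_left hl.le he
        · rw [if_neg c]
          exact (mul_le_of_le_one_right (Real.exp_pos _).le hi).trans he

theorem ker_ez (h : I.OK) (k : Fin N) (y : Fin N → ℤ) :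
    I.lam / 2 * I.ker (y + ez k) ≤ I.ker y ∧ I.lam / 2 * I.ker y ≤ I.ker (y + ez k) := by
  have e1 : ∀ r, th I.fat (y + ez k) r = th I.fat y r + if k ∈ blk I.fat r then 1 else 0 := fun r => by
    rw [th_add, Pi.add_apply, th_ez]
  constructor
  · refine (mul_le_mul_of_nonneg_right (h.IO1_lo_prod k) (h.ker_pos _).le).trans
      (h.IO1_ker_step _ (fun r => ?_) fun r hr => ?_)
    · rw [e1]
      split_ifs <;> simp
    · rw [e1, if_neg (by simpa using hr), add_zero]
  · refine (mul_le_mul_of_nonneg_right (h.IO1_lo_prod k) (h.ker_pos _).le).trans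
      (h.IO1_ker_step _ (fun r => ?_) fun r hr => ?_)
    · rw [e1]
      split_ifs <;> simp
    · rw [e1, if_neg (by simpa using hr), add_zero]

theorem F_pos (h : I.OK) (u : Fin N → ℤ) : 0 < I.F u := by
  exact sum_pos (fun s _ => mul_pos (h.sep.pos s) (h.ker_pos _)) (h.ne.mono h.Ω_sub)

theorem F_ez (h : I.OK) (k : Fin N) (u : Fin N → ℤ) :
    I.lam / 2 * I.F (u + ez k) ≤ I.F u ∧ I.lam / 2 * I.F u ≤ I.F (u + ez k) := by
  unfold InO.F
  rw [mul_sum, mul_sum]
  constructor
  · refine sum_le_sum fun s _ => ?_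
    rw [add_sub_right_comm, mul_left_comm]
    exact mul_le_mul_of_nonneg_left (h.ker_ez k _).1 (h.sep.pos s).le
  · refine sum_le_sum fun s _ => ?_
    rw [add_sub_right_comm, mul_left_comm]
    exact mul_le_mul_of_nonneg_left (h.ker_ez k _).2 (h.sep.pos s).le

theorem IO1_ker_second (h : I.OK) {t : Fin N} (ht : I.fat t = true) (y : Fin N → ℤ) :
    Real.exp (-(1 / (I.l t : ℝ)) ^ 2) * I.ker y ^ 2 ≤ I.ker (y + dd I.fat t) * I.ker (y - dd I.fat t) := by
  have e1 : ∀ r, th I.fat (y + dd I.fat t) r = th I.fat y r + if r = t then 1 else 0 := fun r => by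
    rw [th_add, th_dd h.ok, Pi.add_apply, Blk_ez_apply]
  have e2 : ∀ r, th I.fat (y - dd I.fat t) r = th I.fat y r - if r = t then 1 else 0 := fun r => by
    rw [th_sub, th_dd h.ok, Pi.sub_apply, Blk_ez_apply]
  have e : Real.exp (-(1 / (I.l t : ℝ)) ^ 2) =
      ∏ r, if r = t then Real.exp (-1 / (I.l t : ℝ) ^ 2) else 1 := by
    rw [prod_ite_eq', if_pos (mem_univ _), one_div_pow, neg_div]
  unfold InO.ker
  rw [e, ← prod_pow, ← prod_mul_distrib, ← prod_mul_distrib]
  refine prod_le_prod (fun r _ => mul_nonneg ?_ (sq_nonneg _)) fun r _ => ?_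
  · split_ifs
    · exact (Real.exp_pos _).le
    · exact zero_le_one
  · rw [e1, e2]
    by_cases c : r = t
    · subst c
      simp only [if_true]
      unfold InO.kap
      rw [if_pos ht]
      exact hub_second (h.IO1_l_pos ht) _ _
    · simp only [if_neg c, add_zero, sub_zero, one_mul]
      exact (sq _).le

theorem F_second (h : I.OK) {t : Fin N} (ht : I.fat t = true) (u : Fin N → ℤ) :
    Real.exp (-(1 / (I.l t : ℝ)) ^ 2) * I.F u ^ 2 ≤ I.F (u + dd I.fat t) * I.F (u - dd I.fat t) := by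
  set a := -(1 / (I.l t : ℝ)) ^ 2 with ha
  have e : Real.exp a = Real.exp (a / 2) ^ 2 := by
    rw [← Real.exp_nat_mul]
    congr 1
    push_cast
    ring
  unfold InO.F
  rw [e, ← mul_pow, mul_sum]
  refine sum_sq_le_sum_mul_sum_of_sq_le_mul _ (fun s _ => (mul_pos (h.sep.pos s) (h.ker_pos _)).le)
    (fun s _ => (mul_pos (h.sep.pos s) (h.ker_pos _)).le) fun s _ => ?_
  have h1 := mul_le_mul_of_nonneg_left (h.IO1_ker_second ht (u - s)) (sq_nonneg (I.w s))
  rw [← ha, e] at h1
  rw [add_sub_right_comm, sub_right_comm]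
  calc _ = I.w s ^ 2 * (Real.exp (a / 2) ^ 2 * I.ker (u - s) ^ 2) := by ring
    _ ≤ _ := h1
    _ = _ := by ring

theorem smo (h : I.OK) : Smo I.fat I.F (I.lam / 2) (fun t => 1 / (I.l t : ℝ)) I.L := by
  have hl := h.lam_pos
  refine ⟨h.ok, dlz_conv h.sub (h.ne.mono h.Ω_sub) h.sep h.ker_dlz, by positivity,
    by linarith [h.lam_le], fun u k => ?_, fun t u ht => h.F_second ht u, h.L_pos, h.sum_le, fun t ht => ?_⟩
  · have h1 := mul_le_mul (h.F_ez k u).1 (h.F_ez k (u + ez k)).2
      (mul_pos (by positivity) (h.F_pos _)).le (h.F_pos _).le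
    calc _ = I.lam / 2 * I.F (u + ez k) * (I.lam / 2 * I.F (u + ez k)) := by ring
      _ ≤ _ := h1
  · have h1 := h.abs t ht
    have h2 : (0 : ℝ) < I.l t := by exact_mod_cast h.IO1_l_pos ht
    set S := ∑ r, 1 / I.L r ^ 2
    have e : 96 * (N : ℝ) * (1 / (I.l t : ℝ)) ^ 2 * I.L t ^ 2 * S =
        1536 * N * I.L t ^ 2 * S / (16 * (I.l t : ℝ) ^ 2) := by
      field_simp
      ring
    rw [e, div_le_iff₀ (by positivity)]
    calc _ ≤ _ := h1
      _ = _ := by ring

theorem IO1_exp_quarter : Real.exp (1 / 4) ≤ 2 := by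
  have h1 := Real.add_one_le_exp (-(1 / 4))
  have h2 : Real.exp (1 / 4) * Real.exp (-(1 / 4)) = 1 := by
    rw [← Real.exp_add, add_neg_cancel, Real.exp_zero]
  have h3 := Real.exp_pos (1 / 4)
  nlinarith

/-- `H` along a displacement that is short in the fat directions -/
theorem IO1_H_dv (h : I.OK) {x : Fin N → ℤ} (hx : ∀ t : Fin N, I.fat t = true → |x t| ≤ I.sp t)
    (s : Fin N → ℤ) : I.H (s + dv I.fat x) ≤ 2 * I.Λ ^ nm1 (thn I.fat x) * I.H s := by
  refine (le_exp_dv (η := I.η) x (fun t _ u => h.H_lip t u) s).trans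
    (mul_le_mul_of_nonneg_right ?_ (h.H_pos s).le)
  have hΛ := h.one_le
  rw [Real.exp_sum]
  calc _ ≤ ∏ t : Fin N, Real.exp (1 / 4 / N) * I.Λ ^ (thn I.fat x t).natAbs := by
        refine prod_le_prod (fun t _ => (Real.exp_pos _).le) fun t _ => ?_
        have hN : (0 : ℝ) < N := by exact_mod_cast t.pos
        unfold thn
        by_cases c : I.fat t = true
        · rw [if_pos c, Int.natAbs_zero, pow_zero, mul_one]
          refine Real.exp_le_exp.2 ?_
          have h1 : |(x t : ℝ)| ≤ I.sp t := by exact_mod_cast hx t c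
          have h2 := h.η_fat t c
          have h3 := mul_le_mul_of_nonneg_left h1 (h.η_nonneg t)
          rw [le_div_iff₀ hN]
          nlinarith
        · rw [if_neg c, ← Int.cast_abs, ← Int.natCast_natAbs, Int.cast_natCast, mul_comm,
            Real.exp_nat_mul]
          refine (pow_le_pow_left₀ (Real.exp_pos _).le (h.η_thin t (by simpa using c)) _).trans
            (le_mul_of_one_le_left (pow_nonneg (by linarith) _) (Real.one_le_exp (by positivity)))
    _ ≤ _ := by
        rw [prod_mul_distrib, prod_pow_eq_pow_sum]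
        refine mul_le_mul_of_nonneg_right ?_ (pow_nonneg (by linarith) _)
        rcases Nat.eq_zero_or_pos N with h0 | h0
        · subst h0
          simp
        · rw [IO1_prod_exp _ ⟨0, h0⟩]
          exact IO1_exp_quarter

theorem H_ez (h : I.OK) (k : Fin N) (u : Fin N → ℤ) : I.H u ≤ 2 * I.Λ * I.H (u + ez k) := by
  have h1 := h.IO1_H_dv (x := -th I.fat (ez k)) (fun t ht => ?_) (u + ez k)
  · rw [dv_neg, dv_th h.ok, add_neg_cancel_right] at h1
    refine h1.trans (mul_le_mul_of_nonneg_right (mul_le_mul_of_nonneg_left ?_ zero_le_two) (h.H_pos _).le)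
    refine (pow_le_pow_right₀ h.one_le (?_ : _ ≤ 1)).trans_eq (pow_one _)
    calc nm1 (thn I.fat (-th I.fat (ez k))) ≤ ∑ r, if r = bk I.fat k then 1 else 0 := by
          refine sum_le_sum fun r _ => ?_
          unfold thn
          by_cases c : I.fat r = true
          · rw [if_pos c, Int.natAbs_zero]
            exact Nat.zero_le _
          · rw [if_neg c, Pi.neg_apply, th_ez, Int.natAbs_neg]
            by_cases c' : k ∈ blk I.fat r
            · rw [if_pos c', if_pos ((mem_blk_iff_bk h.ok (by simpa using c) k).1 c').symm]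
              rfl
            · rw [if_neg c', Int.natAbs_zero]
              exact Nat.zero_le _
      _ = 1 := by simp
  · have h2 := h.sp_ge t ht
    have h3 := h.IO1_l_pos ht
    have h4 := t.pos
    have h5 : 0 < 4 * N * (I.l t * (1 + I.k)) := by positivity
    rw [Pi.neg_apply, th_ez, abs_neg]
    split_ifs
    · rw [abs_one]
      omega
    · rw [abs_zero]
      omega

/-- `H` along a good displacement -/
theorem H_X (h : I.OK) {x : Fin N → ℤ} (hx : x ∈ I.X) (s : Fin N → ℤ) :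
    I.H (s + dv I.fat x) ≤ 2 * I.Λ ^ I.c * I.H s := by
  obtain ⟨h1, h2⟩ := mem_filter.1 hx
  refine (h.IO1_H_dv (fun t ht => ?_) s).trans (mul_le_mul_of_nonneg_right
    (mul_le_mul_of_nonneg_left (pow_le_pow_right₀ h.one_le h2) zero_le_two) (h.H_pos _).le)
  have h3 := mem_ibox.1 h1 t
  simp only [if_pos ht] at h3
  exact abs_le.2 h3

theorem w_dv (h : I.OK) {y : Fin N → ℤ} (hy : ∀ t : Fin N, I.fat t = false → y t = 0) (s : Fin N → ℤ) :
    I.w (s + dv I.fat y) = I.w s := by
  have key : ∀ y : Fin N → ℤ, (∀ t : Fin N, I.fat t = false → y t = 0) → ∀ s,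
      I.w (s + dv I.fat y) ≤ I.w s := by
    intro y hy s
    have h1 := le_exp_dv (fat := I.fat) (Φ := I.w) (η := fun _ => 0) y (fun t ht u => ?_) s
    · simpa using h1
    · have c : I.fat t = true := by
        by_contra c
        exact ht (hy t (by simpa using c))
      have h2 := h.w_inv t c (u - dd I.fat t)
      rw [sub_add_cancel] at h2
      rw [Real.exp_zero, one_mul, h.w_inv t c, ← h2]
      exact ⟨le_rfl, le_rfl⟩
  refine le_antisymm (key y hy s) ?_
  have h3 := key (-y) (fun t ht => by rw [Pi.neg_apply, hy t ht, neg_zero]) (s + dv I.fat y)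
  rwa [dv_neg, add_neg_cancel_right] at h3

end InO.OK

end Crest.Agent.R302B
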