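import Crest.Agent.R302B.IO1

/-!
# Row 302 (binary layer): IO2
The variance is controlled by the conditional variances.
* `cond_diff`: the normalised weights have ratio in `[ρ⁻², ρ²]`; `mean_a f - mean_b f = ∑ (f - mean_b f) (â - b̂)`, Cauchy–Schwarz.
* `grad`: fat `t`: `u + ez t = (u + up t) + dd t`, `ρ = exp (1 / l)`, `exp (2/l) - 1 ≤ 4 / l`, `F u * H u ≤ (4 Λ / lam) F (u + up t) H (u + up t)`, `L ≤ κ l`;
  thin `t`: `up t = 0`, `ρ = lam⁻¹`, `L ≤ M`.
* `main_bl`: `D` so large that `s + dv y ∈ ibox (-D) D` for `s ∈ Ω` and flat `y`; `U = ibox (-D) (D + 1)`; `Smo.bl` for `G f`; `grad` summed over `t` and `u`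
  (`u ↦ u + up t` is injective into `U`).  For `s ∈ Ω` and flat `y` (`|y t| ≤ σ t` on fat, `0` on thin `t`; there are `Pi` of them, `dv` is injective):
  `ker (dv y) = 1`, `gam ≥ exp (-1/2)`, `H s ≤ exp (1/4) H (s + dv y)`; `∑_s w ker (f s - m)^2 = V + F (G - m)^2`.
-/

set_option autoImplicit false
set_option linter.unusedSectionVars false

noncomputable section

namespace Crest.Agent.R302B

open Finset Crest.Agent.R302

theorem cond_diff {α : Type} (S : Finset α) {a b : α → ℝ} (f : α → ℝ) (hS : S.Nonempty) (ha : ∀ s ∈ S, 0 < a s)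
    (hb : ∀ s ∈ S, 0 < b s) {ρ : ℝ} (h1 : ∀ s ∈ S, a s ≤ ρ * b s) (h2 : ∀ s ∈ S, b s ≤ ρ * a s) :
    (∑ s ∈ S, b s) * ((∑ s ∈ S, a s * f s) / (∑ s ∈ S, a s) - (∑ s ∈ S, b s * f s) / ∑ s ∈ S, b s) ^ 2 ≤
      (ρ ^ 2 - 1) ^ 2 * ∑ s ∈ S, b s * (f s - (∑ s ∈ S, b s * f s) / ∑ s ∈ S, b s) ^ 2 := by
  obtain ⟨A, hA⟩ : ∃ A, A = ∑ s ∈ S, a s := ⟨_, rfl⟩
  obtain ⟨B, hB⟩ : ∃ B, B = ∑ s ∈ S, b s := ⟨_, rfl⟩
  have hA0 : 0 < A := hA ▸ sum_pos ha hS
  have hB0 : 0 < B := hB ▸ sum_pos hb hS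
  have hAB : A ≤ ρ * B := by rw [hA, hB, mul_sum]; exact sum_le_sum h1
  have hBA : B ≤ ρ * A := by rw [hA, hB, mul_sum]; exact sum_le_sum h2
  have hρ : 0 < ρ := (mul_pos_iff_of_pos_right hB0).1 (hA0.trans_le hAB)
  have hρ1 : 1 ≤ ρ ^ 2 := by
    have := hAB.trans (mul_le_mul_of_nonneg_left hBA hρ.le)
    nlinarith
  rw [← hA, ← hB]
  obtain ⟨m, hm⟩ : ∃ m, m = (∑ s ∈ S, b s * f s) / B := ⟨_, rfl⟩
  rw [← hm]
  have e : (∑ s ∈ S, a s * f s) / A - m = ∑ s ∈ S, (f s - m) * (a s / A - b s / B) := by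
    have e1 : ∀ s, (f s - m) * (a s / A - b s / B) =
        a s * f s / A - b s * f s / B - m * (a s / A) + m * (b s / B) := fun s => by ring
    simp only [e1, sum_add_distrib, sum_sub_distrib, ← mul_sum, ← sum_div, ← hA, ← hB, ← hm,
      div_self hA0.ne', div_self hB0.ne']
    ring
  have key := sum_sq_le_sum_mul_sum_of_sq_le_mul S (r := fun s => (f s - m) * (a s / A - b s / B))
    (f := fun s => b s * (f s - m) ^ 2) (g := fun s => (ρ ^ 2 - 1) ^ 2 / B ^ 2 * b s)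
    (fun s hs => mul_nonneg (hb s hs).le (sq_nonneg _))
    (fun s hs => mul_nonneg (by positivity) (hb s hs).le) (fun s hs => by
      have a0 := ha s hs
      have b0 := hb s hs
      have c1 : a s / A ≤ ρ ^ 2 * (b s / B) := by
        rw [← mul_div_assoc, div_le_div_iff₀ hA0 hB0]
        calc a s * B ≤ ρ * b s * (ρ * A) := mul_le_mul (h1 s hs) hBA hB0.le (by positivity)
          _ = _ := by ring
      have c2 : b s / B ≤ ρ ^ 2 * (a s / A) := by
        rw [← mul_div_assoc, div_le_div_iff₀ hB0 hA0]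
        calc b s * A ≤ ρ * a s * (ρ * B) := mul_le_mul (h2 s hs) hAB hA0.le (by positivity)
          _ = _ := by ring
      have p1 : 0 < a s / A := by positivity
      have p2 : 0 < b s / B := by positivity
      have c3 : (a s / A - b s / B) ^ 2 ≤ ((ρ ^ 2 - 1) * (b s / B)) ^ 2 := by
        refine sq_le_sq' ?_ (by linarith)
        generalize a s / A = x at c1 c2 p1
        generalize b s / B = y at c1 c2 p2
        generalize ρ ^ 2 = r at c1 c2 hρ1
        have : (2 - r) * y ≤ x := by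
          refine le_of_mul_le_mul_left ?_ (by linarith : 0 < r)
          nlinarith [mul_nonneg p2.le (sq_nonneg (r - 1))]
        linarith
      calc ((f s - m) * (a s / A - b s / B)) ^ 2 = (f s - m) ^ 2 * (a s / A - b s / B) ^ 2 :=
            mul_pow _ _ _
        _ ≤ (f s - m) ^ 2 * ((ρ ^ 2 - 1) * (b s / B)) ^ 2 :=
            mul_le_mul_of_nonneg_left c3 (sq_nonneg _)
        _ = _ := by ring)
  rw [← mul_sum, ← hB] at key
  rw [e]
  refine (mul_le_mul_of_nonneg_left key hB0.le).trans (le_of_eq ?_)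
  field_simp

variable {N : ℕ} {I : InO N}

namespace InO.OK

theorem V_nonneg (h : I.OK) (f : (Fin N → ℤ) → ℝ) (u : Fin N → ℤ) : 0 ≤ I.V f u := by
  exact sum_nonneg fun s _ => mul_nonneg (mul_pos (h.sep.pos s) (h.ker_pos _)).le (sq_nonneg _)

theorem sum_sq (h : I.OK) (f : (Fin N → ℤ) → ℝ) (u : Fin N → ℤ) (m : ℝ) :
    ∑ s ∈ bases I.g, I.w s * I.ker (u - s) * (f s - m) ^ 2 = I.V f u + I.F u * (I.G f u - m) ^ 2 := by
  have hF := h.F_pos u
  have e : ∑ s ∈ bases I.g, I.w s * I.ker (u - s) * f s = I.F u * I.G f u := by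
    rw [InO.G, mul_div_cancel₀ _ hF.ne']
  have e1 : ∀ s, I.w s * I.ker (u - s) * (f s - m) ^ 2 =
      I.w s * I.ker (u - s) * (f s - I.G f u) ^ 2 +
        (2 * (I.G f u - m) * (I.w s * I.ker (u - s) * f s) +
          (m ^ 2 - I.G f u ^ 2) * (I.w s * I.ker (u - s))) := fun s => by ring
  simp only [e1, sum_add_distrib, ← mul_sum]
  rw [e, ← InO.F, ← InO.V]
  ring

theorem grad (h : I.OK) (f : (Fin N → ℤ) → ℝ) (u : Fin N → ℤ) (t : Fin N) :
    I.F u * I.H u * (16 * I.L t ^ 2 / (I.lam / 2) ^ 2 * (I.G f (u + ez t) - I.G f (u + up I.fat t)) ^ 2) ≤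
      64 * (64 * I.Λ * I.κ ^ 2 + I.M ^ 2) / I.lam ^ 6 * (I.H (u + up I.fat t) * I.V f (u + up I.fat t)) := by
  have hne : (bases I.g).Nonempty := h.ne.mono h.Ω_sub
  have hl := h.lam_pos
  have hl1 := h.lam_le
  have hΛ : 0 < I.Λ := lt_of_lt_of_le one_pos h.one_le
  have hL := h.L_pos t
  have cd : ∀ (u' u'' : Fin N → ℤ) (ρ : ℝ), (∀ s, I.ker (u'' - s) ≤ ρ * I.ker (u' - s)) →
      (∀ s, I.ker (u' - s) ≤ ρ * I.ker (u'' - s)) →
      I.F u' * (I.G f u'' - I.G f u') ^ 2 ≤ (ρ ^ 2 - 1) ^ 2 * I.V f u' := by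
    intro u' u'' ρ h1 h2
    exact cond_diff (bases I.g) (a := fun s => I.w s * I.ker (u'' - s))
      (b := fun s => I.w s * I.ker (u' - s)) f hne
      (fun s _ => mul_pos (h.sep.pos s) (h.ker_pos _)) (fun s _ => mul_pos (h.sep.pos s) (h.ker_pos _))
      (fun s _ => by
        rw [mul_left_comm]; exact mul_le_mul_of_nonneg_left (h1 s) (h.sep.pos s).le)
      (fun s _ => by
        rw [mul_left_comm]; exact mul_le_mul_of_nonneg_left (h2 s) (h.sep.pos s).le)
  cases ht : I.fat t with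
  | true =>
    obtain ⟨u', hu'⟩ : ∃ u', u' = u + up I.fat t := ⟨_, rfl⟩
    have e1 : u + ez t = u' + dd I.fat t := by rw [hu', dd]; abel
    have e2 : u' = u + ez (nx t) := by rw [hu', up, if_pos ht]
    have hl2 : (2 : ℝ) ≤ I.l t := by
      have a1 := h.l_ge t ht
      have a2 := t.pos
      exact_mod_cast (by omega : 2 ≤ I.l t)
    have hl0 : (0 : ℝ) < I.l t := by linarith
    have c1 := cd u' (u' + dd I.fat t) (Real.exp (1 / I.l t))
      (fun s => by rw [add_sub_right_comm]; exact (h.ker_fat ht _).1)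
      (fun s => by rw [add_sub_right_comm]; exact (h.ker_fat ht _).2)
    have c2 : (Real.exp (1 / I.l t) ^ 2 - 1) ^ 2 ≤ (4 / I.l t) ^ 2 := by
      have a1 : Real.exp (1 / I.l t) ^ 2 = Real.exp (2 / I.l t) := by
        rw [← Real.exp_nat_mul]; congr 1; push_cast; ring
      have a2 : |(2 : ℝ) / I.l t| = 2 / I.l t := abs_of_pos (by positivity)
      have a3 := Real.abs_exp_sub_one_le (x := 2 / I.l t) (by rw [a2, div_le_one hl0]; exact hl2)
      rw [a1, ← sq_abs]
      refine pow_le_pow_left₀ (abs_nonneg _) (a3.trans (le_of_eq ?_)) 2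
      rw [a2]; ring
    have hV := h.V_nonneg f u'
    have hH := h.H_pos u'
    have hF := h.F_pos u'
    have c3 : I.F u * I.H u ≤ 2 / I.lam * I.F u' * (2 * I.Λ * I.H u') := by
      refine mul_le_mul ?_ (e2 ▸ h.H_ez (nx t) u) (h.H_pos u).le (by positivity)
      have := (h.F_ez (nx t) u).2
      rw [← e2] at this
      rw [div_mul_eq_mul_div, le_div_iff₀ hl]
      linarith
    have c4 : I.L t ^ 2 ≤ (I.κ * I.l t) ^ 2 := pow_le_pow_left₀ hL.le (h.L_fat t ht) 2
    have c5 : I.lam ^ 3 ≤ 1 := pow_le_one₀ hl.le hl1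
    rw [e1, ← hu']
    have hd : 0 ≤ (I.G f (u' + dd I.fat t) - I.G f u') ^ 2 := sq_nonneg _
    generalize (I.G f (u' + dd I.fat t) - I.G f u') ^ 2 = d at c1 hd ⊢
    calc I.F u * I.H u * (16 * I.L t ^ 2 / (I.lam / 2) ^ 2 * d)
        ≤ 2 / I.lam * I.F u' * (2 * I.Λ * I.H u') * (16 * (I.κ * I.l t) ^ 2 / (I.lam / 2) ^ 2 * d) := by
          refine mul_le_mul c3 (mul_le_mul_of_nonneg_right ?_ hd) (by positivity) (by positivity)
          gcongr
      _ = (256 * I.Λ * (I.κ * I.l t) ^ 2 / I.lam ^ 3 * I.H u') * (I.F u' * d) := by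
          field_simp
          ring
      _ ≤ (256 * I.Λ * (I.κ * I.l t) ^ 2 / I.lam ^ 3 * I.H u') * ((4 / I.l t) ^ 2 * I.V f u') :=
          mul_le_mul_of_nonneg_left (c1.trans (mul_le_mul_of_nonneg_right c2 hV)) (by positivity)
      _ = 64 * (64 * I.Λ * I.κ ^ 2 * I.lam ^ 3) / I.lam ^ 6 * (I.H u' * I.V f u') := by
          field_simp
          ring
      _ ≤ _ := by
          refine mul_le_mul_of_nonneg_right ?_ (by positivity)
          gcongr
          exact (mul_le_of_le_one_right (by positivity) c5).trans (le_add_of_nonneg_right (by positivity))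
  | false =>
    have e1 : u + up I.fat t = u := by rw [up, if_neg (by simp [ht]), add_zero]
    have c1 := cd u (u + ez t) I.lam⁻¹
      (fun s => by rw [add_sub_right_comm]; exact (h.ker_thin ht _).1)
      (fun s => by rw [add_sub_right_comm]; exact (h.ker_thin ht _).2)
    have c2 : (I.lam⁻¹ ^ 2 - 1) ^ 2 ≤ (I.lam⁻¹ ^ 2) ^ 2 := by
      have : 1 ≤ I.lam⁻¹ ^ 2 := one_le_pow₀ ((one_le_inv₀ hl).2 hl1)
      exact pow_le_pow_left₀ (by linarith) (by linarith) 2
    have hV := h.V_nonneg f u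
    have hH := h.H_pos u
    have c4 : I.L t ^ 2 ≤ I.M ^ 2 := pow_le_pow_left₀ hL.le (h.L_thin t ht) 2
    rw [e1]
    calc I.F u * I.H u * (16 * I.L t ^ 2 / (I.lam / 2) ^ 2 * (I.G f (u + ez t) - I.G f u) ^ 2)
        = (64 * I.L t ^ 2 / I.lam ^ 2 * I.H u) * (I.F u * (I.G f (u + ez t) - I.G f u) ^ 2) := by
          field_simp
          ring
      _ ≤ (64 * I.M ^ 2 / I.lam ^ 2 * I.H u) * ((I.lam⁻¹ ^ 2) ^ 2 * I.V f u) := by
          refine mul_le_mul (by gcongr) (c1.trans (mul_le_mul_of_nonneg_right c2 hV))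
            (mul_nonneg (h.F_pos u).le (sq_nonneg _)) (by positivity)
      _ = 64 * I.M ^ 2 / I.lam ^ 6 * (I.H u * I.V f u) := by
          field_simp
      _ ≤ _ := by
          refine mul_le_mul_of_nonneg_right ?_ (by positivity)
          gcongr
          exact le_add_of_nonneg_left (by positivity)

theorem main_bl (h : I.OK) (f : (Fin N → ℤ) → ℝ) :
    ∃ (U : Finset (Fin N → ℤ)) (m : ℝ),
      I.Pi * ∑ s ∈ I.Ω, I.W s * (f s - m) ^ 2 ≤ 3 * (1 + I.C1) * ∑ u ∈ U, I.H u * I.V f u := by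
  obtain ⟨r, hr⟩ : ∃ r : Fin N → ℕ, r = fun t : Fin N => if I.fat t = true then I.σ t else 0 :=
    ⟨_, rfl⟩
  obtain ⟨Y, hY⟩ : ∃ Y : Finset (Fin N → ℤ), Y = ibox (fun t => -(r t : ℤ)) (fun t => (r t : ℤ)) :=
    ⟨_, rfl⟩
  have hYm : ∀ y ∈ Y, ∀ t, |y t| ≤ r t := fun y hy t => by
    rw [hY, mem_ibox] at hy
    exact abs_le.2 (hy t)
  have hYc : (#Y : ℝ) = I.Pi := by
    rw [hY, ibox, Fintype.card_piFinset, InO.Pi]
    push_cast
    refine prod_congr rfl fun t _ => ?_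
    rw [Int.card_Icc, show ((r t : ℤ) + 1 - -(r t : ℤ)) = ((2 * r t + 1 : ℕ) : ℤ) by push_cast; ring,
      Int.toNat_natCast, hr]
    split_ifs with ht <;> simp [ht]
  obtain ⟨D, hD⟩ : ∃ D : ℕ, ∀ s ∈ I.Ω, ∀ y ∈ Y, ∀ k, ((s + dv I.fat y) k).natAbs ≤ D :=
    ⟨(I.Ω ×ˢ Y).sup fun p => univ.sup fun k => ((p.1 + dv I.fat p.2) k).natAbs, fun s hs y hy k =>
      le_trans (le_sup (f := fun k => ((s + dv I.fat y) k).natAbs) (mem_univ k))
        (le_sup (f := fun p : (Fin N → ℤ) × (Fin N → ℤ) =>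
          univ.sup fun k => ((p.1 + dv I.fat p.2) k).natAbs) (mem_product.2 ⟨hs, hy⟩ : (s, y) ∈ _))⟩
  obtain ⟨m, hm⟩ := h.smo.bl h.H_dl (lo := fun _ => -(D : ℤ)) (hi := fun _ => (D : ℤ))
    (fun _ => by simp only; omega) (I.G f)
  obtain ⟨U₀, hU₀⟩ : ∃ U₀ : Finset (Fin N → ℤ), U₀ = ibox (fun _ => -(D : ℤ)) (fun _ => (D : ℤ)) :=
    ⟨_, rfl⟩
  obtain ⟨U, hU⟩ : ∃ U : Finset (Fin N → ℤ), U = ibox (fun _ => -(D : ℤ)) (fun _ => (D : ℤ) + 1) :=
    ⟨_, rfl⟩
  rw [← hU₀] at hm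
  refine ⟨U, m, ?_⟩
  have hHV : ∀ u, 0 ≤ I.H u * I.V f u := fun u => mul_nonneg (h.H_pos u).le (h.V_nonneg f u)
  have hup : ∀ (t k : Fin N), 0 ≤ up I.fat t k ∧ up I.fat t k ≤ 1 := fun t k => by
    unfold up ez
    split_ifs
    · rw [Pi.single_apply]
      split_ifs <;> simp
    · simp
  have hshift : ∀ v : Fin N → ℤ, (∀ k, 0 ≤ v k ∧ v k ≤ 1) →
      ∑ u ∈ U₀, I.H (u + v) * I.V f (u + v) ≤ ∑ u ∈ U, I.H u * I.V f u := by
    intro v hv
    rw [← sum_image (g := fun u => u + v) (f := fun u => I.H u * I.V f u)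
      (fun a _ b _ e => add_right_cancel e)]
    refine sum_le_sum_of_subset_of_nonneg (fun u hu => ?_) fun u _ _ => hHV u
    obtain ⟨u', hu', rfl⟩ := mem_image.1 hu
    rw [hU₀, mem_ibox] at hu'
    rw [hU, mem_ibox]
    intro k
    have a1 := hu' k
    have a2 := hv k
    simp only [Pi.add_apply] at a1 ⊢
    omega
  obtain ⟨c, hc⟩ : ∃ c, c = 64 * (64 * I.Λ * I.κ ^ 2 + I.M ^ 2) / I.lam ^ 6 := ⟨_, rfl⟩
  have hc0 : 0 ≤ c := by
    have := h.lam_pos
    have : 0 < I.Λ := lt_of_lt_of_le one_pos h.one_le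
    rw [hc]
    positivity
  have h1 : ∑ u ∈ U₀, I.F u * gam I.fat I.L u * I.H u * (I.G f u - m) ^ 2 ≤
      I.C1 * ∑ u ∈ U, I.H u * I.V f u := by
    refine hm.trans ?_
    simp only [mul_sum _ _ (I.F _ * I.H _)]
    rw [sum_comm]
    refine (sum_le_card_nsmul _ _ (c * ∑ u ∈ U, I.H u * I.V f u) fun t _ => ?_).trans (le_of_eq ?_)
    · refine le_trans ?_ (mul_le_mul_of_nonneg_left (hshift _ (hup t)) hc0)
      rw [mul_sum, hc]
      exact sum_le_sum fun u _ => h.grad f u t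
    · rw [card_univ, Fintype.card_fin, nsmul_eq_mul, hc, InO.C1]
      ring
  have h2 : ∑ u ∈ U₀, gam I.fat I.L u * I.H u *
      ∑ s ∈ bases I.g, I.w s * I.ker (u - s) * (f s - m) ^ 2 ≤
      (1 + I.C1) * ∑ u ∈ U, I.H u * I.V f u := by
    simp only [h.sum_sq f _ m, mul_add, sum_add_distrib]
    rw [add_mul, one_mul]
    refine add_le_add (le_trans (sum_le_sum fun u _ => ?_) (hshift 0 fun k => by simp))
      (le_trans (le_of_eq (sum_congr rfl fun u _ => by ring)) h1)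
    rw [add_zero, mul_assoc]
    exact mul_le_of_le_one_left (hHV u) (gam_le_one _ _)
  have h3 : ∀ s ∈ I.Ω, ∀ y ∈ Y, I.H s ≤
      3 * (gam I.fat I.L (s + dv I.fat y) * I.H (s + dv I.fat y) * I.ker (s + dv I.fat y - s)) := by
    intro s hs y hy
    have hy1 := hYm y hy
    have hy2 : ∀ t : Fin N, |(y t : ℝ)| ≤ if I.fat t = true then (I.sp t : ℝ) else 0 := fun t => by
      have a1 : |(y t : ℝ)| ≤ r t := by exact_mod_cast hy1 t
      refine a1.trans ?_
      rw [hr]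
      split_ifs with ht
      · simp only [ht, if_true, Nat.cast_le, InO.σ]
        omega
      · simp [ht]
    have a1 : I.ker (s + dv I.fat y - s) = 1 := by
      rw [add_sub_cancel_left, InO.ker, th_dv h.ok]
      refine prod_eq_one fun t _ => ?_
      have a2 := hy1 t
      rw [hr] at a2
      rw [InO.kap]
      split_ifs with ht
      · exact ft_flat _ (by simpa only [ht, if_true] using a2)
      · exact ft_flat _ (by simpa only [ht, Bool.false_eq_true, if_false] using a2)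
    have a2 : Real.exp (-1 / 2) ≤ gam I.fat I.L (s + dv I.fat y) := by
      refine gam_ge h.L_pos fun t => le_trans ?_ (h.range s hs t)
      refine mul_le_mul_of_nonneg_left ?_ (Nat.cast_nonneg _)
      rw [th_add, th_dv h.ok, Pi.add_apply, Int.cast_add, ← sq_abs]
      exact pow_le_pow_left₀ (abs_nonneg _) ((abs_add_le _ _).trans (add_le_add le_rfl (hy2 t))) 2
    have a3 : I.H s ≤ Real.exp (1 / 4) * I.H (s + dv I.fat y) := by
      have a4 := le_exp_dv (fat := I.fat) (Φ := I.H) (η := I.η) (-y) (fun t _ u => h.H_lip t u)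
        (s + dv I.fat y)
      rw [dv_neg, add_neg_cancel_right] at a4
      refine a4.trans (mul_le_mul_of_nonneg_right (Real.exp_le_exp.2 ?_) (h.H_pos _).le)
      refine (sum_le_card_nsmul _ _ (1 / (4 * (N : ℝ))) fun t _ => ?_).trans ?_
      · have hN : (0 : ℝ) < N := by exact_mod_cast t.pos
        have a5 := hy2 t
        rw [Pi.neg_apply, Int.cast_neg, abs_neg, le_div_iff₀ (by positivity)]
        split_ifs at a5 with ht
        · have a6 := mul_le_mul_of_nonneg_left a5 (h.η_nonneg t)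
          have a7 := h.η_fat t ht
          nlinarith
        · have a6 := mul_nonpos_of_nonneg_of_nonpos (h.η_nonneg t) a5
          nlinarith
      · rw [card_univ, Fintype.card_fin, nsmul_eq_mul]
        rcases Nat.eq_zero_or_pos N with e | e
        · simp [e]
        · have hN : (0 : ℝ) < N := by exact_mod_cast e
          refine le_of_eq ?_
          field_simp
    have a4 : Real.exp (1 / 4) ≤ 3 * Real.exp (-1 / 2) := by
      have a5 : Real.exp (1 / 4) = Real.exp (3 / 4) * Real.exp (-1 / 2) := by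
        rw [← Real.exp_add]; norm_num
      rw [a5]
      refine mul_le_mul_of_nonneg_right ?_ (Real.exp_pos _).le
      exact (Real.exp_le_exp.2 (by norm_num : (3 / 4 : ℝ) ≤ 1)).trans Real.exp_one_lt_three.le
    rw [a1, mul_one, ← mul_assoc]
    exact a3.trans (mul_le_mul_of_nonneg_right (a4.trans (by linarith)) (h.H_pos _).le)
  have h4 : ∀ s ∈ I.Ω, I.Pi * I.H s ≤
      3 * ∑ u ∈ U₀, gam I.fat I.L u * I.H u * I.ker (u - s) := by
    intro s hs
    rw [← hYc, ← nsmul_eq_mul]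
    refine (card_nsmul_le_sum _ _ _ (h3 s hs)).trans ?_
    rw [← mul_sum, ← sum_image (g := fun y => s + dv I.fat y)
      (f := fun u => gam I.fat I.L u * I.H u * I.ker (u - s)) (fun a _ b _ e => by
        have := congrArg (th I.fat) (add_left_cancel e)
        rwa [th_dv h.ok, th_dv h.ok] at this)]
    refine mul_le_mul_of_nonneg_left (sum_le_sum_of_subset_of_nonneg (fun u hu => ?_) fun u _ _ =>
      (mul_pos (mul_pos (gam_pos _ _) (h.H_pos _)) (h.ker_pos _)).le) (by norm_num)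
    obtain ⟨y, hy, rfl⟩ := mem_image.1 hu
    rw [hU₀, mem_ibox]
    intro k
    have := hD s hs y hy k
    omega
  rw [mul_assoc]
  refine le_trans ?_ (mul_le_mul_of_nonneg_left h2 (by norm_num))
  simp only [mul_sum]
  rw [sum_comm]
  refine le_trans (sum_le_sum fun s hs => ?_) (sum_le_sum_of_subset_of_nonneg h.Ω_sub
    fun s _ _ => sum_nonneg fun u _ => mul_nonneg (by norm_num)
      (mul_nonneg (mul_pos (gam_pos _ _) (h.H_pos _)).le
        (mul_nonneg (mul_pos (h.sep.pos s) (h.ker_pos _)).le (sq_nonneg _))))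
  have := mul_le_mul_of_nonneg_right (h4 s hs)
    (mul_nonneg (h.sep.pos s).le (sq_nonneg (f s - m)))
  refine le_trans (le_of_eq ?_) (this.trans (le_of_eq ?_))
  · rw [InO.W]; ring
  · rw [mul_sum, sum_mul]
    exact sum_congr rfl fun u _ => by ring

end InO.OK

end Crest.Agent.R302B
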