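import Crest.Agent.R302B.IO1

/-!
# Row 302 (binary layer): IO3
Bad mass.  Substitute `x = th (u - s)` (`u = s + dv x`, injective); `H (s + dv x) ≤ exp (∑ η t |x t|) H s` (`le_exp_dv`); embed the image of `U` in a box
and use `Finset.prod_univ_sum`.  Fat factor: `hub_sum ≤ (2σ+1) (1 + 1/N) exp (1/(4N))` (`σ + l (1+k) = sp`, `σ ≥ 3 N l (1+k)`), thin factor `geo_sum`
with `x = lam Λ`.  `sum_out`: `x ∉ X` iff some fat `|x t| > sp t` (`hub_tail`) or `nm1 (thn x) > c` (`nm1_tail`; split `x` into its fat and thin parts).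
`sum_low`: group by `v = thn (th (u - s))` (at most `(2N+1)^c` values, `card_nm1_le`); for fixed `u, v` all such `s` have `w s = w z`, `z = u - dv v ∈ Ωp`,
their total `w * ker` is at most `F u < w z * Pi / m`, and `H u ≤ Λ^c H z`.
-/

set_option autoImplicit false
set_option linter.unusedSectionVars false

noncomputable section

namespace Crest.Agent.R302B

open Finset Crest.Agent.R302

variable {N : ℕ} {I : InO N}

theorem io3_box (T : Finset (Fin N → ℤ)) (f : Fin N → ℤ → ℝ) (hf : ∀ t θ, 0 ≤ f t θ) (b : Fin N → ℝ)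
    (hb : ∀ (t : Fin N) (S : Finset ℤ), (∀ θ ∈ S, ∃ x ∈ T, x t = θ) → ∑ θ ∈ S, f t θ ≤ b t) :
    ∑ x ∈ T, ∏ t, f t (x t) ≤ ∏ t, b t := by
  have hsub : T ⊆ Fintype.piFinset fun t => T.image fun x => x t := fun x hx =>
    Fintype.mem_piFinset.2 fun t => mem_image_of_mem _ hx
  calc ∑ x ∈ T, ∏ t, f t (x t) ≤ ∑ x ∈ Fintype.piFinset (fun t => T.image fun x => x t), ∏ t, f t (x t) :=
        sum_le_sum_of_subset_of_nonneg hsub fun x _ _ => prod_nonneg fun t _ => hf t _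
    _ = ∏ t, ∑ θ ∈ T.image (fun x => x t), f t θ := (prod_univ_sum _ _).symm
    _ ≤ ∏ t, b t := prod_le_prod (fun t _ => sum_nonneg fun θ _ => hf t θ)
        fun t _ => hb t _ fun θ hθ => by simpa using hθ

/-- the tilted one-dimensional kernels -/
def io3q (I : InO N) (t : Fin N) (θ : ℤ) : ℝ := I.kap t θ * Real.exp (I.η t * |(θ : ℝ)|)

/-- the bound for one coordinate -/
def io3b (I : InO N) (t : Fin N) : ℝ :=
  (if I.fat t = true then 2 * (I.σ t : ℝ) + 1 else 1) * Real.exp (5 / (4 * N))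

theorem io3_prod_b (I : InO N) : ∏ t, io3b I t ≤ 6 * I.Pi := by
  have hP : 0 ≤ I.Pi := zero_le_one.trans (InO.OK.one_le_Pi I)
  unfold io3b
  rw [prod_mul_distrib, prod_const, card_univ, Fintype.card_fin, ← Real.exp_nat_mul, mul_comm]
  refine mul_le_mul_of_nonneg_right ?_ hP
  have h1 : (N : ℝ) * (5 / (4 * N)) ≤ 3 / 2 := by
    rcases Nat.eq_zero_or_pos N with h0 | h0
    · subst h0
      norm_num
    · have : (0 : ℝ) < N := by exact_mod_cast h0
      have e : (N : ℝ) * (5 / (4 * N)) = 5 / 4 := by field_simp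
      rw [e]
      norm_num
  refine (Real.exp_le_exp.2 h1).trans ?_
  have h2 : Real.exp (3 / 2) = Real.exp 1 * Real.exp (1 / 2) := by
    rw [← Real.exp_add]
    norm_num
  have h3 : Real.exp (1 / 2) * Real.exp (1 / 2) = Real.exp 1 := by
    rw [← Real.exp_add]
    norm_num
  have h4 := Real.exp_one_lt_d9
  have h5 := Real.exp_pos (1 / 2)
  have h6 : Real.exp (1 / 2) ≤ 2 := by nlinarith
  rw [h2]
  nlinarith [Real.exp_pos 1]

namespace InO.OK

theorem io3q_nonneg (h : I.OK) (t : Fin N) (θ : ℤ) : 0 ≤ io3q I t θ :=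
  mul_nonneg ((h.kap_lcz t).pos θ).le (Real.exp_pos _).le

theorem io3_red (h : I.OK) (U : Finset (Fin N → ℤ)) (s : Fin N → ℤ) :
    ∑ u ∈ U, I.H u * I.ker (u - s) ≤
      (∑ x ∈ U.image (fun u => th I.fat (u - s)), ∏ t, io3q I t (x t)) * I.H s := by
  have hinj : Set.InjOn (fun u : Fin N → ℤ => th I.fat (u - s)) U := by
    intro u _ u' _ e
    have e' := congrArg (dv I.fat) e
    simp only [dv_th h.ok] at e'
    exact sub_left_injective e'
  rw [sum_image hinj, sum_mul]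
  refine sum_le_sum fun u _ => ?_
  have h1 := le_exp_dv (fat := I.fat) (Φ := I.H) (η := I.η) (th I.fat (u - s)) (fun t _ v => h.H_lip t v) s
  rw [dv_th h.ok, add_sub_cancel] at h1
  unfold io3q
  rw [prod_mul_distrib, ← Real.exp_sum, mul_assoc, mul_comm (I.H u)]
  exact mul_le_mul_of_nonneg_left h1 (h.ker_pos _).le

theorem io3_fat (h : I.OK) {t : Fin N} (ht : I.fat t = true) :
    0 < I.l t ∧ 2 * (I.l t : ℝ) * I.η t ≤ 1 ∧ I.σ t + I.l t * (1 + I.k) = I.sp t ∧
      3 * N * (I.l t * (1 + I.k)) ≤ I.σ t ∧ I.η t * (I.sp t : ℝ) ≤ 1 / (4 * N) := by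
  have hN : 0 < N := t.pos
  have hN' : (0 : ℝ) < N := by exact_mod_cast hN
  have h1 := h.l_ge t ht
  have h2 := h.sp_ge t ht
  have h3 := h.η_fat t ht
  have h4 := h.η_nonneg t
  have h5 : N * (I.l t * (1 + I.k)) ≥ I.l t * (1 + I.k) := Nat.le_mul_of_pos_left _ hN
  have h6 : I.l t ≤ I.l t * (1 + I.k) := Nat.le_mul_of_pos_right _ (by omega)
  have h7 : 4 * N * (I.l t * (1 + I.k)) = 4 * (N * (I.l t * (1 + I.k))) := by ring
  have h8 : 3 * N * (I.l t * (1 + I.k)) = 3 * (N * (I.l t * (1 + I.k))) := by ring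
  have h9 : 2 * I.l t ≤ I.sp t := by omega
  have h10 : (2 * I.l t : ℝ) ≤ I.sp t := by exact_mod_cast h9
  have h11 : (1 : ℝ) ≤ N := by exact_mod_cast hN
  have h12 : 0 ≤ I.η t * (I.sp t : ℝ) := by positivity
  refine ⟨by omega, ?_, ?_, ?_, ?_⟩
  · nlinarith
  · unfold InO.σ
    omega
  · unfold InO.σ
    omega
  · rw [le_div_iff₀ (by positivity)]
    linarith

theorem io3_thin (h : I.OK) {t : Fin N} (ht : I.fat t = false) (θ : ℤ) :
    io3q I t θ ≤ (I.lam * I.Λ) ^ θ.natAbs := by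
  unfold io3q InO.kap
  rw [if_neg (by simp [ht]), ft_const, mul_pow]
  refine mul_le_mul_of_nonneg_left ?_ (pow_nonneg h.lam_pos.le _)
  have e : |(θ : ℝ)| = (θ.natAbs : ℝ) := by
    rw [← Int.cast_abs, Int.abs_eq_natAbs, Int.cast_natCast]
  rw [e, mul_comm, Real.exp_nat_mul]
  exact pow_le_pow_left₀ (Real.exp_pos _).le (h.η_thin t ht) _

theorem io3_geo (t : Fin N) {x : ℝ} (h0 : 0 ≤ x) (h1 : 4 * N * x ≤ 1) (S : Finset ℤ) :
    ∑ θ ∈ S, x ^ θ.natAbs ≤ Real.exp (5 / (4 * N)) := by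
  have hN' : (0 : ℝ) < N := by exact_mod_cast t.pos
  have h11 : (1 : ℝ) ≤ N := by exact_mod_cast t.pos
  refine (geo_sum h0 (by nlinarith) S).trans ?_
  refine le_trans ?_ (Real.add_one_le_exp _)
  have : 4 * x ≤ 5 / (4 * N) := by
    rw [le_div_iff₀ (by positivity)]
    nlinarith
  linarith

theorem io3_sum_fat (h : I.OK) {t : Fin N} (ht : I.fat t = true) (S : Finset ℤ) :
    ∑ θ ∈ S, io3q I t θ ≤ io3b I t := by
  obtain ⟨h1, h2, h3, h4, h5⟩ := h.io3_fat ht
  have hN' : (0 : ℝ) < N := by exact_mod_cast t.pos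
  have hs := hub_sum h1 (I.σ t) I.k (h.η_nonneg t) h2 S
  rw [h3] at hs
  unfold io3q io3b InO.kap
  simp only [ht, if_true]
  refine hs.trans ?_
  have e : Real.exp (5 / (4 * (N : ℝ))) = Real.exp (1 / N) * Real.exp (1 / (4 * N)) := by
    rw [← Real.exp_add]
    congr 1
    field_simp
    norm_num
  rw [e, ← mul_assoc (2 * (I.σ t : ℝ) + 1)]
  refine mul_le_mul ?_ (Real.exp_le_exp.2 h5) (Real.exp_pos _).le (by positivity)
  have h4' : 3 * (N : ℝ) * (I.l t * (1 + I.k)) ≤ I.σ t := by exact_mod_cast h4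
  have h6 : 6 * ((I.l t : ℝ) * (1 + I.k)) ≤ (2 * (I.σ t : ℝ) + 1) * (1 / N) := by
    rw [mul_one_div, le_div_iff₀ hN']
    nlinarith
  have h7 := Real.add_one_le_exp (1 / (N : ℝ))
  have h8 : (0 : ℝ) ≤ 2 * (I.σ t : ℝ) + 1 := by positivity
  nlinarith

theorem io3_sum (h : I.OK) (t : Fin N) (S : Finset ℤ) : ∑ θ ∈ S, io3q I t θ ≤ io3b I t := by
  cases ht : I.fat t
  · have hx : 0 ≤ I.lam * I.Λ := mul_nonneg h.lam_pos.le (zero_le_one.trans h.one_le)
    refine (sum_le_sum fun θ _ => h.io3_thin ht θ).trans ?_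
    unfold io3b
    rw [if_neg (by simp [ht]), one_mul]
    refine io3_geo t hx ?_ S
    have := h.lam_small
    have : (0 : ℝ) ≤ N * (I.lam * I.Λ) := by positivity
    linarith
  · exact h.io3_sum_fat ht S

theorem io3_tail (h : I.OK) {t : Fin N} (ht : I.fat t = true) (S : Finset ℤ) (hS : ∀ θ ∈ S, (I.sp t : ℤ) < |θ|) :
    ∑ θ ∈ S, io3q I t θ ≤ Real.exp (-I.k) * io3b I t := by
  obtain ⟨h1, h2, h3, h4, h5⟩ := h.io3_fat ht
  have hN' : (0 : ℝ) < N := by exact_mod_cast t.pos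
  have h11 : (1 : ℝ) ≤ N := by exact_mod_cast t.pos
  have hs := hub_tail h1 (I.σ t) I.k (h.η_nonneg t) h2 S (by rw [h3]; exact hS)
  rw [h3] at hs
  unfold io3q io3b InO.kap
  simp only [ht, if_true]
  refine hs.trans ?_
  rw [← mul_assoc]
  refine mul_le_mul ?_ (Real.exp_le_exp.2 (h5.trans ?_)) (Real.exp_pos _).le (by positivity)
  · rw [mul_comm]
    refine mul_le_mul_of_nonneg_left ?_ (Real.exp_pos _).le
    have h4' : 3 * (N : ℝ) * (I.l t * (1 + I.k)) ≤ I.σ t := by exact_mod_cast h4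
    have a1 : (0 : ℝ) ≤ I.l t := Nat.cast_nonneg _
    have a2 : (0 : ℝ) ≤ I.l t * I.k := by positivity
    have a3 : (I.l t : ℝ) * (1 + I.k) ≤ N * (I.l t * (1 + I.k)) := le_mul_of_one_le_left (by positivity) h11
    nlinarith
  · gcongr
    norm_num

theorem sum_all (h : I.OK) (U : Finset (Fin N → ℤ)) (s : Fin N → ℤ) :
    ∑ u ∈ U, I.H u * I.ker (u - s) ≤ 6 * I.Pi * I.H s := by
  refine (h.io3_red U s).trans (mul_le_mul_of_nonneg_right ?_ (h.H_pos s).le)
  exact (io3_box _ _ h.io3q_nonneg _ fun t S _ => h.io3_sum t S).trans (io3_prod_b I)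

theorem io3_out_fat (h : I.OK) (T : Finset (Fin N → ℤ)) (t₀ : Fin N) :
    ∑ x ∈ T.filter (fun x => I.fat t₀ = true ∧ (I.sp t₀ : ℤ) < |x t₀|), ∏ t, io3q I t (x t) ≤
      Real.exp (-I.k) * (6 * I.Pi) := by
  refine le_trans (io3_box _ _ h.io3q_nonneg (fun t => (if t = t₀ then Real.exp (-I.k) else 1) * io3b I t)
    fun t S hS => ?_) ?_
  · by_cases ht : t = t₀
    · subst ht
      rw [if_pos rfl]
      rcases S.eq_empty_or_nonempty with rfl | ⟨θ₀, hθ₀⟩
      · exact mul_nonneg (Real.exp_pos _).le (h.io3_sum t ∅)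
      · obtain ⟨x₀, hx₀, -⟩ := hS θ₀ hθ₀
        refine h.io3_tail (mem_filter.1 hx₀).2.1 S fun θ hθ => ?_
        obtain ⟨x, hx, rfl⟩ := hS θ hθ
        exact (mem_filter.1 hx).2.2
    · rw [if_neg ht, one_mul]
      exact h.io3_sum t S
  · rw [prod_mul_distrib, prod_ite_eq' univ t₀, if_pos (mem_univ _)]
    exact mul_le_mul_of_nonneg_left (io3_prod_b I) (Real.exp_pos _).le

theorem io3_out_thin (h : I.OK) (T : Finset (Fin N → ℤ)) :
    ∑ x ∈ T.filter (fun x => I.c < nm1 (thn I.fat x)), ∏ t, io3q I t (x t) ≤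
      (4 * N * (I.lam * I.Λ)) ^ (I.c + 1) * (6 * I.Pi) := by
  have hx : 0 ≤ I.lam * I.Λ := mul_nonneg h.lam_pos.le (zero_le_one.trans h.one_le)
  have hz0 : (0 : ℝ) ≤ 4 * N * (I.lam * I.Λ) := by positivity
  have hz1 : 4 * N * (I.lam * I.Λ) ≤ 1 := by
    have := h.lam_small
    linarith
  let q' : Fin N → ℤ → ℝ := fun t θ => if I.fat t = true then io3q I t θ else (1 / (4 * (N : ℝ))) ^ θ.natAbs
  have hq' : ∀ t θ, 0 ≤ q' t θ := fun t θ => by
    simp only [q']
    split_ifs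
    · exact h.io3q_nonneg t θ
    · positivity
  have hb : ∑ x ∈ T.filter (fun x => I.c < nm1 (thn I.fat x)), ∏ t, q' t (x t) ≤ 6 * I.Pi := by
    refine (io3_box _ _ hq' (io3b I) fun t S _ => ?_).trans (io3_prod_b I)
    cases ht : I.fat t
    · have hN' : (0 : ℝ) < N := by exact_mod_cast t.pos
      simp only [q', ht, io3b, Bool.false_eq_true, if_false, one_mul]
      refine io3_geo t (by positivity) (le_of_eq ?_) S
      field_simp
    · simp only [q', ht, if_true]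
      exact h.io3_sum_fat ht S
  refine le_trans ?_ (mul_le_mul_of_nonneg_left hb (pow_nonneg hz0 _))
  rw [mul_sum]
  refine sum_le_sum fun x hxT => ?_
  have hc := (mem_filter.1 hxT).2
  calc ∏ t, io3q I t (x t) ≤ ∏ t, ((4 * N * (I.lam * I.Λ)) ^ (thn I.fat x t).natAbs * q' t (x t)) := by
        refine prod_le_prod (fun t _ => h.io3q_nonneg t _) fun t _ => ?_
        cases ht : I.fat t
        · have hN' : (0 : ℝ) < N := by exact_mod_cast t.pos
          simp only [q', ht, thn, Bool.false_eq_true, if_false]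
          rw [← mul_pow]
          refine (h.io3_thin ht _).trans (le_of_eq ?_)
          congr 1
          field_simp
        · simp [q', ht, thn]
    _ = (4 * N * (I.lam * I.Λ)) ^ nm1 (thn I.fat x) * ∏ t, q' t (x t) := by
        rw [prod_mul_distrib, prod_pow_eq_pow_sum]
        rfl
    _ ≤ _ := mul_le_mul_of_nonneg_right (pow_le_pow_of_le_one hz0 hz1 hc) (prod_nonneg fun t _ => hq' t _)

theorem io3_not_mem_X {x : Fin N → ℤ} (hx : x ∉ I.X) :
    (∃ t : Fin N, I.fat t = true ∧ (I.sp t : ℤ) < |x t|) ∨ I.c < nm1 (thn I.fat x) := by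
  by_contra hcon
  rw [not_or, not_exists, not_lt] at hcon
  refine hx (mem_filter.2 ⟨mem_ibox.2 fun t => ?_, hcon.2⟩)
  cases ht : I.fat t
  · have h1 : (thn I.fat x t).natAbs ≤ nm1 (thn I.fat x) :=
      single_le_sum (f := fun j => (thn I.fat x j).natAbs) (fun _ _ => Nat.zero_le _) (mem_univ t)
    have h2 := hcon.2
    simp only [thn, ht, Bool.false_eq_true, if_false] at h1 ⊢
    omega
  · have h1 := hcon.1 t
    rw [not_and, not_lt] at h1
    simp only [if_true]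
    exact abs_le.1 (h1 ht)

theorem sum_out (h : I.OK) (U : Finset (Fin N → ℤ)) (s : Fin N → ℤ) :
    ∑ u ∈ U.filter (fun u => th I.fat (u - s) ∉ I.X), I.H u * I.ker (u - s) ≤
      (6 * N * Real.exp (-I.k) + 12 * (4 * N * (I.lam * I.Λ)) ^ (I.c + 1)) * I.Pi * I.H s := by
  refine (h.io3_red _ s).trans (mul_le_mul_of_nonneg_right ?_ (h.H_pos s).le)
  set T := (U.filter (fun u => th I.fat (u - s) ∉ I.X)).image (fun u => th I.fat (u - s)) with hT
  have hTX : ∀ x ∈ T, x ∉ I.X := fun x hx => by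
    obtain ⟨u, hu, rfl⟩ := mem_image.1 hx
    exact (mem_filter.1 hu).2
  have hP : 0 ≤ I.Pi := zero_le_one.trans (InO.OK.one_le_Pi I)
  have hx : 0 ≤ I.lam * I.Λ := mul_nonneg h.lam_pos.le (zero_le_one.trans h.one_le)
  have hz : (0 : ℝ) ≤ (4 * N * (I.lam * I.Λ)) ^ (I.c + 1) := by positivity
  have hq : ∀ x : Fin N → ℤ, 0 ≤ ∏ t, io3q I t (x t) := fun x => prod_nonneg fun t _ => h.io3q_nonneg t _
  calc ∑ x ∈ T, ∏ t, io3q I t (x t) ≤
        ∑ x ∈ T, ((∑ t₀ : Fin N, if I.fat t₀ = true ∧ (I.sp t₀ : ℤ) < |x t₀| then ∏ t, io3q I t (x t) else 0) +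
          if I.c < nm1 (thn I.fat x) then ∏ t, io3q I t (x t) else 0) := by
        refine sum_le_sum fun x hxT => ?_
        have a1 : ∀ t₀ : Fin N, 0 ≤ if I.fat t₀ = true ∧ (I.sp t₀ : ℤ) < |x t₀| then ∏ t, io3q I t (x t) else 0 :=
          fun t₀ => by
            split_ifs
            · exact hq x
            · exact le_rfl
        rcases io3_not_mem_X (hTX x hxT) with ⟨t₀, ht₀⟩ | hc
        · have a2 := single_le_sum (f := fun t₀ : Fin N =>
            if I.fat t₀ = true ∧ (I.sp t₀ : ℤ) < |x t₀| then ∏ t, io3q I t (x t) else 0)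
            (fun t _ => a1 t) (mem_univ t₀)
          simp only [if_pos ht₀] at a2
          refine a2.trans (le_add_of_nonneg_right ?_)
          split_ifs
          · exact hq x
          · exact le_rfl
        · rw [if_pos hc]
          exact le_add_of_nonneg_left (sum_nonneg fun t _ => a1 t)
    _ = (∑ t₀ : Fin N, ∑ x ∈ T.filter (fun x => I.fat t₀ = true ∧ (I.sp t₀ : ℤ) < |x t₀|), ∏ t, io3q I t (x t)) +
          ∑ x ∈ T.filter (fun x => I.c < nm1 (thn I.fat x)), ∏ t, io3q I t (x t) := by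
        rw [sum_add_distrib, sum_comm]
        simp only [sum_filter]
    _ ≤ (∑ _t₀ : Fin N, Real.exp (-I.k) * (6 * I.Pi)) + (4 * N * (I.lam * I.Λ)) ^ (I.c + 1) * (6 * I.Pi) :=
        add_le_add (sum_le_sum fun t₀ _ => h.io3_out_fat T t₀) (h.io3_out_thin T)
    _ ≤ _ := by
        rw [sum_const, card_univ, Fintype.card_fin, nsmul_eq_mul]
        have := mul_nonneg hz hP
        nlinarith

theorem io3_H_thin (h : I.OK) (x z : Fin N → ℤ) (hx : nm1 (thn I.fat x) ≤ I.c) :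
    I.H (z + dv I.fat (thn I.fat x)) ≤ I.Λ ^ I.c * I.H z := by
  refine (le_exp_dv (fat := I.fat) (Φ := I.H) (η := I.η) (thn I.fat x) (fun t _ v => h.H_lip t v) z).trans ?_
  refine mul_le_mul_of_nonneg_right ?_ (h.H_pos z).le
  refine le_trans ?_ (pow_le_pow_right₀ h.one_le hx)
  rw [Real.exp_sum, nm1, ← prod_pow_eq_pow_sum]
  refine prod_le_prod (fun t _ => (Real.exp_pos _).le) fun t _ => ?_
  cases ht : I.fat t
  · have e : |((thn I.fat x t : ℤ) : ℝ)| = ((thn I.fat x t).natAbs : ℝ) := by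
      rw [← Int.cast_abs, Int.abs_eq_natAbs, Int.cast_natCast]
    rw [e, mul_comm, Real.exp_nat_mul]
    exact pow_le_pow_left₀ (Real.exp_pos _).le (h.η_thin t ht) _
  · simp [thn, ht]

theorem io3_fiber (h : I.OK) {m : ℝ} (hm : 0 < m) (u v : Fin N → ℤ) :
    ∑ s ∈ (I.Ω.filter (fun s => th I.fat (u - s) ∈ I.X ∧ I.F u < I.w s * I.Pi / m)).filter
        (fun s => thn I.fat (th I.fat (u - s)) = v), I.H u * (I.w s * I.ker (u - s)) ≤
      if u - dv I.fat v ∈ I.Ωp then I.Λ ^ I.c * I.Pi / m * I.W (u - dv I.fat v) else 0 := by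
  have hP : 0 ≤ I.Pi := zero_le_one.trans (InO.OK.one_le_Pi I)
  have hΛ : 0 ≤ I.Λ := zero_le_one.trans h.one_le
  rcases ((I.Ω.filter (fun s => th I.fat (u - s) ∈ I.X ∧ I.F u < I.w s * I.Pi / m)).filter
      (fun s => thn I.fat (th I.fat (u - s)) = v)).eq_empty_or_nonempty with he | ⟨s₀, hs₀⟩
  · rw [he, sum_empty]
    split_ifs
    · exact mul_nonneg (by positivity) (h.W_pos _).le
    · exact le_rfl
  · obtain ⟨hs₁, hv⟩ := mem_filter.1 hs₀
    obtain ⟨hΩ, hX, hF⟩ := mem_filter.1 hs₁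
    obtain ⟨hbox, hnm⟩ := mem_filter.1 hX
    have hz : u - dv I.fat v = s₀ + dv I.fat (th I.fat (u - s₀) - v) := by
      rw [dv_sub, dv_th h.ok]
      abel
    have hthin : ∀ t : Fin N, I.fat t = false → (th I.fat (u - s₀) - v) t = 0 := fun t ht => by
      rw [← hv]
      simp [thn, ht]
    have hmem : u - dv I.fat v ∈ I.Ωp := by
      rw [hz]
      refine h.mem_Ωp s₀ hΩ _ fun t => ?_
      cases ht : I.fat t
      · rw [hthin t ht]
        simp
      · have a := mem_ibox.1 hbox t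
        simp only [ht, if_true] at a ⊢
        rw [← hv]
        simp only [Pi.sub_apply, thn, ht, if_true, sub_zero]
        exact abs_le.2 a
    have hw : I.w (u - dv I.fat v) = I.w s₀ := by
      rw [hz]
      exact h.w_dv hthin s₀
    have hH : I.H u ≤ I.Λ ^ I.c * I.H (u - dv I.fat v) := by
      have a := h.io3_H_thin (th I.fat (u - s₀)) (u - dv I.fat v) hnm
      rwa [hv, sub_add_cancel] at a
    rw [if_pos hmem, ← mul_sum]
    have hle : ∑ s ∈ (I.Ω.filter (fun s => th I.fat (u - s) ∈ I.X ∧ I.F u < I.w s * I.Pi / m)).filter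
        (fun s => thn I.fat (th I.fat (u - s)) = v), I.w s * I.ker (u - s) ≤ I.F u :=
      sum_le_sum_of_subset_of_nonneg (((filter_subset _ _).trans (filter_subset _ _)).trans h.Ω_sub)
        fun s _ _ => mul_nonneg (h.sep.pos s).le (h.ker_pos _).le
    refine (mul_le_mul hH (hle.trans hF.le) (sum_nonneg fun s _ => mul_nonneg (h.sep.pos s).le (h.ker_pos _).le)
      (mul_nonneg (pow_nonneg hΛ _) (h.H_pos _).le)).trans (le_of_eq ?_)
    rw [InO.W, hw]
    ring

theorem sum_low (h : I.OK) (U : Finset (Fin N → ℤ)) {m : ℝ} (hm : 0 < m) :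
    ∑ u ∈ U, ∑ s ∈ I.Ω.filter (fun s => th I.fat (u - s) ∈ I.X ∧ I.F u < I.w s * I.Pi / m),
      I.H u * (I.w s * I.ker (u - s)) ≤ (2 * N + 1) ^ I.c * I.Λ ^ I.c * I.KE / m * I.Pi * I.Z := by
  have hP : 0 ≤ I.Pi := zero_le_one.trans (InO.OK.one_le_Pi I)
  have hΛ : 0 ≤ I.Λ := zero_le_one.trans h.one_le
  have hC : 0 ≤ I.Λ ^ I.c * I.Pi / m := by positivity
  have hcard : #(I.X.image (thn I.fat)) ≤ (2 * N + 1) ^ I.c := by
    have := card_nm1_le I.c (I.X.image (thn I.fat)) fun v hv => by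
      obtain ⟨x, hx, rfl⟩ := mem_image.1 hv
      exact (mem_filter.1 hx).2
    rwa [Fintype.card_fin] at this
  have hcard' : (#(I.X.image (thn I.fat)) : ℝ) ≤ (2 * N + 1) ^ I.c := by exact_mod_cast hcard
  have hS0 : 0 ≤ ∑ z ∈ I.Ωp, I.W z := sum_nonneg fun z _ => (h.W_pos z).le
  have hv : ∀ v : Fin N → ℤ,
      ∑ u ∈ U, (if u - dv I.fat v ∈ I.Ωp then I.Λ ^ I.c * I.Pi / m * I.W (u - dv I.fat v) else 0) ≤
        I.Λ ^ I.c * I.Pi / m * (I.KE * I.Z) := fun v => by
    rw [← sum_filter, ← mul_sum]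
    refine mul_le_mul_of_nonneg_left (le_trans ?_ h.enl) hC
    rw [← sum_image (f := I.W) (g := fun u => u - dv I.fat v) fun a _ b _ e => sub_left_injective e]
    refine sum_le_sum_of_subset_of_nonneg (fun z hz => ?_) fun z _ _ => (h.W_pos z).le
    obtain ⟨u, hu, rfl⟩ := mem_image.1 hz
    exact (mem_filter.1 hu).2
  calc ∑ u ∈ U, ∑ s ∈ I.Ω.filter (fun s => th I.fat (u - s) ∈ I.X ∧ I.F u < I.w s * I.Pi / m),
        I.H u * (I.w s * I.ker (u - s)) ≤
      ∑ u ∈ U, ∑ v ∈ I.X.image (thn I.fat),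
        (if u - dv I.fat v ∈ I.Ωp then I.Λ ^ I.c * I.Pi / m * I.W (u - dv I.fat v) else 0) := by
        refine sum_le_sum fun u _ => ?_
        rw [← sum_fiberwise_of_maps_to (t := I.X.image (thn I.fat)) (g := fun s => thn I.fat (th I.fat (u - s)))
          fun s hs => mem_image_of_mem _ (mem_filter.1 hs).2.1]
        exact sum_le_sum fun v _ => h.io3_fiber hm u v
    _ ≤ ∑ _v ∈ I.X.image (thn I.fat), I.Λ ^ I.c * I.Pi / m * (I.KE * I.Z) := by
        rw [sum_comm]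
        exact sum_le_sum fun v _ => hv v
    _ ≤ (2 * N + 1) ^ I.c * (I.Λ ^ I.c * I.Pi / m * (I.KE * I.Z)) := by
        rw [sum_const, nsmul_eq_mul]
        exact mul_le_mul_of_nonneg_right hcard' (mul_nonneg hC (hS0.trans h.enl))
    _ = _ := by ring

end InO.OK

end Crest.Agent.R302B
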