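import Crest.Agent.R302B.IO2
import Crest.Agent.R302B.IO3

/-!
# Row 302 (binary layer): IO4
The weak Poincaré inequality.  Extend `f` by `0` outside `Ω`.  `(s, u)` is good if `s ∈ Ω`, `th (u - s) ∈ X`, `w s * Pi / m ≤ F u`.
`2 F u * V f u = ∑_{s, s'} w ker w' ker' (f s - f s')^2`; pairs with a bad member contribute at most `4 ∑_{s bad} w ker` to `V`.
For good pairs `w w' ker ker' / F ≤ min (w, w') m / Pi`, `H u ≤ 2 Λ^c min (H s, H s')` (`H_X`), `min (w,w') min (H,H') ≤ min (W, W')`, and the number of `u` is at most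
`#{x ∈ X | x + th (s - s') ∈ X}`.  Finally `mn f² - (mn f)² ≤ ∑_Ω W (f - m)^2 / Z`.
-/

set_option autoImplicit false
set_option linter.unusedSectionVars false

noncomputable section

namespace Crest.Agent.R302B

open Finset Crest.Agent.R302

variable {N : ℕ} {I : InO N}

/-- the variance as a sum over pairs, split into good and bad members -/
theorem io4_pair {α : Type} (B : Finset α) {a f : α → ℝ} (good : α → Prop) [DecidablePred good]
    (ha : ∀ s ∈ B, 0 ≤ a s) (hF : 0 < ∑ s ∈ B, a s) (hf : ∀ s ∈ B, |f s| ≤ 1) :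
    ∑ s ∈ B, a s * (f s - (∑ s ∈ B, a s * f s) / ∑ s ∈ B, a s) ^ 2 ≤
      (∑ s ∈ B.filter good, ∑ s' ∈ B.filter good, a s * a s' * (f s - f s') ^ 2) / (2 * ∑ s ∈ B, a s) +
        4 * ∑ s ∈ B.filter (fun s => ¬ good s), a s := by
  set F := ∑ s ∈ B, a s with hFdef
  set A1 := ∑ s ∈ B, a s * f s with hA1
  set A2 := ∑ s ∈ B, a s * f s ^ 2 with hA2
  set b := ∑ s ∈ B.filter (fun s => ¬ good s), a s with hb
  have e1 : ∑ s ∈ B, a s * (f s - A1 / F) ^ 2 = A2 - 2 * (A1 / F) * A1 + (A1 / F) ^ 2 * F := by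
    rw [hA2, hA1, hFdef, mul_sum, mul_sum, ← sum_sub_distrib, ← sum_add_distrib]
    exact sum_congr rfl fun s _ => by ring
  have e2 : ∑ s ∈ B, ∑ s' ∈ B, a s * a s' * (f s - f s') ^ 2 = A2 * F - 2 * (A1 * A1) + F * A2 := by
    rw [hA2, hA1, hFdef, sum_mul_sum, sum_mul_sum, sum_mul_sum, mul_sum, ← sum_sub_distrib,
      ← sum_add_distrib]
    refine sum_congr rfl fun s _ => ?_
    rw [mul_sum, ← sum_sub_distrib, ← sum_add_distrib]
    exact sum_congr rfl fun s' _ => by ring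
  have e3 : ∑ s ∈ B, ∑ s' ∈ B, a s * a s' * (f s - f s') ^ 2 ≤
      (∑ s ∈ B.filter good, ∑ s' ∈ B.filter good, a s * a s' * (f s - f s') ^ 2) +
        4 * (b * F) + 4 * (F * b) := by
    rw [hb, hFdef, sum_filter, sum_filter, sum_mul_sum, sum_mul_sum, mul_sum, mul_sum,
      ← sum_add_distrib, ← sum_add_distrib]
    refine sum_le_sum fun s hs => ?_
    have t1 : (if good s then ∑ s' ∈ B.filter good, a s * a s' * (f s - f s') ^ 2 else 0) =
        ∑ s' ∈ B, if good s ∧ good s' then a s * a s' * (f s - f s') ^ 2 else 0 := by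
      by_cases c : good s
      · simp only [c, if_true, true_and, sum_filter]
      · simp only [c, if_false, false_and, sum_const_zero]
    rw [t1, mul_sum, mul_sum, ← sum_add_distrib, ← sum_add_distrib]
    refine sum_le_sum fun s' hs' => ?_
    have p : 0 ≤ a s * a s' := mul_nonneg (ha s hs) (ha s' hs')
    have q : (f s - f s') ^ 2 ≤ 4 := by
      have g1 := abs_le.1 (hf s hs)
      have g2 := abs_le.1 (hf s' hs')
      nlinarith
    have r : a s * a s' * (f s - f s') ^ 2 ≤ 4 * (a s * a s') := by nlinarith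
    by_cases c : good s <;> by_cases c' : good s' <;> simp only [c, c', and_self, if_true, not_true,
      if_false, not_false_iff, and_false, false_and] <;> linarith
  rw [e1, div_add' _ _ _ (by positivity), le_div_iff₀ (by positivity)]
  have e4 : (A2 - 2 * (A1 / F) * A1 + (A1 / F) ^ 2 * F) * (2 * F) =
      A2 * F - 2 * (A1 * A1) + F * A2 := by
    field_simp
    ring
  rw [e4, ← e2]
  linarith

/-- the variance is at most the second moment about any point -/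
theorem io4_var {α : Type} (Ω : Finset α) {W : α → ℝ} (f : α → ℝ) (hZ : 0 < ∑ s ∈ Ω, W s) (m : ℝ) :
    mn Ω W (fun s => f s ^ 2) - mn Ω W f ^ 2 ≤ (∑ s ∈ Ω, W s * (f s - m) ^ 2) / ∑ s ∈ Ω, W s := by
  unfold mn
  set Z := ∑ s ∈ Ω, W s with hZd
  set A1 := ∑ s ∈ Ω, W s * f s with hA1
  set A2 := ∑ s ∈ Ω, W s * f s ^ 2 with hA2
  have e1 : ∑ s ∈ Ω, W s * (f s - m) ^ 2 = A2 - 2 * m * A1 + m ^ 2 * Z := by
    rw [hA2, hA1, hZd, mul_sum, mul_sum, ← sum_sub_distrib, ← sum_add_distrib]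
    exact sum_congr rfl fun s _ => by ring
  have e2 : (A2 - 2 * m * A1 + m ^ 2 * Z) / Z = A2 / Z - (A1 / Z) ^ 2 + (A1 / Z - m) ^ 2 := by
    field_simp
    ring
  rw [e1, e2]
  nlinarith [sq_nonneg (A1 / Z - m)]

namespace InO.OK

theorem io4_H (h : I.OK) {u s : Fin N → ℤ} (hx : th I.fat (u - s) ∈ I.X) :
    I.H u ≤ 2 * I.Λ ^ I.c * I.H s := by
  have := h.H_X hx s
  rwa [dv_th h.ok, add_sub_cancel] at this

theorem io4_term (h : I.OK) {m : ℝ} (hm : 0 < m) {u s s' : Fin N → ℤ} (hx : th I.fat (u - s) ∈ I.X)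
    (hw : I.w s' * I.Pi / m ≤ I.F u) :
    I.H u * (I.w s * I.ker (u - s) * (I.w s' * I.ker (u - s'))) / (2 * I.F u) ≤
      I.Λ ^ I.c * m / I.Pi * I.W s := by
  have hF := h.F_pos u
  have hP : 0 < I.Pi := lt_of_lt_of_le one_pos (one_le_Pi I)
  have w1 := h.sep.pos s
  have w2 := h.sep.pos s'
  have hH := h.H_pos s
  have hΛ : 0 < I.Λ ^ I.c := pow_pos (lt_of_lt_of_le one_pos h.one_le) _
  have a1 : I.w s * I.ker (u - s) ≤ I.w s := mul_le_of_le_one_right w1.le (h.ker_le_one _)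
  have a2 : I.w s' * I.ker (u - s') ≤ m / I.Pi * I.F u := by
    refine le_trans (mul_le_of_le_one_right w2.le (h.ker_le_one _)) ?_
    rw [div_le_iff₀ hm] at hw
    rw [div_mul_eq_mul_div, le_div_iff₀ hP]
    linarith
  have a3 : I.w s * I.ker (u - s) * (I.w s' * I.ker (u - s')) ≤ I.w s * (m / I.Pi * I.F u) :=
    mul_le_mul a1 a2 (mul_pos w2 (h.ker_pos _)).le w1.le
  have a4 : I.H u * (I.w s * I.ker (u - s) * (I.w s' * I.ker (u - s'))) ≤
      2 * I.Λ ^ I.c * I.H s * (I.w s * (m / I.Pi * I.F u)) :=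
    mul_le_mul (h.io4_H hx) a3 (mul_pos (mul_pos w1 (h.ker_pos _)) (mul_pos w2 (h.ker_pos _))).le
      (by positivity)
  rw [div_le_iff₀ (by positivity)]
  refine le_trans a4 (le_of_eq ?_)
  rw [InO.W]
  ring

theorem io4_card (h : I.OK) (U : Finset (Fin N → ℤ)) (s s' : Fin N → ℤ) :
    #(U.filter fun u => th I.fat (u - s) ∈ I.X ∧ th I.fat (u - s') ∈ I.X) ≤
      #(I.X.filter fun x => x + th I.fat (s - s') ∈ I.X) := by
  refine card_le_card_of_injOn (fun u => th I.fat (u - s)) ?_ ?_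
  · intro u hu
    obtain ⟨-, h1, h2⟩ := mem_filter.1 (mem_coe.1 hu)
    refine mem_coe.2 (mem_filter.2 ⟨h1, ?_⟩)
    rwa [← th_add, sub_add_sub_cancel]
  · intro u _ u' _ e
    have e' := congrArg (dv I.fat) e
    simp only [dv_th h.ok] at e'
    exact sub_left_injective e'

/-- the good pairs -/
theorem io4_good (h : I.OK) {m p₀ : ℝ} (hm : 0 < m) (hp₀ : 0 < p₀)
    {Q : (Fin N → ℤ) → (Fin N → ℤ) → ℝ}
    (hQ : ∀ s ∈ I.Ω, ∀ s' ∈ I.Ω, s ≠ s' →
      p₀ ^ 2 * #(I.X.filter fun x => x + th I.fat (s - s') ∈ I.X) * min (I.W s) (I.W s') ≤ Q s s')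
    (f : (Fin N → ℤ) → ℝ) (U : Finset (Fin N → ℤ)) :
    ∑ u ∈ U, I.H u *
      ((∑ s ∈ I.Ω.filter (fun s => th I.fat (u - s) ∈ I.X ∧ I.w s * I.Pi / m ≤ I.F u),
        ∑ s' ∈ I.Ω.filter (fun s => th I.fat (u - s) ∈ I.X ∧ I.w s * I.Pi / m ≤ I.F u),
          I.w s * I.ker (u - s) * (I.w s' * I.ker (u - s')) * (f s - f s') ^ 2) / (2 * I.F u)) ≤
      I.Λ ^ I.c * m / I.Pi / p₀ ^ 2 * ∑ s ∈ I.Ω, ∑ s' ∈ I.Ω, Q s s' * (f s - f s') ^ 2 := by
  have hP : 0 < I.Pi := lt_of_lt_of_le one_pos (one_le_Pi I)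
  have hΛ : 0 < I.Λ ^ I.c := pow_pos (lt_of_lt_of_le one_pos h.one_le) _
  set K := I.Λ ^ I.c * m / I.Pi with hK
  have hK0 : 0 < K := by positivity
  have hmin : ∀ s s', 0 ≤ min (I.W s) (I.W s') := fun s s' => le_min (h.W_pos s).le (h.W_pos s').le
  calc _ ≤ ∑ u ∈ U, ∑ s ∈ I.Ω, ∑ s' ∈ I.Ω,
        if th I.fat (u - s) ∈ I.X ∧ th I.fat (u - s') ∈ I.X then
          K * min (I.W s) (I.W s') * (f s - f s') ^ 2 else 0 := by
        refine sum_le_sum fun u _ => ?_
        rw [sum_div, mul_sum, sum_filter]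
        refine sum_le_sum fun s _ => ?_
        have nn : ∀ s', 0 ≤ if th I.fat (u - s) ∈ I.X ∧ th I.fat (u - s') ∈ I.X then
            K * min (I.W s) (I.W s') * (f s - f s') ^ 2 else 0 := fun s' => by
          have := hmin s s'
          split_ifs <;> positivity
        split_ifs with c
        · rw [sum_div, mul_sum, sum_filter]
          refine sum_le_sum fun s' _ => ?_
          by_cases c' : th I.fat (u - s') ∈ I.X ∧ I.w s' * I.Pi / m ≤ I.F u
          · rw [if_pos c', if_pos ⟨c.1, c'.1⟩]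
            have t1 := h.io4_term hm c.1 c'.2
            have t2 := h.io4_term hm c'.1 c.2
            rw [mul_comm (I.w s' * I.ker (u - s'))] at t2
            have t3 : I.H u * (I.w s * I.ker (u - s) * (I.w s' * I.ker (u - s'))) / (2 * I.F u) ≤
                K * min (I.W s) (I.W s') := by
              rw [mul_min_of_nonneg _ _ hK0.le]
              exact le_min t1 t2
            refine le_trans (le_of_eq ?_) (mul_le_mul_of_nonneg_right t3 (sq_nonneg (f s - f s')))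
            ring
          · rw [if_neg c']
            exact nn s'
        · exact sum_nonneg fun s' _ => nn s'
    _ = ∑ s ∈ I.Ω, ∑ s' ∈ I.Ω,
        (#(U.filter fun u => th I.fat (u - s) ∈ I.X ∧ th I.fat (u - s') ∈ I.X) : ℝ) *
          (K * min (I.W s) (I.W s') * (f s - f s') ^ 2) := by
        rw [sum_comm]
        refine sum_congr rfl fun s _ => ?_
        rw [sum_comm]
        refine sum_congr rfl fun s' _ => ?_
        rw [← sum_filter, sum_const, nsmul_eq_mul]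
    _ ≤ _ := by
        rw [mul_sum]
        refine sum_le_sum fun s hs => ?_
        rw [mul_sum]
        refine sum_le_sum fun s' hs' => ?_
        by_cases e : s = s'
        · subst e
          simp
        have c1 : (#(U.filter fun u => th I.fat (u - s) ∈ I.X ∧ th I.fat (u - s') ∈ I.X) : ℝ) ≤
            #(I.X.filter fun x => x + th I.fat (s - s') ∈ I.X) := by exact_mod_cast h.io4_card U s s'
        have c2 := hQ s hs s' hs' e
        have c3 := hmin s s'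
        have c4 : (#(I.X.filter fun x => x + th I.fat (s - s') ∈ I.X) : ℝ) * min (I.W s) (I.W s') ≤
            Q s s' / p₀ ^ 2 := by
          rw [le_div_iff₀ (by positivity)]
          linarith
        calc _ ≤ (#(I.X.filter fun x => x + th I.fat (s - s') ∈ I.X) : ℝ) *
              (K * min (I.W s) (I.W s') * (f s - f s') ^ 2) :=
              mul_le_mul_of_nonneg_right c1 (by positivity)
          _ = (#(I.X.filter fun x => x + th I.fat (s - s') ∈ I.X) : ℝ) * min (I.W s) (I.W s') *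
              (K * (f s - f s') ^ 2) := by ring
          _ ≤ Q s s' / p₀ ^ 2 * (K * (f s - f s') ^ 2) :=
              mul_le_mul_of_nonneg_right c4 (by positivity)
          _ = _ := by ring

/-- the bad mass -/
theorem io4_bad (h : I.OK) {m : ℝ} (hm : 0 < m) (U : Finset (Fin N → ℤ)) :
    ∑ u ∈ U, I.H u * ∑ s ∈ (bases I.g).filter
        (fun s => ¬ (s ∈ I.Ω ∧ th I.fat (u - s) ∈ I.X ∧ I.w s * I.Pi / m ≤ I.F u)),
        I.w s * I.ker (u - s) ≤
      (6 * I.τ + 6 * N * Real.exp (-I.k) + 12 * (4 * N * (I.lam * I.Λ)) ^ (I.c + 1) +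
          (2 * N + 1) ^ I.c * I.Λ ^ I.c * I.KE / m) * (I.Pi * I.Z) := by
  have hP : 0 < I.Pi := lt_of_lt_of_le one_pos (one_le_Pi I)
  have pos : ∀ u s, 0 ≤ I.H u * (I.w s * I.ker (u - s)) := fun u s =>
    (mul_pos (h.H_pos u) (mul_pos (h.sep.pos s) (h.ker_pos _))).le
  have split : ∀ u, I.H u * ∑ s ∈ (bases I.g).filter
        (fun s => ¬ (s ∈ I.Ω ∧ th I.fat (u - s) ∈ I.X ∧ I.w s * I.Pi / m ≤ I.F u)),
        I.w s * I.ker (u - s) =
      ∑ s ∈ bases I.g \ I.Ω, I.H u * (I.w s * I.ker (u - s)) +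
      (∑ s ∈ I.Ω, if th I.fat (u - s) ∉ I.X then I.H u * (I.w s * I.ker (u - s)) else 0) +
      ∑ s ∈ I.Ω.filter (fun s => th I.fat (u - s) ∈ I.X ∧ I.F u < I.w s * I.Pi / m),
        I.H u * (I.w s * I.ker (u - s)) := by
    intro u
    rw [mul_sum, sum_filter, ← sum_sdiff h.Ω_sub, add_assoc, sum_filter, ← sum_add_distrib]
    congr 1
    · exact sum_congr rfl fun s hs => if_pos fun c => (mem_sdiff.1 hs).2 c.1
    · refine sum_congr rfl fun s hs => ?_
      by_cases c1 : th I.fat (u - s) ∈ I.X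
      · by_cases c2 : I.w s * I.Pi / m ≤ I.F u
        · simp [hs, c1, c2]
        · simp [hs, c1, c2, not_le.1 c2]
      · simp [c1]
  rw [sum_congr rfl fun u _ => split u, sum_add_distrib, sum_add_distrib]
  have b1 : ∑ u ∈ U, ∑ s ∈ bases I.g \ I.Ω, I.H u * (I.w s * I.ker (u - s)) ≤
      6 * I.τ * (I.Pi * I.Z) := by
    rw [sum_comm]
    calc _ ≤ ∑ s ∈ bases I.g \ I.Ω, 6 * I.Pi * I.W s := by
          refine sum_le_sum fun s _ => ?_
          have t := mul_le_mul_of_nonneg_left (h.sum_all U s) (h.sep.pos s).le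
          rw [mul_sum] at t
          refine le_trans (le_of_eq (sum_congr rfl fun u _ => by ring)) (le_trans t (le_of_eq ?_))
          rw [InO.W]
          ring
      _ ≤ 6 * I.Pi * (I.τ * I.Z) := by
          rw [← mul_sum]
          exact mul_le_mul_of_nonneg_left h.out (by positivity)
      _ = _ := by ring
  have b2 : ∑ u ∈ U, (∑ s ∈ I.Ω,
      if th I.fat (u - s) ∉ I.X then I.H u * (I.w s * I.ker (u - s)) else 0) ≤
      (6 * N * Real.exp (-I.k) + 12 * (4 * N * (I.lam * I.Λ)) ^ (I.c + 1)) * (I.Pi * I.Z) := by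
    rw [sum_comm, InO.Z, mul_sum, mul_sum]
    refine sum_le_sum fun s _ => ?_
    have t := mul_le_mul_of_nonneg_left (h.sum_out U s) (h.sep.pos s).le
    rw [mul_sum] at t
    rw [← sum_filter]
    refine le_trans (le_of_eq (sum_congr rfl fun u _ => by ring)) (le_trans t (le_of_eq ?_))
    rw [InO.W]
    ring
  have b3 := h.sum_low U hm
  linarith

end InO.OK

theorem InO.OK.wp (h : I.OK) {m p₀ p₁ : ℝ} (hm : 0 < m) (hp₁ : 0 < p₁) (hp : p₁ ≤ p₀ * I.Pi)
    {Q : (Fin N → ℤ) → (Fin N → ℤ) → ℝ} (hQ0 : ∀ s ∈ I.Ω, ∀ s' ∈ I.Ω, 0 ≤ Q s s')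
    (hQ : ∀ s ∈ I.Ω, ∀ s' ∈ I.Ω, s ≠ s' →
      p₀ ^ 2 * #(I.X.filter fun x => x + th I.fat (s - s') ∈ I.X) * min (I.W s) (I.W s') ≤ Q s s')
    (f : (Fin N → ℤ) → ℝ) (hf : ∀ s ∈ I.Ω, |f s| ≤ 1) :
    mn I.Ω I.W (fun s => f s ^ 2) - mn I.Ω I.W f ^ 2 ≤
      6 * (1 + I.C1) * I.Λ ^ I.c * m / p₁ ^ 2 *
          ((∑ s ∈ I.Ω, ∑ s' ∈ I.Ω, Q s s' * (f s - f s') ^ 2) / 2 / I.Z) +
        12 * (1 + I.C1) * (6 * I.τ + 6 * N * Real.exp (-I.k) + 12 * (4 * N * (I.lam * I.Λ)) ^ (I.c + 1) +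
          (2 * N + 1) ^ I.c * I.Λ ^ I.c * I.KE / m) := by
  have hP : 0 < I.Pi := lt_of_lt_of_le one_pos (InO.OK.one_le_Pi I)
  have hp₀ : 0 < p₀ := (mul_pos_iff_of_pos_right hP).1 (lt_of_lt_of_le hp₁ hp)
  have hZ := h.Z_pos
  have hC := h.C1_nonneg
  have hΛ : 0 < I.Λ ^ I.c := pow_pos (lt_of_lt_of_le one_pos h.one_le) _
  set f' : (Fin N → ℤ) → ℝ := fun s => if s ∈ I.Ω then f s else 0 with hf'
  have e' : ∀ s ∈ I.Ω, f' s = f s := fun s hs => if_pos hs
  have b' : ∀ s, |f' s| ≤ 1 := fun s => by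
    by_cases c : s ∈ I.Ω
    · rw [e' s c]; exact hf s c
    · simp [hf', c]
  obtain ⟨U, μ, hU⟩ := h.main_bl f'
  set E := ∑ s ∈ I.Ω, ∑ s' ∈ I.Ω, Q s s' * (f s - f s') ^ 2 with hE
  have hE0 : 0 ≤ E := sum_nonneg fun s hs => sum_nonneg fun s' hs' =>
    mul_nonneg (hQ0 s hs s' hs') (sq_nonneg _)
  set β := 6 * I.τ + 6 * N * Real.exp (-I.k) + 12 * (4 * N * (I.lam * I.Λ)) ^ (I.c + 1) +
    (2 * N + 1) ^ I.c * I.Λ ^ I.c * I.KE / m with hβ
  have hV : ∑ u ∈ U, I.H u * I.V f' u ≤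
      I.Λ ^ I.c * m / I.Pi / p₀ ^ 2 * E + 4 * (β * (I.Pi * I.Z)) := by
    have g := h.io4_good hm hp₀ hQ f U
    have b := mul_le_mul_of_nonneg_left (h.io4_bad hm U) (by norm_num : (0 : ℝ) ≤ 4)
    refine le_trans ?_ (add_le_add g b)
    rw [mul_sum, ← sum_add_distrib]
    refine sum_le_sum fun u _ => ?_
    rw [mul_left_comm, ← mul_add]
    refine mul_le_mul_of_nonneg_left ?_ (h.H_pos u).le
    have t := io4_pair (bases I.g) (a := fun s => I.w s * I.ker (u - s)) (f := f')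
      (fun s => s ∈ I.Ω ∧ th I.fat (u - s) ∈ I.X ∧ I.w s * I.Pi / m ≤ I.F u)
      (fun s _ => (mul_pos (h.sep.pos s) (h.ker_pos _)).le) (h.F_pos u) fun s _ => b' s
    have ef : (bases I.g).filter
        (fun s => s ∈ I.Ω ∧ th I.fat (u - s) ∈ I.X ∧ I.w s * I.Pi / m ≤ I.F u) =
        I.Ω.filter (fun s => th I.fat (u - s) ∈ I.X ∧ I.w s * I.Pi / m ≤ I.F u) := by
      ext s
      simp only [mem_filter]
      exact ⟨fun c => c.2, fun c => ⟨h.Ω_sub c.1, c⟩⟩
    rw [ef] at t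
    refine le_trans t (le_of_eq ?_)
    congr 2
    refine sum_congr rfl fun s hs => sum_congr rfl fun s' hs' => ?_
    rw [e' s (mem_filter.1 hs).1, e' s' (mem_filter.1 hs').1]
  have h1 := io4_var I.Ω (W := I.W) f hZ μ
  have h2 : ∑ s ∈ I.Ω, I.W s * (f' s - μ) ^ 2 = ∑ s ∈ I.Ω, I.W s * (f s - μ) ^ 2 :=
    sum_congr rfl fun s hs => by rw [e' s hs]
  rw [h2] at hU
  have h3 := le_trans hU (mul_le_mul_of_nonneg_left hV (by positivity))
  refine le_trans h1 ?_
  change _ / I.Z ≤ _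
  have h4 : (∑ s ∈ I.Ω, I.W s * (f s - μ) ^ 2) / I.Z ≤
      6 * (1 + I.C1) * I.Λ ^ I.c * m / (p₀ * I.Pi) ^ 2 * (E / 2 / I.Z) + 12 * (1 + I.C1) * β := by
    rw [div_le_iff₀ hZ]
    refine le_of_mul_le_mul_left (le_trans h3 (le_of_eq ?_)) hP
    field_simp
    ring
  refine le_trans h4 (add_le_add_left ?_ _)
  refine mul_le_mul_of_nonneg_right ?_ (by positivity)
  exact div_le_div_of_nonneg_left (by positivity) (by positivity) (pow_le_pow_left₀ hp₁.le hp 2)

end Crest.Agent.R302B
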