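import Crest.Agent.R302B.Mod0

/-!
# Row 302 (binary layer): Mod1
Basic properties of the weights.
* `gth_rt`: `gth (rt r (nx r)) u = [cp r ∈ blk u] - [cp (nx r) ∈ blk u]` (`psh_ez`, `th_ez`); `sep_blk` and `compat` (a thin prefix `r'` with `r' + 1 ≥ n` separates nothing).
* `Hh_rt`: every fat factor changes by at most `exp (2 S^20 / sg u)` (`Rat.step`, `rat_pk`), `sg u ≥ μ u / (2 S^6) ≥ W r / (2 S^6)`.
* `Hh_ez`: fat factors `exp (4 S^26 / S^28)` each, `nm1 sec` changes by at most one (`mem_blk_iff_bk`).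
* `sep_wt`: `∑_u h u * sec s u = ∑_j h (bk (cp j)) * s j` (`sum_bk_mul`).
* `Hh_dlz`: `Hh = ∏_u κ_u (∑_{j : cp j ∈ blk u} s j)` (`ft_const`, `sum_psh`), `dlz_lam`, `ft_neg`.
* `Wt_tail`: beyond `2 sg` the kernel is at most `ft (2 sg) = (1/2) ^ (S^20)` (`ft_pk`, `Rat.decay`).
-/

set_option autoImplicit false
set_option linter.unusedSectionVars false

noncomputable section

namespace Crest.Agent.R302B

open Finset Crest.Agent.R302

variable {n N R S j : ℕ} {m : Md n N} {h : Fin n → ℕ}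


theorem Mod1_S (hS : Sz N R S) : (0 : ℝ) < S := by
  exact_mod_cast lt_of_lt_of_le (by norm_num) hS.big

theorem Mod1_one_le (hS : Sz N R S) : (1 : ℝ) ≤ S := by
  exact_mod_cast le_trans (by norm_num) hS.big

theorem Mod1_lamH_le (hS : Sz N R S) : lamH S ≤ 1 := by
  have := Mod1_S hS
  rw [lamH, div_le_one (by positivity)]
  exact one_le_pow₀ (Mod1_one_le hS)

theorem Mod1_x (hS : Sz N R S) : 0 < 1 - 1 / (S : ℝ) ^ 16 ∧ 1 - 1 / (S : ℝ) ^ 16 ≤ 1 := by
  have h0 := Mod1_S hS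
  have h1 : (1 : ℝ) < S := by exact_mod_cast lt_of_lt_of_le (by norm_num) hS.big
  refine ⟨sub_pos.2 ?_, sub_le_self _ (by positivity)⟩
  rw [div_lt_one (by positivity)]
  exact one_lt_pow₀ h1 (by norm_num)

theorem Mod1_thn_zero (fat : ℕ → Bool) : thn fat (0 : Fin n → ℤ) = 0 := by
  funext u
  simp [thn]

theorem Mod1_nm1_zero : nm1 (0 : Fin n → ℤ) = 0 := by simp [nm1]

theorem Mod1_nm1_neg (v : Fin n → ℤ) : nm1 (-v) = nm1 v := by simp [nm1]

theorem Mod1_nm1_cast (v : Fin n → ℤ) : (nm1 v : ℤ) = ∑ u, |v u| := by simp [nm1]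

theorem Mod1_nm1_add (v w : Fin n → ℤ) : nm1 (v + w) ≤ nm1 v + nm1 w := by
  rw [nm1, nm1, nm1, ← sum_add_distrib]
  exact sum_le_sum fun u _ => Int.natAbs_add_le _ _

theorem Mod1_zpow_sum {ι : Type} (s : Finset ι) (a : ι → ℤ) :
    ∏ i ∈ s, (2 : ℝ) ^ a i = 2 ^ ∑ i ∈ s, a i := by
  classical
  induction s using Finset.induction_on with
  | empty => simp
  | insert i s hi ih => rw [prod_insert hi, sum_insert hi, ih, zpow_add₀ two_ne_zero]

theorem Sz.card_le (hS : Sz N R S) (T : Finset (Fin N → ℤ)) (hT : ∀ s ∈ T, ∀ k, |s k| ≤ 3 * R) :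
    #T ≤ 2 ^ S ^ 2 := by
  have h1 : T ⊆ ibox (fun _ => -(3 * R : ℤ)) (fun _ => 3 * R) := fun s hs =>
    mem_ibox.2 fun k => abs_le.1 (hT s hs k)
  refine (card_le_card h1).trans ?_
  rw [ibox, Fintype.card_piFinset, prod_const, card_univ, Fintype.card_fin, Int.card_Icc]
  have a1 := hS.big
  have a2 := hS.N_le
  have a3 := hS.R_le
  have a4 : ((3 * R : ℤ) + 1 - -(3 * R : ℤ)).toNat ≤ 2 ^ S := by
    have a5 : 2 ^ (S / 32) * 2 ^ 3 ≤ 2 ^ S := by
      rw [← pow_add]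
      exact Nat.pow_le_pow_right (by norm_num) (by omega)
    omega
  refine (Nat.pow_le_pow_left a4 N).trans ?_
  rw [← pow_mul, sq]
  exact Nat.pow_le_pow_right (by norm_num) (Nat.mul_le_mul_left _ (by omega))

theorem lamH_pos (hS : Sz N R S) : 0 < lamH S := by
  have := Mod1_S hS
  unfold lamH
  positivity

namespace Md

theorem Mod1_mem_Om {s : Fin N → ℤ} :
    s ∈ m.Om S ↔ s ∈ bases m.g ∧ nm1 (m.sec S s) ≤ 100 ∧ m.Tr S s := by
  simp only [Om, mem_filter]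

theorem OK.box (hm : m.OK R) (ρ : ℕ) : (m.box ρ).OK R := by
  have hf := hm.fr
  have hB := isB_gB hf.sub hf.zero (fun _ => ρ) (fun _ => ρ)
  refine ⟨⟨hf.le, Sub.gB hf.sub hf.zero _ _, (hB 0).2 ⟨hf.zero, fun k => by simp⟩,
    ord_gB hf.sub hf.zero hf.ord ρ, fun t ht => ?_, hf.nonneg, hf.last',
    fun i u hu => (min_le_left _ _).trans (hf.compat i u hu), fun a ha t T hT hu => ?_⟩, hm.surj,
    fun s hs k => hm.bd s ((hB s).1 hs).1 k, fun t => (min_le_left _ _).trans (hm.W_le t)⟩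
  · show min (m.W t) ρ = 0
    rw [hf.last t ht]
    exact min_eq_left (Nat.cast_nonneg _)
  · obtain ⟨h1, h2⟩ := (hB a).1 ha
    change ∀ u, u + 1 < n → m.μ u ≤ cK N * (min (m.W t) ρ + 1) → |ps (psh m.cp a) u| ≤ T at hu
    change |ps a t| ≤ 32 * (N : ℤ) ^ 6 * (min (m.W t) ρ + 1) + (N : ℤ) ^ 2 * T
    rcases le_total (m.W t) ρ with e | e
    · rw [min_eq_left e] at hu ⊢
      exact hf.range a h1 t T hT hu
    · rw [min_eq_right e]
      have a1 : |ps a t| ≤ N * ρ := by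
        refine (abs_sum_le_sum_abs _ _).trans ((sum_le_card_nsmul _ _ (ρ : ℤ) fun k _ =>
          abs_le.2 (h2 k)).trans ?_)
        rw [nsmul_eq_mul]
        refine mul_le_mul_of_nonneg_right ?_ (Nat.cast_nonneg _)
        exact_mod_cast (card_le_univ _).trans (le_of_eq (Fintype.card_fin N))
      have a2 : (N : ℤ) ≤ (N : ℤ) ^ 6 := by exact_mod_cast Nat.le_self_pow (by norm_num) N
      have a3 : (0 : ℤ) ≤ (N : ℤ) ^ 2 * T := by positivity
      have a4 : (0 : ℤ) ≤ ρ := Nat.cast_nonneg _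
      have a5 : (0 : ℤ) ≤ N := Nat.cast_nonneg _
      nlinarith [mul_le_mul_of_nonneg_right a2 a4]

theorem OK.mem_box (hm : m.OK R) (ρ : ℕ) (s : Fin N → ℤ) :
    s ∈ bases (m.box ρ).g ↔ s ∈ bases m.g ∧ ∀ k, |s k| ≤ ρ := by
  rw [mem_bases, mem_bases]
  simp only [abs_le]
  exact isB_gB hm.fr.sub hm.fr.zero (fun _ => ρ) (fun _ => ρ) s

theorem OK.zero_mem (hm : m.OK R) (S : ℕ) : (0 : Fin N → ℤ) ∈ m.Om S := by
  have h1 : m.gth S 0 = 0 := by rw [gth, psh_zero, th_zero]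
  have h2 : m.sec S 0 = 0 := by rw [sec, h1, Mod1_thn_zero]
  refine Mod1_mem_Om.2 ⟨mem_bases.2 hm.fr.zero, ?_, fun u _ => by simp [h1]⟩
  rw [h2, Mod1_nm1_zero]
  norm_num

theorem fm_ok (m : Md n N) (S : ℕ) : FatOK n (m.fm S) := by
  intro t ht
  exact (of_decide_eq_true ht).1

theorem fo_ok (m : Md n N) (S : ℕ) : FatOK N (m.fo S) := by
  intro t ht
  exact (of_decide_eq_true ht).1

theorem gth_add (s s' : Fin N → ℤ) : m.gth S (s + s') = m.gth S s + m.gth S s' := by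
  rw [gth, psh_add, th_add, gth, gth]

theorem gth_neg (s : Fin N → ℤ) : m.gth S (-s) = -m.gth S s := by
  rw [gth, psh_neg, th_neg, gth]

theorem gth_zero : m.gth S 0 = 0 := by
  rw [gth, psh_zero, th_zero]

theorem sec_add (s s' : Fin N → ℤ) : m.sec S (s + s') = m.sec S s + m.sec S s' := by
  funext u
  simp only [sec, thn, gth_add, Pi.add_apply]
  split_ifs <;> simp

theorem sec_neg (s : Fin N → ℤ) : m.sec S (-s) = -m.sec S s := by
  funext u
  simp only [sec, thn, gth_neg, Pi.neg_apply]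
  split_ifs <;> simp

theorem sec_zero : m.sec S 0 = 0 := by
  rw [sec, gth_zero, Mod1_thn_zero]

theorem sum_sec (s : Fin N → ℤ) : ∑ u, m.sec S s u = ∑ k, s k := by
  have h1 := sum_psh m.cp s univ
  simp only [mem_univ, filter_true] at h1
  rw [← h1, ← sum_th_thin (fm_ok m S) (psh m.cp s), sum_filter]
  refine sum_congr rfl fun u _ => ?_
  simp only [sec, thn, gth]
  cases m.fm S u <;> simp

theorem nm1_sec_le (s : Fin N → ℤ) : nm1 (m.sec S s) ≤ nm1 s := by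
  have h1 : ∀ u, |m.sec S s u| ≤ m.sec S (fun k => |s k|) u := fun u => by
    simp only [sec, thn, gth, th, psh]
    split_ifs
    · simp
    · exact (abs_sum_le_sum_abs _ _).trans (sum_le_sum fun i _ => abs_sum_le_sum_abs _ _)
  have h2 : (nm1 (m.sec S s) : ℤ) ≤ nm1 s := by
    rw [Mod1_nm1_cast, Mod1_nm1_cast, ← sum_sec (m := m) (S := S) fun k => |s k|]
    exact sum_le_sum fun u _ => h1 u
  exact_mod_cast h2

theorem sg_ge (hS : Sz N R S) {u : ℕ} (hu : m.fm S u = true) :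
    S ^ 22 ≤ m.sg S u ∧ (m.μ u : ℝ) ≤ 2 * (S : ℝ) ^ 6 * m.sg S u ∧ (S : ℝ) ^ 6 * m.sg S u ≤ m.μ u := by
  obtain ⟨-, h1⟩ := of_decide_eq_true hu
  have hS0 : 0 < S := lt_of_lt_of_le (by norm_num) hS.big
  obtain ⟨a, ha⟩ := Int.eq_ofNat_of_zero_le ((Nat.cast_nonneg _).trans h1)
  have h2 : S ^ 28 ≤ a := by rw [ha] at h1; exact_mod_cast h1
  have h3 : m.sg S u = a / S ^ 6 := by rw [sg, ha, Int.toNat_natCast]
  have h4 : S ^ 22 ≤ a / S ^ 6 := by
    rw [Nat.le_div_iff_mul_le (by positivity), ← pow_add]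
    exact h2
  have h5 : 1 ≤ a / S ^ 6 := le_trans (Nat.one_le_pow _ _ hS0) h4
  have h6 := Nat.lt_mul_div_succ a (by positivity : 0 < S ^ 6)
  have h7 := Nat.mul_div_le a (S ^ 6)
  have h8 : a ≤ 2 * S ^ 6 * (a / S ^ 6) := by nlinarith [Nat.mul_le_mul_left (S ^ 6) h5]
  rw [h3, ha, Int.cast_natCast]
  generalize a / S ^ 6 = q at h4 h7 h8
  exact ⟨h4, by exact_mod_cast h8, by exact_mod_cast h7⟩

theorem Mod1_sg (hS : Sz N R S) {u : ℕ} (hu : m.fm S u = true) : 2 ≤ m.sg S u := by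
  have hb := hS.big
  exact le_trans (le_trans (by omega) (Nat.le_self_pow (by norm_num) S)) (sg_ge hS hu).1

theorem Mod1_rat (hS : Sz N R S) {u : ℕ} (hu : m.fm S u = true) :
    Rat (pk (m.sg S u) (S ^ 20)) (Real.exp (-(2 * ((S ^ 20 : ℕ) : ℝ)) / m.sg S u)) :=
  rat_pk (Mod1_sg hS hu) _

theorem Mod1_fac (hS : Sz N R S) (s : Fin N → ℤ) (u : Fin n) :
    0 < (if m.fm S u = true then ft (m.sg S u) (pk (m.sg S u) (S ^ 20)) (m.gth S s u) else 1) ∧
      (if m.fm S u = true then ft (m.sg S u) (pk (m.sg S u) (S ^ 20)) (m.gth S s u) else 1) ≤ 1 := by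
  split_ifs with hu
  · exact ⟨(Mod1_rat hS hu).ft_pos _ _, (Mod1_rat hS hu).ft_le_one _ _⟩
  · exact ⟨one_pos, le_rfl⟩

theorem Mod1_step (hS : Sz N R S) {c : ℝ} (hc : 0 ≤ c) (s d : Fin N → ℤ) (h1 : ∀ u, |m.gth S d u| ≤ 1)
    (h2 : ∀ u : Fin n, m.fm S u = true → m.gth S d u ≠ 0 → 2 * (S : ℝ) ^ 20 / m.sg S u ≤ c) :
    m.Hf S (s + d) ≤ Real.exp (n * c) * m.Hf S s := by
  have e : Real.exp (n * c) = ∏ _u : Fin n, Real.exp c := by
    rw [prod_const, card_univ, Fintype.card_fin, Real.exp_nat_mul]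
  rw [e, Hf, Hf, ← prod_mul_distrib]
  refine prod_le_prod (fun u _ => (Mod1_fac hS _ u).1.le) fun u _ => ?_
  have h3 : 1 ≤ Real.exp c := Real.one_le_exp hc
  split_ifs with hu
  · rw [gth_add, Pi.add_apply]
    by_cases h0 : m.gth S d u = 0
    · rw [h0, add_zero]
      exact le_mul_of_one_le_left ((Mod1_rat hS hu).ft_pos _ _).le h3
    · have a1 := (Mod1_rat hS hu).step (m.sg S u) (θ := m.gth S s u + m.gth S d u) (θ' := m.gth S s u)
        (by rw [sub_add_cancel_left, abs_neg]; exact h1 u)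
      refine le_trans ?_ (mul_le_mul_of_nonneg_left a1 (Real.exp_pos c).le)
      rw [← mul_assoc, ← Real.exp_add]
      refine le_mul_of_one_le_left ((Mod1_rat hS hu).ft_pos _ _).le (Real.one_le_exp ?_)
      have a2 := h2 u hu h0
      push_cast
      rw [neg_div]
      linarith
  · rwa [mul_one]

theorem OK.Mod1_card (hm : m.OK R) (hS : Sz N R S) : #(bases m.g) ≤ 2 ^ S ^ 2 :=
  hS.card_le _ fun s hs k => (hm.bd s (mem_bases.1 hs) k).trans (by omega)

theorem OK.gth_rt (hm : m.OK R) {r : Fin N} (hr : r.val + 1 < N) (hW : ((S ^ 28 : ℕ) : ℤ) ≤ m.W r) (u : Fin n) :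
    |m.gth S (rt r (nx r)) u| ≤ 1 ∧ (m.gth S (rt r (nx r)) u ≠ 0 → m.fm S u = true ∧ m.W r ≤ m.μ u) := by
  have e : m.gth S (rt r (nx r)) u = (if m.cp r ∈ blk (m.fm S) u then 1 else 0) -
      (if m.cp (nx r) ∈ blk (m.fm S) u then 1 else 0) := by
    rw [gth, rt_eq, psh_sub, th_sub, psh_ez, psh_ez, Pi.sub_apply, th_ez, th_ez]
  have key : ∀ u' : ℕ, ¬ ((m.cp r).val ≤ u' ↔ (m.cp (nx r)).val ≤ u') →
      m.fm S u' = true ∧ m.W r ≤ m.μ u' := fun u' hu' => by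
    have a1 := hm.fr.compat r u' hu'
    have a2 := (m.cp r).isLt
    have a3 := (m.cp (nx r)).isLt
    exact ⟨decide_eq_true ⟨by omega, hW.trans a1⟩, a1⟩
  rw [e]
  refine ⟨by split_ifs <;> simp, fun h0 => ?_⟩
  have h1 : ¬ (m.cp r ∈ blk (m.fm S) u ↔ m.cp (nx r) ∈ blk (m.fm S) u) := fun h1 => by
    apply h0
    simp only [h1, sub_self]
  rcases sep_blk h1 with h2 | ⟨r', h2, h3⟩
  · exact key _ h2
  · rw [(key _ h3).1] at h2
    exact absurd h2 (by simp)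

theorem OK.sec_rt (hm : m.OK R) {r : Fin N} (hr : r.val + 1 < N) (hW : ((S ^ 28 : ℕ) : ℤ) ≤ m.W r) :
    m.sec S (rt r (nx r)) = 0 := by
  funext u
  simp only [sec, thn, Pi.zero_apply]
  split_ifs with hu
  · rfl
  · by_contra h0
    exact hu ((hm.gth_rt hr hW u).2 h0).1

theorem Hf_pos (hS : Sz N R S) (s : Fin N → ℤ) : 0 < m.Hf S s := by
  refine prod_pos fun u _ => ?_
  split_ifs with hu
  · exact (Mod1_rat hS hu).ft_pos _ _
  · exact one_pos

theorem Hf_le_one (hS : Sz N R S) (s : Fin N → ℤ) : m.Hf S s ≤ 1 := by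
  refine prod_le_one (fun u _ => (Mod1_fac hS s u).1.le) fun u _ => (Mod1_fac hS s u).2

theorem Hh_pos (hS : Sz N R S) (s : Fin N → ℤ) : 0 < m.Hh S s := by
  exact mul_pos (Hf_pos hS s) (pow_pos (lamH_pos hS) _)

theorem Hh_le_one (hS : Sz N R S) (s : Fin N → ℤ) : m.Hh S s ≤ 1 := by
  exact mul_le_one₀ (Hf_le_one hS s) (pow_pos (lamH_pos hS) _).le
    (pow_le_one₀ (lamH_pos hS).le (Mod1_lamH_le hS))

/-- the mismatch weight with an arbitrary penalty is DL -/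
theorem Hf_dlz (hS : Sz N R S) {ε : ℝ} (h0 : 0 < ε) (h1 : ε ≤ 1) :
    DLZ fun s => m.Hf S s * ε ^ nm1 (m.sec S s) := by
  have key := dlz_lam (ι := Fin N) (univ : Finset (Fin n))
    (fun u => univ.filter fun k => m.cp k ∈ blk (m.fm S) u)
    (κ := fun u θ => if m.fm S u = true then ft (m.sg S u) (pk (m.sg S u) (S ^ 20)) θ
      else ε ^ θ.natAbs)
    (fun u => by
      by_cases hu : m.fm S u = true
      · simp only [hu, if_true]
        exact (Mod1_rat hS hu).lcz _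
      · simp only [hu, Bool.false_eq_true, if_false]
        exact lcz_pow_abs h0 h1)
    (fun u u' => by
      rcases blk_lam (m.fm S) u u' with a | a | a
      · exact Or.inl fun k hk => mem_filter.2 ⟨mem_univ _, a (mem_filter.1 hk).2⟩
      · exact Or.inr (Or.inl fun k hk => mem_filter.2 ⟨mem_univ _, a (mem_filter.1 hk).2⟩)
      · exact Or.inr (Or.inr (disjoint_left.2 fun k hk hk' =>
          disjoint_left.1 a (mem_filter.1 hk).2 (mem_filter.1 hk').2)))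
  convert key using 2 with s
  rw [Hf, nm1, ← prod_pow_eq_pow_sum, ← prod_mul_distrib]
  refine prod_congr rfl fun u _ => ?_
  rw [← sum_psh]
  simp only [sec, thn, gth, th]
  split_ifs <;> simp

theorem Hf_neg (s : Fin N → ℤ) : m.Hf S (-s) = m.Hf S s := by
  simp only [Hf, gth_neg, Pi.neg_apply, ft_neg]

theorem Hh_neg (s : Fin N → ℤ) : m.Hh S (-s) = m.Hh S s := by
  rw [Hh, Hh, Hf_neg, sec_neg, Mod1_nm1_neg]

theorem OK.Hh_rt (hm : m.OK R) (hS : Sz N R S) {r : Fin N} (hr : r.val + 1 < N) (hW : ((S ^ 28 : ℕ) : ℤ) ≤ m.W r)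
    (s : Fin N → ℤ) :
    m.Hh S (s + rt r (nx r)) ≤ Real.exp ((S : ℝ) ^ 27 / m.W r) * m.Hh S s ∧
      m.Hh S (s - rt r (nx r)) ≤ Real.exp ((S : ℝ) ^ 27 / m.W r) * m.Hh S s := by
  have hS0 := Mod1_S hS
  have hW0 : (0 : ℝ) < m.W r := by
    have : ((S ^ 28 : ℕ) : ℝ) ≤ m.W r := by exact_mod_cast hW
    refine lt_of_lt_of_le ?_ this
    push_cast
    positivity
  have key : ∀ d : Fin N → ℤ, m.sec S d = 0 → (∀ u, |m.gth S d u| ≤ 1 ∧
      (m.gth S d u ≠ 0 → m.fm S u = true ∧ m.W r ≤ m.μ u)) →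
      m.Hh S (s + d) ≤ Real.exp ((S : ℝ) ^ 27 / m.W r) * m.Hh S s := by
    intro d h1 h2
    rw [Hh, Hh, sec_add, h1, add_zero, ← mul_assoc]
    refine mul_le_mul_of_nonneg_right ?_ (pow_pos (lamH_pos hS) _).le
    refine (Mod1_step hS (c := 4 * (S : ℝ) ^ 26 / m.W r) (by positivity) s d
      (fun u => (h2 u).1) fun u hu h0 => ?_).trans
      (mul_le_mul_of_nonneg_right (Real.exp_le_exp.2 ?_) (Hf_pos hS s).le)
    · obtain ⟨a1, a2, -⟩ := sg_ge hS hu
      have a3 : (m.W r : ℝ) ≤ m.μ u := by exact_mod_cast ((h2 u).2 h0).2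
      have a4 : (0 : ℝ) < m.sg S u := by
        have : ((S ^ 22 : ℕ) : ℝ) ≤ m.sg S u := by exact_mod_cast a1
        refine lt_of_lt_of_le ?_ this
        push_cast
        positivity
      rw [div_le_div_iff₀ a4 hW0]
      calc 2 * (S : ℝ) ^ 20 * m.W r ≤ 2 * (S : ℝ) ^ 20 * (2 * (S : ℝ) ^ 6 * m.sg S u) :=
            mul_le_mul_of_nonneg_left (a3.trans a2) (by positivity)
        _ = _ := by ring
    · have a1 : 4 * n ≤ S := by
        have := hm.fr.le
        have := hS.N_le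
        omega
      have a2 : 4 * (n : ℝ) ≤ S := by exact_mod_cast a1
      rw [← mul_div_assoc]
      refine div_le_div_of_nonneg_right ?_ hW0.le
      calc (n : ℝ) * (4 * (S : ℝ) ^ 26) = 4 * n * (S : ℝ) ^ 26 := by ring
        _ ≤ S * (S : ℝ) ^ 26 := mul_le_mul_of_nonneg_right a2 (by positivity)
        _ = _ := by ring
  refine ⟨key _ (hm.sec_rt hr hW) (hm.gth_rt hr hW), ?_⟩
  rw [sub_eq_add_neg]
  refine key _ (by rw [sec_neg, hm.sec_rt hr hW, neg_zero]) fun u => ?_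
  rw [gth_neg, Pi.neg_apply, abs_neg, neg_ne_zero]
  exact hm.gth_rt hr hW u

theorem Hh_ez (hS : Sz N R S) (hn : n ≤ N) (k : Fin N) (s : Fin N → ℤ) :
    m.Hh S (s + ez k) ≤ 2 * (S : ℝ) ^ 5 * m.Hh S s ∧ m.Hh S (s - ez k) ≤ 2 * (S : ℝ) ^ 5 * m.Hh S s := by
  have hS0 := Mod1_S hS
  have hSb : (4096 : ℝ) ≤ S := by exact_mod_cast hS.big
  have key : ∀ d : Fin N → ℤ, nm1 d ≤ 1 → (∀ u, |m.gth S d u| ≤ 1) →
      m.Hh S (s + d) ≤ 2 * (S : ℝ) ^ 5 * m.Hh S s := by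
    intro d h1 h2
    have a1 : m.Hf S (s + d) ≤ 2 * m.Hf S s := by
      refine (Mod1_step hS (c := 2 / (S : ℝ) ^ 2) (by positivity) s d h2 fun u hu _ => ?_).trans
        (mul_le_mul_of_nonneg_right ?_ (Hf_pos hS s).le)
      · have a1 : ((S ^ 22 : ℕ) : ℝ) ≤ m.sg S u := by exact_mod_cast (sg_ge hS hu).1
        push_cast at a1
        refine (div_le_div_of_nonneg_left (by positivity) (by positivity) a1).trans (le_of_eq ?_)
        field_simp
      · have a1 : n ≤ S := by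
          have := hS.N_le
          omega
        have a2 : (n : ℝ) ≤ S := by exact_mod_cast a1
        have a3 : (n : ℝ) * (2 / (S : ℝ) ^ 2) ≤ 1 / 2 := by
          rw [← mul_div_assoc, div_le_iff₀ (by positivity)]
          nlinarith
        refine (Real.exp_le_exp.2 a3).trans ?_
        rw [← Real.le_log_iff_exp_le (by norm_num)]
        linarith [Real.log_two_gt_d9]
    have a2 : nm1 (m.sec S s) ≤ nm1 (m.sec S (s + d)) + 1 := by
      have e : m.sec S s = m.sec S (s + d) + m.sec S (-d) := by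
        rw [← sec_add, add_neg_cancel_right]
      have a3 := Mod1_nm1_add (m.sec S (s + d)) (m.sec S (-d))
      have a4 := nm1_sec_le (m := m) (S := S) (-d)
      rw [Mod1_nm1_neg] at a4
      rw [← e] at a3
      omega
    have a3 : lamH S ^ nm1 (m.sec S (s + d)) ≤ (S : ℝ) ^ 5 * lamH S ^ nm1 (m.sec S s) := by
      have a4 := pow_le_pow_of_le_one (lamH_pos hS).le (Mod1_lamH_le hS) a2
      have a5 : (S : ℝ) ^ 5 * lamH S = 1 := by
        unfold lamH
        field_simp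
      calc lamH S ^ nm1 (m.sec S (s + d))
          = (S : ℝ) ^ 5 * lamH S ^ (nm1 (m.sec S (s + d)) + 1) := by
            rw [pow_succ (lamH S), mul_left_comm, a5, mul_one]
        _ ≤ _ := mul_le_mul_of_nonneg_left a4 (by positivity)
    rw [Hh, Hh]
    refine (mul_le_mul a1 a3 (pow_pos (lamH_pos hS) _).le
      (mul_pos two_pos (Hf_pos hS s)).le).trans (le_of_eq ?_)
    ring
  have h1 : nm1 (ez k) ≤ 1 := by
    simp [nm1, ez, Pi.single_apply, apply_ite Int.natAbs]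
  have h2 : ∀ u, |m.gth S (ez k) u| ≤ 1 := fun u => by
    rw [gth, psh_ez, th_ez]
    split_ifs <;> simp
  refine ⟨key _ h1 h2, ?_⟩
  rw [sub_eq_add_neg]
  refine key _ (by rwa [Mod1_nm1_neg]) fun u => ?_
  rw [gth_neg, Pi.neg_apply, abs_neg]
  exact h2 u

theorem sep_wt (hS : Sz N R S) (j : ℕ) (h : Fin n → ℕ) : Sep (m.wt S j h) := by
  obtain ⟨x0, x1⟩ := Mod1_x hS
  refine ⟨fun k θ => ((1 - 1 / (S : ℝ) ^ 16) ^ j) ^ θ.natAbs *
    (2 : ℝ) ^ (-(h (bk (m.fm S) (m.cp k)) : ℤ) * θ), fun k =>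
      (lcz_pow_abs (pow_pos x0 j) (pow_le_one₀ x0.le x1)).mul (lcz_zpow two_pos _), fun s => ?_⟩
  have e : ∑ u, (h u : ℤ) * m.sec S s u = ∑ k, (h (bk (m.fm S) (m.cp k)) : ℤ) * s k := by
    have a1 := sum_bk_mul (fm_ok m S) (fun u => (h u : ℤ)) (psh m.cp s)
    have a2 : ∑ u, (h u : ℤ) * m.sec S s u =
        ∑ t ∈ univ.filter (fun t : Fin n => m.fm S t = false), (h t : ℤ) * th (m.fm S) (psh m.cp s) t := by
      rw [sum_filter]
      refine sum_congr rfl fun u _ => ?_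
      simp only [sec, thn, gth]
      cases m.fm S u <;> simp
    rw [a2, ← a1, ← sum_fiberwise univ m.cp]
    refine sum_congr rfl fun i _ => ?_
    rw [psh, mul_sum]
    exact sum_congr rfl fun k hk => by rw [(mem_filter.1 hk).2]
  rw [wt, prod_mul_distrib, prod_pow_eq_pow_sum, ← pow_mul, nm1, e, Mod1_zpow_sum, ← sum_neg_distrib]
  simp only [neg_mul]

theorem Wt_pos (hS : Sz N R S) (s : Fin N → ℤ) : 0 < m.Wt S j h s := by
  exact mul_pos ((sep_wt hS j h).pos s) (Hh_pos hS s)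

theorem Wt_zero : m.Wt S j h 0 = 1 := by
  have e : m.Hf S 0 = 1 := prod_eq_one fun u _ => by
    split_ifs
    · exact ft_flat _ (by simp [gth_zero])
    · rfl
  simp [Wt, wt, Hh, e, sec_zero, Mod1_nm1_zero]

theorem Wt_sec_zero {s : Fin N → ℤ} (hs : m.sec S s = 0) (h' : Fin n → ℕ) : m.Wt S j h s = m.Wt S j h' s := by
  simp [Wt, wt, hs]

theorem Wt_le_one (hS : Sz N R S) {s : Fin N → ℤ} (hs : m.sec S s = 0) : m.Wt S j h s ≤ 1 := by
  obtain ⟨x0, x1⟩ := Mod1_x hS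
  refine mul_le_one₀ ?_ (Hh_pos hS s).le (Hh_le_one hS s)
  simp only [wt, hs, Pi.zero_apply, mul_zero, sum_const_zero, neg_zero, zpow_zero, mul_one]
  exact pow_le_one₀ x0.le x1

theorem Wt_anti (hS : Sz N R S) {j' : ℕ} (hj : j' ≤ j) (s : Fin N → ℤ) : m.Wt S j h s ≤ m.Wt S j' h s := by
  obtain ⟨x0, x1⟩ := Mod1_x hS
  refine mul_le_mul_of_nonneg_right (mul_le_mul_of_nonneg_right ?_ (by positivity)) (Hh_pos hS s).le
  exact pow_le_pow_of_le_one x0.le x1 (Nat.mul_le_mul_right _ hj)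

theorem Wt_temp (j d : ℕ) (s : Fin N → ℤ) :
    m.Wt S (j + d) h s = m.Wt S j h s * (1 - 1 / (S : ℝ) ^ 16) ^ (d * nm1 s) := by
  rw [Wt, Wt, wt, wt, add_mul, pow_add]
  ring

/-- a change of the fields by at most one -/
theorem Wt_field (hS : Sz N R S) {h' : Fin n → ℕ} (hh : ∀ u, h u ≤ h' u ∧ h' u ≤ h u + 1) (s : Fin N → ℤ) :
    m.Wt S j h s ≤ 2 ^ nm1 (m.sec S s) * m.Wt S j h' s := by
  obtain ⟨x0, x1⟩ := Mod1_x hS
  rw [Wt, Wt, ← mul_assoc, wt, wt, mul_left_comm]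
  refine mul_le_mul_of_nonneg_right (mul_le_mul_of_nonneg_left ?_ (by positivity)) (Hh_pos hS s).le
  rw [← zpow_natCast, ← zpow_add₀ two_ne_zero]
  refine zpow_le_zpow_right₀ one_le_two ?_
  rw [Mod1_nm1_cast, ← sum_neg_distrib, ← sum_neg_distrib, ← sum_add_distrib]
  refine sum_le_sum fun u _ => ?_
  obtain ⟨a1, a2⟩ := hh u
  have a3 := le_abs_self (m.sec S s u)
  have a4 := abs_nonneg (m.sec S s u)
  rcases (by omega : h' u = h u ∨ h' u = h u + 1) with e | e <;> rw [e] <;> push_cast <;> linarith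

theorem Wt_tail (hS : Sz N R S) {b : ℕ} (hh : ∀ u, h u ≤ b) {s : Fin N → ℤ} (hs : ¬ m.Tr S s) :
    m.Wt S j h s ≤ 2 ^ (b * nm1 (m.sec S s)) * (1 / 2) ^ S ^ 20 := by
  obtain ⟨x0, x1⟩ := Mod1_x hS
  have h1 : m.wt S j h s ≤ 2 ^ (b * nm1 (m.sec S s)) := by
    refine (mul_le_of_le_one_left (by positivity) (pow_le_one₀ x0.le x1)).trans ?_
    rw [← zpow_natCast]
    refine zpow_le_zpow_right₀ one_le_two ?_
    rw [Nat.cast_mul, Mod1_nm1_cast, ← sum_neg_distrib, mul_sum]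
    refine sum_le_sum fun u _ => ?_
    have a1 : (h u : ℤ) ≤ b := by exact_mod_cast hh u
    have a2 := neg_abs_le (m.sec S s u)
    have a3 := abs_nonneg (m.sec S s u)
    have a4 : (0 : ℤ) ≤ h u := Nat.cast_nonneg _
    nlinarith [mul_le_mul_of_nonneg_left a2 a4, mul_le_mul_of_nonneg_right a1 a3]
  have h2 : m.Hf S s ≤ (1 / 2) ^ S ^ 20 := by
    unfold Tr at hs
    push Not at hs
    obtain ⟨u, hu, h3⟩ := hs
    rw [Hf, ← mul_prod_erase _ _ (mem_univ u)]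
    refine (mul_le_of_le_one_right (Mod1_fac hS s u).1.le (prod_le_one
      (fun u _ => (Mod1_fac hS s u).1.le) fun u _ => (Mod1_fac hS s u).2)).trans ?_
    rw [if_pos hu]
    have a1 := Mod1_sg hS hu
    obtain ⟨i, hi⟩ := Nat.exists_eq_add_of_le h3.le
    have a2 := (Mod1_rat hS hu).decay (Mod1_rat hS hu).le_one (m.sg S u)
      (θ := ((2 * m.sg S u : ℕ) : ℤ)) (by omega) i
    rw [ft_pk a1 _ _ (θ := ((2 * m.sg S u : ℕ) : ℤ)) (by omega), one_pow, one_mul, ← Nat.cast_add,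
      ← hi, Int.natAbs_natCast, show 2 * m.sg S u - (2 * m.sg S u - m.sg S u) = m.sg S u by omega]
      at a2
    refine le_trans (le_of_eq ?_) (a2.trans (le_of_eq ?_))
    · simp only [ft, Int.natAbs_natCast]
    · have : (0 : ℝ) < m.sg S u := by exact_mod_cast (by omega : 0 < m.sg S u)
      congr 1
      field_simp
  refine mul_le_mul h1 (le_trans ?_ h2) (Hh_pos hS s).le (by positivity)
  exact mul_le_of_le_one_right (Hf_pos hS s).le (pow_le_one₀ (lamH_pos hS).le (Mod1_lamH_le hS))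

theorem tail_le (hS : Sz N R S) (hh : ∀ u, h u ≤ S ^ 18) (T : Finset (Fin N → ℤ)) (hc : #T ≤ 2 ^ S ^ 2)
    (hT : ∀ s ∈ T, nm1 (m.sec S s) ≤ 100 ∧ ¬ m.Tr S s) : ∑ s ∈ T, m.Wt S j h s ≤ (1 / 2) ^ S ^ 19 := by
  have hb := hS.big
  refine (sum_le_card_nsmul _ _ ((2 : ℝ) ^ (S ^ 18 * 100) * (1 / 2) ^ S ^ 20) fun s hs =>
    (Wt_tail hS hh (hT s hs).2).trans (mul_le_mul_of_nonneg_right (pow_le_pow_right₀ one_le_two
      (Nat.mul_le_mul_left _ (hT s hs).1)) (by positivity))).trans ?_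
  have a1 : (#T : ℝ) ≤ 2 ^ S ^ 2 := by exact_mod_cast hc
  have a2 : S ^ 2 + S ^ 18 * 100 + S ^ 19 ≤ S ^ 20 := by
    have b1 : S ^ 2 ≤ S ^ 19 := Nat.pow_le_pow_right (by omega) (by norm_num)
    have b2 : S ^ 18 * 100 ≤ S ^ 19 := by
      rw [pow_succ S 18]
      exact Nat.mul_le_mul_left _ (by omega)
    have b3 : S ^ 19 * 3 ≤ S ^ 20 := by
      rw [pow_succ S 19]
      exact Nat.mul_le_mul_left _ (by omega)
    omega
  rw [nsmul_eq_mul]
  refine (mul_le_mul_of_nonneg_right a1 (by positivity)).trans ?_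
  rw [← mul_assoc, ← pow_add, one_div_pow, one_div_pow, mul_one_div,
    div_le_div_iff₀ (by positivity) (by positivity), one_mul, ← pow_add]
  exact pow_le_pow_right₀ one_le_two a2

theorem half_pow_le (hS : Sz N R S) : (1 / 2 : ℝ) ^ S ^ 19 ≤ 1 / (S : ℝ) ^ 400 := by
  have hb := hS.big
  have hS0 := Mod1_S hS
  have a1 : S ^ 400 ≤ 2 ^ S ^ 19 := by
    refine (Nat.pow_le_pow_left (Nat.lt_two_pow_self (n := S)).le 400).trans ?_
    rw [← pow_mul]
    refine Nat.pow_le_pow_right (by norm_num) ?_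
    calc S * 400 ≤ S * S := Nat.mul_le_mul_left _ (by omega)
      _ = S ^ 2 := (sq S).symm
      _ ≤ S ^ 19 := Nat.pow_le_pow_right (by omega) (by norm_num)
  rw [one_div_pow]
  exact one_div_le_one_div_of_le (by positivity) (by exact_mod_cast a1)

theorem ms_nonneg (hS : Sz N R S) (T : Finset (Fin N → ℤ)) (E : (Fin N → ℤ) → Prop) : 0 ≤ m.ms S j h T E := by
  exact sum_nonneg fun s _ => (Wt_pos hS s).le

theorem ms_mono (hS : Sz N R S) {T T' : Finset (Fin N → ℤ)} {E E' : (Fin N → ℤ) → Prop}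
    (hT : ∀ s ∈ T, E s → s ∈ T' ∧ E' s) : m.ms S j h T E ≤ m.ms S j h T' E' := by
  classical
  unfold ms
  refine sum_le_sum_of_subset_of_nonneg (fun s hs => ?_) fun s _ _ => (Wt_pos hS s).le
  rw [mem_filter] at hs ⊢
  exact hT s hs.1 hs.2

theorem OK.one_le_n0' (hm : m.OK R) (hS : Sz N R S) (j : ℕ) : 1 ≤ m.n0' S j := by
  unfold n0' ms
  rw [← Wt_zero (m := m) (S := S) (j := j) (h := 0)]
  refine single_le_sum (f := fun s => m.Wt S j 0 s) (fun s _ => (Wt_pos hS s).le) ?_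
  simp only [mem_filter]
  exact ⟨hm.zero_mem S, sec_zero⟩

theorem n0'_le (hS : Sz N R S) (j : ℕ) : m.n0' S j ≤ m.n0 S j := by
  exact ms_mono hS fun s hs h0 => ⟨(Mod1_mem_Om.1 hs).1, h0⟩

theorem OK.n0_le (hm : m.OK R) (hS : Sz N R S) (j : ℕ) : m.n0 S j ≤ 2 ^ S ^ 2 := by
  unfold n0 ms
  refine (sum_le_card_nsmul _ _ 1 fun s hs => Wt_le_one hS ?_).trans ?_
  · simp only [mem_filter] at hs
    exact hs.2
  · rw [nsmul_eq_mul, mul_one]
    refine le_trans (Nat.cast_le.2 (card_le_card fun s hs => ?_))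
      (show (#(bases m.g) : ℝ) ≤ _ by exact_mod_cast hm.Mod1_card hS)
    simp only [mem_filter] at hs
    exact hs.1

/-- events inside the small sectors have almost the same weight in `bases` and in `Om` -/
theorem OK.ms_le (hm : m.OK R) (hS : Sz N R S) (hh : ∀ u, h u ≤ S ^ 18) {E : (Fin N → ℤ) → Prop}
    (hE : ∀ s, E s → nm1 (m.sec S s) ≤ 100) :
    m.ms S j h (bases m.g) E ≤ m.ms S j h (m.Om S) E + 1 / (S : ℝ) ^ 400 := by
  classical
  unfold ms
  rw [← sum_filter_add_sum_filter_not _ (m.Tr S)]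
  refine add_le_add (sum_le_sum_of_subset_of_nonneg (fun s hs => ?_) fun s _ _ => (Wt_pos hS s).le)
    ((tail_le hS hh _ ((card_filter_le _ _).trans ((card_filter_le _ _).trans (hm.Mod1_card hS)))
      fun s hs => ?_).trans (half_pow_le hS))
  · simp only [Om, mem_filter] at hs ⊢
    exact ⟨⟨hs.1.1, hE s hs.1.2, hs.2⟩, hs.1.2⟩
  · simp only [mem_filter] at hs
    exact ⟨hE s hs.1.2, hs.2⟩

end Md

end Crest.Agent.R302B
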