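import Crest.Agent.R302B.Alg
import Crest.Agent.R302B.Mod1

/-!
# Row 302 (binary layer): L1
Lists and vectors.  Substitute `aN a = N`, `an a = n`; sums over `List.range` are sums over `Fin` (`List.sum_range…`, `Fin.sum_univ_eq_sum_range`, `List.sum_ofFn`).
`wN_eq`: `tw K E e = K ^ E * (1 - 1/K) ^ e` for `e ≤ E` (`jj ≠ 0` forces `ρ ≤ S^15`, and `l1 s ≤ N ρ`), `|∑ h sec| ≤ 100 S^18`, `ft_pk`.
-/

set_option autoImplicit false
set_option linter.unusedSectionVars false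

noncomputable section

namespace Crest.Agent.R302B

open Finset Crest.Agent.R302 Crest.Agent.R302.QT Crest.Agent.Lib.PolyTime

variable {n N : ℕ} {O : Orc} {a : CIn} {m : Md n N} {θ : Tht} {s : List ℤ}


theorem L1_sum_range {M : Type} [AddCommMonoid M] (f : ℕ → M) (k : ℕ) :
    ((List.range k).map f).sum = ∑ i ∈ range k, f i := by
  induction k with
  | zero => simp
  | succ k ih => rw [List.range_succ, List.map_append, List.sum_append, ih, sum_range_succ]; simp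

theorem L1_prod_range {M : Type} [CommMonoid M] (f : ℕ → M) (k : ℕ) :
    ((List.range k).map f).prod = ∏ i ∈ range k, f i := by
  induction k with
  | zero => simp
  | succ k ih => rw [List.range_succ, List.map_append, List.prod_append, ih, prod_range_succ]; simp

theorem L1_sum_filter {M : Type} [AddCommMonoid M] (f : ℕ → M) (p : ℕ → Bool) (k : ℕ) :
    (((List.range k).filter p).map f).sum = ∑ i ∈ range k, if p i = true then f i else 0 := by
  induction k with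
  | zero => simp
  | succ k ih =>
    rw [List.range_succ, List.filter_append, List.map_append, List.sum_append, ih, sum_range_succ]
    by_cases h : p k = true <;> simp [h]

theorem L1_map_range {α : Type} (f : ℕ → α) (k : ℕ) :
    (List.range k).map f = List.ofFn fun i : Fin k => f i := by
  refine List.ext_getElem (by simp) fun i h1 h2 => ?_
  simp

theorem L1_all_range (p : ℕ → Bool) (k : ℕ) :
    (List.range k).all p = true ↔ ∀ i : Fin k, p i = true := by
  rw [List.all_eq_true]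
  exact ⟨fun h i => h i (List.mem_range.2 i.2), fun h i hi => h ⟨i, List.mem_range.1 hi⟩⟩

theorem L1_getD_ofFn (v : Fin N → ℤ) (j : Fin N) : (List.ofFn v).getD j 0 = v j := by
  simp [List.getD_eq_getElem?_getD]

theorem vec_ofFn (v : Fin N → ℤ) : vec N (List.ofFn v) = v := by
  funext j
  exact L1_getD_ofFn v j

theorem ofFn_vec (hs : s.length = N) : List.ofFn (vec N s) = s := by
  subst hs
  refine List.ext_getElem (by simp) fun i h1 h2 => ?_
  simp [vec, List.getD_eq_getElem?_getD, h2]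

theorem L1_l1_ofFn (v : Fin N → ℤ) : l1 (List.ofFn v) = nm1 v := by
  rw [l1, nm1, List.map_ofFn, List.sum_ofFn]
  rfl

theorem L1_nm1_eq_zero {v : Fin N → ℤ} : nm1 v = 0 ↔ v = 0 := by
  simp [nm1, funext_iff]

theorem l1_eq (hs : s.length = N) : l1 s = nm1 (vec N s) := by
  rw [← L1_l1_ofFn, ofFn_vec hs]

theorem mem_OmL {S : ℕ} : s ∈ OmL m S θ ↔ s.length = N ∧ vec N s ∈ (m.box θ.2.1).Om S := by
  rw [OmL, mem_image]
  constructor
  · rintro ⟨v, hv, rfl⟩
    rw [vec_ofFn]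
    exact ⟨List.length_ofFn, hv⟩
  · rintro ⟨h1, h2⟩
    exact ⟨_, h2, ofFn_vec h1⟩

theorem sum_OmL (S : ℕ) (F : List ℤ → ℝ) :
    ∑ s ∈ OmL m S θ, F s = ∑ v ∈ (m.box θ.2.1).Om S, F (List.ofFn v) := by
  rw [OmL, sum_image fun _ _ _ _ h => List.ofFn_injective h]

theorem inB_iff {ρ : ℕ} (hs : s.length = N) : inB ρ s = true ↔ ∀ k, |vec N s k| ≤ ρ := by
  rw [inB, ← ofFn_vec hs, vec_ofFn, List.all_eq_true, List.forall_mem_ofFn_iff]
  refine forall_congr' fun k => ?_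
  rw [decide_eq_true_iff, abs_le]
  omega

theorem tw_eq {K E e : ℕ} (hK : 0 < K) (he : e ≤ E) : (tw K E e : ℝ) = (K : ℝ) ^ E * (1 - 1 / (K : ℝ)) ^ e := by
  have hK' : (K : ℝ) ≠ 0 := by exact_mod_cast hK.ne'
  obtain ⟨d, rfl⟩ := Nat.exists_eq_add_of_le he
  rw [tw, min_eq_left he, Nat.add_sub_cancel_left]
  push_cast [Nat.cast_sub hK]
  rw [pow_add, mul_right_comm, ← mul_pow]
  congr 2
  field_simp

theorem tw_le (K E e : ℕ) : tw K E e ≤ K ^ E := by
  rw [tw]
  calc _ ≤ K ^ min e E * K ^ (E - min e E) :=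
        Nat.mul_le_mul_right _ (Nat.pow_le_pow_left (Nat.sub_le _ _) _)
    _ = _ := by rw [← pow_add, Nat.add_sub_cancel' (min_le_right _ _)]

namespace Rp

theorem fmL_eq (h : Rp O a m) : fmL a = m.fm (aS a) := by
  funext u
  rw [fmL, Md.fm, h.hn, h.hU]

theorem sgL_eq (h : Rp O a m) : sgL a = m.sg (aS a) := by
  funext u
  rw [sgL, Md.sg, h.hU]

theorem L1_gamL (h : Rp O a m) (s : List ℤ) (u : Fin n) : gamL a s u = psh m.cp (vec N s) u := by
  rw [gamL, L1_sum_filter, h.hN, ← Fin.sum_univ_eq_sum_range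
    (fun j => if decide (aC a j = u) = true then s.getD j 0 else 0), psh, sum_filter]
  refine sum_congr rfl fun j _ => ?_
  simp only [h.hC, decide_eq_true_eq, Fin.val_inj, vec]

theorem gthL_eq (h : Rp O a m) (s : List ℤ) (u : Fin n) : gthL a s u = m.gth (aS a) (vec N s) u := by
  rw [gthL, L1_sum_filter, Md.gth, th, blk, sum_filter, h.fmL_eq]
  have e : ∀ j : Fin n, (if j ≤ u ∧ ∀ r ∈ Ico j.val u.val, m.fm (aS a) r = true then
      psh m.cp (vec N s) j else 0) = (fun j : ℕ => if j ≤ u.val ∧ ∀ r ∈ Ico j u.val, m.fm (aS a) r = true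
        then gamL a s j else 0) j := by
    intro j
    simp only [h.L1_gamL, Fin.le_def]
  rw [sum_congr rfl fun j _ => e j, Fin.sum_univ_eq_sum_range
    (fun j : ℕ => if j ≤ u.val ∧ ∀ r ∈ Ico j u.val, m.fm (aS a) r = true then gamL a s j else 0) n,
    ← sum_subset (range_subset_range.2 (Nat.succ_le_of_lt u.2))]
  · refine sum_congr rfl fun j hj => if_congr ?_ rfl rfl
    have := mem_range.1 hj
    simp only [List.all_eq_true, List.mem_range, Bool.or_eq_true, decide_eq_true_eq, mem_Ico]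
    refine ⟨fun H => ⟨by omega, fun r hr => (H r hr.2).resolve_left (by omega)⟩, fun H r hr => ?_⟩
    by_cases c : r < j
    · exact Or.inl c
    · exact Or.inr (H.2 r ⟨by omega, hr⟩)
  · intro j _ hj
    rw [if_neg fun H => hj (mem_range.2 (Nat.lt_succ_of_le H.1))]

theorem secL_eq (h : Rp O a m) (s : List ℤ) : secL a s = List.ofFn (m.sec (aS a) (vec N s)) := by
  rw [secL, h.hn, L1_map_range]
  congr 1
  funext u
  rw [h.gthL_eq, h.fmL_eq]
  rfl

theorem foL_eq (h : Rp O a m) (ρ : ℕ) : foL a ρ = (m.box ρ).fo (aS a) := by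
  funext t
  rw [foL, Md.fo, h.hN, h.hW]
  rfl

theorem jeL_eq (h : Rp O a m) (ρ : ℕ) : jeL a ρ = (m.box ρ).je (aS a) := by
  funext t
  rw [jeL, Md.je, h.foL_eq, h.hW]
  rfl

theorem ballL_eq (h : Rp O a m) : ballL a = m.ball (aS a) := by
  rw [ballL, L1_prod_range, h.hn, h.fmL_eq, h.sgL_eq, Md.ball, Fin.prod_univ_eq_prod_range
    (fun u => if m.fm (aS a) u = true then 2 * m.sg (aS a) u + 1 else 1)]

theorem L1_l1_sec (h : Rp O a m) (s : List ℤ) : l1 (secL a s) = nm1 (m.sec (aS a) (vec N s)) := by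
  rw [h.secL_eq, L1_l1_ofFn]

theorem L1_trL (h : Rp O a m) (c : ℕ) (s : List ℤ) : trL a c s = true ↔ ∀ u : Fin n,
    m.fm (aS a) u = true → (m.gth (aS a) (vec N s) u).natAbs ≤ c * m.sg (aS a) u := by
  rw [trL, h.hn, L1_all_range]
  refine forall_congr' fun u => ?_
  rw [h.gthL_eq, h.fmL_eq, h.sgL_eq]
  cases m.fm (aS a) u <;> simp

theorem e0L_iff (h : Rp O a m) (s : List ℤ) : e0L a s = true ↔ m.sec (aS a) (vec N s) = 0 := by
  rw [e0L, decide_eq_true_iff, h.L1_l1_sec, L1_nm1_eq_zero]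

theorem flL_iff (h : Rp O a m) (s : List ℤ) : flL a s = true ↔ m.Fl (aS a) (vec N s) := by
  rw [flL, Bool.and_eq_true, h.e0L_iff, h.L1_trL, Md.Fl]
  simp only [one_mul]

theorem epL_iff (h : Rp O a m) (p : Fin n) (s : List ℤ) : epL a p s = true ↔ m.Ep (aS a) p (vec N s) := by
  rw [epL, decide_eq_true_iff, h.L1_l1_sec, h.secL_eq, L1_getD_ofFn, Md.Ep]

theorem mem_iff (h : Rp O a m) (hs : s.length = N) :
    s ∈ OmL m (aS a) θ ↔ IsB m.g (vec N s) ∧ okL a θ.2.1 s = true := by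
  rw [mem_OmL, Md.Mod1_mem_Om, h.ok.mem_box, mem_bases, okL, Bool.and_eq_true, Bool.and_eq_true,
    inB_iff hs, decide_eq_true_iff, h.L1_l1_sec, h.L1_trL]
  exact ⟨fun H => ⟨H.2.1.1, ⟨H.2.1.2, H.2.2.1⟩, H.2.2.2⟩,
    fun H => ⟨hs, ⟨H.1, H.2.1.1⟩, H.2.1.2, H.2.2⟩⟩

theorem mvL_eq (h : Rp O a m) (ρ : ℕ) (s x x' : List ℤ) :
    mvL a ρ s x x' = List.ofFn (vec N s + dv ((m.box ρ).fo (aS a)) (vec N x - vec N x')) := by
  rw [mvL, h.hN, L1_map_range]
  congr 1
  funext j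
  rw [Pi.add_apply, dv_apply (Md.fo_ok _ _), h.foL_eq, add_sub_assoc]
  congr 2

/-- the integer weight is proportional to the weight -/
theorem wN_eq (h : Rp O a m) (hρ : jj (aS a) θ.1 = 0 ∨ θ.2.1 ≤ aS a ^ 15) (hh : ∀ u, hOf n θ u ≤ aS a ^ 18) :
    ∃ c : ℝ, 0 < c ∧ ∀ s ∈ OmL m (aS a) θ, (wN a θ s : ℝ) = c * WL m (aS a) θ s := by
  have hS := h.sz
  have hS0 : 0 < aS a := lt_of_lt_of_le (by norm_num) hS.big
  have hS0' : (0 : ℝ) < aS a := by exact_mod_cast hS0
  refine ⟨((aS a : ℝ) ^ 16) ^ (jj (aS a) θ.1 * (N * min θ.2.1 (aS a ^ 15))) * 2 ^ (100 * aS a ^ 18) *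
    ((aS a : ℝ) ^ 5) ^ 100 * ∏ u : Fin n,
      if m.fm (aS a) u = true then (2 * (m.sg (aS a) u : ℝ)) ^ aS a ^ 20 else 1, ?_, fun s hs => ?_⟩
  · refine mul_pos (by positivity) (prod_pos fun u _ => ?_)
    split_ifs with hu
    · have : (2 : ℝ) ≤ m.sg (aS a) u := by exact_mod_cast Md.Mod1_sg hS hu
      exact pow_pos (by linarith) _
    · exact one_pos
  obtain ⟨hl, hs⟩ := mem_OmL.1 hs
  obtain ⟨hb, h100, htr⟩ := Md.Mod1_mem_Om.1 hs
  replace hb := ((h.ok.mem_box _ _).1 hb).2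
  change nm1 (m.sec (aS a) (vec N s)) ≤ 100 at h100
  change m.Tr (aS a) (vec N s) at htr
  set v := vec N s with hv
  have e1 : (tw (aS a ^ 16) (jj (aS a) θ.1 * (N * min θ.2.1 (aS a ^ 15))) (jj (aS a) θ.1 * nm1 v) : ℝ) =
      ((aS a : ℝ) ^ 16) ^ (jj (aS a) θ.1 * (N * min θ.2.1 (aS a ^ 15))) *
        (1 - 1 / (aS a : ℝ) ^ 16) ^ (jj (aS a) θ.1 * nm1 v) := by
    rw [tw_eq (pow_pos hS0 _), Nat.cast_pow]
    rcases hρ with h0 | h0
    · rw [h0, zero_mul, zero_mul]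
    · refine Nat.mul_le_mul_left _ ?_
      rw [min_eq_left h0]
      refine (sum_le_card_nsmul _ _ θ.2.1 fun k _ => ?_).trans (by simp)
      have := abs_le.1 (hb k)
      omega
  have e2 : ((2 : ℝ) ^ fe a θ.2.2.2.1 s) =
      2 ^ (100 * aS a ^ 18) * 2 ^ (-∑ u, (hOf n θ u : ℤ) * m.sec (aS a) v u) := by
    have e3 : ((List.range (an a)).map fun u =>
        (θ.2.2.2.1.getD u 0 : ℤ) * (secL a s).getD u 0).sum = ∑ u, (hOf n θ u : ℤ) * m.sec (aS a) v u := by
      rw [h.hn, L1_map_range, List.sum_ofFn, h.secL_eq]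
      exact sum_congr rfl fun u _ => by rw [L1_getD_ofFn]; rfl
    have e4 : |∑ u, (hOf n θ u : ℤ) * m.sec (aS a) v u| ≤ ((100 * aS a ^ 18 : ℕ) : ℤ) := by
      refine (abs_sum_le_sum_abs _ _).trans ?_
      refine (sum_le_sum (g := fun u => ((aS a ^ 18 : ℕ) : ℤ) * |m.sec (aS a) v u|) fun u _ => ?_).trans ?_
      · rw [abs_mul, Nat.abs_cast]
        exact mul_le_mul_of_nonneg_right (by exact_mod_cast hh u) (abs_nonneg _)
      · rw [← mul_sum, ← Mod1_nm1_cast, mul_comm]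
        exact_mod_cast Nat.mul_le_mul_right _ h100
    rw [fe, e3]
    generalize ∑ u, (hOf n θ u : ℤ) * m.sec (aS a) v u = x at e4 ⊢
    generalize aS a ^ 18 = y at e4 ⊢
    rw [abs_le] at e4
    rw [min_eq_left (by omega), ← zpow_natCast, Int.toNat_of_nonneg (by omega), sub_eq_add_neg,
      zpow_add₀ two_ne_zero, zpow_natCast]
  have e3 : (((aS a : ℝ) ^ 5) ^ (100 - nm1 (m.sec (aS a) v))) =
      ((aS a : ℝ) ^ 5) ^ 100 * lamH (aS a) ^ nm1 (m.sec (aS a) v) := by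
    rw [pow_sub₀ _ (by positivity) h100, lamH, one_div, inv_pow]
  have e4 : ((((List.range (an a)).map fun u => if fmL a u = true then
      (2 * sgL a u - ((gthL a s u).natAbs - sgL a u)) ^ aS a ^ 20 else 1).prod : ℕ) : ℝ) =
      (∏ u : Fin n, if m.fm (aS a) u = true then (2 * (m.sg (aS a) u : ℝ)) ^ aS a ^ 20 else 1) *
        m.Hf (aS a) v := by
    rw [h.hn, L1_map_range, List.prod_ofFn, Nat.cast_prod, Md.Hf, ← prod_mul_distrib]
    refine prod_congr rfl fun u _ => ?_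
    rw [h.gthL_eq, h.fmL_eq, h.sgL_eq]
    split_ifs with hu
    · have h2 := Md.Mod1_sg hS hu
      have h3 : (2 : ℝ) ≤ m.sg (aS a) u := by exact_mod_cast h2
      rw [ft_pk h2 _ _ (by have := htr u hu; omega), ← mul_pow, Nat.cast_pow,
        mul_div_cancel₀ _ (by linarith)]
    · simp
  rw [wN, h.hN, l1_eq hl, h.L1_l1_sec, Nat.cast_mul, Nat.cast_mul, Nat.cast_mul, e1, e4, Nat.cast_pow,
    Nat.cast_pow, Nat.cast_pow, Nat.cast_ofNat, e2, e3, WL, Md.Wt, Md.wt, Md.Hh]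
  ring

end Rp

end Crest.Agent.R302B
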