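import Crest.Agent.R302B.L1

/-!
# Row 302 (binary layer): L2
The law of the proposal.  `px x = pr (xQ = ofFn x)`.
* `px_ge`: write `x = y + v` (`y` fat part shifted by `sp`, in `[0, 2^je)`, `v` the thin part, `nm1 v ≤ 100`); fix the list `y` and one list of 100 tokens
  (`|v t|` copies of `t` or `N + t`, padded by `2 N < S`); independence: `pr (mapQ …= y) = ∏ 2^-je`, `pr (rep 100 (unif b) = k) = S^-100` (`ex_bind`, `ex_unif`, `avgN`).
* `kr_prop`: `mvL s x x' = s'` iff `vec x' = vec x + th (s - s')` (`th_dv`, `dv_th`).  All values of `xQ` have length `N` and lie in a finite set.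
-/

set_option autoImplicit false
set_option linter.unusedSectionVars false

noncomputable section

namespace Crest.Agent.R302B

open Finset Crest.Agent.R302 Crest.Agent.R302.QT Crest.Agent.Lib.PolyTime

variable {n N : ℕ} {O : Orc} {a : CIn} {m : Md n N} {θ : Tht} {s : List ℤ}

theorem L2_ind_and (p q : Prop) : R309.ind (p ∧ q) = R309.ind p * R309.ind q := by
  by_cases hp : p
  · by_cases hq : q
    · rw [R309.ind_of hp, R309.ind_of hq, R309.ind_of ⟨hp, hq⟩, mul_one]
    · rw [R309.ind_of_not hq, R309.ind_of_not fun h => hq h.2, mul_zero]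
  · rw [R309.ind_of_not hp, R309.ind_of_not fun h => hp h.1, zero_mul]

theorem L2_ind_congr {p q : Prop} (h : p ↔ q) : R309.ind p = R309.ind q := by
  rw [propext h]

theorem L2_pr_unif (O : Orc) {K v : ℕ} (hv : v < 2 ^ K) :
    pr O (unif K) (fun b => b = v) = 1 / (2 : ℝ) ^ K := by
  rw [pr, ex_unif, R309.avgN, sum_eq_single_of_mem v (mem_range.2 hv)
    fun b _ hb => R309.ind_of_not hb, R309.ind_of rfl]
  push_cast
  rfl

theorem L2_pr_mapQ {α : Type} (O : Orc) (e : α → ℕ) (l : List α) (y : List ℕ)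
    (hy : List.Forall₂ (fun t v => v < 2 ^ e t) l y) :
    pr O (mapQ (fun t => unif (e t)) l) (fun z => z = y) = (l.map fun t => 1 / (2 : ℝ) ^ e t).prod := by
  induction hy with
  | nil => simp [pr, mapQ, R309.ind_of]
  | @cons t v l y hv _ ih =>
    rw [List.map_cons, List.prod_cons, ← ih, ← L2_pr_unif O hv]
    simp only [pr, mapQ, ex_bind, ex_map, List.cons.injEq, L2_ind_and, ex_mul]
    rw [mul_comm, ← ex_mul]
    simp only [mul_comm]

theorem L2_exists_fin {β : Type} {P : β → Prop} {t : QT β} (ht : AllO O P t) :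
    ∃ A : Finset β, AllO O (fun b => b ∈ A) t ∧ ∀ x ∈ A, P x := by
  classical
  induction t with
  | ret b => exact ⟨{b}, by simp, fun x hx => by rw [mem_singleton.1 hx]; exact ht⟩
  | ask q k ih =>
    rcases q with _ | q
    · obtain ⟨A, hA, hA'⟩ := ih 0 ht.1
      obtain ⟨B, hB, hB'⟩ := ih 1 ht.2
      refine ⟨A ∪ B, ⟨hA.mono fun b hb => mem_union_left _ hb, hB.mono fun b hb => mem_union_right _ hb⟩, ?_⟩
      intro x hx
      rcases mem_union.1 hx with hx | hx
      · exact hA' x hx
      · exact hB' x hx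
    · exact ih _ ht

theorem L2_prod_range (N : ℕ) (F : ℕ → ℝ) : ((List.range N).map F).prod = ∏ t : Fin N, F t := by
  rw [Fin.prod_univ_eq_prod_range]
  induction N with
  | zero => simp
  | succ N ih => rw [List.range_succ, List.map_append, List.prod_append, prod_range_succ, ih]; simp

theorem L2_xQ_len (O : Orc) (a : CIn) (ρ : ℕ) : AllO O (fun b => b.length = aN a) (xQ a ρ) := by
  rw [xQ, allO_bind]
  refine allO_of_forall _ fun y => ?_
  rw [allO_map]
  exact allO_of_forall _ fun k => by simp [xL]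

theorem L2_ex_nonneg {β : Type} (t : QT β) {f : β → ℝ} (h : ∀ b, 0 ≤ f b) : 0 ≤ ex O t f := by
  have := ex_mono (O := O) t (f := fun _ => 0) h
  rwa [ex_const] at this


theorem pr_mapQ_unif (O : Orc) (e : ℕ → ℕ) (l y : List ℕ) (hy : List.Forall₂ (fun t v => v < 2 ^ e t) l y) :
    pr O (mapQ (fun t => unif (e t)) l) (fun z => z = y) = (l.map fun t => 1 / (2 : ℝ) ^ e t).prod := by
  exact L2_pr_mapQ O e l y hy

theorem exists_tokens {c : ℕ} (v : Fin N → ℤ) (hv : nm1 v ≤ c) :
    ∃ k : List ℕ, k.length = c ∧ (∀ u ∈ k, u ≤ 2 * N) ∧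
      ∀ t : Fin N, (k.count t.val : ℤ) - (k.count (N + t.val) : ℤ) = v t := by
  refine ⟨((List.finRange N).flatMap fun r => List.replicate (v r).natAbs (if 0 ≤ v r then r.val else N + r.val)) ++
    List.replicate (c - nm1 v) (2 * N), ?_, ?_, ?_⟩
  · rw [List.length_append, List.length_flatMap, List.length_replicate]
    simp only [List.length_replicate]
    rw [← Fin.sum_univ_def]
    change nm1 v + _ = _
    omega
  · intro u hu
    rcases List.mem_append.1 hu with hu | hu
    · obtain ⟨r, -, hr⟩ := List.mem_flatMap.1 hu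
      have h1 := List.eq_of_mem_replicate hr
      have h2 := r.isLt
      split_ifs at h1 <;> omega
    · exact (List.eq_of_mem_replicate hu).le
  · intro t
    have ht := t.isLt
    simp only [List.count_append, List.count_flatMap, Function.comp_def, List.count_replicate, beq_iff_eq]
    rw [← Fin.sum_univ_def, ← Fin.sum_univ_def, if_neg (by omega), if_neg (by omega),
      sum_eq_single t (fun r _ hr => ?_) (by simp), sum_eq_single t (fun r _ hr => ?_) (by simp)]
    · by_cases h : 0 ≤ v t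
      · rw [if_pos h, if_pos rfl, if_neg (by omega)]
        omega
      · rw [if_neg h, if_neg (by omega), if_pos rfl]
        omega
    · have h2 := r.isLt
      have h3 : r.val ≠ t.val := fun h => hr (Fin.ext h)
      refine if_neg ?_
      split_ifs <;> omega
    · have h2 := r.isLt
      have h3 : r.val ≠ t.val := fun h => hr (Fin.ext h)
      refine if_neg ?_
      split_ifs <;> omega

/-- the difference of two independent copies -/
theorem kr_iid {β σ : Type} (t : QT β) (A : Finset β) (ht : AllO O (fun b => b ∈ A) t) (φ : β → β → σ) (s' : σ) :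
    pr O (t.bind fun x => t.map (φ x)) (fun z => z = s') =
      ∑ x ∈ A, ∑ x' ∈ A, pr O t (fun b => b = x) * pr O t (fun b => b = x') * R309.ind (φ x x' = s') := by
  rw [pr, ex_bind, ex_eq_sum ht]
  refine sum_congr rfl fun x _ => ?_
  rw [ex_map, ex_eq_sum ht, mul_sum]
  exact sum_congr rfl fun x' _ => by ring

theorem exists_xQ (O : Orc) (a : CIn) (ρ : ℕ) :
    ∃ A : Finset (List ℤ), AllO O (fun b => b ∈ A) (xQ a ρ) ∧ ∀ x ∈ A, x.length = aN a := by
  exact L2_exists_fin (L2_xQ_len O a ρ)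

namespace Rp

theorem px_ge (h : Rp O a m) (ρ j : ℕ) (f : Fin n → ℕ) {x : Fin N → ℤ} (hx : x ∈ ((m.box ρ).ino (aS a) j f).X) :
    (∏ t : Fin N, 1 / (2 : ℝ) ^ (m.box ρ).je (aS a) t) / (aS a : ℝ) ^ 100 ≤
      pr O (xQ a ρ) fun b => b = List.ofFn fun t => x t + (m.box ρ).sp (aS a) t := by
  obtain ⟨hb, hc⟩ := mem_filter.1 hx
  rw [mem_ibox] at hb
  change nm1 (thn ((m.box ρ).fo (aS a)) x) ≤ 100 at hc
  replace hb : ∀ t : Fin N, (m.box ρ).fo (aS a) t = true →
      -((m.box ρ).sp (aS a) t : ℤ) ≤ x t ∧ x t ≤ (m.box ρ).sp (aS a) t := by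
    intro t ht
    have := hb t
    change (if (m.box ρ).fo (aS a) t = true then -((m.box ρ).sp (aS a) t : ℤ) else _) ≤ _ ∧
      _ ≤ (if (m.box ρ).fo (aS a) t = true then ((m.box ρ).sp (aS a) t : ℤ) else _) at this
    rwa [if_pos ht, if_pos ht] at this
  obtain ⟨K, hK1, hK2, hK3⟩ := exists_tokens _ hc
  set Y : ℕ → ℕ := fun t => if ht : t < N then
    (if (m.box ρ).fo (aS a) t = true then (x ⟨t, ht⟩ + (m.box ρ).sp (aS a) ⟨t, ht⟩).toNat else 0) else 0 with hY
  have hS := h.sz
  have hp1 : pr O (mapQ (fun t => unif (jeL a ρ t)) (List.range (aN a))) (fun z => z = (List.range N).map Y) =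
      ∏ t : Fin N, 1 / (2 : ℝ) ^ (m.box ρ).je (aS a) t := by
    rw [h.hN, h.jeL_eq, pr_mapQ_unif, L2_prod_range]
    rw [List.forall₂_map_right_iff, List.forall₂_same]
    intro t ht
    have ht' := List.mem_range.1 ht
    have hpos : 0 < 2 ^ (m.box ρ).je (aS a) t := Nat.two_pow_pos _
    simp only [hY, dif_pos ht']
    split_ifs with hf
    · have h1 := hb ⟨t, ht'⟩ hf
      have h2 : (m.box ρ).sp (aS a) ⟨t, ht'⟩ = 2 ^ (m.box ρ).je (aS a) t / 2 - 1 := rfl
      omega
    · exact hpos
  have hp2 : pr O (rep 100 (unif (aB a))) (fun z => z = K) = 1 / (aS a : ℝ) ^ 100 := by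
    rw [rep, L2_pr_mapQ O (fun _ : Unit => aB a)]
    · rw [List.map_replicate, List.prod_replicate, aS, one_div_pow]
      push_cast
      rfl
    · rw [List.forall₂_iff_get]
      refine ⟨by rw [List.length_replicate, hK1], fun i h₁ h₂ => ?_⟩
      have h1 := hK2 _ (List.get_mem K ⟨i, h₂⟩)
      have h2 := hS.N_le
      have h3 := hS.big
      change _ < aS a
      omega
  have hxL : xL (aN a) ((List.range N).map Y) K = List.ofFn fun t => x t + (m.box ρ).sp (aS a) t := by
    rw [h.hN]
    refine List.ext_getElem (by simp [xL]) fun t h₁ h₂ => ?_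
    have ht : t < N := by simpa using h₂
    have h3 := hK3 ⟨t, ht⟩
    simp only [xL, List.getElem_map, List.getElem_range, List.getElem_ofFn]
    have h4 : ((List.range N).map Y).getD t 0 = Y t := by
      rw [List.getD_eq_getElem _ _ (by simpa using ht)]
      simp
    rw [h4]
    simp only [hY, dif_pos ht]
    simp only [thn] at h3
    split_ifs at h3 ⊢ with hf
    · have h1 := hb ⟨t, ht⟩ hf
      omega
    · have h2 : (m.box ρ).sp (aS a) ⟨t, ht⟩ = 0 := by
        simp only [Md.sp, Md.je, if_neg hf]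
        rfl
      rw [h2]
      omega
  rw [div_eq_mul_one_div, ← hp1, ← hp2, mul_comm]
  simp only [pr]
  rw [← ex_mul, xQ, ex_bind]
  refine ex_mono _ fun y => ?_
  rw [ex_map, mul_comm, ← ex_mul]
  refine ex_mono _ fun k => ?_
  rw [← L2_ind_and]
  refine R309.ind_mono ?_
  rintro ⟨rfl, rfl⟩
  exact hxL

theorem prop_len (h : Rp O a m) (θ : Tht) (s : List ℤ) : AllO O (fun b => b.length = N) (propL a θ s) := by
  rw [propL, allO_bind]
  refine allO_of_forall _ fun y => ?_
  rw [allO_map]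
  exact allO_of_forall _ fun k => by simp [mvL, h.hN]

theorem prop_symm (h : Rp O a m) (θ : Tht) {s s' : List ℤ} (hs : s.length = N) (hs' : s'.length = N) :
    kr O (propL a θ) s s' = kr O (propL a θ) s' s := by
  obtain ⟨A, hA, -⟩ := exists_xQ O a θ.2.1
  have key : ∀ {s s' : List ℤ}, s.length = N → s'.length = N → ∀ x x' : List ℤ,
      mvL a θ.2.1 s x x' = s' → mvL a θ.2.1 s' x' x = s := by
    intro s s' hs hs' x x' hx
    rw [h.mvL_eq] at hx ⊢
    rw [← hx, vec_ofFn, ← neg_sub (vec N x), dv_neg, add_neg_cancel_right, ofFn_vec hs]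
  rw [kr, kr, propL, propL, kr_iid _ A hA, kr_iid _ A hA, sum_comm]
  refine sum_congr rfl fun x _ => sum_congr rfl fun x' _ => ?_
  rw [L2_ind_congr ⟨key hs hs' x' x, key hs' hs x x'⟩, mul_comm (pr O _ _)]

theorem prop_ge (h : Rp O a m) (θ : Tht) (j : ℕ) (f : Fin n → ℕ) (v v' : Fin N → ℤ) :
    ((∏ t : Fin N, 1 / (2 : ℝ) ^ (m.box θ.2.1).je (aS a) t) / (aS a : ℝ) ^ 100) ^ 2 *
        #(((m.box θ.2.1).ino (aS a) j f).X.filter fun x =>
          x + th ((m.box θ.2.1).fo (aS a)) (v - v') ∈ ((m.box θ.2.1).ino (aS a) j f).X) ≤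
      kr O (propL a θ) (List.ofFn v) (List.ofFn v') := by
  classical
  set F := ((m.box θ.2.1).ino (aS a) j f).X.filter fun x =>
    x + th ((m.box θ.2.1).fo (aS a)) (v - v') ∈ ((m.box θ.2.1).ino (aS a) j f).X with hF
  set c : ℝ := (∏ t : Fin N, 1 / (2 : ℝ) ^ (m.box θ.2.1).je (aS a) t) / (aS a : ℝ) ^ 100 with hc
  set X : (Fin N → ℤ) → List ℤ := fun x => List.ofFn fun t => x t + (m.box θ.2.1).sp (aS a) t with hX
  have hc0 : 0 ≤ c := by positivity
  have hinj : Function.Injective X := by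
    intro x y hxy
    funext t
    have := congrFun (List.ofFn_injective hxy) t
    simpa using this
  have hmv : ∀ x, mvL a θ.2.1 (List.ofFn v) (X x) (X (x + th ((m.box θ.2.1).fo (aS a)) (v - v'))) =
      List.ofFn v' := by
    intro x
    rw [h.mvL_eq, vec_ofFn, hX, vec_ofFn, vec_ofFn]
    congr 1
    have h1 : ((fun t => x t + (m.box θ.2.1).sp (aS a) t) - fun t =>
        (x + th ((m.box θ.2.1).fo (aS a)) (v - v')) t + (m.box θ.2.1).sp (aS a) t : Fin N → ℤ) =
        -th ((m.box θ.2.1).fo (aS a)) (v - v') := by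
      funext t
      simp
    rw [h1, dv_neg, dv_th (Md.fo_ok _ _)]
    abel
  calc c ^ 2 * #F = ∑ _x ∈ F, c * c := by rw [sum_const, nsmul_eq_mul]; ring
    _ ≤ ∑ x ∈ F, pr O (xQ a θ.2.1) (fun b => b = X (x + th ((m.box θ.2.1).fo (aS a)) (v - v'))) *
          pr O (xQ a θ.2.1) (fun b => b = X x) := by
      refine sum_le_sum fun x hx => ?_
      obtain ⟨h1, h2⟩ := mem_filter.1 hx
      exact mul_le_mul (h.px_ge _ j f h2) (h.px_ge _ j f h1) hc0 (pr_nonneg _ _)
    _ = ex O (xQ a θ.2.1) fun b => ∑ x ∈ F,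
          pr O (xQ a θ.2.1) (fun b => b = X (x + th ((m.box θ.2.1).fo (aS a)) (v - v'))) * R309.ind (b = X x) := by
      rw [ex_sum]
      exact sum_congr rfl fun x _ => by rw [ex_mul]; rfl
    _ ≤ kr O (propL a θ) (List.ofFn v) (List.ofFn v') := by
      rw [kr, pr, propL, ex_bind]
      refine ex_mono _ fun b => ?_
      rw [ex_map]
      by_cases hb : ∃ x ∈ F, b = X x
      · obtain ⟨x, hx, rfl⟩ := hb
        rw [sum_eq_single_of_mem x hx fun y _ hy => by
          rw [R309.ind_of_not fun e => hy (hinj e).symm, mul_zero], R309.ind_of rfl, mul_one]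
        refine ex_mono _ fun b' => R309.ind_mono ?_
        rintro rfl
        exact hmv x
      · rw [sum_eq_zero fun y hy => by rw [R309.ind_of_not fun e => hb ⟨y, hy, e⟩, mul_zero]]
        exact L2_ex_nonneg _ fun _ => R309.ind_nonneg _

end Rp

end Crest.Agent.R302B
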