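import Crest.Agent.R302B.Mod2
import Crest.Agent.R302B.GrowA
import Crest.Agent.R302.Ann2

/-!
# Row 302 (binary layer): Mod3
Consecutive stages.
* `first`: `Wt s ≤ (2 exp (-S)) ^ nm1 s` (`nm1_sec_le`), `nm1_tail` with `c = 0`.
* `grow`: enlarge the `2 N` sides of the box one at a time (`gB` with radii in `{ρ, ρ'}`).  For one side, say the upper side of `k`, the marginal
  `κ t = ∑_{s k = t} Wt s` in the enlarged box is `WLC` (`wlc_marg`, `Hf_dlz`, `Hh_neg`; `WLC.neg` for a lower side), `κ 0 ≥ 1`, `κ D ≤ Z ≤ 4 n0 ≤ exp (2 S^2)` for `D = ρ / 2`, where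
  `Z` is the weight before this side is enlarged.  `WLC.growth`: `κ t ≤ e κ t'` for `ρ - ρ / S^3 < t' ≤ ρ < t ≤ ρ'`.  So the new mass is at most
  `(ρ / S^15) / (ρ / S^3) * e * Z ≤ lamH^2 n0 / (2 N)`.
* `stage_nxt`: `i = 0`: `first`; `1 ≤ i ≤ S^17`: `Wt_temp` with `nm1 s ≤ N S^15 ≤ S^16 / 32`; later: `grow`.
-/

set_option autoImplicit false
set_option linter.unusedSectionVars false

noncomputable section

namespace Crest.Agent.R302B

open Finset Crest.Agent.R302

variable {n N R S j : ℕ} {m : Md n N} {h : Fin n → ℕ}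


theorem rho_mono (S : ℕ) : Monotone (rho S) := by
  refine monotone_nat_of_le_succ fun i => ?_
  rw [rho]
  split_ifs with h1 h2
  · subst h1
    exact Nat.zero_le _
  · exact le_rfl
  · exact Nat.le_add_right _ _

theorem rho_phase1 {i : ℕ} (h1 : 1 ≤ i) (h2 : i ≤ S ^ 17 + 1) : rho S i = S ^ 15 := by
  induction i with
  | zero => omega
  | succ i ih =>
    rw [rho]
    split_ifs with c1 c2
    · rfl
    · exact ih (by omega) (by omega)
    · omega

theorem rho_last (hS : Sz N R S) : R ≤ rho S (mL S) := by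
  have S0 := hS.big
  have p15 : 0 < S ^ 15 := by positivity
  have ge : ∀ i, S ^ 17 + 1 ≤ i → S ^ 15 ≤ rho S i := fun i hi =>
    (rho_phase1 (S := S) (i := S ^ 17 + 1) (by omega) le_rfl).symm.trans_le (rho_mono S hi)
  have lin : ∀ i, S ^ 17 + 1 ≤ i → ∀ k, rho S i + k * (rho S i / S ^ 15) ≤ rho S (i + k) := by
    intro i hi k
    induction k with
    | zero => simp
    | succ k ih =>
      rw [← add_assoc, rho, if_neg (by omega), if_neg (by omega)]
      have := Nat.div_le_div_right (c := S ^ 15) (rho_mono S (Nat.le_add_right i k))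
      rw [add_mul]
      omega
  have dbl : ∀ t, 2 ^ t ≤ rho S (S ^ 17 + 1 + 2 * S ^ 15 * t) := by
    intro t
    induction t with
    | zero => exact le_trans p15 (ge _ (by omega))
    | succ t ih =>
      have a := lin (S ^ 17 + 1 + 2 * S ^ 15 * t) (by omega) (2 * S ^ 15)
      have b := ge (S ^ 17 + 1 + 2 * S ^ 15 * t) (by omega)
      rw [mul_add, mul_one, ← add_assoc, pow_succ]
      generalize rho S (S ^ 17 + 1 + 2 * S ^ 15 * t) = x at a b ih
      have c1 := Nat.div_add_mod x (S ^ 15)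
      have c2 := Nat.mod_lt x p15
      have c3 : S ^ 15 ≤ S ^ 15 * (x / S ^ 15) := Nat.le_mul_of_pos_right _ (Nat.div_pos b p15)
      rw [mul_assoc] at a
      omega
  refine le_trans (by have := hS.R_le; omega) ((dbl (S / 32)).trans (rho_mono S ?_))
  have : 2 * S ^ 15 * (S / 32) ≤ S ^ 17 := by
    calc 2 * S ^ 15 * (S / 32) = S ^ 15 * (2 * (S / 32)) := by ring
      _ ≤ S ^ 15 * S ^ 2 := Nat.mul_le_mul_left _ (by nlinarith [Nat.div_le_self S 32])
      _ = _ := by ring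
  unfold mL
  omega

theorem rho_le (hS : Sz N R S) (i : ℕ) : rho S i ≤ S ^ 15 * 2 ^ i := by
  induction i with
  | zero => exact Nat.zero_le _
  | succ i ih =>
    rw [rho, pow_succ 2 i, ← mul_assoc]
    have := Nat.div_le_self (rho S i) (S ^ 15)
    split_ifs with c1 c2
    · subst c1
      omega
    · omega
    · omega

namespace Md

theorem first (hS : Sz N R S) (hh : ∀ u, h u ≤ 1) (T : Finset (Fin N → ℤ)) (hT : 0 ∉ T) :
    ∑ s ∈ T, m.Wt S (S ^ 17) h s ≤ lamH S ^ 2 := by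
  have S0 : (4096 : ℝ) ≤ S := by exact_mod_cast hS.big
  have S1 : (0 : ℝ) < S := by linarith
  have e1 : (S : ℝ) ^ 11 ≤ Real.exp S := by
    refine le_trans ?_ (Real.pow_div_factorial_le_exp _ S1.le 20)
    rw [le_div_iff₀ (by positivity)]
    calc (S : ℝ) ^ 11 * ((Nat.factorial 20 : ℕ) : ℝ) ≤ (S : ℝ) ^ 11 * 4096 ^ 9 := by
          gcongr
          norm_num [Nat.factorial]
      _ ≤ (S : ℝ) ^ 11 * (S : ℝ) ^ 9 := by gcongr
      _ = _ := by ring
  have e2 : Real.exp (-S) ≤ 1 / (S : ℝ) ^ 11 := by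
    rw [Real.exp_neg, ← one_div]
    exact one_div_le_one_div_of_le (by positivity) e1
  have hN : (32 * N : ℝ) ≤ S := by exact_mod_cast hS.N_le
  have b : ∀ s, m.Wt S (S ^ 17) h s ≤ (2 * Real.exp (-S)) ^ nm1 s := by
    intro s
    have q0 : 0 ≤ 1 - 1 / (S : ℝ) ^ 16 := by
      rw [sub_nonneg, div_le_one (by positivity)]
      exact one_le_pow₀ (by linarith)
    have a1 : (1 - 1 / (S : ℝ) ^ 16) ^ (S ^ 17 * nm1 s) ≤ Real.exp (-S) ^ nm1 s := by
      rw [pow_mul]
      refine pow_le_pow_left₀ (by positivity) ?_ _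
      calc _ ≤ Real.exp (-(1 / (S : ℝ) ^ 16)) ^ S ^ 17 :=
            pow_le_pow_left₀ q0 (by linarith [Real.add_one_le_exp (-(1 / (S : ℝ) ^ 16))]) _
        _ = _ := by
            rw [← Real.exp_nat_mul]
            congr 1
            push_cast
            field_simp
    have a2 : (2 : ℝ) ^ (-∑ u, (h u : ℤ) * m.sec S s u) ≤ 2 ^ nm1 s := by
      rw [← zpow_natCast]
      refine zpow_le_zpow_right₀ (by norm_num) (le_trans ?_ (Int.ofNat_le.2 (nm1_sec_le (m := m) (S := S) s)))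
      rw [nm1, Nat.cast_sum, ← sum_neg_distrib]
      refine sum_le_sum fun u _ => ?_
      have := hh u
      rcases (by omega : h u = 0 ∨ h u = 1) with e | e <;> rw [e] <;> omega
    rw [Wt, wt, mul_pow, mul_comm ((2 : ℝ) ^ nm1 s)]
    exact (mul_le_of_le_one_right (mul_nonneg (pow_nonneg q0 _) (by positivity)) (Hh_le_one hS s)).trans
      (mul_le_mul a1 a2 (by positivity) (by positivity))
  have x1 : 4 * (Fintype.card (Fin N) : ℝ) * (2 * Real.exp (-S)) ≤ 1 / (4 * (S : ℝ) ^ 10) := by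
    rw [Fintype.card_fin]
    calc _ ≤ 4 * (S / 32 : ℝ) * (2 * (1 / (S : ℝ) ^ 11)) := by gcongr; linarith
      _ = _ := by field_simp; norm_num
  have x2 : (1 : ℝ) ≤ S ^ 10 := one_le_pow₀ (by linarith)
  refine (sum_le_sum fun s _ => b s).trans ((nm1_tail (by positivity)
    (x1.trans (by rw [div_le_one (by positivity)]; linarith)) 0 T fun v hv => ?_).trans ?_)
  · refine Nat.pos_of_ne_zero fun e => hT ?_
    have : v = 0 := funext fun k => by
      have := sum_eq_zero_iff.1 e k (mem_univ k)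
      simpa using this
    exact this ▸ hv
  · rw [zero_add, pow_one, lamH]
    calc _ ≤ 3 * (1 / (4 * (S : ℝ) ^ 10)) := by gcongr
      _ ≤ 4 * (1 / (4 * (S : ℝ) ^ 10)) := by gcongr; norm_num
      _ = _ := by field_simp

theorem OK.grow (hm : m.OK R) (hS : Sz N R S) {ρ : ℕ} (hρ : S ^ 15 ≤ ρ) (hI : (m.box ρ).Inv S 0 h (pC n)) :
    ∑ s ∈ bases (m.box (ρ + ρ / S ^ 15)).g \ bases (m.box ρ).g, m.Wt S 0 h s ≤ lamH S ^ 2 * (m.box ρ).n0 S 0 := by
  have S0 : (4096 : ℝ) ≤ S := by exact_mod_cast hS.big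
  have S1 : (0 : ℝ) < S := by linarith
  have Sn := hS.big
  have hN := hS.N_le
  have tot : ∑ s ∈ bases (m.box ρ).g, m.Wt S 0 h s ≤ 2 * (m.box ρ).n0 S 0 := (hm.box ρ).total hS hI
  have n0 := (hm.box ρ).n0_le hS 0
  have n1 : 1 ≤ (m.box ρ).n0 S 0 := ((hm.box ρ).one_le_n0' hS 0).trans (n0'_le hS 0)
  have ez : ∀ r : ℕ, zb m.g (m.wt S 0 h) (m.Hh S) (fun _ => r) (fun _ => r) =
      ∑ s ∈ bases (m.box r).g, m.Wt S 0 h s := fun r => sum_congr rfl fun s _ => by rw [Hh_neg, Wt]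
  have lam1 : lamH S ≤ 1 := by
    rw [lamH, div_le_one (by positivity)]
    exact one_le_pow₀ (by linarith)
  obtain ⟨d, hd⟩ : ∃ d, d = ρ / S ^ 15 := ⟨_, rfl⟩
  obtain ⟨k, hk⟩ : ∃ k, k = ρ / S ^ 3 := ⟨_, rfl⟩
  have d1 : 1 ≤ d := hd ▸ Nat.div_pos hρ (by positivity)
  have k1 : S ^ 12 * d ≤ k := by
    rw [hk, Nat.le_div_iff_mul_le (by positivity), hd]
    calc _ = ρ / S ^ 15 * S ^ 15 := by ring
      _ ≤ _ := Nat.div_mul_le_self _ _
  have k2 : k * S ^ 3 ≤ ρ := hk ▸ Nat.div_mul_le_self _ _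
  have s1 : S ≤ S ^ 12 := Nat.le_self_pow (by norm_num) _
  have s2 : S ≤ S ^ 3 := Nat.le_self_pow (by norm_num) _
  have k3 : S * d ≤ k := (Nat.mul_le_mul_right _ s1).trans k1
  have k4 : d ≤ k := (Nat.le_mul_of_pos_left _ (by omega)).trans k3
  have g := R302B.grow (ρ := ρ) (d := d) (m := k) (Λ := (S : ℝ) ^ 2 + 1) hm.fr.sub hm.fr.zero (sep_wt (m := m) hS 0 h)
    (Hf_dlz (m := m) hS (lamH_pos hS) lam1) (Wt_zero (m := m) (S := S) (j := 0) (h := h)).ge (by omega)
    (by nlinarith) (by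
      refine (ez ρ).trans_le (tot.trans ?_)
      calc _ ≤ 2 * (2 : ℝ) ^ S ^ 2 := by gcongr
        _ = 2 ^ (S ^ 2 + 1) := by ring
        _ ≤ Real.exp 1 ^ (S ^ 2 + 1) := by gcongr; linarith [Real.add_one_le_exp 1]
        _ = _ := by rw [← Real.exp_nat_mul]; push_cast; ring_nf)
    (by
      have a1 : (k : ℝ) * S ^ 3 ≤ ρ := by exact_mod_cast k2
      have a2 : (d : ℝ) ≤ k := by exact_mod_cast k4
      have a3 : (0 : ℝ) ≤ k := Nat.cast_nonneg _
      have a4 : 2 * ((S : ℝ) ^ 2 + 1 + 1) + 1 ≤ S ^ 3 := by nlinarith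
      calc ((k : ℝ) + d) * ((S : ℝ) ^ 2 + 1 + 1) ≤ ((k : ℝ) + k) * ((S : ℝ) ^ 2 + 1 + 1) := by gcongr
        _ = (k : ℝ) * (2 * ((S : ℝ) ^ 2 + 1 + 1) + 1) - k := by ring
        _ ≤ (k : ℝ) * (S : ℝ) ^ 3 - k := by gcongr
        _ ≤ _ := by linarith)
    (by nlinarith)
  have g' : ∑ s ∈ bases (m.box (ρ + d)).g, m.Wt S 0 h s ≤
      (1 + 12 * N * d / k) * ∑ s ∈ bases (m.box ρ).g, m.Wt S 0 h s := by
    rw [← ez, ← ez]
    exact g
  have sub : bases (m.box ρ).g ⊆ bases (m.box (ρ + d)).g := fun s hs => by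
    rw [hm.mem_box] at hs ⊢
    exact ⟨hs.1, fun j => (hs.2 j).trans (by push_cast; omega)⟩
  rw [← hd, sum_sdiff_eq_sub sub]
  have kp : (0 : ℝ) < k := by exact_mod_cast (by omega : 0 < k)
  have x : (12 * N * d / k : ℝ) ≤ lamH S ^ 2 / 2 := by
    have a1 : (S : ℝ) ^ 12 * d ≤ k := by exact_mod_cast k1
    have a2 : (32 * N : ℝ) ≤ S := by exact_mod_cast hN
    rw [lamH, div_pow, one_pow, div_div, div_le_div_iff₀ kp (by positivity), one_mul]
    calc (12 * N * d * ((S ^ 5) ^ 2 * 2) : ℝ) = 24 * N * S ^ 10 * d := by ring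
      _ ≤ (S : ℝ) ^ 2 * S ^ 10 * d := by gcongr; nlinarith
      _ = (S : ℝ) ^ 12 * d := by ring
      _ ≤ _ := a1
  have := mul_le_mul x tot (sum_nonneg fun s _ => (Wt_pos hS s).le) (by positivity)
  linarith

theorem OK.stage_nxt (hm : m.OK R) (hS : Sz N R S) (i : ℕ) (hh : ∀ u, h u ≤ i + 1)
    (hI : (m.box (rho S i)).Inv S (jj S i) h (pC n)) :
    Nxt (m.box (rho S i)) (m.box (rho S (i + 1))) S (jj S i) (jj S (i + 1)) h := by
  classical
  have S0 : (4096 : ℝ) ≤ S := by exact_mod_cast hS.big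
  have S1 : (0 : ℝ) < S := by linarith
  have Sn := hS.big
  have p17 : 0 < S ^ 17 := by positivity
  have sub : bases (m.box (rho S i)).g ⊆ bases (m.box (rho S (i + 1))).g := fun s hs => by
    rw [hm.mem_box] at hs ⊢
    exact ⟨hs.1, fun j => (hs.2 j).trans (by exact_mod_cast rho_mono S (Nat.le_succ i))⟩
  have n1 : 1 ≤ (m.box (rho S i)).n0 S (jj S i) := ((hm.box _).one_le_n0' hS _).trans (n0'_le hS _)
  have split : ∀ E, jj S (i + 1) = jj S i →
      ∑ s ∈ bases (m.box (rho S (i + 1))).g \ bases (m.box (rho S i)).g, m.Wt S (jj S i) h s ≤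
        lamH S ^ 2 * (m.box (rho S i)).n0 S (jj S i) →
      (m.box (rho S i)).ms S (jj S (i + 1)) h (bases (m.box (rho S (i + 1))).g) E ≤
        5 / 4 * (m.box (rho S i)).ms S (jj S i) h (bases (m.box (rho S i)).g) E +
          lamH S ^ 2 * (m.box (rho S i)).n0 S (jj S i) := by
    intro E e hnew
    have a0 := ms_nonneg (m := m.box (rho S i)) (j := jj S i) (h := h) hS (bases (m.box (rho S i)).g) E
    have a1 : (m.box (rho S i)).ms S (jj S i) h (bases (m.box (rho S (i + 1))).g) E ≤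
        ∑ s ∈ bases (m.box (rho S (i + 1))).g \ bases (m.box (rho S i)).g, m.Wt S (jj S i) h s +
          (m.box (rho S i)).ms S (jj S i) h (bases (m.box (rho S i)).g) E := by
      unfold ms
      rw [sum_filter, sum_filter, ← sum_sdiff sub]
      refine add_le_add_left (sum_le_sum fun s _ => ?_) _
      split_ifs
      · exact le_rfl
      · exact (Wt_pos hS s).le
    rw [e]
    linarith
  refine ⟨rfl, rfl, sub, by unfold jj; omega, fun E => ?_⟩
  rcases Nat.eq_zero_or_pos i with rfl | i0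
  · have e : jj S 0 = S ^ 17 := by unfold jj; omega
    refine split E (by unfold jj; omega) (le_trans ?_ (le_mul_of_one_le_right (by positivity) n1))
    rw [e]
    exact first hS (by simpa using hh) _ fun c =>
      (mem_sdiff.1 c).2 (mem_bases.2 (hm.box _).fr.zero)
  rcases le_or_gt i (S ^ 17) with i1 | i1
  · have e1 : rho S (i + 1) = rho S i := by rw [rho, if_neg (by omega), if_pos i1]
    have e2 : jj S i = jj S (i + 1) + 1 := by unfold jj; omega
    have e3 : rho S i = S ^ 15 := rho_phase1 i0 (by omega)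
    refine le_trans ?_ (le_add_of_nonneg_right (by positivity))
    unfold ms
    rw [e1, mul_sum]
    refine sum_le_sum fun s hs => ?_
    have b := ((hm.mem_box _ s).1 (mem_filter.1 hs).1).2
    have c1 : nm1 s ≤ N * S ^ 15 := by
      have := sum_le_card_nsmul univ (fun k => (s k).natAbs) (S ^ 15) fun k _ => by
        have := abs_le.1 (b k)
        rw [e3] at this
        omega
      simpa [nm1] using this
    have c2 : (32 * nm1 s : ℝ) ≤ S ^ 16 := by
      have := hS.N_le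
      exact_mod_cast (by
        calc 32 * nm1 s ≤ 32 * N * S ^ 15 := by rw [mul_assoc]; omega
          _ ≤ S * S ^ 15 := by gcongr
          _ = _ := by ring : 32 * nm1 s ≤ S ^ 16)
    have c3 := one_add_mul_le_pow (a := -(1 / (S : ℝ) ^ 16)) (by
      have : 1 / (S : ℝ) ^ 16 ≤ 1 := by
        rw [div_le_one (by positivity)]
        exact one_le_pow₀ (by linarith)
      linarith) (nm1 s)
    have c4 : (nm1 s : ℝ) * (1 / (S : ℝ) ^ 16) ≤ 1 / 32 := by
      rw [mul_one_div, div_le_div_iff₀ (by positivity) (by norm_num)]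
      linarith
    rw [e2, Wt_temp, one_mul, ← sub_eq_add_neg] at *
    have := Wt_pos (m := m.box (rho S i)) (j := jj S (i + 1)) (h := h) hS s
    nlinarith
  · have e1 : rho S (i + 1) = rho S i + rho S i / S ^ 15 := by rw [rho, if_neg (by omega), if_neg (by omega)]
    have e2 : jj S i = 0 := by unfold jj; omega
    refine split E (by unfold jj; omega) ?_
    rw [e2] at hI ⊢
    rw [e1]
    exact hm.grow hS ((rho_phase1 (S := S) (i := S ^ 17 + 1) (by omega) le_rfl).symm.trans_le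
      (rho_mono S i1)) hI

variable {m' : Md n N} {j' : ℕ}

theorem Nxt.Wt_eq (hn : Nxt m m' S j j' h) : m'.Wt S = m.Wt S := by
  obtain ⟨g, W, cp, μ⟩ := m
  obtain ⟨g', W', cp', μ'⟩ := m'
  obtain ⟨rfl, rfl, -⟩ := hn
  rfl

theorem Nxt.sec_eq (hn : Nxt m m' S j j' h) : m'.sec S = m.sec S := by
  obtain ⟨g, W, cp, μ⟩ := m
  obtain ⟨g', W', cp', μ'⟩ := m'
  obtain ⟨rfl, rfl, -⟩ := hn
  rfl

theorem Nxt.ms_eq (hn : Nxt m m' S j j' h) : m'.ms S = m.ms S := by
  obtain ⟨g, W, cp, μ⟩ := m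
  obtain ⟨g', W', cp', μ'⟩ := m'
  obtain ⟨rfl, rfl, -⟩ := hn
  rfl

theorem lamH_sq_le (hS : Sz N R S) : lamH S ^ 2 ≤ 1 / 4 := by
  have S0 : (4096 : ℝ) ≤ S := by exact_mod_cast hS.big
  have a : lamH S ≤ 1 / 2 :=
    one_div_le_one_div_of_le (by norm_num) (le_trans (by linarith) (le_self_pow₀ (by linarith) (by norm_num)))
  have := lamH_pos hS
  nlinarith

theorem Nxt.n0_ge (hS : Sz N R S) (hn : Nxt m m' S j j' h) : m.n0 S j ≤ m'.n0 S j' := by
  classical
  unfold n0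
  rw [hn.ms_eq, hn.sec_eq]
  refine le_trans ?_ (ms_mono hS (T := bases m.g) (E := fun s => m.sec S s = 0) fun s hs e => ⟨hn.sub hs, e⟩)
  exact sum_le_sum fun s _ => Wt_anti hS hn.le s

theorem Nxt.n0_le (hS : Sz N R S) (hn : Nxt m m' S j j' h) : m'.n0 S j' ≤ 3 / 2 * m.n0 S j := by
  have a := hn.gr fun s => m.sec S s = 0
  have e : ∀ j T, m.ms S j h T (fun s => m.sec S s = 0) = m.ms S j 0 T fun s => m.sec S s = 0 := fun j T =>
    sum_congr rfl fun s hs => Wt_sec_zero (by simp only [mem_filter] at hs; exact hs.2) _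
  rw [e, e] at a
  have b : 0 ≤ m.n0 S j := ms_nonneg hS _ _
  have c := mul_le_mul_of_nonneg_right (lamH_sq_le hS) b
  unfold n0 at *
  rw [hn.ms_eq, hn.sec_eq]
  linarith

theorem Nxt.inv (hS : Sz N R S) (hn : Nxt m m' S j j' h) (hI : m.Inv S j h (3 / 4 * pC n)) :
    m'.Inv S j' h (pC n) := by
  intro p
  have a := hn.gr (m.Ep S p)
  have b := hI p
  have c := hn.n0_ge hS
  have d : 0 ≤ m.n0 S j := ms_nonneg hS _ _
  have e : (64 : ℝ) ≤ pC n := by exact_mod_cast (by unfold pC; omega : 64 ≤ pC n)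
  have e' : m'.Ep S p = m.Ep S p := by unfold Ep; rw [hn.sec_eq]
  rw [hn.ms_eq, e']
  have f := mul_nonneg (sq_nonneg (lamH S)) d
  calc _ ≤ (15 / 16 * pC n + 1) * (lamH S ^ 2 * m.n0 S j) := by linarith
    _ ≤ pC n * (lamH S ^ 2 * m.n0 S j) := by gcongr; linarith
    _ ≤ pC n * (lamH S ^ 2 * m'.n0 S j') := by gcongr
    _ = _ := by ring

theorem Nxt.warm (hm : m.OK R) (hm' : m'.OK R) (hS : Sz N R S) {h₀ : Fin n → ℕ}
    (hh : ∀ u, h₀ u ≤ h u ∧ h u ≤ h₀ u + 1) (hn : Nxt m m' S j j' h) (hI : m'.Inv S j' h (pC n)) :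
    Warm (m.Om S) (m'.Om S) (m.Wt S j h₀) (m'.Wt S j' h) ((S : ℝ) ^ 9) := by
  classical
  have S0 : (4096 : ℝ) ≤ S := by exact_mod_cast hS.big
  have eT : m'.Tr S = m.Tr S := by
    obtain ⟨g, W, cp, μ⟩ := m
    obtain ⟨g', W', cp', μ'⟩ := m'
    obtain ⟨rfl, rfl, -⟩ := hn
    rfl
  refine ⟨fun s hs => ?_, fun s hs => ?_⟩
  · unfold Om at hs ⊢
    rw [hn.sec_eq, eT]
    exact mem_filter.2 ⟨hn.sub (mem_filter.1 hs).1, (mem_filter.1 hs).2⟩
  · have s1 : nm1 (m.sec S s) ≤ 100 := (mem_filter.1 hs).2.1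
    have a1 : m.Wt S j h₀ s ≤ 2 ^ 100 * m'.Wt S j' h s := by
      rw [hn.Wt_eq]
      exact (Wt_field hS hh s).trans (mul_le_mul (pow_le_pow_right₀ (by norm_num) s1) (Wt_anti hS hn.le s)
        (Wt_pos hS s).le (by positivity))
    have a2 : ∑ s ∈ m'.Om S, m'.Wt S j' h s ≤ 3 * m.n0 S j := by
      have b1 := hm'.total hS hI
      have b2 := hn.n0_le hS
      have b3 : ∑ s ∈ m'.Om S, m'.Wt S j' h s ≤ ∑ s ∈ bases m'.g, m'.Wt S j' h s :=
        sum_le_sum_of_subset_of_nonneg (filter_subset _ _) fun s _ _ => (Wt_pos hS s).le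
      linarith
    have a3 : m.n0 S j ≤ 2 * ∑ s ∈ m.Om S, m.Wt S j h₀ s := by
      have b1 := hm.ms_le (j := j) (h := 0) hS (fun _ => Nat.zero_le _) (E := fun s => m.sec S s = 0)
        fun s e => by simp [e, nm1]
      have b2 := hm.one_le_n0' hS j
      have b3 : 1 / (S : ℝ) ^ 400 ≤ 1 := by
        rw [div_le_one (by positivity)]
        exact one_le_pow₀ (by linarith)
      have b4 : m.n0' S j ≤ ∑ s ∈ m.Om S, m.Wt S j h₀ s := by
        refine le_trans (le_of_eq (sum_congr rfl fun s hs =>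
          Wt_sec_zero (by simp only [mem_filter] at hs; exact hs.2) h₀)) ?_
        exact sum_le_sum_of_subset_of_nonneg (fun s hs => by simp only [mem_filter] at hs; exact hs.1)
          fun s _ _ => (Wt_pos hS s).le
      unfold n0 n0' at *
      linarith
    have p1 := (Wt_pos (m := m') (j := j') (h := h) hS s).le
    have p2 : 0 ≤ ∑ s ∈ m.Om S, m.Wt S j h₀ s := sum_nonneg fun s _ => (Wt_pos hS s).le
    calc _ ≤ 2 ^ 100 * m'.Wt S j' h s * (3 * (2 * ∑ s ∈ m.Om S, m.Wt S j h₀ s)) :=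
          mul_le_mul a1 (by linarith) (sum_nonneg fun s _ => (Wt_pos hS s).le) (by positivity)
      _ = 2 ^ 100 * 6 * m'.Wt S j' h s * ∑ s ∈ m.Om S, m.Wt S j h₀ s := by ring
      _ ≤ _ := by
          gcongr
          calc (2 : ℝ) ^ 100 * 6 ≤ 4096 ^ 9 := by norm_num
            _ ≤ _ := by gcongr

theorem OK.inv_zero (hm : m.OK R) (hS : Sz N R S) (j : ℕ) (h : Fin n → ℕ) : (m.box 0).Inv S j h (pC n) := by
  classical
  intro p
  have : (m.box 0).ms S j h (bases (m.box 0).g) ((m.box 0).Ep S p) = 0 := by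
    refine sum_eq_zero fun s hs => ?_
    have a := (mem_filter.1 hs).2.1
    have b : s = 0 := funext fun k => by simpa using ((hm.mem_box 0 s).1 (mem_filter.1 hs).1).2 k
    rw [b, sec_zero] at a
    simp at a
  rw [this]
  exact mul_nonneg (by positivity) (ms_nonneg hS _ _)

theorem OK.Om_zero (hm : m.OK R) (S : ℕ) : (m.box 0).Om S = {0} := by
  classical
  refine eq_singleton_iff_unique_mem.2 ⟨(hm.box 0).zero_mem S, fun s hs => funext fun k => ?_⟩
  simpa using ((hm.mem_box 0 s).1 (mem_filter.1 hs).1).2 k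

end Md

end Crest.Agent.R302B
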