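import Crest.Agent.R302B.Mod4
import Crest.Agent.R302B.IO4

/-!
# Row 302 (binary layer): Mod5
The weak Poincaré inequality of a stage.
* `ino_ok`: field by field.  `range`: `th_eq_ps`, `range_plus` (a base of `g` is a base of `g + cutf`), `|th| ≤ 4 S^6 W t` (fat), `≤ 4 S^72` (thin), `25 N ≤ S^2`.
  All `L ≥ S^73`.  `l ≥ 2^je / (2 S^4)`, `W ≤ 4 S^40 2^je`.  `out`: `OK.out`, `tail_le`, `n0 ≤ n0' + 1 ≤ 2 Z`.  `mem_Ωp`: `isB_add_cutf`, `dd_fat`, `sec_rt`.  `enl`: `enl_mod`, `total`.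
* `wp_mod`: `InO.OK.wp` with `m = S^910`, `p₁ = S^-100 / 4` (`2σ + 1 ≥ 2^je (1 - 1/(2N))`), `C1 ≤ S^208`, `2^100 ≤ S^9`, `exp (-(S^2-1)) ≤ S^-400`.
-/

set_option autoImplicit false
set_option linter.unusedSectionVars false

noncomputable section

namespace Crest.Agent.R302B

open Finset Crest.Agent.R302

variable {n N R S j : ℕ} {m : Md n N} {h : Fin n → ℕ}


namespace Md

theorem m5_big (hS : Sz N R S) : (4096 : ℝ) ≤ S := by exact_mod_cast hS.big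

theorem m5_N (hS : Sz N R S) : 32 * (N : ℝ) ≤ S := by exact_mod_cast hS.N_le

theorem m5_pw (hS : Sz N R S) {a b : ℕ} (hab : a ≤ b) : (S : ℝ) ^ a ≤ (S : ℝ) ^ b :=
  pow_le_pow_right₀ (by linarith [m5_big hS]) hab

theorem m5_mul (hS : Sz N R S) {c : ℝ} {a b : ℕ} (hc : c ≤ S) (hab : a + 1 ≤ b) :
    c * (S : ℝ) ^ a ≤ (S : ℝ) ^ b := by
  refine le_trans ?_ (m5_pw hS hab)
  rw [pow_succ']
  exact mul_le_mul_of_nonneg_right hc (by positivity)

theorem m5_div (hS : Sz N R S) {c : ℝ} {a b : ℕ} (hc : c ≤ S) (hab : a + 1 ≤ b) :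
    c / (S : ℝ) ^ b ≤ 1 / (S : ℝ) ^ a := by
  have := m5_big hS
  rw [div_le_div_iff₀ (by positivity) (by positivity), one_mul]
  exact m5_mul hS hc hab

theorem m5_fo {t : ℕ} (ht : m.fo S t = true) : t + 1 < N ∧ ((S ^ 66 : ℕ) : ℤ) ≤ m.W t :=
  of_decide_eq_true ht

theorem m5_28 (hS : Sz N R S) {t : ℕ} (ht : m.fo S t = true) : ((S ^ 28 : ℕ) : ℤ) ≤ m.W t := by
  refine le_trans ?_ (m5_fo ht).2
  exact_mod_cast Nat.pow_le_pow_right (by have := hS.big; omega) (by norm_num)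

theorem m5_thin (hm : m.OK R) {t : ℕ} (ht : m.fo S t = false) : (m.W t : ℝ) ≤ (S : ℝ) ^ 66 := by
  have h1 := of_decide_eq_false ht
  by_cases c : t + 1 < N
  · have h2 : m.W t ≤ ((S ^ 66 : ℕ) : ℤ) := (not_le.1 fun h => h1 ⟨c, h⟩).le
    exact_mod_cast h2
  · rw [hm.fr.last t (by omega), Int.cast_zero]
    positivity

/-- real versions of the facts on a fat position -/
theorem m5_fat (hS : Sz N R S) {t : Fin N} (ht : m.fo S t = true) :
    (S : ℝ) ^ 66 ≤ m.W t ∧ (S : ℝ) ^ 40 * m.sp S t ≤ m.W t ∧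
      (S : ℝ) ^ 7 * m.W t ≤ 8 * (S : ℝ) ^ 51 * (2 ^ m.je S t / S ^ 4 : ℕ) := by
  obtain ⟨h1, h2, h3⟩ := je_spec hS ht
  have hb := hS.big
  refine ⟨by exact_mod_cast (m5_fo ht).2, ?_, ?_⟩
  · have h4 : S ^ 40 * m.sp S t ≤ S ^ 40 * 2 ^ m.je S t :=
      Nat.mul_le_mul_left _ (by unfold sp; omega)
    have h5 : ((S ^ 40 * m.sp S t : ℕ) : ℤ) ≤ m.W t := le_trans (by exact_mod_cast h4) h2
    exact_mod_cast h5
  · have h4 : S ^ 4 ≤ 2 ^ m.je S t := (Nat.pow_le_pow_right (by omega) (by norm_num)).trans h1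
    have h5 : 0 < S ^ 4 := by positivity
    have h6 := Nat.lt_div_mul_add (a := 2 ^ m.je S t) h5
    have h7 : 1 * S ^ 4 ≤ 2 ^ m.je S t / S ^ 4 * S ^ 4 :=
      Nat.mul_le_mul_right _ ((Nat.one_le_div_iff h5).2 h4)
    generalize 2 ^ m.je S t / S ^ 4 = l at h6 h7 ⊢
    have h8 : 4 * S ^ 40 * 2 ^ m.je S t ≤ 4 * S ^ 40 * (2 * (l * S ^ 4)) :=
      Nat.mul_le_mul_left _ (by omega)
    have h9 : m.W t ≤ ((4 * S ^ 40 * (2 * (l * S ^ 4)) : ℕ) : ℤ) := h3.trans (by exact_mod_cast h8)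
    have h10 : (m.W t : ℝ) ≤ 4 * (S : ℝ) ^ 40 * (2 * (l * (S : ℝ) ^ 4)) := by exact_mod_cast h9
    calc (S : ℝ) ^ 7 * m.W t ≤ (S : ℝ) ^ 7 * (4 * (S : ℝ) ^ 40 * (2 * (l * (S : ℝ) ^ 4))) := by
          gcongr
      _ = _ := by ring

theorem m5_l (hS : Sz N R S) (E : ℕ) : S ^ 2 * (E / S ^ 4 * (1 + (S ^ 2 - 1))) ≤ E := by
  have h1 : 1 ≤ S ^ 2 := Nat.one_le_pow _ _ (by have := hS.big; omega)
  rw [Nat.add_sub_cancel' h1]
  exact le_of_eq_of_le (by ring) (Nat.div_mul_le_self E (S ^ 4))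

theorem m5_L (hS : Sz N R S) (t : Fin N) : (S : ℝ) ^ 73 ≤ (m.ino S j h).L t := by
  show _ ≤ if m.fo S t = true then (S : ℝ) ^ 7 * m.W t else (S : ℝ) ^ 73
  split_ifs with c
  · rw [show 73 = 7 + 66 from rfl, pow_add]
    exact mul_le_mul_of_nonneg_left (m5_fat hS c).1 (by positivity)
  · exact le_rfl

theorem m5_sumL (hS : Sz N R S) : ∑ t, 1 / (m.ino S j h).L t ^ 2 ≤ N / (S : ℝ) ^ 146 := by
  have := m5_big hS
  refine (sum_le_card_nsmul _ _ (1 / (S : ℝ) ^ 146) fun t _ => ?_).trans (le_of_eq ?_)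
  · refine one_div_le_one_div_of_le (by positivity) ?_
    rw [show 146 = 73 * 2 from rfl, pow_mul]
    exact pow_le_pow_left₀ (by positivity) (m5_L hS t) 2
  · rw [card_univ, Fintype.card_fin, nsmul_eq_mul, mul_one_div]

theorem m5_ms (T : Finset (Fin N → ℤ)) (E : (Fin N → ℤ) → Prop) [DecidablePred E] :
    m.ms S j h T E = ∑ s ∈ T.filter E, m.Wt S j h s := by
  unfold ms
  congr

theorem m5_n0 (hm : m.OK R) (hS : Sz N R S) :
    1 ≤ ∑ s ∈ m.Om S, m.Wt S j h s ∧ m.n0 S j ≤ 2 * ∑ s ∈ m.Om S, m.Wt S j h s := by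
  classical
  have h1 := hm.one_le_n0' hS j
  have h2 : m.n0' S j ≤ ∑ s ∈ m.Om S, m.Wt S j h s := by
    rw [n0', m5_ms]
    refine le_of_eq_of_le (sum_congr rfl fun s hs => Wt_sec_zero (mem_filter.1 hs).2 h) ?_
    exact sum_le_sum_of_subset_of_nonneg (filter_subset _ _) fun s _ _ => (Wt_pos hS s).le
  have h3 : m.n0 S j ≤ m.n0' S j + 1 / (S : ℝ) ^ 400 :=
    hm.ms_le hS (fun _ => Nat.zero_le _) fun s hs => by rw [hs]; simp [nm1]
  have h4 : 1 / (S : ℝ) ^ 400 ≤ 1 := by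
    have := m5_big hS
    rw [div_le_one (by positivity)]
    exact one_le_pow₀ (by linarith)
  constructor <;> linarith

theorem m5_range (hm : m.OK R) (hS : Sz N R S) {s : Fin N → ℤ} (hs : s ∈ m.Om S) (t : Fin N)
    {B : ℝ} (h1 : (S : ℝ) ^ 66 ≤ B) (h2 : m.W t ≤ B) :
    |((th (m.fo S) s t : ℤ) : ℝ)| ≤ 4 * ((S : ℝ) ^ 6 * B) := by
  classical
  obtain ⟨a1, a2, a3⟩ := mem_filter.1 hs
  have a4 := mem_bases.1 a1
  have a5 : IsB (fun X => m.g X + cutf (m.sp S) X) s :=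
    ⟨fun X => (a4.1 X).trans (le_add_of_nonneg_right (cutf_nonneg _ _)), by
      simp only [cutf_univ, add_zero]; exact a4.2⟩
  have key : ∀ r : ℕ, m.W r ≤ B → |((ps s r : ℤ) : ℝ)| ≤ 2 * ((S : ℝ) ^ 6 * B) := by
    intro r hr
    have b1 : |((ps s r : ℤ) : ℝ)| ≤ (S : ℝ) ^ 6 * (m.W r + (S : ℝ) ^ 28) := by
      exact_mod_cast hm.range_plus hS a5 a2 a3 r
    have b2 : (S : ℝ) ^ 28 ≤ B := (m5_pw hS (by norm_num)).trans h1
    calc _ ≤ _ := b1
      _ ≤ (S : ℝ) ^ 6 * (B + B) := by gcongr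
      _ = _ := by ring
  have b1 := key t h2
  rcases th_eq_ps (fat := m.fo S) s t with e | ⟨r, -, hr, e⟩
  · rw [e]
    linarith [abs_nonneg ((ps s t : ℤ) : ℝ)]
  · rw [e, Int.cast_sub]
    linarith [key r ((m5_thin hm hr).trans h1), abs_sub ((ps s t : ℤ) : ℝ) (ps s r : ℤ)]

theorem m5_out (hm : m.OK R) (hS : Sz N R S) (hh : ∀ u, h u ≤ S ^ 18) (hI : m.Inv S j h (pC n)) :
    ∑ s ∈ bases m.g \ m.Om S, m.Wt S j h s ≤ 1 / (S : ℝ) ^ 350 * ∑ s ∈ m.Om S, m.Wt S j h s := by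
  classical
  obtain ⟨h1, h2⟩ := m5_n0 (j := j) (h := h) hm hS
  have hb := m5_big hS
  have h3 := hm.out hS hI
  have h4 := tail_le (m := m) (j := j) hS hh
    ((bases m.g \ m.Om S).filter fun s => ¬ 100 < nm1 (m.sec S s))
    (hS.card_le _ fun s hs k => (hm.bd s (mem_bases.1 (mem_sdiff.1 (mem_filter.1 hs).1).1) k).trans
      (by omega))
    fun s hs => by
      obtain ⟨a1, a2⟩ := mem_filter.1 hs
      obtain ⟨a3, a4⟩ := mem_sdiff.1 a1
      exact ⟨not_lt.1 a2, fun a5 => a4 (mem_filter.2 ⟨a3, not_lt.1 a2, a5⟩)⟩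
  have h5 := half_pow_le hS
  have h6 : ∑ s ∈ (bases m.g \ m.Om S).filter (fun s => 100 < nm1 (m.sec S s)), m.Wt S j h s ≤
      m.ms S j h (bases m.g) fun s => 100 < nm1 (m.sec S s) := by
    rw [m5_ms]
    exact sum_le_sum_of_subset_of_nonneg (filter_subset_filter _ sdiff_subset)
      fun s _ _ => (Wt_pos hS s).le
  rw [← sum_filter_add_sum_filter_not _ fun s => 100 < nm1 (m.sec S s)]
  set Z := ∑ s ∈ m.Om S, m.Wt S j h s
  have h7 : 1 / (S : ℝ) ^ 400 ≤ 1 / (S : ℝ) ^ 356 * Z :=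
    (m5_div hS (by linarith) (by norm_num)).trans (le_mul_of_one_le_right (by positivity) h1)
  have h8 : 1 / (S : ℝ) ^ 356 * m.n0 S j ≤ 1 / (S : ℝ) ^ 356 * (2 * Z) := by gcongr
  have h9 : 3 / (S : ℝ) ^ 356 * Z ≤ 1 / (S : ℝ) ^ 350 * Z :=
    mul_le_mul_of_nonneg_right (m5_div hS (by linarith) (by norm_num)) (by linarith)
  have h10 : 3 / (S : ℝ) ^ 356 * Z = 1 / (S : ℝ) ^ 356 * (2 * Z) + 1 / (S : ℝ) ^ 356 * Z := by ring
  linarith

theorem m5_mem (hm : m.OK R) (hS : Sz N R S) {s : Fin N → ℤ} (hs : s ∈ m.Om S) {y : Fin N → ℤ}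
    (hy : ∀ t : Fin N, |y t| ≤ if m.fo S t = true then (m.sp S t : ℤ) else 0) :
    IsB (fun X => m.g X + cutf (m.sp S) X) (s + dv (m.fo S) y) ∧
      nm1 (m.sec S (s + dv (m.fo S) y)) ≤ 100 := by
  classical
  obtain ⟨a1, a2, -⟩ := mem_filter.1 hs
  have h0 : ∀ t : Fin N, ¬ m.fo S t = true → y t = 0 := fun t c => by
    have := hy t
    rwa [if_neg c, abs_nonpos_iff] at this
  have e : dv (m.fo S) y = ∑ t, y t • rt t (nx t) := by
    refine sum_congr rfl fun t _ => ?_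
    by_cases c : m.fo S t = true
    · rw [dd_fat c]
    · rw [h0 t c, zero_smul, zero_smul]
  rw [e]
  refine ⟨isB_add_cutf (mem_bases.1 a1) fun t => (hy t).trans ?_, ?_⟩
  · split_ifs
    exacts [le_rfl, Int.natCast_nonneg _]
  · let φ : (Fin N → ℤ) →+ (Fin n → ℤ) := AddMonoidHom.mk' (m.sec S) sec_add
    have e2 : φ (∑ t, y t • rt t (nx t)) = 0 := by
      rw [map_sum]
      refine sum_eq_zero fun t _ => ?_
      by_cases c : m.fo S t = true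
      · rw [map_zsmul, show φ (rt t (nx t)) = 0 from hm.sec_rt (m5_fo c).1 (m5_28 hS c), smul_zero]
      · rw [h0 t c, zero_smul, map_zero]
    rw [sec_add, show m.sec S _ = 0 from e2, add_zero]
    exact a2

theorem OK.ino_ok (hm : m.OK R) (hS : Sz N R S) (hj : j = 0 ∨ ∀ t, m.W t < (S ^ 28 : ℕ)) (hh : ∀ u, h u ≤ S ^ 18)
    (hI : m.Inv S j h (pC n)) : (m.ino S j h).OK := by
  have hb := m5_big hS
  have hN := m5_N hS
  have hN0 : (0 : ℝ) ≤ N := Nat.cast_nonneg _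
  have hΛ : (1 : ℝ) ≤ 2 * (S : ℝ) ^ 5 := by
    linarith [one_le_pow₀ (n := 5) (show (1 : ℝ) ≤ S by linarith)]
  have hexp : Real.exp (Real.log (2 * (S : ℝ) ^ 5)) = 2 * (S : ℝ) ^ 5 := Real.exp_log (by linarith)
  refine
    { ok := fo_ok m S
      sub := hm.fr.sub
      Ω_sub := by classical exact filter_subset _ _
      ne := ⟨0, hm.zero_mem S⟩
      sep := sep_wt hS j h
      w_inv := fun t ht s => ?_
      H_dl := ?_
      H_lip := fun t u => ?_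
      η_nonneg := fun t => ?_
      η_fat := fun t ht => ?_
      η_thin := fun t ht => ?_
      one_le := hΛ
      lam_pos := ?_
      lam_le := ?_
      lam_small := ?_
      l_ge := fun t ht => ?_
      sp_ge := fun t ht => ?_
      L_pos := fun t => lt_of_lt_of_le (by positivity) (m5_L hS t)
      range := fun s hs t => ?_
      sum_le := ?_
      abs := fun t ht => ?_
      L_fat := fun t ht => ?_
      L_thin := fun t ht => ?_
      out := m5_out hm hS hh hI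
      mem_Ωp := fun s hs y hy => ?_
      enl := ?_ }
  · rw [dd_fat ht]
    exact hm.wt_rt hj (m5_fo ht).1 (m5_28 hS ht) s
  · show DLZ fun u => m.Hh S (-u)
    simp only [Hh_neg]
    refine Hf_dlz hS (lamH_pos hS) ?_
    rw [lamH, div_le_one (by positivity)]
    exact one_le_pow₀ (by linarith)
  · show m.Hh S (u + dd (m.fo S) t) ≤ Real.exp (if m.fo S t = true then _ else _) * m.Hh S u ∧
      m.Hh S (u - dd (m.fo S) t) ≤ Real.exp (if m.fo S t = true then _ else _) * m.Hh S u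
    by_cases c : m.fo S t = true
    · rw [if_pos c, dd_fat c]
      exact hm.Hh_rt hS (m5_fo c).1 (m5_28 hS c) u
    · rw [if_neg c, dd_thin (eq_false_of_ne_true c), hexp]
      exact Hh_ez hS hm.fr.le t u
  · show 0 ≤ if m.fo S t = true then _ else _
    split_ifs with c
    · exact div_nonneg (by positivity) (le_trans (by positivity) (m5_fat hS c).1)
    · exact Real.log_nonneg hΛ
  · show 4 * (N : ℝ) * (if m.fo S t = true then (S : ℝ) ^ 27 / m.W t else _) * m.sp S t ≤ 1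
    obtain ⟨a1, a2, -⟩ := m5_fat hS ht
    have a3 : 4 * (N : ℝ) * (S : ℝ) ^ 27 ≤ (S : ℝ) ^ 40 := m5_mul hS (by linarith) (by norm_num)
    rw [if_pos (show m.fo S t = true from ht), ← mul_div_assoc, div_mul_eq_mul_div,
      div_le_one (lt_of_lt_of_le (by positivity) a1)]
    exact (mul_le_mul_of_nonneg_right a3 (Nat.cast_nonneg _)).trans a2
  · show Real.exp (if m.fo S t = true then _ else _) ≤ _
    rw [if_neg (ne_true_of_eq_false (show m.fo S t = false from ht))]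
    exact hexp.le
  · show 0 < 1 / (S : ℝ) ^ 10
    positivity
  · show 1 / (S : ℝ) ^ 10 ≤ 1
    rw [div_le_one (by positivity)]
    exact one_le_pow₀ (by linarith)
  · show 8 * (N : ℝ) * (1 / (S : ℝ) ^ 10 * (2 * (S : ℝ) ^ 5)) ≤ 1
    have a1 : 16 * (N : ℝ) * (S : ℝ) ^ 5 ≤ (S : ℝ) ^ 10 := m5_mul hS (by linarith) (by norm_num)
    rw [one_div_mul_eq_div, ← mul_div_assoc, div_le_one (by positivity)]
    linarith
  · show 2 * N ≤ 2 ^ m.je S t / S ^ 4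
    have a1 := hS.big
    have a2 := hS.N_le
    rw [Nat.le_div_iff_mul_le (by positivity)]
    calc 2 * N * S ^ 4 ≤ S * S ^ 4 := Nat.mul_le_mul_right _ (by omega)
      _ ≤ S ^ 25 := by rw [← pow_succ']; exact Nat.pow_le_pow_right (by omega) (by norm_num)
      _ ≤ _ := (je_spec hS ht).1
  · show 4 * N * (2 ^ m.je S t / S ^ 4 * (1 + (S ^ 2 - 1))) ≤ 2 ^ m.je S t / 2 - 1
    have a1 := hS.big
    have a2 := hS.N_le
    have a3 := m5_l hS (2 ^ m.je S t)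
    have a4 : S ≤ 2 ^ m.je S t := (Nat.le_self_pow (by norm_num) S).trans (je_spec hS ht).1
    have a5 : S ≤ S ^ 2 := Nat.le_self_pow (by norm_num) S
    generalize 2 ^ m.je S t / S ^ 4 * (1 + (S ^ 2 - 1)) = x at a3 ⊢
    have a6 : 32 * N * x ≤ S ^ 2 * x := Nat.mul_le_mul_right _ (by omega)
    have a7 : 32 * N * x = 8 * (4 * N * x) := by ring
    omega
  · show (N : ℝ) * (|((th (m.fo S) s t : ℤ) : ℝ)| + if m.fo S t = true then (m.sp S t : ℝ) else 0) ^ 2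
      ≤ (if m.fo S t = true then (S : ℝ) ^ 7 * m.W t else (S : ℝ) ^ 73) ^ 2
    have key : ∀ x B : ℝ, 0 ≤ x → x ≤ 5 * ((S : ℝ) ^ 6 * B) →
        (N : ℝ) * x ^ 2 ≤ ((S : ℝ) ^ 7 * B) ^ 2 := by
      intro x B a1 a2
      have a3 : 25 * (N : ℝ) * (S : ℝ) ^ 12 ≤ (S : ℝ) ^ 14 := m5_mul hS (by linarith) (by norm_num)
      calc (N : ℝ) * x ^ 2 ≤ N * (5 * ((S : ℝ) ^ 6 * B)) ^ 2 := by gcongr
        _ = 25 * (N : ℝ) * (S : ℝ) ^ 12 * B ^ 2 := by ring
        _ ≤ (S : ℝ) ^ 14 * B ^ 2 := by gcongr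
        _ = _ := by ring
    split_ifs with c
    · obtain ⟨a1, a2, -⟩ := m5_fat hS c
      have a3 := m5_range hm hS hs t a1 le_rfl
      have a4 : (m.sp S t : ℝ) ≤ (S : ℝ) ^ 6 * m.W t :=
        ((le_mul_of_one_le_left (Nat.cast_nonneg _) (one_le_pow₀ (by linarith))).trans a2).trans
          (le_mul_of_one_le_left (le_trans (by positivity) a1) (one_le_pow₀ (by linarith)))
      exact key _ _ (by positivity) (by linarith)
    · have a3 := m5_range hm hS hs t le_rfl (m5_thin hm (eq_false_of_ne_true c))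
      have a4 : 0 ≤ (S : ℝ) ^ 6 * (S : ℝ) ^ 66 := by positivity
      rw [show 73 = 7 + 66 from rfl, pow_add]
      exact key _ _ (by positivity) (by linarith)
  · refine (m5_sumL hS).trans ?_
    have a1 : 2 * (N : ℝ) * (S : ℝ) ^ 0 ≤ (S : ℝ) ^ 146 := m5_mul hS (by linarith) (by norm_num)
    rw [div_le_div_iff₀ (by positivity) (by positivity)]
    linarith [pow_zero (S : ℝ)]
  · have a1 := m5_sumL (m := m) (j := j) (h := h) hS
    have a2 : (m.ino S j h).L t ≤ 8 * (S : ℝ) ^ 51 * (m.ino S j h).l t :=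
      le_of_eq_of_le (if_pos ht) (m5_fat hS ht).2.2
    have a3 : 0 ≤ (m.ino S j h).L t := le_trans (by positivity) (m5_L hS t)
    have a4 : 0 ≤ ∑ t, 1 / (m.ino S j h).L t ^ 2 := sum_nonneg fun _ _ => by positivity
    have a5 : (N : ℝ) ≤ S / 32 := by linarith
    have a6 : 96 / (S : ℝ) ^ 42 ≤ 1 / (S : ℝ) ^ 40 := m5_div hS (by linarith) (by norm_num)
    calc _ ≤ 1536 * ((S : ℝ) / 32) * (8 * (S : ℝ) ^ 51 * (m.ino S j h).l t) ^ 2
          * (((S : ℝ) / 32) / (S : ℝ) ^ 146) := by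
          refine mul_le_mul ?_ (a1.trans ?_) a4 (by positivity) <;> gcongr
      _ = 96 / (S : ℝ) ^ 42 * ((m.ino S j h).l t : ℝ) ^ 2 := by field_simp; ring
      _ ≤ 1 / (S : ℝ) ^ 40 * ((m.ino S j h).l t : ℝ) ^ 2 := by gcongr
      _ = (1 / (S : ℝ) ^ 10) ^ 4 * ((m.ino S j h).l t : ℝ) ^ 2 := by ring
  · have a2 : (m.ino S j h).L t ≤ 8 * (S : ℝ) ^ 51 * (m.ino S j h).l t :=
      le_of_eq_of_le (if_pos ht) (m5_fat hS ht).2.2
    exact a2.trans (mul_le_mul_of_nonneg_right (m5_mul hS (by linarith) le_rfl) (Nat.cast_nonneg _))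
  · exact le_of_eq (if_neg (ne_true_of_eq_false ht))
  · obtain ⟨a1, a2⟩ := m5_mem hm hS hs hy
    exact mem_filter.2 ⟨mem_bases.2 a1, a2⟩
  · have a1 := hm.enl_mod hS hj hh
    have a2 := hm.total hS hI
    have a3 := (m5_n0 (j := j) (h := h) hm hS).2
    have a4 : ∑ s ∈ (m.ino S j h).Ωp, (m.ino S j h).W s =
        m.ms S j h (bases fun X => m.g X + cutf (m.sp S) X) fun s => nm1 (m.sec S s) ≤ 100 :=
      (m5_ms _ _).symm
    have a5 : (m.ino S j h).KE * (m.ino S j h).Z = 8 * ∑ s ∈ m.Om S, m.Wt S j h s := rfl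
    linarith

theorem ino_Pi (hS : Sz N R S) :
    1 / (S : ℝ) ^ 100 / 4 ≤ (∏ t : Fin N, 1 / (2 : ℝ) ^ m.je S t) / (S : ℝ) ^ 100 * (m.ino S j h).Pi := by
  have hb := m5_big hS
  have hN := m5_N hS
  have h0 : 4 / (S : ℝ) ≤ 1 := by rw [div_le_one (by linarith)]; linarith
  have key : ∀ t : Fin N, 1 - 4 / (S : ℝ) ≤ 1 / (2 : ℝ) ^ m.je S t *
      if m.fo S t = true then 2 * ((m.ino S j h).σ t : ℝ) + 1 else 1 := by
    intro t
    split_ifs with c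
    · have a1 := hS.big
      have a3 := m5_l hS (2 ^ m.je S t)
      have a4 : S ≤ 2 ^ m.je S t := (Nat.le_self_pow (by norm_num) S).trans (je_spec hS c).1
      have a5 : S ≤ S ^ 2 := Nat.le_self_pow (by norm_num) S
      have e : (m.ino S j h).σ t =
        2 ^ m.je S t / 2 - 1 - 2 ^ m.je S t / S ^ 4 * (1 + (S ^ 2 - 1)) := rfl
      generalize 2 ^ m.je S t / S ^ 4 * (1 + (S ^ 2 - 1)) = x at a3 e
      have a6 : S * x ≤ 2 ^ m.je S t := (Nat.mul_le_mul_right _ (by omega)).trans a3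
      have a7 : 2 ^ m.je S t ≤ 2 * (m.ino S j h).σ t + 1 + 2 + 2 * x := by omega
      have b4 : (S : ℝ) ≤ 2 ^ m.je S t := by exact_mod_cast a4
      have b6 : (S : ℝ) * x ≤ 2 ^ m.je S t := by exact_mod_cast a6
      have b7 : (2 : ℝ) ^ m.je S t ≤ 2 * (m.ino S j h).σ t + 1 + 2 + 2 * x := by exact_mod_cast a7
      have b8 : 2 + 2 * (x : ℝ) ≤ 4 / S * 2 ^ m.je S t := by
        rw [div_mul_eq_mul_div, le_div_iff₀ (by linarith)]
        linarith
      rw [one_div_mul_eq_div, le_div_iff₀ (by positivity)]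
      linarith
    · rw [je, if_neg c]
      have : 0 ≤ 4 / (S : ℝ) := by positivity
      norm_num
      exact this
  have h1 : (1 - 4 / (S : ℝ)) ^ N ≤ (∏ t : Fin N, 1 / (2 : ℝ) ^ m.je S t) * (m.ino S j h).Pi := by
    rw [InO.Pi, ← prod_mul_distrib, ← Fin.prod_const]
    exact prod_le_prod (fun _ _ => by linarith) fun t _ => key t
  have h2 := one_add_mul_le_pow (a := -(4 / (S : ℝ))) (by linarith) N
  have h3 : (N : ℝ) * (4 / S) ≤ 3 / 4 := by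
    rw [← mul_div_assoc, div_le_iff₀ (by linarith)]
    linarith
  rw [← sub_eq_add_neg] at h2
  rw [div_mul_eq_mul_div, div_right_comm]
  exact div_le_div_of_nonneg_right (by linarith) (by positivity)

theorem ino_C1 (hS : Sz N R S) : (m.ino S j h).C1 ≤ (S : ℝ) ^ 208 := by
  have hb := m5_big hS
  have hN := m5_N hS
  show 64 * (N : ℝ) * (64 * (2 * (S : ℝ) ^ 5) * ((S : ℝ) ^ 52) ^ 2 + ((S : ℝ) ^ 73) ^ 2) /
    (1 / (S : ℝ) ^ 10) ^ 6 ≤ _
  have a1 : 128 * (S : ℝ) ^ 109 ≤ (S : ℝ) ^ 146 := m5_mul hS (by linarith) (by norm_num)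
  have a2 : 64 * (N : ℝ) ≤ 2 * S := by linarith
  calc _ = 64 * (N : ℝ) * (128 * (S : ℝ) ^ 109 + (S : ℝ) ^ 146) * (S : ℝ) ^ 60 := by
        field_simp; norm_num
    _ ≤ 2 * (S : ℝ) * ((S : ℝ) ^ 146 + (S : ℝ) ^ 146) * (S : ℝ) ^ 60 := by gcongr
    _ = 4 * (S : ℝ) ^ 207 := by ring
    _ ≤ _ := m5_mul hS (by linarith) le_rfl

theorem OK.wp_mod (hm : m.OK R) (hS : Sz N R S) (hj : j = 0 ∨ ∀ t, m.W t < (S ^ 28 : ℕ)) (hh : ∀ u, h u ≤ S ^ 18)
    (hI : m.Inv S j h (pC n)) {Q : (Fin N → ℤ) → (Fin N → ℤ) → ℝ} (hQ0 : ∀ s ∈ m.Om S, ∀ s' ∈ m.Om S, 0 ≤ Q s s')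
    (hQ : ∀ s ∈ m.Om S, ∀ s' ∈ m.Om S, s ≠ s' →
      ((∏ t : Fin N, 1 / (2 : ℝ) ^ m.je S t) / (S : ℝ) ^ 100) ^ 2 *
        #((m.ino S j h).X.filter fun x => x + th (m.fo S) (s - s') ∈ (m.ino S j h).X) *
        min (m.Wt S j h s) (m.Wt S j h s') ≤ Q s s')
    (f : (Fin N → ℤ) → ℝ) (hf : ∀ s ∈ m.Om S, |f s| ≤ 1) :
    mn (m.Om S) (m.Wt S j h) (fun s => f s ^ 2) - mn (m.Om S) (m.Wt S j h) f ^ 2 ≤
      (S : ℝ) ^ 1832 * ((∑ s ∈ m.Om S, ∑ s' ∈ m.Om S, Q s s' * (f s - f s') ^ 2) / 2 / ∑ s ∈ m.Om S, m.Wt S j h s) +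
        1 / (S : ℝ) ^ 86 := by
  have hb := m5_big hS
  have hN := m5_N hS
  have hN0 : (0 : ℝ) ≤ N := Nat.cast_nonneg _
  have hok := hm.ino_ok hS hj hh hI
  have h1 := hok.wp (m := (S : ℝ) ^ 910) (by positivity) (by positivity) (ino_Pi hS) hQ0 hQ f hf
  have hC0 := hok.C1_nonneg
  have hC : 1 + (m.ino S j h).C1 ≤ 2 * (S : ℝ) ^ 208 := by
    linarith [ino_C1 (m := m) (j := j) (h := h) hS,
      one_le_pow₀ (n := 208) (show (1 : ℝ) ≤ S by linarith)]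
  have hΛ : (2 * (S : ℝ) ^ 5) ^ 100 ≤ (S : ℝ) ^ 509 := by
    have a1 : (2 : ℝ) ^ 100 ≤ (S : ℝ) ^ 9 :=
      le_trans (by norm_num) (pow_le_pow_left₀ (by norm_num) hb 9)
    rw [mul_pow, ← pow_mul, show 509 = 9 + 5 * 100 from rfl, pow_add]
    gcongr
  refine h1.trans (add_le_add (mul_le_mul_of_nonneg_right ?_ ?_) ?_)
  · show 6 * (1 + (m.ino S j h).C1) * (2 * (S : ℝ) ^ 5) ^ 100 * (S : ℝ) ^ 910 /
      (1 / (S : ℝ) ^ 100 / 4) ^ 2 ≤ _
    calc _ ≤ 6 * (2 * (S : ℝ) ^ 208) * (S : ℝ) ^ 509 * (S : ℝ) ^ 910 /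
          (1 / (S : ℝ) ^ 100 / 4) ^ 2 := by gcongr
      _ = 192 * (S : ℝ) ^ 1827 := by field_simp; norm_num
      _ ≤ _ := m5_mul hS (by linarith) (by norm_num)
  · exact div_nonneg (div_nonneg (sum_nonneg fun s hs => sum_nonneg fun s' hs' =>
      mul_nonneg (hQ0 s hs s' hs') (sq_nonneg _)) zero_le_two) hok.Z_pos.le
  · show 12 * (1 + (m.ino S j h).C1) * (6 * (1 / (S : ℝ) ^ 350) +
      6 * (N : ℝ) * Real.exp (-((S ^ 2 - 1 : ℕ) : ℝ)) +
      12 * (4 * (N : ℝ) * (1 / (S : ℝ) ^ 10 * (2 * (S : ℝ) ^ 5))) ^ (100 + 1) +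
      (2 * (N : ℝ) + 1) ^ 100 * (2 * (S : ℝ) ^ 5) ^ 100 * 8 / (S : ℝ) ^ 910) ≤ _
    have a1 : 6 * (1 / (S : ℝ) ^ 350) ≤ 1 / (S : ℝ) ^ 301 := by
      rw [mul_one_div]
      exact m5_div hS (by linarith) (by norm_num)
    have a2 : 6 * (N : ℝ) * Real.exp (-((S ^ 2 - 1 : ℕ) : ℝ)) ≤ 1 / (S : ℝ) ^ 301 := by
      have b1 : 400 * S ≤ S ^ 2 - 1 := by
        have := hS.big
        have : 4096 * S ≤ S ^ 2 := by rw [sq]; exact Nat.mul_le_mul_right _ this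
        omega
      have b2 : (S : ℝ) ^ 400 ≤ Real.exp ((S ^ 2 - 1 : ℕ) : ℝ) := by
        refine (pow_le_pow_left₀ (by positivity)
          (show (S : ℝ) ≤ Real.exp S by linarith [Real.add_one_le_exp (S : ℝ)]) 400).trans ?_
        rw [← Real.exp_nat_mul]
        exact Real.exp_le_exp.2 (by exact_mod_cast b1)
      rw [Real.exp_neg, ← div_eq_mul_inv]
      exact (div_le_div_of_nonneg_left (by positivity) (by positivity) b2).trans
        (m5_div hS (by linarith) (by norm_num))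
    have a3 : 12 * (4 * (N : ℝ) * (1 / (S : ℝ) ^ 10 * (2 * (S : ℝ) ^ 5))) ^ (100 + 1)
        ≤ 1 / (S : ℝ) ^ 301 := by
      have b1 : 4 * (N : ℝ) * (1 / (S : ℝ) ^ 10 * (2 * (S : ℝ) ^ 5)) ≤ 1 / (S : ℝ) ^ 4 :=
        le_of_eq_of_le (by field_simp; ring)
          (m5_div hS (c := 8 * N) (b := 5) (by linarith) le_rfl)
      calc _ ≤ 12 * (1 / (S : ℝ) ^ 4) ^ (100 + 1) := by gcongr
        _ = 12 / (S : ℝ) ^ 404 := by rw [one_div_pow, ← pow_mul, mul_one_div]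
        _ ≤ _ := m5_div hS (by linarith) (by norm_num)
    have a4 : (2 * (N : ℝ) + 1) ^ 100 * (2 * (S : ℝ) ^ 5) ^ 100 * 8 / (S : ℝ) ^ 910
        ≤ 8 * (1 / (S : ℝ) ^ 301) := by
      have b1 : 2 * (N : ℝ) + 1 ≤ S := by linarith
      calc _ ≤ (S : ℝ) ^ 100 * (S : ℝ) ^ 509 * 8 / (S : ℝ) ^ 910 := by gcongr
        _ = _ := by field_simp
    calc _ ≤ 12 * (2 * (S : ℝ) ^ 208) * (11 * (1 / (S : ℝ) ^ 301)) :=
          (mul_le_mul_of_nonneg_left (by linarith) (by linarith)).trans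
            (mul_le_mul_of_nonneg_right (by linarith) (by positivity))
      _ = 264 / (S : ℝ) ^ 93 := by field_simp; norm_num
      _ ≤ _ := m5_div hS (by linarith) (by norm_num)

end Md

end Crest.Agent.R302B
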