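import Crest.Agent.R302B.L2
import Crest.Agent.R302B.Mod5
import Crest.Agent.R302B.Mod3

/-!
# Row 302 (binary layer): L3
The chain of a stage.  `Met` with `w s = if s ∈ OmL then wN s else 0`, `D s = (s.length = N)` (`memQ_spec`, `mem_iff`, `wN_eq`).
`wp`: `OK.wp_mod` for `m.box ρ` with `Q v v' = 4 * WL (ofFn v) * kr (ofFn v) (ofFn v')` (`Met.cond_ge`, `prop_ge`); if `jj ≠ 0` then `ρ ≤ S^15` (`rho_phase1`), so
`min (W t) ρ < S^28`.
-/

set_option autoImplicit false
set_option linter.unusedSectionVars false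

noncomputable section

namespace Crest.Agent.R302B

open Finset Crest.Agent.R302 Crest.Agent.R302.QT Crest.Agent.Lib.PolyTime

variable {n N : ℕ} {O : Orc} {a : CIn} {m : Md n N} {θ : Tht} {s : List ℤ}


theorem Rev.smul {σ : Type} {step : σ → QT σ} {Ω : Finset σ} {W V : σ → ℝ} {c : ℝ} (h : Rev O step Ω V) (hc : 0 < c)
    (hV : ∀ s ∈ Ω, V s = c * W s) : Rev O step Ω W := by
  refine ⟨fun s hs => ?_, h.closed, fun s hs s' hs' => ?_, h.lazy⟩
  · have := h.pos s hs
    rw [hV s hs] at this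
    exact (mul_pos_iff_of_pos_left hc).1 this
  · have := h.rev s hs s' hs'
    rw [hV s hs, hV s' hs', mul_assoc, mul_assoc] at this
    exact mul_left_cancel₀ hc.ne' this

theorem jj_rho (S i : ℕ) : jj S i = 0 ∨ rho S i ≤ S ^ 15 := by
  rcases Nat.eq_zero_or_pos i with rfl | h1
  · exact Or.inr (Nat.zero_le _)
  · by_cases h2 : i ≤ S ^ 17 + 1
    · exact Or.inr (rho_phase1 h1 h2).le
    · left
      unfold jj
      omega

theorem mL_le {R S : ℕ} (hS : Sz N R S) : mL S + 1 ≤ S ^ 18 := by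
  have h1 := hS.big
  have h2 : 0 < S ^ 17 := pow_pos (by omega) _
  have h3 : S ^ 17 * 4096 ≤ S ^ 18 := by
    rw [pow_succ S 17]
    exact Nat.mul_le_mul_left _ h1
  unfold mL
  omega

namespace Rp

variable {i : ℕ}

theorem L3_hρ (hG : GI m (aS a) i θ) : jj (aS a) θ.1 = 0 ∨ θ.2.1 ≤ aS a ^ 15 := by
  rw [hG.idx, hG.r]
  exact jj_rho _ _

theorem L3_hh (h : Rp O a m) (hi : i ≤ mL (aS a)) (hG : GI m (aS a) i θ) (u : Fin n) :
    hOf n θ u ≤ aS a ^ 18 := by
  have h1 := hG.hb u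
  have h2 := mL_le h.sz
  omega

open Classical in
theorem met (h : Rp O a m) (hi : i ≤ mL (aS a)) (hG : GI m (aS a) i θ) :
    Met O (wqL a θ) (propL a θ) (OmL m (aS a) θ) (fun s => if s ∈ OmL m (aS a) θ then wN a θ s else 0)
      fun s => s.length = N := by
  obtain ⟨c, hc, hw⟩ := h.wN_eq (L3_hρ hG) (h.L3_hh hi hG)
  refine ⟨fun s hs => (mem_OmL.1 hs).1, fun s hs => ?_, fun s hs => ?_, fun s _ => h.prop_len θ s,
    fun s hs s' hs' => h.prop_symm θ (mem_OmL.1 hs).1 (mem_OmL.1 hs').1⟩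
  · obtain ⟨b, hb, hb'⟩ := memQ_spec h.ev s
    have h1 := hb.map fun b => if b = true ∧ okL a θ.2.1 s = true then wN a θ s else 0
    unfold wqL
    rw [h.hN]
    refine (congrArg _ (if_congr ?_ rfl rfl)).mp h1
    rw [h.mem_iff hs, hb']
  · constructor
    · intro hm
      rw [if_pos hm]
      intro h0
      have h1 := hw s hm
      have h2 : 0 < WL m (aS a) θ s := Md.Wt_pos h.sz _
      rw [h0, Nat.cast_zero] at h1
      exact (mul_pos hc h2).ne h1
    · intro h0
      by_contra hm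
      exact h0 (if_neg hm)

theorem rev (h : Rp O a m) (hi : i ≤ mL (aS a)) (hG : GI m (aS a) i θ) :
    Rev O (stepL a θ) (OmL m (aS a) θ) (WL m (aS a) θ) := by
  obtain ⟨c, hc, hw⟩ := h.wN_eq (L3_hρ hG) (h.L3_hh hi hG)
  refine Rev.smul (h.met hi hG).rev hc fun s hs => ?_
  simp only [if_pos hs]
  exact hw s hs

theorem wp (h : Rp O a m) (hi : i ≤ mL (aS a)) (hG : GI m (aS a) i θ) :
    WP O (stepL a θ) (OmL m (aS a) θ) (WL m (aS a) θ) ((aS a : ℝ) ^ 1835) (1 / (aS a : ℝ) ^ 86) := by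
  obtain ⟨c, hc, hw⟩ := h.wN_eq (L3_hρ hG) (h.L3_hh hi hG)
  have hmet := h.met hi hG
  have hS : (4096 : ℝ) ≤ aS a := by exact_mod_cast h.sz.big
  have hWL : ∀ v : Fin N → ℤ, WL m (aS a) θ (List.ofFn v) =
      (m.box θ.2.1).Wt (aS a) (jj (aS a) θ.1) (hOf n θ) v := fun v => by
    unfold WL
    rw [vec_ofFn]
    rfl
  have hpos : ∀ s, 0 < WL m (aS a) θ s := fun s => Md.Wt_pos h.sz _
  have hmem : ∀ v ∈ (m.box θ.2.1).Om (aS a), List.ofFn v ∈ OmL m (aS a) θ := fun v hv =>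
    mem_OmL.2 ⟨List.length_ofFn, by rw [vec_ofFn]; exact hv⟩
  intro f hf
  have main := Md.OK.wp_mod (j := jj (aS a) θ.1) (h := hOf n θ) (h.ok.box θ.2.1) h.sz
    (by
      refine (L3_hρ hG).imp id fun h1 t => ?_
      have h2 : aS a ^ 15 < aS a ^ 28 :=
        Nat.pow_lt_pow_right (by have := h.sz.big; omega) (by norm_num)
      exact (min_le_right _ _).trans_lt (by exact_mod_cast h1.trans_lt h2))
    (h.L3_hh hi hG)
    (by
      rw [hG.idx, hG.r]
      exact hG.inv hi)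
    (Q := fun v v' => 4 * (WL m (aS a) θ (List.ofFn v) *
      kr O (stepL a θ) (List.ofFn v) (List.ofFn v')))
    (fun v _ v' _ => mul_nonneg (by norm_num) (mul_nonneg (hpos _).le (kr_nonneg _ _)))
    (fun v hv v' hv' hne => by
      have h1 := hmet.cond_ge (hmem v hv) (hmem v' hv') fun e => hne (List.ofFn_injective e)
      simp only [if_pos (hmem v hv), if_pos (hmem v' hv')] at h1
      rw [hw _ (hmem v hv), hw _ (hmem v' hv'), ← mul_min_of_nonneg _ _ hc.le] at h1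
      have h2 := h.prop_ge θ (jj (aS a) θ.1) (hOf n θ) v v'
      rw [← hWL, ← hWL]
      have h3 : 0 ≤ min (WL m (aS a) θ (List.ofFn v)) (WL m (aS a) θ (List.ofFn v')) :=
        le_min (hpos _).le (hpos _).le
      refine (mul_le_mul_of_nonneg_right h2 h3).trans (le_of_mul_le_mul_left ?_ hc)
      unfold stepL
      linarith)
    (fun v => f (List.ofFn v)) fun v hv => hf _ (hmem v hv)
  have hen : 0 ≤ en O (stepL a θ) (OmL m (aS a) θ) (WL m (aS a) θ) f /
      ∑ s ∈ OmL m (aS a) θ, WL m (aS a) θ s := by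
    refine div_nonneg (div_nonneg (sum_nonneg fun s _ => sum_nonneg fun s' _ => ?_) (by norm_num))
      (sum_nonneg fun s _ => (hpos s).le)
    exact mul_nonneg (mul_nonneg (hpos s).le (kr_nonneg _ _)) (sq_nonneg _)
  have h4 : (aS a : ℝ) ^ 1832 * 4 ≤ (aS a : ℝ) ^ 1835 := by
    rw [show 1835 = 1832 + 3 by norm_num, pow_add]
    refine mul_le_mul_of_nonneg_left ?_ (by positivity)
    calc (4 : ℝ) ≤ 4096 ^ 3 := by norm_num
      _ ≤ _ := by gcongr
  refine le_trans ?_ (add_le_add (mul_le_mul_of_nonneg_right h4 hen) le_rfl)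
  unfold mn en at *
  simp only [sum_OmL, ← hWL] at main ⊢
  refine main.trans (le_of_eq ?_)
  simp only [mul_assoc (4 : ℝ), ← mul_sum]
  ring

end Rp

end Crest.Agent.R302B
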