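import Crest.Agent.R302B.L1
import Crest.Agent.R302B.Mod3
import Crest.Agent.R302B.Cnt

/-!
# Row 302 (binary layer): L4
The controller: accurate empirical means give the next invariant.
* Means under `WL` on `OmL` (`Z` the total weight, `Z ≤ 2 n0 ≤ 2 (n0' + S^-400)`, `n0' ≥ 1`): `mn e0 = n0' / Z ≥ 1/3`, `mn ep = ms Om Ep / Z`,
  `mn (aV / dnL) = n0'(previous stage) / Z ≥ 1/8` (`Wt_temp`, `mem_box`, `rho_mono`, `GI.prev`), at the last stage `mn fl = Zf / Z ≥ 1/8` (`ms_Fl`, `flat_box`, `rho_last`).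
* `fields`: `U = {p | 3 pC * count e0 < 8 S^10 * count ep}` satisfies the hypotheses of `OK.update` (`ms_le`); then `stage_nxt`, `Nxt.inv`, `Nxt.n0_le`, `Nxt.warm`.
* `ratio_est` with `α = 1/8`, `e = S^-19`, `δ = S^-20`.
-/

set_option autoImplicit false
set_option linter.unusedSectionVars false

noncomputable section

namespace Crest.Agent.R302B

open Finset Crest.Agent.R302 Crest.Agent.R302.QT Crest.Agent.Lib.PolyTime

variable {n N : ℕ} {O : Orc} {a : CIn} {m : Md n N} {θ : Tht} {s : List ℤ}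

attribute [local irreducible] aS


/-- the statistics -/
def stat (a : CIn) (θ : Tht) (q : ℕ) (s : List ℤ) : ℝ :=
  if q = 0 then (aV a θ s : ℝ) / dnL a else if q = 1 then (if e0L a s = true then 1 else 0)
  else if q = 2 then (if flL a s = true then 1 else 0) else if epL a (q - 3) s = true then 1 else 0

theorem stat_mem (a : CIn) (θ : Tht) (q : ℕ) (s : List ℤ) : 0 ≤ stat a θ q s ∧ stat a θ q s ≤ 1 := by
  unfold stat
  split_ifs
  · refine ⟨by positivity, div_le_one_of_le₀ ?_ (Nat.cast_nonneg _)⟩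
    unfold aV dnL
    split_ifs
    · exact_mod_cast tw_le _ _ _
    · exact_mod_cast Nat.zero_le _
  all_goals norm_num

theorem sum_ite_eq_countP {β : Type} (p : β → Bool) (l : List β) :
    (l.map fun s => if p s = true then (1 : ℝ) else 0).sum = l.countP p := by
  induction l with
  | nil => simp
  | cons x l ih =>
    rw [List.map_cons, List.sum_cons, ih, List.countP_cons]
    split_ifs <;> simp [add_comm]

theorem L4f_real {P u K Z e c n0 n0' E E' : ℝ} (hP : 64 ≤ P) (hu0 : 0 < u) (hu : u ≤ 1 / 100) (hK : 0 < K)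
    (hZ : 0 < Z) (hZ3 : Z ≤ 3 * n0') (h1 : 1 ≤ n0') (n1 : n0' ≤ n0) (n2 : n0 ≤ n0' + u ^ 2) (E1 : E' ≤ E)
    (E2 : E ≤ E' + u ^ 2) (he : |e - K * (n0' / Z)| ≤ u ^ 2 * K) (hc : |c - K * (E' / Z)| ≤ u ^ 2 * K) :
    (3 * P * u * e < 8 * c → P / 4 * u * n0 ≤ E) ∧ (8 * c ≤ 3 * P * u * e → E ≤ P / 2 * u * n0) := by
  have tr : ∀ {x y : ℝ}, |x - K * (y / Z)| ≤ u ^ 2 * K → |x * Z / K - y| ≤ 3 * u ^ 2 * n0' := fun {x y} h => by
    have e1 : x * Z / K - y = (x - K * (y / Z)) * (Z / K) := by field_simp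
    rw [e1, abs_mul, abs_of_pos (div_pos hZ hK)]
    calc _ ≤ u ^ 2 * K * (Z / K) := mul_le_mul_of_nonneg_right h (div_pos hZ hK).le
      _ = u ^ 2 * Z := by field_simp
      _ ≤ u ^ 2 * (3 * n0') := by gcongr
      _ = _ := by ring
  obtain ⟨a1, a2⟩ := abs_le.1 (tr he)
  obtain ⟨b1, b2⟩ := abs_le.1 (tr hc)
  have hq := div_pos hZ hK
  have hn : 0 < n0' := by linarith
  have hw : 0 < u * n0' := mul_pos hu0 hn
  have hu2 : u ^ 2 ≤ 1 / 100 := by nlinarith
  have c1 : u ^ 2 * n0' ≤ 1 / 100 * (u * n0') := by nlinarith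
  have c2 : u ^ 2 ≤ u ^ 2 * n0' := le_mul_of_one_le_right (sq_nonneg _) h1
  have c3 : u ^ 2 * n0' ≤ 1 / 100 * n0' := mul_le_mul_of_nonneg_right hu2 hn.le
  have hPu : 0 < P * u := mul_pos (by linarith) hu0
  have c4 : 64 * (u * n0') ≤ P * u * n0' := by nlinarith
  constructor
  · intro h
    have h' : 3 * (P * u) * (e * Z / K) ≤ 8 * (c * Z / K) := by
      have := mul_le_mul_of_nonneg_right h.le hq.le
      calc _ = 3 * P * u * e * (Z / K) := by ring
        _ ≤ 8 * c * (Z / K) := this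
        _ = _ := by ring
    have d1 : P * u * (97 / 100 * n0') ≤ P * u * (e * Z / K) := mul_le_mul_of_nonneg_left (by linarith) hPu.le
    have d2 : P * u * n0 ≤ P * u * (101 / 100 * n0') := mul_le_mul_of_nonneg_left (by linarith) hPu.le
    nlinarith
  · intro h
    have h' : 8 * (c * Z / K) ≤ 3 * (P * u) * (e * Z / K) := by
      have := mul_le_mul_of_nonneg_right h hq.le
      calc _ = 8 * c * (Z / K) := by ring
        _ ≤ 3 * P * u * e * (Z / K) := this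
        _ = _ := by ring
    have d1 : P * u * (e * Z / K) ≤ P * u * (103 / 100 * n0') := mul_le_mul_of_nonneg_left (by linarith) hPu.le
    have d2 : P * u * n0' ≤ P * u * n0 := mul_le_mul_of_nonneg_left n1 hPu.le
    nlinarith

theorem L4f_pow {x : ℝ} (hx : 4096 ≤ x) {p q : ℕ} (h : p ≤ q) : 1 / x ^ q ≤ 1 / x ^ p :=
  one_div_le_one_div_of_le (pow_pos (by linarith) _) (pow_le_pow_right₀ (by linarith) h)

theorem L4f_small {x : ℝ} (hx : 4096 ≤ x) {q : ℕ} (h : 1 ≤ q) : 1 / x ^ q ≤ 1 / 100 :=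
  (L4f_pow hx h).trans (one_div_le_one_div_of_le (by norm_num) (by rw [pow_one]; linarith))

theorem Md.OK.n0_le_n0' {R S : ℕ} (hm : m.OK R) (hS : Sz N R S) (j : ℕ) : m.n0 S j ≤ m.n0' S j + 1 / (S : ℝ) ^ 400 :=
  hm.ms_le hS (fun _ => Nat.zero_le _) fun s hs => by rw [hs, L1_nm1_eq_zero.2 rfl]; omega

namespace Rp

variable {i K : ℕ}

theorem L4_sum (hG : GI m (aS a) i θ) (f : List ℤ → ℝ) :
    ∑ s ∈ OmL m (aS a) θ, WL m (aS a) θ s * f s =
      ∑ v ∈ (m.box (rho (aS a) i)).Om (aS a), m.Wt (aS a) (jj (aS a) i) (hOf n θ) v * f (List.ofFn v) := by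
  rw [sum_OmL, hG.r]
  unfold WL
  simp only [vec_ofFn]
  rw [hG.idx]

theorem L4_ind (hG : GI m (aS a) i θ) (p : List ℤ → Bool) (E : (Fin N → ℤ) → Prop)
    (hp : ∀ s, p s = true ↔ E (vec N s)) :
    mn (OmL m (aS a) θ) (WL m (aS a) θ) (fun s => if p s = true then 1 else 0) =
      m.ms (aS a) (jj (aS a) i) (hOf n θ) ((m.box (rho (aS a) i)).Om (aS a)) E /
        ∑ s ∈ OmL m (aS a) θ, WL m (aS a) θ s := by
  classical
  rw [mn, L4_sum hG, Md.ms, sum_filter]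
  congr 1
  refine sum_congr rfl fun v _ => ?_
  have := hp (List.ofFn v)
  rw [vec_ofFn] at this
  by_cases hE : E v
  · rw [if_pos (this.2 hE), if_pos hE, mul_one]
  · rw [if_neg fun c => hE (this.1 c), if_neg hE, mul_zero]

theorem mn_e0 (h : Rp O a m) (hG : GI m (aS a) i θ) :
    mn (OmL m (aS a) θ) (WL m (aS a) θ) (stat a θ 1) =
      (m.box (rho (aS a) i)).n0' (aS a) (jj (aS a) i) / ∑ s ∈ OmL m (aS a) θ, WL m (aS a) θ s := by
  classical
  rw [show stat a θ 1 = fun s => if e0L a s = true then (1 : ℝ) else 0 from rfl,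
    L4_ind hG _ (fun v => m.sec (aS a) v = 0) h.e0L_iff]
  congr 1
  exact sum_congr rfl fun v hv => Md.Wt_sec_zero (by simp only [mem_filter] at hv; exact hv.2) _

theorem mn_ep (h : Rp O a m) (hG : GI m (aS a) i θ) (p : Fin n) :
    mn (OmL m (aS a) θ) (WL m (aS a) θ) (stat a θ (p + 3)) =
      m.ms (aS a) (jj (aS a) i) (hOf n θ) ((m.box (rho (aS a) i)).Om (aS a)) (m.Ep (aS a) p) /
        ∑ s ∈ OmL m (aS a) θ, WL m (aS a) θ s := by
  rw [show stat a θ (p + 3) = fun s => if epL a p s = true then (1 : ℝ) else 0 from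
    funext fun s => by simp [stat], L4_ind hG _ _ (h.epL_iff p)]

theorem mn_aV (h : Rp O a m) (hG : GI m (aS a) i θ) :
    mn (OmL m (aS a) θ) (WL m (aS a) θ) (stat a θ 0) =
      (m.box (rho (aS a) (i - 1))).n0' (aS a) (jj (aS a) (i - 1)) / ∑ s ∈ OmL m (aS a) θ, WL m (aS a) θ s := by
  classical
  have hS : 0 < aS a := lt_of_lt_of_le (by norm_num) h.sz.big
  have hd : (dnL a : ℝ) ≠ 0 := by
    unfold dnL
    positivity
  have hr : rho (aS a) (i - 1) ≤ rho (aS a) i := rho_mono _ (Nat.sub_le _ _)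
  have hc : ∀ v : Fin N → ℤ, (l1 (secL a (List.ofFn v)) = 0 ∧ inB θ.2.2.1 (List.ofFn v) = true) ↔
      (m.sec (aS a) v = 0 ∧ ∀ k, |v k| ≤ rho (aS a) (i - 1)) := fun v => by
    rw [h.L1_l1_sec, L1_nm1_eq_zero, inB_iff (N := N) List.length_ofFn, vec_ofFn, hG.rp]
  rw [mn, L4_sum hG]
  congr 1
  rw [← sum_filter_of_ne (p := fun v => m.sec (aS a) v = 0 ∧ ∀ k, |v k| ≤ rho (aS a) (i - 1)) fun v _ hv => by
    by_contra c
    refine hv ?_
    rw [stat, if_pos rfl, aV, if_neg fun c' => c ((hc v).1 c'), Nat.cast_zero, zero_div, mul_zero]]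
  unfold Md.n0' Md.ms
  refine sum_congr ?_ fun v hv => ?_
  · ext v
    simp only [mem_filter, Md.Mod1_mem_Om, h.ok.mem_box]
    constructor
    · rintro ⟨⟨⟨a1, -⟩, a2, a3⟩, a4, a5⟩
      exact ⟨⟨⟨a1, a5⟩, a2, a3⟩, a4⟩
    · rintro ⟨⟨⟨a1, a5⟩, a2, a3⟩, a4⟩
      exact ⟨⟨⟨a1, fun k => (a5 k).trans (by exact_mod_cast hr)⟩, a2, a3⟩, a4, a5⟩
  · simp only [mem_filter, Md.Mod1_mem_Om, h.ok.mem_box] at hv
    obtain ⟨⟨⟨-, a5⟩, -⟩, a4⟩ := hv
    have he : (jj (aS a) (i - 1) - jj (aS a) i) * nm1 v ≤ N * aS a ^ 15 := by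
      by_cases c : 2 ≤ i ∧ i ≤ aS a ^ 17 + 1
      · have c1 : jj (aS a) (i - 1) - jj (aS a) i ≤ 1 := by
          unfold jj
          omega
        have c2 : nm1 v ≤ N * aS a ^ 15 := by
          refine (sum_le_card_nsmul _ _ (aS a ^ 15) fun k _ => ?_).trans (by simp)
          have := a5 k
          rw [rho_phase1 (by omega) (by omega), ← Int.natCast_natAbs] at this
          exact_mod_cast this
        calc _ ≤ 1 * (N * aS a ^ 15) := Nat.mul_le_mul c1 c2
          _ = _ := one_mul _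
      · have c1 : jj (aS a) (i - 1) - jj (aS a) i = 0 := by
          unfold jj
          omega
        rw [c1, zero_mul]
        exact Nat.zero_le _
    have ej : jj (aS a) (i - 1) = jj (aS a) i + (jj (aS a) (i - 1) - jj (aS a) i) := by
      unfold jj
      omega
    rw [stat, if_pos rfl, aV, if_pos ((hc v).2 ⟨a4, a5⟩), hG.idx, L1_l1_ofFn, h.hN,
      tw_eq (pow_pos hS _) he, Md.Wt_sec_zero (m := m) a4 0]
    have e2 : (dnL a : ℝ) = ((aS a ^ 16 : ℕ) : ℝ) ^ (N * aS a ^ 15) := by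
      rw [dnL, h.hN, Nat.cast_pow]
    rw [← e2, mul_div_cancel_left₀ _ hd, Nat.cast_pow, ← Md.Wt_temp, ← ej]
    rfl

theorem mn_fl (h : Rp O a m) (hG : GI m (aS a) (mL (aS a)) θ) :
    mn (OmL m (aS a) θ) (WL m (aS a) θ) (stat a θ 2) =
      (m.box (rho (aS a) (mL (aS a)))).Zf (aS a) / ∑ s ∈ OmL m (aS a) θ, WL m (aS a) θ s := by
  have ej : jj (aS a) (mL (aS a)) = 0 := by
    unfold jj mL
    omega
  rw [show stat a θ 2 = fun s => if flL a s = true then (1 : ℝ) else 0 from rfl, L4_ind hG _ _ h.flL_iff, ej,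
    ← Md.ms_Fl h.sz (hOf n θ)]
  rfl

theorem Z_le (h : Rp O a m) (hi : i ≤ mL (aS a)) (hG : GI m (aS a) i θ) :
    0 < ∑ s ∈ OmL m (aS a) θ, WL m (aS a) θ s ∧
      ∑ s ∈ OmL m (aS a) θ, WL m (aS a) θ s ≤ 3 * (m.box (rho (aS a) i)).n0' (aS a) (jj (aS a) i) ∧
      ∑ s ∈ OmL m (aS a) θ, WL m (aS a) θ s ≤ 8 * (m.box (rho (aS a) (i - 1))).n0' (aS a) (jj (aS a) (i - 1)) := by
  classical
  have hS : (4096 : ℝ) ≤ aS a := by exact_mod_cast h.sz.big
  have e : ∑ s ∈ OmL m (aS a) θ, WL m (aS a) θ s =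
      ∑ v ∈ (m.box (rho (aS a) i)).Om (aS a), (m.box (rho (aS a) i)).Wt (aS a) (jj (aS a) i) (hOf n θ) v := by
    rw [sum_OmL, hG.r]
    unfold WL
    simp only [vec_ofFn]
    rw [hG.idx]
    rfl
  have t := (h.ok.box (rho (aS a) i)).total h.sz (hG.inv hi)
  have t' : ∑ s ∈ OmL m (aS a) θ, WL m (aS a) θ s ≤ 2 * (m.box (rho (aS a) i)).n0 (aS a) (jj (aS a) i) := by
    rw [e]
    exact le_trans (sum_le_sum_of_subset_of_nonneg (filter_subset _ _) fun s _ _ => (Md.Wt_pos h.sz s).le) t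
  have s1 := L4f_small hS (q := 400) (by norm_num)
  have a1 := (h.ok.box (rho (aS a) i)).n0_le_n0' h.sz (jj (aS a) i)
  have a2 := (h.ok.box (rho (aS a) i)).one_le_n0' h.sz (jj (aS a) i)
  have b1 := (h.ok.box (rho (aS a) (i - 1))).n0_le_n0' h.sz (jj (aS a) (i - 1))
  have b2 := (h.ok.box (rho (aS a) (i - 1))).one_le_n0' h.sz (jj (aS a) (i - 1))
  have c := hG.prev hi
  refine ⟨?_, by linarith, by linarith⟩
  rw [e]
  exact sum_pos (fun s _ => Md.Wt_pos h.sz s) ⟨0, (h.ok.box _).zero_mem _⟩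

theorem fields (h : Rp O a m) (hi : i ≤ mL (aS a)) (hG : GI m (aS a) i θ) {l : List (List ℤ)} (hK : 0 < K)
    (hl : ∀ q ∈ range (n + 3), |(l.map (stat a θ q)).sum - K * mn (OmL m (aS a) θ) (WL m (aS a) θ) (stat a θ q)| ≤
      1 / (aS a : ℝ) ^ 20 * K) :
    (m.box (rho (aS a) i)).Inv (aS a) (jj (aS a) i) (hOf n (nxtL a θ l)) (3 / 4 * pC n) := by
  classical
  have hS : (4096 : ℝ) ≤ aS a := by exact_mod_cast h.sz.big
  have hS0 : (0 : ℝ) < aS a := by linarith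
  have hm := h.ok.box (rho (aS a) i)
  set U : Finset (Fin n) := univ.filter fun p : Fin n =>
    3 * pC n * l.countP (e0L a) < 8 * aS a ^ 10 * l.countP (epL a p) with hU
  have e : hOf n (nxtL a θ l) = fun p => hOf n θ p + if p ∈ U then 1 else 0 := by
    funext u
    unfold hOf nxtL
    simp only [hU, mem_filter, mem_univ, true_and]
    rw [List.getD_eq_getElem _ _ (by simp [h.hn]), List.getElem_map, List.getElem_range, h.hn]
  have hh : ∀ u, hOf n θ u ≤ aS a ^ 18 := fun u => by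
    have h1 := hG.hb u
    have h2 : mL (aS a) + 1 ≤ aS a ^ 18 := by
      have h1 := h.sz.big
      have h2 : 0 < aS a ^ 17 := pow_pos (by omega) _
      have h3 : aS a ^ 17 * 4096 ≤ aS a ^ 18 := by
        rw [pow_succ (aS a) 17]
        exact Nat.mul_le_mul_left _ h1
      unfold mL
      omega
    omega
  obtain ⟨Z0, Z3, -⟩ := h.Z_le hi hG
  have b0 := hl 1 (by simp)
  rw [h.mn_e0 hG, show stat a θ 1 = fun s => if e0L a s = true then (1 : ℝ) else 0 from rfl,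
    sum_ite_eq_countP] at b0
  have eu : lamH (aS a) ^ 2 = 1 / (aS a : ℝ) ^ 10 := by
    unfold lamH
    field_simp
  have e2 : 1 / (aS a : ℝ) ^ 20 = (1 / (aS a : ℝ) ^ 10) ^ 2 := by field_simp
  have s1 : 1 / (aS a : ℝ) ^ 400 ≤ (1 / (aS a : ℝ) ^ 10) ^ 2 := e2 ▸ L4f_pow hS (by norm_num)
  have key : ∀ p : Fin n,
      (3 * (pC n : ℝ) * (1 / (aS a : ℝ) ^ 10) * l.countP (e0L a) < 8 * l.countP (epL a p) →
        (pC n : ℝ) / 4 * (1 / (aS a : ℝ) ^ 10) * (m.box (rho (aS a) i)).n0 (aS a) (jj (aS a) i) ≤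
          (m.box (rho (aS a) i)).ms (aS a) (jj (aS a) i) (hOf n θ) (bases (m.box (rho (aS a) i)).g)
            ((m.box (rho (aS a) i)).Ep (aS a) p)) ∧
      (8 * (l.countP (epL a p) : ℝ) ≤ 3 * (pC n : ℝ) * (1 / (aS a : ℝ) ^ 10) * l.countP (e0L a) →
        (m.box (rho (aS a) i)).ms (aS a) (jj (aS a) i) (hOf n θ) (bases (m.box (rho (aS a) i)).g)
            ((m.box (rho (aS a) i)).Ep (aS a) p) ≤
          (pC n : ℝ) / 2 * (1 / (aS a : ℝ) ^ 10) * (m.box (rho (aS a) i)).n0 (aS a) (jj (aS a) i)) := fun p => by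
    have c0 := hl (p + 3) (by simp)
    rw [h.mn_ep hG, show stat a θ (p + 3) = fun s => if epL a p s = true then (1 : ℝ) else 0 from
      funext fun s => by simp [stat], sum_ite_eq_countP] at c0
    rw [e2] at b0 c0
    refine L4f_real (by exact_mod_cast (by unfold pC; omega : 64 ≤ pC n)) (by positivity)
      (L4f_small hS (by norm_num)) (by exact_mod_cast hK) Z0 Z3 (hm.one_le_n0' h.sz _) (Md.n0'_le h.sz _)
      ((hm.n0_le_n0' h.sz _).trans (by linarith)) ?_ ?_ b0 c0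
    · exact Md.ms_mono (m := m.box (rho (aS a) i)) h.sz fun s hs e => ⟨(mem_filter.1 hs).1, e⟩
    · refine (hm.ms_le h.sz hh fun s hs => ?_).trans (add_le_add le_rfl s1)
      rw [hs.2]
      norm_num
  have tr : ∀ p : Fin n, p ∈ U ↔
      3 * (pC n : ℝ) * (1 / (aS a : ℝ) ^ 10) * l.countP (e0L a) < 8 * l.countP (epL a p) := fun p => by
    simp only [hU, mem_filter, mem_univ, true_and]
    rw [show 3 * (pC n : ℝ) * (1 / (aS a : ℝ) ^ 10) * l.countP (e0L a) =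
      3 * (pC n : ℝ) * l.countP (e0L a) / (aS a : ℝ) ^ 10 by ring, div_lt_iff₀ (by positivity),
      mul_right_comm (8 : ℝ)]
    exact_mod_cast Iff.rfl
  rw [e]
  refine hm.update h.sz (hG.inv hi) U (fun p hp => ?_) fun p hp => ?_
  · rw [eu]
    exact (key p).1 ((tr p).1 hp)
  · rw [eu]
    exact (key p).2 (not_lt.1 fun c => hp ((tr p).2 c))

end Rp

end Crest.Agent.R302B
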