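import Crest.Agent.R302B.L4

/-!
# Row 302 (binary layer): L4n
One round of the controller.
-/

set_option autoImplicit false
set_option linter.unusedSectionVars false

noncomputable section

namespace Crest.Agent.R302B

open Finset Crest.Agent.R302 Crest.Agent.R302.QT Crest.Agent.Lib.PolyTime

variable {n N : ℕ} {O : Orc} {a : CIn} {m : Md n N} {θ : Tht} {s : List ℤ}

attribute [local irreducible] aS

theorem L4n_prod {num den b A B x c d e : ℝ} {i : ℕ} (he : e ≤ 1) (he0 : 0 ≤ e) (hb : 0 ≤ b) (hd : 0 ≤ d)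
    (hden : 0 ≤ den)
    (lo : (1 - e) ^ i * A * den ≤ num) (hi : num ≤ (1 + e) ^ i * A * den)
    (r1 : (1 - e) * (B * c) * x ≤ b * A) (r2 : b * A ≤ (1 + e) * (B * c) * x) :
    (1 - e) ^ (i + 1) * B * (den * (x * d * c)) ≤ num * (b * d) ∧
      num * (b * d) ≤ (1 + e) ^ (i + 1) * B * (den * (x * d * c)) := by
  have h1 : 0 ≤ (1 - e) ^ i * den * d := mul_nonneg (mul_nonneg (pow_nonneg (by linarith) _) hden) hd
  have h2 : 0 ≤ (1 + e) ^ i * den * d := by positivity
  constructor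
  · calc _ = (1 - e) ^ i * den * d * ((1 - e) * (B * c) * x) := by ring
      _ ≤ (1 - e) ^ i * den * d * (b * A) := mul_le_mul_of_nonneg_left r1 h1
      _ = (1 - e) ^ i * A * den * (b * d) := by ring
      _ ≤ _ := mul_le_mul_of_nonneg_right lo (mul_nonneg hb hd)
  · calc _ ≤ (1 + e) ^ i * A * den * (b * d) := mul_le_mul_of_nonneg_right hi (mul_nonneg hb hd)
      _ = (1 + e) ^ i * den * d * (b * A) := by ring
      _ ≤ (1 + e) ^ i * den * d * ((1 + e) * (B * c) * x) := mul_le_mul_of_nonneg_left r2 h2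
      _ = _ := by ring

theorem L4n_ratio {x b A B Z K S : ℝ} (hS : 4096 ≤ S) (hK : 0 < K) (hZ : 0 < Z) (hA : Z ≤ 8 * A) (hB : Z ≤ 8 * B)
    (ha : |x - K * (A / Z)| ≤ 1 / S ^ 20 * K) (hb : |b - K * (B / Z)| ≤ 1 / S ^ 20 * K) :
    0 < x ∧ (1 - 1 / S ^ 19) * B * x ≤ b * A ∧ b * A ≤ (1 + 1 / S ^ 19) * B * x := by
  have h0 : 0 < S := by linarith
  obtain ⟨r0, r1, r2⟩ := ratio_est (α := 1 / 8) (e := 1 / S ^ 19) hK (by norm_num)
    (by rw [le_div_iff₀ hZ]; linarith) (by rw [le_div_iff₀ hZ]; linarith) ha hb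
    (by
      rw [show 4 * (1 / S ^ 20) = 4 / S * (1 / S ^ 19) by field_simp]
      refine mul_le_mul_of_nonneg_right ?_ (by positivity)
      rw [div_le_iff₀ h0]
      linarith)
    (by
      rw [div_le_one (by positivity)]
      exact one_le_pow₀ (by linarith))
  refine ⟨r0, ?_, ?_⟩
  · have := mul_le_mul_of_nonneg_right r1 hZ.le
    rwa [show (1 - 1 / S ^ 19) * (B / Z) * x * Z = (1 - 1 / S ^ 19) * B * x by field_simp,
      show b * (A / Z) * Z = b * A by field_simp] at this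
  · have := mul_le_mul_of_nonneg_right r2 hZ.le
    rwa [show (1 + 1 / S ^ 19) * (B / Z) * x * Z = (1 + 1 / S ^ 19) * B * x by field_simp,
      show b * (A / Z) * Z = b * A by field_simp] at this

theorem L4n_sum (f : List ℤ → ℕ) (c : ℝ) (l : List (List ℤ)) :
    (l.map fun s => (f s : ℝ) / c).sum = ((l.map f).sum : ℕ) / c := by
  induction l with
  | nil => simp
  | cons x l ih => simp only [List.map_cons, List.sum_cons, ih, Nat.cast_add, add_div]

namespace Rp

variable {i K : ℕ}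

theorem L4n_h (h : Rp O a m) (l : List (List ℤ)) (u : Fin n) :
    hOf n θ u ≤ hOf n (nxtL a θ l) u ∧ hOf n (nxtL a θ l) u ≤ hOf n θ u + 1 := by
  have e : hOf n (nxtL a θ l) u = hOf n θ u +
      if 3 * pC (an a) * l.countP (e0L a) < 8 * aS a ^ 10 * l.countP (epL a u) then 1 else 0 := by
    unfold hOf nxtL
    simp only
    rw [List.getD_eq_getElem _ _ (by simp [h.hn]), List.getElem_map, List.getElem_range]
  rw [e]
  split_ifs <;> omega

theorem next' (h : Rp O a m) {K' : ℕ} (hF : Flat m.g m.cp m.μ K') (hK' : K' ≤ aS a) (hi : i ≤ mL (aS a))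
    (hG : GI m (aS a) i θ) {l : List (List ℤ)} (hK : 0 < K)
    (hl : ∀ q ∈ range (n + 3), |(l.map (stat a θ q)).sum - K * mn (OmL m (aS a) θ) (WL m (aS a) θ) (stat a θ q)| ≤
      1 / (aS a : ℝ) ^ 20 * K) :
    GI m (aS a) (i + 1) (nxtL a θ l) ∧ (i + 1 < mL (aS a) + 1 →
      Warm (OmL m (aS a) θ) (OmL m (aS a) (nxtL a θ l)) (WL m (aS a) θ) (WL m (aS a) (nxtL a θ l)) ((aS a : ℝ) ^ 9)) := by
  have hS : (4096 : ℝ) ≤ aS a := by exact_mod_cast h.sz.big
  have hS0 : (0 : ℝ) < aS a := by linarith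
  have hSn : 0 < aS a := by exact_mod_cast hS0
  have e1 : (nxtL a θ l).1 = i + 1 := by rw [← hG.idx]; rfl
  have e2 : (nxtL a θ l).2.1 = rho (aS a) (i + 1) := by
    rw [rho, ← hG.r, ← hG.idx]
    rfl
  have hb : ∀ u, hOf n (nxtL a θ l) u ≤ i + 1 := fun u => (h.L4n_h l u).2.trans (Nat.add_le_add_right (hG.hb u) 1)
  have F := h.fields hi hG hK hl
  have F' : (m.box (rho (aS a) i)).Inv (aS a) (jj (aS a) i) (hOf n (nxtL a θ l)) (pC n) := fun p =>
    (F p).trans (mul_le_mul_of_nonneg_right (mul_le_mul_of_nonneg_right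
      (by have : (0 : ℝ) ≤ pC n := Nat.cast_nonneg _
          linarith) (sq_nonneg _)) (Md.ms_nonneg h.sz _ _))
  have X := h.ok.stage_nxt h.sz i hb F'
  have I := X.inv h.sz F
  obtain ⟨Z0, Z3, Z8⟩ := h.Z_le hi hG
  have hd : (0 : ℝ) < dnL a := by
    unfold dnL
    positivity
  have a0 := hl 0 (by simp)
  rw [h.mn_aV hG, show stat a θ 0 = fun s => (aV a θ s : ℝ) / dnL a from funext fun s => if_pos rfl, L4n_sum] at a0
  have tg : tgt m (aS a) i = (m.box (rho (aS a) (i - 1))).n0' (aS a) (jj (aS a) (i - 1)) := if_pos hi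
  have hK0 : (0 : ℝ) < K := by exact_mod_cast hK
  have key : ∃ b c : ℕ, 0 < c ∧ (nxtL a θ l).2.2.2.2.1 = θ.2.2.2.2.1 * (b * dnL a) ∧
      (nxtL a θ l).2.2.2.2.2 = θ.2.2.2.2.2 * (max (l.map (aV a θ)).sum 1 * c) ∧
      ∑ s ∈ OmL m (aS a) θ, WL m (aS a) θ s ≤ 8 * (tgt m (aS a) (i + 1) * c) ∧
      |(b : ℝ) - K * (tgt m (aS a) (i + 1) * c / ∑ s ∈ OmL m (aS a) θ, WL m (aS a) θ s)| ≤
        1 / (aS a : ℝ) ^ 20 * K := by
    rcases hi.eq_or_lt with rfl | hlt
    · have hbp : 0 < ballL a := by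
        refine List.prod_pos fun x hx => ?_
        obtain ⟨u, -, rfl⟩ := List.mem_map.1 hx
        split_ifs <;> omega
      have hb' : (0 : ℝ) < ballL a := by exact_mod_cast hbp
      have et : tgt m (aS a) (mL (aS a) + 1) * ballL a = (m.box (rho (aS a) (mL (aS a)))).Zf (aS a) := by
        unfold tgt
        rw [if_neg (by omega), ← h.ballL_eq, div_mul_cancel₀ _ hb'.ne']
      refine ⟨l.countP (flL a), ballL a, hbp, ?_, ?_, ?_, ?_⟩
      · unfold nxtL
        simp only [if_pos hG.idx]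
      · unfold nxtL
        simp only [if_pos hG.idx]
      · obtain ⟨-, -, f3⟩ := h.ok.flat_box h.sz hF hK' (rho_last h.sz)
        have ej : jj (aS a) (mL (aS a)) = 0 := by
          unfold jj mL
          omega
        rw [ej] at Z3
        have : (0 : ℝ) ≤ (m.box (rho (aS a) (mL (aS a)))).Zf (aS a) := Nat.cast_nonneg _
        rw [et]
        linarith
      · have b0 := hl 2 (by simp)
        rw [h.mn_fl hG, show stat a θ 2 = fun s => if flL a s = true then (1 : ℝ) else 0 from rfl,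
          sum_ite_eq_countP] at b0
        rwa [et]
    · have hne : θ.1 ≠ mL (aS a) := by rw [hG.idx]; omega
      have et : tgt m (aS a) (i + 1) * (1 : ℕ) = (m.box (rho (aS a) i)).n0' (aS a) (jj (aS a) i) := by
        unfold tgt
        rw [if_pos (by omega), Nat.cast_one, mul_one, Nat.add_sub_cancel]
      refine ⟨l.countP (e0L a), 1, Nat.one_pos, ?_, ?_, ?_, ?_⟩
      · unfold nxtL
        simp only [if_neg hne]
      · unfold nxtL
        simp only [if_neg hne]
      · rw [et]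
        linarith
      · have b0 := hl 1 (by simp)
        rw [h.mn_e0 hG, show stat a θ 1 = fun s => if e0L a s = true then (1 : ℝ) else 0 from rfl,
          sum_ite_eq_countP] at b0
        rwa [et]
  obtain ⟨b, c, hc, k1, k2, k3, k4⟩ := key
  obtain ⟨r0, r1, r2⟩ := L4n_ratio hS hK0 Z0 Z8 k3 a0 k4
  have hx : 0 < (l.map (aV a θ)).sum := by
    have := (div_pos_iff_of_pos_right hd).1 r0
    exact_mod_cast this
  rw [max_eq_left hx] at k2
  have lo := hG.lo
  have hi' := hG.hi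
  rw [tg] at lo hi'
  obtain ⟨p1, p2⟩ := L4n_prod (d := dnL a)
    (by rw [div_le_one (by positivity)]; exact one_le_pow₀ (by linarith)) (by positivity) (Nat.cast_nonneg b) hd.le
    (Nat.cast_nonneg _) lo hi' r1 r2
  rw [div_mul_cancel₀ _ hd.ne'] at p1 p2
  refine ⟨⟨e1, e2, hG.r, hb, fun _ => I, fun _ => X.n0_le h.sz, ?_, ?_, ?_⟩, fun _ => ?_⟩
  · rw [k2]
    exact Nat.mul_pos hG.den (Nat.mul_pos hx hc)
  · rw [k1, k2]
    exact_mod_cast p1
  · rw [k1, k2]
    exact_mod_cast p2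
  · have Wm := X.warm (h.ok.box _) (h.ok.box _) h.sz (h.L4n_h (θ := θ) l) I
    refine ⟨fun s hs => ?_, fun s hs => ?_⟩
    · rw [mem_OmL] at hs ⊢
      rw [e2]
      exact ⟨hs.1, Wm.sub (hG.r ▸ hs.2)⟩
    · rw [mem_OmL, hG.r] at hs
      have := Wm.le _ hs.2
      rw [sum_OmL, sum_OmL, e2, hG.r]
      unfold WL
      simp only [vec_ofFn]
      rw [e1, hG.idx]
      exact this

end Rp

end Crest.Agent.R302B
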