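import Crest.Agent.R302B.L3
import Crest.Agent.R302B.L4n

/-!
# Row 302 (binary layer): L5
The hypotheses `Ctl` of the annealing theorem for the core algorithm.
-/

set_option autoImplicit false
set_option linter.unusedSectionVars false

noncomputable section

namespace Crest.Agent.R302B

open Finset Crest.Agent.R302 Crest.Agent.R302.QT Crest.Agent.Lib.PolyTime

variable {n N : ℕ} {O : Orc} {a : CIn} {m : Md n N} {θ : Tht} {s : List ℤ}

attribute [local irreducible] aS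

theorem ballL_pos (a : CIn) : 0 < ballL a := by
  refine List.prod_pos fun x hx => ?_
  obtain ⟨u, -, rfl⟩ := List.mem_map.1 hx
  split_ifs <;> omega

theorem all_coreL (a : CIn) : All (fun y : ℕ × ℕ => 0 < y.2) (coreL a) := by
  unfold coreL
  rw [all_map]
  refine all_ctlQ (P := fun θ : Tht => 0 < θ.2.2.2.2.2) _ _ _ _ _ Nat.one_pos fun θ l h => ?_
  refine Nat.mul_pos h (Nat.mul_pos (lt_of_lt_of_le Nat.one_pos (le_max_right _ _)) ?_)
  split_ifs
  · exact ballL_pos a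
  · exact Nat.one_pos

theorem Md.OK.n0'_zero {R S : ℕ} (hm : m.OK R) (j : ℕ) : (m.box 0).n0' S j = 1 := by
  classical
  unfold Md.n0' Md.ms
  rw [hm.Om_zero, filter_singleton, if_pos Md.sec_zero, sum_singleton, Md.Wt_zero]

theorem Rp.gi_zero (h : Rp O a m) : GI m (aS a) 0 (0, 0, 0, [], 1, 1) := by
  have e : tgt m (aS a) 0 = 1 := by
    unfold tgt
    rw [if_pos (Nat.zero_le _)]
    exact h.ok.n0'_zero _
  refine ⟨rfl, rfl, rfl, fun u => by simp [hOf], fun _ => h.ok.inv_zero h.sz _ _, fun _ => ?_, Nat.one_pos, ?_, ?_⟩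
  · have : 0 ≤ (m.box 0).n0 (aS a) (jj (aS a) 0) := Md.ms_nonneg h.sz _ _
    show (m.box 0).n0 (aS a) (jj (aS a) 0) ≤ 3 / 2 * (m.box 0).n0 (aS a) (jj (aS a) 0)
    linarith
  · rw [e]; simp
  · rw [e]; simp

theorem Rp.ctl (h : Rp O a m) {K' : ℕ} (hF : Flat m.g m.cp m.μ K') (hK' : K' ≤ aS a) :
    Ctl O (OmL m (aS a)) (WL m (aS a)) (stepL a) (nxtL a) (GI m (aS a)) (mL (aS a) + 1) (aS a ^ 42)
      ((aS a : ℝ) ^ 1835) (1 / (aS a : ℝ) ^ 86) ((aS a : ℝ) ^ 9) (1 / (aS a : ℝ) ^ 20 / 2)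
      ((n + 3) * (2 * Real.exp (-(aS a : ℝ) ^ 2 / 16))) := by
  have hS : (4096 : ℝ) ≤ aS a := by exact_mod_cast h.sz.big
  have hS0 : (0 : ℝ) < aS a := by linarith
  refine ⟨fun i hi θ hG => h.rev (by omega) hG, fun i hi θ hG => h.wp (by omega) hG, fun i hi θ hG t ht => ?_⟩
  have h20 : (1 : ℝ) ≤ (aS a : ℝ) ^ 20 := one_le_pow₀ (by linarith)
  have hδ : 1 / (aS a : ℝ) ^ 20 ≤ 1 := by
    rw [div_le_one (by positivity)]
    exact h20
  have key := ht.hoeff_all (range (n + 3)) (stat a θ) (fun q _ s => stat_mem a θ q s) (aS a ^ 42)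
    (δ := 1 / (aS a : ℝ) ^ 20 / 2) (by positivity) (by linarith)
  have hK : 0 < aS a ^ 42 := pow_pos (lt_of_lt_of_le (by norm_num) h.sz.big) _
  refine le_trans (le_trans (pr_mono_on (allO_true _) ?_) key) (le_of_eq ?_)
  · intro l _ hl hc
    refine hl (h.next' hF hK' (by omega) hG hK fun q hq => (hc.2 q hq).trans (le_of_eq ?_))
    ring
  · rw [card_range]
    push_cast
    congr 3
    field_simp
    ring

end Crest.Agent.R302B
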