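import Crest.Agent.R302B.APT
import Crest.Agent.R302B.L5

/-!
# Row 302 (binary layer): the approximation scheme
-/

set_option autoImplicit false
set_option linter.unusedSectionVars false

noncomputable section

namespace Crest.Agent.R302B

open Finset Crest.Agent.R302 Crest.Agent.R302.QT Crest.Agent.Lib.PolyTime

variable {n N : ℕ} {O : Orc} {a : CIn} {m : Md n N}

attribute [local irreducible] aS

theorem pow_le_exp {x : ℝ} (hx : 0 ≤ x) (k : ℕ) : x ^ k ≤ Real.exp (k * x) := by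
  rw [Real.exp_nat_mul]
  exact pow_le_pow_left₀ hx (by linarith [Real.add_one_le_exp x]) k

theorem Rp.close_zero (h : Rp O a m) : Close O (QT.ret (List.replicate (aN a) 0))
    (OmL m (aS a) (0, 0, 0, [], 1, 1)) (WL m (aS a) (0, 0, 0, [], 1, 1)) (2 * 0) := by
  have e : OmL m (aS a) (0, 0, 0, [], 1, 1) = {List.replicate (aN a) 0} := by
    unfold OmL
    rw [h.ok.Om_zero, image_singleton, h.hN]
    congr 1
    exact List.ofFn_const _ _
  rw [e]
  exact close_ret (mem_singleton_self _) (fun s _ => (Md.Wt_pos h.sz _).le) (Md.Wt_pos h.sz _) (by simp)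

theorem Rp.fail_le (h : Rp O a m) {K : ℕ} (hF : Flat m.g m.cp m.μ K) (hK : K ≤ aS a) :
    pr O (ctlQ (stepL a) (nxtL a) (QT.ret (List.replicate (aN a) 0)) (aS a ^ 1837) (aS a ^ 42) (mL (aS a) + 1)
      (0, 0, 0, [], 1, 1)) (fun θ => ¬ GI m (aS a) (mL (aS a) + 1) θ) ≤ Real.exp (-aS a) := by
  have S0 : (4096 : ℝ) ≤ aS a := by exact_mod_cast h.sz.big
  have S1 : (0 : ℝ) < aS a := by linarith
  refine ((h.ctl hF hK).spec h.gi_zero h.close_zero (T := aS a ^ 1837) (one_le_pow₀ (by linarith))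
    (by positivity) (by positivity) (by positivity) ?_).trans ?_
  · have e : ((aS a ^ 1837 : ℕ) : ℝ) / (aS a : ℝ) ^ 1835 = (aS a : ℝ) ^ 2 := by
      rw [Nat.cast_pow, div_eq_iff (by positivity), ← pow_add]
    have m1 : ((mL (aS a) + 1 : ℕ) : ℝ) ≤ 3 * (aS a : ℝ) ^ 17 := by
      have : (2 : ℝ) ≤ (aS a : ℝ) ^ 17 := le_trans (by linarith) (le_self_pow₀ (by linarith) (by norm_num))
      unfold mL
      push_cast
      linarith
    rw [e]
    generalize (aS a : ℝ) = S at S0 S1 m1 ⊢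
    have x1 : Real.exp (-S ^ 2) ≤ 1 / S ^ 86 := by
      rw [Real.exp_neg, ← one_div]
      refine one_div_le_one_div_of_le (by positivity) ((pow_le_exp S1.le 86).trans (Real.exp_le_exp.2 ?_))
      push_cast
      nlinarith
    have x2 : Real.sqrt (S ^ 9 * (1 / S ^ 86 + Real.exp (-S ^ 2))) ≤ 1 / S ^ 38 := by
      refine Real.sqrt_le_iff.2 ⟨by positivity, ?_⟩
      calc _ ≤ S ^ 9 * (1 / S ^ 86 + 1 / S ^ 86) := by gcongr
        _ = 2 / S * (1 / S ^ 38) ^ 2 := by field_simp; norm_num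
        _ ≤ _ := mul_le_of_le_one_left (by positivity) (by rw [div_le_one S1]; linarith)
    calc _ ≤ 2 * 0 + 3 * S ^ 17 * (1 / S ^ 38) := by gcongr
      _ = 6 / S * (1 / S ^ 20 / 2) := by field_simp; norm_num
      _ ≤ _ := mul_le_of_le_one_left (by positivity) (by rw [div_le_one S1]; linarith)
  · have m1 : ((mL (aS a) + 1 : ℕ) : ℝ) ≤ (aS a : ℝ) ^ 18 := by exact_mod_cast mL_le h.sz
    have m2 : (n + 3 : ℝ) ≤ aS a / 2 := by
      have a1 := h.ok.fr.le
      have a2 := h.sz.N_le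
      have a3 := h.sz.big
      rw [le_div_iff₀ (by norm_num)]
      exact_mod_cast (by omega : (n + 3) * 2 ≤ aS a)
    generalize (aS a : ℝ) = S at S0 S1 m1 m2 ⊢
    calc _ ≤ S ^ 18 * (S / 2 * (2 * Real.exp (-S ^ 2 / 16))) := by gcongr
      _ = S ^ 19 * Real.exp (-S ^ 2 / 16) := by ring
      _ ≤ Real.exp ((19 : ℕ) * S) * Real.exp (-S ^ 2 / 16) := by gcongr; exact pow_le_exp S1.le 19
      _ ≤ _ := by
          rw [← Real.exp_add]
          refine Real.exp_le_exp.2 ?_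
          push_cast
          nlinarith

theorem Rp.good (h : Rp O a m) {K : ℕ} (hF : Flat m.g m.cp m.μ K) (hK : K ≤ aS a) {ε : ℝ} (hε : 4 ≤ ε * aS a)
    {θ : Tht} (hG : GI m (aS a) (mL (aS a) + 1) θ) :
    (1 - ε) * ng m.g m.cp 0 ≤ (θ.2.2.2.2.1 : ℝ) / θ.2.2.2.2.2 ∧
      (θ.2.2.2.2.1 : ℝ) / θ.2.2.2.2.2 ≤ (1 + ε) * ng m.g m.cp 0 := by
  have S0 : (4096 : ℝ) ≤ aS a := by exact_mod_cast h.sz.big
  have S1 : (0 : ℝ) < aS a := by linarith
  obtain ⟨f1, f2, -⟩ := h.ok.flat_box h.sz hF hK (rho_last h.sz)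
  have lo := hG.lo
  have hi := hG.hi
  have d0 : (0 : ℝ) < θ.2.2.2.2.2 := by exact_mod_cast hG.den
  have b0 : (0 : ℝ) < m.ball (aS a) := by exact_mod_cast m.ball_pos (aS a)
  have m1 : ((mL (aS a) + 1 : ℕ) : ℝ) ≤ (aS a : ℝ) ^ 18 := by exact_mod_cast mL_le h.sz
  rw [tgt, if_neg (by omega)] at lo hi
  have z0 : (0 : ℝ) ≤ (m.box (rho (aS a) (mL (aS a)))).Zf (aS a) := Nat.cast_nonneg _
  have n0 : (0 : ℝ) ≤ ng m.g m.cp 0 := Nat.cast_nonneg _
  generalize ((m.box (rho (aS a) (mL (aS a)))).Zf (aS a) : ℝ) = Z at *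
  generalize (ng m.g m.cp 0 : ℝ) = N0 at *
  generalize (m.ball (aS a) : ℝ) = B at *
  generalize mL (aS a) + 1 = i at *
  generalize (aS a : ℝ) = S at *
  have x0 : 0 < 1 / S := by positivity
  have x1 : 1 / S ≤ 1 / 4096 := one_div_le_one_div_of_le (by norm_num) S0
  have x2 : 4 * (1 / S) ≤ ε := by rw [mul_one_div, div_le_iff₀ S1]; exact hε
  have x3 : (i : ℝ) * (1 / S ^ 19) ≤ 1 / S := by
    calc _ ≤ S ^ 18 * (1 / S ^ 19) := by gcongr
      _ = _ := by field_simp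
  have g1 : (1 - 1 / S) * N0 ≤ Z / B := by rw [le_div_iff₀ b0]; linarith
  have g2 : Z / B ≤ (1 + 1 / S) * N0 := by rw [div_le_iff₀ b0]; linarith
  have g0 : 0 ≤ Z / B := by positivity
  have p1 : 1 - 1 / S ≤ (1 - 1 / S ^ 19) ^ i := by
    have := one_add_mul_le_pow (a := -(1 / S ^ 19)) (by
      have : 1 / S ^ 19 ≤ 1 := by
        rw [div_le_one (by positivity)]
        exact one_le_pow₀ (by linarith)
      linarith) i
    rw [← sub_eq_add_neg] at this
    linarith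
  have p2 : (1 + 1 / S ^ 19) ^ i ≤ 1 + 2 * (1 / S) := by
    have a := Real.abs_exp_sub_one_le (x := 1 / S) (by rw [abs_of_pos x0]; linarith)
    rw [abs_of_pos x0] at a
    calc _ ≤ Real.exp (1 / S ^ 19) ^ i := by gcongr; linarith [Real.add_one_le_exp (1 / S ^ 19)]
      _ = Real.exp (i * (1 / S ^ 19)) := (Real.exp_nat_mul _ _).symm
      _ ≤ Real.exp (1 / S) := Real.exp_le_exp.2 x3
      _ ≤ _ := by linarith [(abs_le.1 a).2]
  generalize 1 / S = x at *
  rw [le_div_iff₀ d0, div_le_iff₀ d0]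
  refine ⟨le_trans (mul_le_mul_of_nonneg_right ?_ d0.le) lo, hi.trans (mul_le_mul_of_nonneg_right ?_ d0.le)⟩
  · calc _ ≤ (1 - x) * ((1 - x) * N0) := by
          rw [← mul_assoc]
          exact mul_le_mul_of_nonneg_right (by nlinarith) n0
      _ ≤ (1 - x) * (Z / B) := mul_le_mul_of_nonneg_left g1 (by linarith)
      _ ≤ _ := mul_le_mul_of_nonneg_right p1 g0
  · calc _ ≤ (1 + 2 * x) * ((1 + x) * N0) := mul_le_mul p2 g2 g0 (by linarith)
      _ ≤ _ := by
          rw [← mul_assoc]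
          exact mul_le_mul_of_nonneg_right (by nlinarith) n0

theorem core_coreL : Core coreL := by
  intro O S₀ n N M K ε δ g cp Wl cl μl ev fr hF surj hc hl hW hμ ε0 ε1 δ0 s1 s2 s3 s4 s5 s6
  refine ⟨(all_coreL _).allO, ?_⟩
  obtain ⟨a, ha⟩ : ∃ a : CIn, a = (List.replicate S₀ (), (n, N, M, K), (ε, δ), (Wl, cl, μl)) := ⟨_, rfl⟩
  obtain ⟨m, hm⟩ : ∃ m : Md n N, m = ⟨g, fun t => Wl.getD t 0, cp, fun u => μl.getD u 0⟩ := ⟨_, rfl⟩
  have eS : 4096 * (S₀ + 1) ≤ aS a := by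
    have : S₀ + 1 ≤ 2 ^ S₀.size := Nat.lt_size_self S₀
    rw [aS, aB, ha, List.length_replicate, pow_add]
    omega
  have eM : aM a = M := by rw [ha]; rfl
  have eN : aN a = N := by rw [ha]; exact hl
  have h : Rp O a m := by
    refine ⟨eN, ?_, fun t => by rw [ha, hm]; rfl, fun j => by rw [ha, hm]; exact hc j,
      fun u => by rw [ha, hm]; rfl, by rw [eM, hm]; exact ev, ?_, ⟨by omega, by omega, ?_⟩⟩
    · rw [an, eN, ha]
      exact min_eq_left fr.le
    · rw [eM, hm]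
      exact ⟨fr, surj, fun s hs j => abs_le_of_bd ev.bd fr.zero hs j, hW⟩
    · have a1 : 2 ^ (S₀ + 1) ≤ 2 ^ (aS a / 32) := Nat.pow_le_pow_right (by norm_num) (by omega)
      have a2 : 1 ≤ 2 ^ S₀ := Nat.one_le_two_pow
      rw [pow_succ] at a1
      omega
  have hF' : Flat m.g m.cp m.μ K := by rw [hm]; exact hF
  have eS' : 4096 * ((S₀ : ℝ) + 1) ≤ aS a := by exact_mod_cast eS
  have ε0' : (0 : ℝ) < ε := by exact_mod_cast ε0
  have s5' : (1 : ℝ) ≤ ε * S₀ := by exact_mod_cast s5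
  have s6' : (1 : ℝ) ≤ δ * 2 ^ S₀ := by exact_mod_cast s6
  have S0 : (0 : ℝ) ≤ S₀ := Nat.cast_nonneg _
  rw [← ha]
  unfold coreL
  rw [pr_map]
  refine le_trans (pr_mono_on (E' := fun θ => ¬ GI m (aS a) (mL (aS a) + 1) θ) (allO_true _)
    fun θ _ hθ hG => hθ ?_) ((h.fail_le hF' (by omega)).trans ?_)
  · have := h.good hF' (by omega) (ε := ε) (by nlinarith) hG
    rw [hm] at this
    constructor
    · rw [← Rat.cast_le (K := ℝ)]
      push_cast
      exact this.1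
    · rw [← Rat.cast_le (K := ℝ)]
      push_cast
      exact this.2
  · have a1 : (2 : ℝ) ^ S₀ ≤ Real.exp (aS a) := by
      calc (2 : ℝ) ^ S₀ ≤ Real.exp 1 ^ S₀ := by gcongr; linarith [Real.add_one_le_exp 1]
        _ = Real.exp S₀ := by rw [← Real.exp_nat_mul, mul_one]
        _ ≤ _ := Real.exp_le_exp.2 (by linarith)
    have δ0' : (0 : ℝ) < δ := by exact_mod_cast δ0
    rw [Real.exp_neg, inv_le_iff_one_le_mul₀ (Real.exp_pos _)]
    exact s6'.trans (mul_le_mul_of_nonneg_left a1 δ0'.le)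

theorem exists_alg : ∃ B, PTO B ∧ Good B := exists_good pto_coreL core_coreL

end Crest.Agent.R302B
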