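import Crest.Agent.R302B.IO0
import Crest.Agent.R302B.Enl
import Crest.Agent.R302B.Hub
import Crest.Agent.R302B.Frame

/-!
# Row 302 (binary layer): Mod0
The model (DEFINITIONS ONLY; do not edit, message helper19).
States `s ∈ bases m.g ⊆ ℤ^N` (two copies, own orders), `psh m.cp s` is the mismatch in the combined order, `gth` its block sums,
`sec` the thin part (the sector).  All parameters are powers of `S`.
-/

set_option autoImplicit false
set_option linter.unusedSectionVars false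

noncomputable section

namespace Crest.Agent.R302B

open Finset Crest.Agent.R302

/-- size hypotheses -/
structure Sz (N R S : ℕ) : Prop where
  big : 4096 ≤ S
  N_le : 32 * N ≤ S
  R_le : R + 2 ≤ 2 ^ (S / 32)

/-- the constant of the field invariant -/
def pC (n : ℕ) : ℕ := 64 * n ^ 2 + 64

/-- the penalty of a unit of mismatch -/
def lamH (S : ℕ) : ℝ := 1 / (S : ℝ) ^ 5

/-- box radius at stage `i` -/
def rho (S : ℕ) : ℕ → ℕ
  | 0 => 0
  | i + 1 => if i = 0 then S ^ 15 else if i ≤ S ^ 17 then rho S i else rho S i + rho S i / S ^ 15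

/-- inverse temperature at stage `i` -/
def jj (S i : ℕ) : ℕ := min (S ^ 17) (S ^ 17 + 1 - i)

/-- the last stage -/
def mL (S : ℕ) : ℕ := 2 * S ^ 17 + 1

/-- models -/
structure Md (n N : ℕ) where
  g : Finset (Fin N) → ℤ
  W : ℕ → ℤ
  cp : Fin N → Fin n
  μ : ℕ → ℤ

namespace Md

variable {n N : ℕ} (m : Md n N) (S : ℕ)

/-- hypotheses on a model -/
structure OK (R : ℕ) : Prop where
  fr : Frame m.g m.W m.cp m.μ
  surj : Function.Surjective m.cp
  bd : ∀ s, IsB m.g s → ∀ j, |s j| ≤ R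
  W_le : ∀ t, m.W t ≤ R

/-- intersection with a box -/
def box (ρ : ℕ) : Md n N := ⟨gB m.g (fun _ => ρ) fun _ => ρ, fun t => min (m.W t) ρ, m.cp, m.μ⟩

/-- fat positions of the combined order -/
def fm (u : ℕ) : Bool := decide (u + 1 < n ∧ ((S ^ 28 : ℕ) : ℤ) ≤ m.μ u)

/-- flat radius of the mismatch kernel -/
def sg (u : ℕ) : ℕ := (m.μ u).toNat / S ^ 6

/-- block sums of the mismatch -/
def gth (s : Fin N → ℤ) : Fin n → ℤ := th (m.fm S) (psh m.cp s)

/-- the sector -/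
def sec (s : Fin N → ℤ) : Fin n → ℤ := thn (m.fm S) (m.gth S s)

/-- the fat part of the mismatch weight -/
def Hf (s : Fin N → ℤ) : ℝ :=
  ∏ u : Fin n, if m.fm S u = true then ft (m.sg S u) (pk (m.sg S u) (S ^ 20)) (m.gth S s u) else 1

/-- the mismatch weight -/
def Hh (s : Fin N → ℤ) : ℝ := m.Hf S s * lamH S ^ nm1 (m.sec S s)

/-- temperature and fields -/
def wt (j : ℕ) (h : Fin n → ℕ) (s : Fin N → ℤ) : ℝ :=
  (1 - 1 / (S : ℝ) ^ 16) ^ (j * nm1 s) * (2 : ℝ) ^ (-∑ u, (h u : ℤ) * m.sec S s u)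

/-- the weight -/
def Wt (j : ℕ) (h : Fin n → ℕ) (s : Fin N → ℤ) : ℝ := m.wt S j h s * m.Hh S s

/-- truncation of the fat mismatch -/
def Tr (s : Fin N → ℤ) : Prop := ∀ u : Fin n, m.fm S u = true → (m.gth S s u).natAbs ≤ 2 * m.sg S u

/-- the flat event -/
def Fl (s : Fin N → ℤ) : Prop := m.sec S s = 0 ∧ ∀ u : Fin n, m.fm S u = true → (m.gth S s u).natAbs ≤ m.sg S u

/-- the sector event of `p` -/
def Ep (p : Fin n) (s : Fin N → ℤ) : Prop := m.sec S s p = 1 ∧ nm1 (m.sec S s) = 2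

open Classical in
/-- the state space -/
def Om : Finset (Fin N → ℤ) := (bases m.g).filter fun s => nm1 (m.sec S s) ≤ 100 ∧ m.Tr S s

open Classical in
/-- weight of an event in a set -/
def ms (j : ℕ) (h : Fin n → ℕ) (T : Finset (Fin N → ℤ)) (E : (Fin N → ℤ) → Prop) : ℝ :=
  ∑ s ∈ T.filter E, m.Wt S j h s

/-- the weight of sector `0` -/
def n0 (j : ℕ) : ℝ := m.ms S j 0 (bases m.g) fun s => m.sec S s = 0

/-- the weight of sector `0` in the state space -/
def n0' (j : ℕ) : ℝ := m.ms S j 0 (m.Om S) fun s => m.sec S s = 0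

/-- the field invariant -/
def Inv (j : ℕ) (h : Fin n → ℕ) (A : ℝ) : Prop :=
  ∀ p, m.ms S j h (bases m.g) (m.Ep S p) ≤ A * lamH S ^ 2 * m.n0 S j

/-- consecutive stages -/
structure Nxt (m m' : Md n N) (S j j' : ℕ) (h : Fin n → ℕ) : Prop where
  cp : m'.cp = m.cp
  μ : m'.μ = m.μ
  sub : bases m.g ⊆ bases m'.g
  le : j' ≤ j
  gr : ∀ E, m.ms S j' h (bases m'.g) E ≤ 5 / 4 * m.ms S j h (bases m.g) E + lamH S ^ 2 * m.n0 S j

/-- fat positions of the own orders -/
def fo (t : ℕ) : Bool := decide (t + 1 < N ∧ ((S ^ 66 : ℕ) : ℤ) ≤ m.W t)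

/-- the proposal box has side `2 ^ je` -/
def je (t : ℕ) : ℕ := if m.fo S t = true then ((m.W t).toNat / S ^ 40).size - 1 else 0

/-- radius of the proposal box -/
def sp (t : Fin N) : ℕ := 2 ^ m.je S t / 2 - 1

open Classical in
/-- the In-and-Out data of a stage -/
def ino (j : ℕ) (h : Fin n → ℕ) : InO N where
  fat := m.fo S
  g := m.g
  w := m.wt S j h
  H := m.Hh S
  Ω := m.Om S
  Ωp := (bases fun X => m.g X + cutf (m.sp S) X).filter fun s => nm1 (m.sec S s) ≤ 100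
  sp := m.sp S
  l := fun t => 2 ^ m.je S t / S ^ 4
  k := S ^ 2 - 1
  c := 100
  lam := 1 / (S : ℝ) ^ 10
  Λ := 2 * (S : ℝ) ^ 5
  η := fun t => if m.fo S t = true then (S : ℝ) ^ 27 / m.W t else Real.log (2 * (S : ℝ) ^ 5)
  L := fun t => if m.fo S t = true then (S : ℝ) ^ 7 * m.W t else (S : ℝ) ^ 73
  κ := (S : ℝ) ^ 52
  M := (S : ℝ) ^ 73
  τ := 1 / (S : ℝ) ^ 350
  KE := 8

/-- the size of the flat ball -/
def ball : ℕ := ∏ u : Fin n, if m.fm S u = true then 2 * m.sg S u + 1 else 1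

open Classical in
/-- the number of flat states -/
def Zf : ℕ := #((bases m.g).filter (m.Fl S))

end Md

end Crest.Agent.R302B
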