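import Crest.Agent.R302B.Mod1

/-!
# Row 302 (binary layer): Mod2
Sectors and fields.  `nh δ` is the weight (without the penalty) of the sector `δ` on the thin positions.
* `wdl_nh`: `cs ε δ = ∑_{s ∈ bases g} wt s * K (psh rep δ - s)` with `K y = Hf y * ε ^ nm1 (sec y)` (`Hf_dlz`, `dlz_conv`, `DLZ.psh` along `rep u` = a point with `cp = u`);
  `gth (psh rep δ)` vanishes on fat positions and is `δ` on thin ones (`th_ez`: a thin `u` lies in `blk r` only for `r = u`).
* `ms_Ep`: `Ep p s` iff `sec s = rt p q` for a thin `q ≠ p` (`sum_sec`).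
* `total`, `out`: `WDL.tail` with `A = n (1 + pC n) ≤ S^3 / 2`, `d = 0` resp. `d = 51`, grouping the states by their sector (`Finset.sum_fiberwise_of_maps_to`).
* `update`: `nh' (rt p q) = nh (rt p q) * 2 ^ ([q ∈ U] - [p ∈ U])`.  For `q ∈ U` there is `s` with `nh (rt q s) ≥ pC / (4 n) * n0`; `WDL.tri` gives
  `nh (rt p q) ≤ 8 n * n0` (for `s = p` use `rt p p = 0`).  Hence the new sum is at most `pC / 2 + 16 n^2 ≤ 3/4 pC`.
-/

set_option autoImplicit false
set_option linter.unusedSectionVars false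

noncomputable section

namespace Crest.Agent.R302B

open Finset Crest.Agent.R302

variable {n N R S j : ℕ} {m : Md n N} {h : Fin n → ℕ}


namespace Md

/-- thin positions -/
abbrev Th (m : Md n N) (S : ℕ) : Type := {u : Fin n // m.fm S u = false}

open Classical in
/-- weights of the sectors -/
def nh (m : Md n N) (S j : ℕ) (h : Fin n → ℕ) (δ : m.Th S → ℤ) : ℝ :=
  ∑ s ∈ (bases m.g).filter (fun s => ∀ u : m.Th S, m.sec S s u = δ u), m.wt S j h s * m.Hf S s

theorem sec_fat (s : Fin N → ℤ) {u : Fin n} (hu : m.fm S u = true) : m.sec S s u = 0 := if_pos hu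

theorem sec_thin (s : Fin N → ℤ) {u : Fin n} (hu : m.fm S u = false) : m.sec S s u = m.gth S s u :=
  if_neg (by simp [hu])

theorem sum_Th {M : Type} [AddCommMonoid M] (F : Fin n → M) (hF : ∀ u : Fin n, m.fm S u = true → F u = 0) :
    ∑ u : m.Th S, F u = ∑ u, F u := by
  rw [← sum_subtype (univ.filter fun u : Fin n => m.fm S u = false) (by simp) F]
  refine sum_subset (subset_univ _) fun u _ hu => hF u (by simpa using hu)

theorem nm1_res (s : Fin N → ℤ) : nm1 (fun u : m.Th S => m.sec S s u) = nm1 (m.sec S s) :=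
  sum_Th (fun u => (m.sec S s u).natAbs) fun u hu => by rw [sec_fat s hu, Int.natAbs_zero]

theorem OK.sum_res (hm : m.OK R) {s : Fin N → ℤ} (hs : s ∈ bases m.g) : ∑ u : m.Th S, m.sec S s u = 0 := by
  rw [sum_Th (fun u => m.sec S s u) fun u hu => sec_fat s hu, sum_sec, (mem_bases.1 hs).2, ← hm.fr.zero.2]
  simp

theorem gth_rep {rep : m.Th S → Fin N} (hr : ∀ u, m.cp (rep u) = u) (δ : m.Th S → ℤ) (r : Fin n) :
    m.gth S (psh rep δ) r = if h : m.fm S r = false then δ ⟨r, h⟩ else 0 := by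
  unfold gth th
  rw [sum_psh, sum_psh]
  have e : ∀ u : m.Th S, u.1 ∈ blk (m.fm S) r ↔ u.1 = r := fun u =>
    ⟨fun h => by_contra fun c => by simpa [u.2] using fat_of_mem_blk h c, fun h => h ▸ self_mem_blk _⟩
  simp only [mem_filter, mem_univ, true_and, hr, e]
  split_ifs with c
  · rw [sum_eq_single_of_mem ⟨r, c⟩ (by simp)]
    intro u hu hne
    exact absurd (Subtype.ext (mem_filter.1 hu).2) hne
  · refine sum_eq_zero fun u hu => absurd ?_ c
    rw [← (mem_filter.1 hu).2]
    exact u.2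

theorem OK.wdl_nh (hm : m.OK R) (hS : Sz N R S) (j : ℕ) (h : Fin n → ℕ) : WDL (m.nh S j h) := by
  classical
  choose rep hr using fun u : m.Th S => hm.surj u
  refine ⟨fun ε δ => ∑ s ∈ bases m.g, m.wt S j h s * (m.Hf S (psh rep δ - s) *
    ε ^ nm1 (m.sec S (psh rep δ - s))), fun ε e0 e1 => ?_, fun δ => ?_⟩
  · simpa only [zero_add] using (dlz_conv hm.fr.sub ⟨0, mem_bases.2 hm.fr.zero⟩ (sep_wt hS j h)
      (Hf_dlz (m := m) hS e0 e1)).psh rep 0
  · have hc : Continuous fun ε : ℝ => ∑ s ∈ bases m.g, m.wt S j h s * (m.Hf S (psh rep δ - s) *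
        ε ^ nm1 (m.sec S (psh rep δ - s))) := by fun_prop
    refine (hc.tendsto' 0 _ ?_).mono_left nhdsWithin_le_nhds
    unfold nh
    rw [sum_filter]
    refine sum_congr rfl fun s _ => ?_
    have e : ∀ u, m.gth S (psh rep δ - s) u = (if h : m.fm S u = false then δ ⟨u, h⟩ else 0) - m.gth S s u := by
      intro u
      rw [sub_eq_add_neg, gth_add, gth_neg, Pi.add_apply, gth_rep hr, Pi.neg_apply, sub_eq_add_neg]
    have e1 : m.Hf S (psh rep δ - s) = m.Hf S s := by
      refine prod_congr rfl fun u _ => ?_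
      split_ifs with c
      · rw [e, dif_neg (by simp [c]), zero_sub, ft_neg]
      · rfl
    have e2 : nm1 (m.sec S (psh rep δ - s)) = 0 ↔ ∀ u : m.Th S, m.sec S s u = δ u := by
      rw [← nm1_res]
      unfold nm1
      rw [sum_eq_zero_iff]
      refine forall_congr' fun u => ?_
      dsimp only
      rw [sec_thin _ u.2, sec_thin _ u.2, e, dif_pos u.2]
      simp only [mem_univ, forall_const, Int.natAbs_eq_zero, Subtype.coe_eta]
      omega
    rw [e1]
    split_ifs with c
    · rw [e2.2 c, pow_zero, mul_one]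
    · rw [zero_pow fun h' => c (e2.1 h'), mul_zero, mul_zero]

theorem nh_zero (j : ℕ) (h : Fin n → ℕ) : m.nh S j h 0 = m.n0 S j := by
  unfold nh n0 ms
  simp only [sum_filter]
  refine sum_congr rfl fun s _ => ?_
  have e : (∀ u : m.Th S, m.sec S s u = (0 : m.Th S → ℤ) u) ↔ m.sec S s = 0 := by
    refine ⟨fun h => funext fun u => ?_, fun h u => by rw [h]; rfl⟩
    cases c : m.fm S u
    · exact h ⟨u, c⟩
    · exact sec_fat s c
  by_cases c : m.sec S s = 0
  · rw [if_pos (e.2 c), if_pos c, Wt_sec_zero c h, Wt, Hh, c]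
    simp [nm1]
  · rw [if_neg fun h' => c (e.1 h'), if_neg c]

theorem Mod2_rt {ι : Type} [Fintype ι] [DecidableEq ι] {δ : ι → ℤ} {p : ι} (h0 : ∑ u, δ u = 0) :
    (δ p = 1 ∧ nm1 δ = 2) ↔ ∃ q, q ≠ p ∧ δ = rt p q := by
  constructor
  · rintro ⟨h1, h2⟩
    unfold nm1 at h2
    rw [← add_sum_erase _ _ (mem_univ p)] at h0 h2
    obtain ⟨q, hq, hq'⟩ := exists_ne_zero_of_sum_ne_zero (s := univ.erase p) (f := δ) (by omega)
    rw [← add_sum_erase _ _ hq] at h0 h2
    have h3 : ∑ x ∈ (univ.erase p).erase q, (δ x).natAbs = 0 := by omega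
    rw [sum_eq_zero_iff] at h3
    have h4 : ∑ x ∈ (univ.erase p).erase q, δ x = 0 :=
      sum_eq_zero fun x hx => Int.natAbs_eq_zero.1 (h3 x hx)
    have hqp := (mem_erase.1 hq).1
    refine ⟨q, hqp, funext fun u => ?_⟩
    by_cases c1 : u = p
    · subst c1
      simp [rt, hqp, h1]
    · by_cases c2 : u = q
      · subst c2
        simp only [rt, Pi.sub_apply, Pi.single_eq_of_ne c1, Pi.single_eq_same]
        omega
      · simp only [rt, Pi.sub_apply, Pi.single_eq_of_ne c1, Pi.single_eq_of_ne c2, sub_zero]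
        exact Int.natAbs_eq_zero.1 (h3 u (by simp [c1, c2]))
  · rintro ⟨q, hq, rfl⟩
    refine ⟨by simp [rt, hq], ?_⟩
    unfold nm1
    rw [← add_sum_erase _ _ (mem_univ p), ← add_sum_erase _ _ (mem_erase.2 ⟨hq, mem_univ q⟩),
      sum_eq_zero fun u hu => by
        have c1 := (mem_erase.1 hu).1
        have c2 := (mem_erase.1 (mem_erase.1 hu).2).1
        simp [rt, c1, c2]]
    simp [rt, hq, hq.symm]

theorem Mod2_inj {ι : Type} [Fintype ι] [DecidableEq ι] {p q q' : ι} (h : rt p q = rt p q') : q = q' := by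
  by_contra c
  have := congrFun h q
  simp [rt, c] at this

theorem OK.ms_Ep (hm : m.OK R) (p : m.Th S) :
    m.ms S j h (bases m.g) (m.Ep S p) = lamH S ^ 2 * ∑ q ∈ univ.erase p, m.nh S j h (rt p q) := by
  classical
  unfold ms nh
  simp only [sum_filter]
  rw [sum_comm, mul_sum]
  refine sum_congr rfl fun s hs => ?_
  have e : m.Ep S p s ↔ ∃ q, q ≠ p ∧ (fun u : m.Th S => m.sec S s u) = rt p q := by
    rw [← Mod2_rt (hm.sum_res hs), nm1_res]
    rfl
  split_ifs with c
  · obtain ⟨q, hq, hq'⟩ := e.1 c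
    rw [sum_eq_single_of_mem q (by simp [hq]), if_pos (congrFun hq'), Wt, Hh, c.2]
    · ring
    · intro q' _ hne
      exact if_neg fun h' => hne (Mod2_inj (hq'.symm.trans (funext h'))).symm
  · rw [sum_eq_zero, mul_zero]
    intro q hq
    exact if_neg fun h' => c (e.2 ⟨q, (mem_erase.1 hq).1, funext h'⟩)

theorem ms_Ep_fat {p : Fin n} (hp : m.fm S p = true) (T : Finset (Fin N → ℤ)) : m.ms S j h T (m.Ep S p) = 0 := by
  classical
  refine sum_eq_zero fun s hs => ?_
  have := (mem_filter.1 hs).2.1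
  rw [sec_fat s hp] at this
  omega

theorem OK.row_le (hm : m.OK R) (hS : Sz N R S) {A : ℝ} (hI : m.Inv S j h A) (p : m.Th S) :
    ∑ q ∈ univ.erase p, m.nh S j h (rt p q) ≤ A * m.n0 S j := by
  have := hI p
  rw [hm.ms_Ep] at this
  have l := pow_pos (lamH_pos hS) 2
  refine le_of_mul_le_mul_left (this.trans_eq ?_) l
  ring

theorem OK.n0_pos (hm : m.OK R) (hS : Sz N R S) (j : ℕ) : 0 < m.n0 S j :=
  one_pos.trans_le ((hm.one_le_n0' hS j).trans (n0'_le hS j))

theorem card_Th (m : Md n N) (S : ℕ) : Fintype.card (m.Th S) ≤ n :=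
  (Fintype.card_subtype_le _).trans (by simp)

theorem OK.sec_tail (hm : m.OK R) (hS : Sz N R S) (hI : m.Inv S j h (pC n)) (d : ℕ) (T : Finset (Fin N → ℤ))
    (hT : T ⊆ bases m.g) (hd : ∀ s ∈ T, 2 * d ≤ nm1 (m.sec S s) + 1) :
    ∑ s ∈ T, m.Wt S j h s ≤ 2 * (1 / (2 * (S : ℝ) ^ 7)) ^ d * m.n0 S j := by
  classical
  have hS0 : (4096 : ℝ) ≤ S := by exact_mod_cast hS.big
  have hn : (32 * n : ℝ) ≤ S := by
    have := hS.N_le
    have := hm.fr.le
    exact_mod_cast (by omega : 32 * n ≤ S)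
  have n0 := hm.n0_pos hS j
  have hA : ∑ p, ∑ q, m.nh S j h (rt p q) ≤ (S : ℝ) ^ 3 / 2 * m.nh S j h 0 := by
    rw [nh_zero]
    calc _ ≤ ∑ _p : m.Th S, (1 + pC n) * m.n0 S j := by
          refine sum_le_sum fun p _ => ?_
          rw [← add_sum_erase _ _ (mem_univ p), rt_self, nh_zero]
          linarith [hm.row_le hS hI p]
      _ ≤ n * ((1 + pC n) * m.n0 S j) := by
          rw [sum_const, nsmul_eq_mul, card_univ]
          exact mul_le_mul_of_nonneg_right (by exact_mod_cast card_Th m S) (by positivity)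
      _ ≤ _ := by
          rw [← mul_assoc]
          refine mul_le_mul_of_nonneg_right ?_ n0.le
          unfold pC
          push_cast
          have a0 : (0 : ℝ) ≤ n := Nat.cast_nonneg _
          have a1 : (n : ℝ) ^ 2 ≤ S ^ 2 / 1024 := by nlinarith
          have a2 : (1 + (64 * (n : ℝ) ^ 2 + 64)) ≤ S ^ 2 := by nlinarith
          calc _ ≤ (S / 32 : ℝ) * S ^ 2 := mul_le_mul (by linarith) a2 (by positivity) (by positivity)
            _ ≤ _ := by nlinarith [pow_nonneg (show (0 : ℝ) ≤ S by positivity) 3]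
  have hx : lamH S ^ 2 * ((S : ℝ) ^ 3 / 2) = 1 / (2 * (S : ℝ) ^ 7) := by
    unfold lamH
    field_simp
  have ht := (hm.wdl_nh hS j h).tail (by rwa [nh_zero]) hA (lamH_pos hS).le (by
    rw [hx]
    exact one_div_le_one_div_of_le two_pos (by nlinarith [one_le_pow₀ (show (1 : ℝ) ≤ S by linarith) (n := 7)]))
    d (T.image fun s => fun u : m.Th S => m.sec S s u) (fun γ hγ => by
      obtain ⟨s, hs, rfl⟩ := mem_image.1 hγ
      exact ⟨hm.sum_res (hT hs), by rw [nm1_res]; exact hd s hs⟩)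
  rw [hx, nh_zero] at ht
  refine le_trans ?_ ht
  rw [← sum_fiberwise_of_maps_to (s := T) (g := fun s => fun u : m.Th S => m.sec S s u)
    (fun s hs => mem_image_of_mem _ hs)]
  refine sum_le_sum fun γ _ => ?_
  unfold nh
  rw [mul_sum]
  refine (le_of_eq (sum_congr rfl fun s hs => ?_)).trans (sum_le_sum_of_subset_of_nonneg
    (fun s hs => mem_filter.2 ⟨hT (mem_filter.1 hs).1, congrFun (mem_filter.1 hs).2⟩) fun s _ _ => ?_)
  · rw [← (mem_filter.1 hs).2, nm1_res, Wt, Hh]
    ring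
  · exact mul_nonneg (pow_pos (lamH_pos hS) _).le (mul_pos ((sep_wt hS j h).pos s) (Hf_pos hS s)).le

theorem OK.total (hm : m.OK R) (hS : Sz N R S) (hI : m.Inv S j h (pC n)) :
    ∑ s ∈ bases m.g, m.Wt S j h s ≤ 2 * m.n0 S j := by
  simpa using hm.sec_tail hS hI 0 _ Subset.rfl (by simp)

theorem OK.out (hm : m.OK R) (hS : Sz N R S) (hI : m.Inv S j h (pC n)) :
    m.ms S j h (bases m.g) (fun s => 100 < nm1 (m.sec S s)) ≤ 1 / (S : ℝ) ^ 356 * m.n0 S j := by
  classical
  unfold ms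
  refine (hm.sec_tail hS hI 51 _ (fun s hs => by
    simp only [mem_filter] at hs
    exact hs.1) fun s hs => by
    simp only [mem_filter] at hs
    omega).trans (mul_le_mul_of_nonneg_right ?_ (hm.n0_pos hS j).le)
  have hS0 : (4096 : ℝ) ≤ S := by exact_mod_cast hS.big
  have a : (0 : ℝ) < S ^ 356 := by positivity
  rw [one_div_pow, mul_pow, ← pow_mul, mul_one_div, div_le_div_iff₀ (by positivity) a,
    show 7 * 51 = 356 + 1 from rfl, pow_succ (S : ℝ) 356]
  nlinarith

theorem OK.update (hm : m.OK R) (hS : Sz N R S) (hI : m.Inv S j h (pC n)) (U : Finset (Fin n))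
    (h1 : ∀ p ∈ U, pC n / 4 * lamH S ^ 2 * m.n0 S j ≤ m.ms S j h (bases m.g) (m.Ep S p))
    (h2 : ∀ p ∉ U, m.ms S j h (bases m.g) (m.Ep S p) ≤ pC n / 2 * lamH S ^ 2 * m.n0 S j) :
    m.Inv S j (fun p => h p + if p ∈ U then 1 else 0) (3 / 4 * pC n) := by
  classical
  have n0 := hm.n0_pos hS j
  have l := pow_pos (lamH_pos hS) 2
  have hw := hm.wdl_nh hS j h
  have hC : (pC n : ℝ) = 64 * n ^ 2 + 64 := by simp [pC]
  have hC0 : (0 : ℝ) < pC n := by rw [hC]; positivity
  have hn : (Fintype.card (m.Th S) : ℝ) ≤ n := by exact_mod_cast card_Th m S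
  have e : ∀ p q : m.Th S, p ≠ q → m.nh S j (fun p => h p + if p ∈ U then 1 else 0) (rt p q) =
      m.nh S j h (rt p q) * (2 : ℝ) ^ ((if q.1 ∈ U then 1 else 0) - (if p.1 ∈ U then 1 else 0) : ℤ) := by
    intro p q hpq
    unfold nh
    rw [sum_mul]
    refine sum_congr rfl fun s hs => ?_
    have hs' := (mem_filter.1 hs).2
    have : ∑ u, ((if u ∈ U then 1 else 0 : ℕ) : ℤ) * m.sec S s u =
        (if p.1 ∈ U then 1 else 0) - (if q.1 ∈ U then 1 else 0) := by
      rw [← sum_Th (m := m) (S := S) _ fun u hu => by rw [sec_fat s hu, mul_zero]]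
      simp only [hs', rt, Pi.sub_apply, Pi.single_apply, mul_sub, sum_sub_distrib, mul_ite, mul_one, mul_zero,
        sum_ite_eq', mem_univ, if_true, Nat.cast_ite, Nat.cast_one, Nat.cast_zero]
    unfold wt
    simp only [Nat.cast_add, add_mul, sum_add_distrib, this]
    rw [neg_add, zpow_add₀ two_ne_zero, neg_sub]
    ring
  have hle : ∀ p q : m.Th S, m.nh S j h (rt p q) ≤ pC n * m.n0 S j := by
    intro p q
    by_cases c : q = p
    · rw [c, rt_self, nh_zero, hC]
      nlinarith [mul_nonneg (sq_nonneg (n : ℝ)) n0.le]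
    · exact (single_le_sum (f := fun q => m.nh S j h (rt p q)) (fun q _ => hw.nonneg _)
        (mem_erase.2 ⟨c, mem_univ q⟩)).trans (hm.row_le hS hI p)
  have small : ∀ p q : m.Th S, q.1 ∈ U → m.nh S j h (rt p q) ≤ 8 * n * m.n0 S j := by
    intro p q hq
    have a1 := h1 q hq
    rw [hm.ms_Ep] at a1
    have a2 : pC n / 4 * m.n0 S j ≤ ∑ s ∈ univ.erase q, m.nh S j h (rt q s) :=
      le_of_mul_le_mul_left (a1.trans_eq' (by ring)) l
    have a3 : pC n / 4 * m.n0 S j * m.nh S j h (rt p q) ≤ n * (2 * (pC n * m.n0 S j * m.n0 S j)) := by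
      calc _ ≤ (∑ s ∈ univ.erase q, m.nh S j h (rt q s)) * m.nh S j h (rt p q) :=
            mul_le_mul_of_nonneg_right a2 (hw.nonneg _)
        _ ≤ ∑ _s ∈ univ.erase q, 2 * (pC n * m.n0 S j * m.n0 S j) := by
            rw [sum_mul]
            refine sum_le_sum fun s _ => ?_
            have := hw.tri p q s
            rw [nh_zero] at this
            nlinarith [hle p s]
        _ ≤ _ := by
            rw [sum_const, nsmul_eq_mul]
            refine mul_le_mul_of_nonneg_right (le_trans ?_ hn) (by positivity)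
            exact_mod_cast card_le_univ _
    have a4 : 0 < pC n / 4 * m.n0 S j := by positivity
    refine le_of_mul_le_mul_left (a3.trans_eq ?_) a4
    ring
  intro p
  cases c : m.fm S p
  swap
  · rw [ms_Ep_fat c]
    positivity
  have hp := hm.ms_Ep (S := S) (j := j) (h := fun p => h p + if p ∈ U then 1 else 0) ⟨p, c⟩
  rw [hp]
  set p' : m.Th S := ⟨p, c⟩ with hp'
  have b1 : ∑ q ∈ univ.erase p', (if p ∈ U then 1 / 2 else 1) * m.nh S j h (rt p' q) ≤ pC n / 2 * m.n0 S j := by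
    rw [← mul_sum]
    split_ifs with cU
    · linarith [hm.row_le hS hI p']
    · have a1 := h2 p cU
      rw [hm.ms_Ep p'] at a1
      rw [one_mul]
      exact le_of_mul_le_mul_left (a1.trans_eq (by ring)) l
  have b2 : ∑ q ∈ univ.erase p', m.nh S j (fun p => h p + if p ∈ U then 1 else 0) (rt p' q) ≤
      ∑ q ∈ univ.erase p', ((if p ∈ U then 1 / 2 else 1) * m.nh S j h (rt p' q) + 8 * n * m.n0 S j) := by
    refine sum_le_sum fun q hq => ?_
    rw [e p' q (mem_erase.1 hq).1.symm]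
    have a0 := hw.nonneg (rt p' q)
    have a1 : 0 ≤ 8 * n * m.n0 S j := by positivity
    by_cases c1 : q.1 ∈ U
    · have a2 := small p' q c1
      by_cases c2 : p ∈ U <;> simp only [hp', c1, c2, if_true, if_false] <;> norm_num <;> linarith
    · by_cases c2 : p ∈ U <;> simp only [hp', c1, c2, if_true, if_false] <;> norm_num <;> linarith
  rw [sum_add_distrib, sum_const, nsmul_eq_mul] at b2
  have b3 : (#(univ.erase p') : ℝ) * (8 * n * m.n0 S j) ≤ n * (8 * n * m.n0 S j) := by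
    refine mul_le_mul_of_nonneg_right (le_trans ?_ hn) (by positivity)
    exact_mod_cast card_le_univ _
  have b4 : (n : ℝ) * (8 * n * m.n0 S j) ≤ pC n / 4 * m.n0 S j := by
    rw [hC]
    nlinarith [mul_nonneg (sq_nonneg (n : ℝ)) n0.le]
  calc _ ≤ lamH S ^ 2 * (3 / 4 * pC n * m.n0 S j) := mul_le_mul_of_nonneg_left (by linarith) l.le
    _ = _ := by ring

theorem Inv.mono (hS : Sz N R S) {A A' : ℝ} (hI : m.Inv S j h A) (hA : A ≤ A') : m.Inv S j h A' := by
  intro p
  refine (hI p).trans ?_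
  have : 0 ≤ m.n0 S j := ms_nonneg hS _ _
  gcongr

end Md

end Crest.Agent.R302B
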