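import Crest.Agent.R302B.Mod2

/-!
# Row 302 (binary layer): Mod4
Ranges and the enlargement.
* `range_plus`: `z = s + ∑ y t • rt t (nx t)` (`exists_decomp`); `σ t ≠ 0` forces `fo t`, `S^40 σ t ≤ W t`.  For `u` with `μ u ≤ cK (W t + 1)`:
  `|ps (psh cp z) u| ≤ 2 sg u + 100` (`ps_eq_th`), and `ps (psh cp (z - s)) u` only involves the `t'` with `W t' ≤ μ u` (`compat`), so it is at most `μ u`;
  `Frame.range` with `T = 2 cK (W t + 1) + 100`; finally `|ps (z - s) t| ≤ σ t`.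
* `enl_mod`: `enl` with `ω = Wt * [nm1 sec ≤ 100]`, `Gd s = (nm1 sec ≤ 100 ∧ Tr s)`, `P = S^6`, `P' = S^27`, `Q = S^8`, `V = S^28`, `κ = S^40`
  (`Hh_rt`, `sec_rt`, `tail_le`, `half_pow_le`; if `j ≠ 0` the smoothness hypothesis is vacuous).
-/

set_option autoImplicit false
set_option linter.unusedSectionVars false

noncomputable section

namespace Crest.Agent.R302B

open Finset Crest.Agent.R302

variable {n N R S j : ℕ} {m : Md n N} {h : Fin n → ℕ}


namespace Md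

theorem je_spec (hS : Sz N R S) {t : ℕ} (ht : m.fo S t = true) :
    S ^ 25 ≤ 2 ^ m.je S t ∧ ((S ^ 40 * 2 ^ m.je S t : ℕ) : ℤ) ≤ m.W t ∧ m.W t ≤ ((4 * S ^ 40 * 2 ^ m.je S t : ℕ) : ℤ) := by
  have h1 : ((S ^ 66 : ℕ) : ℤ) ≤ m.W t := (of_decide_eq_true ht).2
  have hS2 : 2 ≤ S := by have := hS.big; omega
  have hp : 0 < S ^ 40 := by positivity
  obtain ⟨w, hw⟩ : ∃ w : ℕ, m.W t = w := ⟨(m.W t).toNat, by omega⟩
  have e : m.je S t = (w / S ^ 40).size - 1 := by rw [je, if_pos ht, hw, Int.toNat_natCast]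
  rw [hw] at h1 ⊢
  have h2 : S ^ 26 ≤ w / S ^ 40 := by
    rw [Nat.le_div_iff_mul_le hp, ← pow_add]
    exact_mod_cast h1
  have h3 : 0 < w / S ^ 40 := lt_of_lt_of_le (by positivity) h2
  have h4 : 0 < (w / S ^ 40).size := Nat.size_pos.2 h3
  have h5 : 2 ^ m.je S t ≤ w / S ^ 40 := Nat.lt_size.1 (by omega)
  have h6 : w / S ^ 40 < 2 * 2 ^ m.je S t := by
    rw [← pow_succ', e, Nat.sub_add_cancel h4]
    exact Nat.lt_size_self _
  refine ⟨?_, ?_, ?_⟩
  · have : S ^ 25 * 2 ≤ S ^ 26 := by rw [pow_succ S 25]; gcongr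
    omega
  · exact_mod_cast (Nat.mul_le_mul_left _ h5).trans (Nat.mul_div_le _ _)
  · have := (Nat.div_lt_iff_lt_mul hp).1 h6
    exact_mod_cast (by nlinarith : w ≤ 4 * S ^ 40 * 2 ^ m.je S t)

theorem sp_thin {t : Fin N} (ht : m.fo S t = false) : m.sp S t = 0 := by
  simp [sp, je, ht]

theorem sp_spec (hS : Sz N R S) {t : Fin N} (ht : m.sp S t ≠ 0) :
    t.val + 1 < N ∧ ((S ^ 40 : ℕ) * m.sp S t : ℤ) ≤ m.W t ∧ ((S ^ 66 : ℕ) : ℤ) ≤ m.W t := by
  have h1 : m.fo S t = true := by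
    by_contra c
    exact ht (sp_thin (by simpa using c))
  refine ⟨(of_decide_eq_true h1).1, le_trans ?_ (je_spec hS h1).2.1, (of_decide_eq_true h1).2⟩
  have : m.sp S t ≤ 2 ^ m.je S t := by
    unfold sp
    exact (Nat.sub_le _ _).trans (Nat.div_le_self _ _)
  exact_mod_cast Nat.mul_le_mul_left _ this

theorem sum_flow_le (hS : Sz N R S) {y : Fin N → ℤ} (hy : ∀ t, |y t| ≤ m.sp S t) (A : Finset (Fin N)) {B : ℤ}
    (hB : 0 ≤ B) (h : ∀ t, ¬ (t ∈ A ↔ nx t ∈ A) → m.W t ≤ B) :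
    |∑ k ∈ A, (∑ t, y t • rt t (nx t)) k| ≤ B := by
  have e := Enl_sum 0 y univ A
  simp only [zero_add, Pi.zero_apply, sum_const_zero] at e
  rw [e]
  have hp : (0 : ℤ) < (S ^ 40 : ℕ) := by
    have := hS.big
    positivity
  have hN : (N : ℤ) ≤ (S ^ 40 : ℕ) := by
    have := hS.N_le
    exact_mod_cast (by omega : N ≤ S).trans (Nat.le_self_pow (by norm_num) S)
  refine le_of_mul_le_mul_left ?_ hp
  refine (mul_le_mul_of_nonneg_left (abs_sum_le_sum_abs _ _) hp.le).trans ?_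
  rw [mul_sum]
  refine (sum_le_card_nsmul _ _ B fun t _ => ?_).trans ?_
  · by_cases c : (t ∈ A ↔ nx t ∈ A)
    · simpa [c] using hB
    · have h1 : |y t * ((if t ∈ A then 1 else 0) - (if nx t ∈ A then 1 else 0))| ≤ m.sp S t := by
        refine le_trans ?_ (hy t)
        split_ifs <;> simp
      by_cases c' : m.sp S t = 0
      · rw [c'] at h1
        exact (mul_nonpos_of_nonneg_of_nonpos hp.le h1).trans hB
      · exact (mul_le_mul_of_nonneg_left h1 hp.le).trans ((sp_spec hS c').2.1.trans (h t c))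
  · rw [card_univ, Fintype.card_fin, nsmul_eq_mul]
    exact mul_le_mul_of_nonneg_right hN hB

theorem abs_sec_le (s : Fin N → ℤ) (T : Finset (Fin n)) : |∑ u ∈ T, m.sec S s u| ≤ nm1 (m.sec S s) := by
  refine (abs_sum_le_sum_abs _ _).trans ?_
  unfold nm1
  rw [Nat.cast_sum]
  simp only [Int.natCast_natAbs]
  exact sum_le_sum_of_subset_of_nonneg (subset_univ _) fun _ _ _ => abs_nonneg _

theorem OK.range_plus (hm : m.OK R) (hS : Sz N R S) {z : Fin N → ℤ}
    (hz : IsB (fun X => m.g X + cutf (m.sp S) X) z) (h1 : nm1 (m.sec S z) ≤ 100) (h2 : m.Tr S z) (t : ℕ) :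
    |ps z t| ≤ (S ^ 6 : ℕ) * (m.W t + (S ^ 28 : ℕ)) := by
  obtain ⟨s, y, hs, hy, e⟩ := exists_decomp hm.fr.sub hz
  have w0 := hm.fr.ord.nonneg t
  have hK : 0 ≤ cK N * (m.W t + 1) := by
    unfold cK
    positivity
  have a1 : |ps (∑ t, y t • rt t (nx t)) t| ≤ m.W t := by
    refine sum_flow_le hS hy _ w0 fun r hr => le_of_eq (congrArg _ ?_)
    simp only [mem_filter, mem_univ, true_and, nx] at hr
    split_ifs at hr with c
    · simp only at hr
      omega
    · exact absurd Iff.rfl hr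
  have a2 := hm.fr.range s hs t (2 * (cK N * (m.W t + 1)) + 200) (by positivity) fun u hu hμ => by
    have b1 : |ps (psh m.cp (∑ t, y t • rt t (nx t))) u| ≤ m.μ u := by
      unfold ps
      rw [sum_psh]
      refine sum_flow_le hS hy _ (hm.fr.nonneg u) fun r hr => hm.fr.compat r u ?_
      simpa only [mem_filter, mem_univ, true_and] using hr
    have b2 : |ps (psh m.cp z) u| ≤ m.μ u + 200 := by
      have c1 := ps_eq_th (fat := m.fm S) (psh m.cp z) ⟨u, by omega⟩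
      have c2 := abs_sec_le (m := m) (S := S) z
        (univ.filter fun r : Fin n => m.fm S r = false ∧ r < ⟨u, by omega⟩)
      rw [sum_congr rfl fun r hr => sec_thin z (mem_filter.1 hr).2.1] at c2
      have c3 : |m.gth S z ⟨u, by omega⟩| ≤ m.μ u + 100 := by
        have d0 := hm.fr.nonneg u
        cases c : m.fm S u
        · have d1 := abs_sec_le (m := m) (S := S) z {⟨u, by omega⟩}
          rw [sum_singleton, sec_thin z c] at d1
          omega
        · have d1 := h2 ⟨u, by omega⟩ c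
          have d2 : m.sg S u * S ^ 6 ≤ (m.μ u).toNat := Nat.div_mul_le_self _ _
          have d3 : 2 ≤ S ^ 6 := by
            have := hS.big
            exact (by omega : 2 ≤ S).trans (Nat.le_self_pow (by norm_num) S)
          have d4 : m.sg S u * 2 ≤ m.sg S u * S ^ 6 := Nat.mul_le_mul_left _ d3
          rw [Int.abs_eq_natAbs]
          simp only at d1
          omega
      unfold gth at c2 c3
      simp only at c1
      rw [c1]
      refine (abs_add_le _ _).trans ?_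
      omega
    have b3 : ps (psh m.cp z) u = ps (psh m.cp s) u + ps (psh m.cp (∑ t, y t • rt t (nx t))) u := by
      rw [e, psh_add]
      simp only [ps, Pi.add_apply, sum_add_distrib]
    rw [abs_le] at b1 b2 ⊢
    omega
  have a3 : ps z t = ps s t + ps (∑ t, y t • rt t (nx t)) t := by
    rw [e]
    simp only [ps, Pi.add_apply, sum_add_distrib]
  rw [a3]
  refine (abs_add_le _ _).trans ((add_le_add a2 a1).trans ?_)
  unfold cK
  push_cast
  have s0 : (4096 : ℤ) ≤ S := by exact_mod_cast hS.big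
  have n0 : (0 : ℤ) ≤ N := Nat.cast_nonneg _
  have n1 : (32 * N : ℤ) ≤ S := by exact_mod_cast hS.N_le
  have p5 : (N : ℤ) ^ 5 ≤ S ^ 5 := by gcongr; omega
  have p2 : (N : ℤ) ^ 2 ≤ S ^ 2 := by gcongr; omega
  have p6 : (32 * N : ℤ) ^ 6 ≤ S ^ 6 := by gcongr
  have q5 : 4096 * (S : ℤ) ^ 5 ≤ S ^ 6 := by rw [pow_succ' (S : ℤ) 5]; gcongr
  have q2 : 4096 * (S : ℤ) ^ 2 ≤ S ^ 6 := by
    calc 4096 * (S : ℤ) ^ 2 ≤ (S : ℤ) * (S : ℤ) ^ 2 := by gcongr
      _ = (S : ℤ) ^ 3 := by ring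
      _ ≤ (S : ℤ) ^ 6 := pow_le_pow_right₀ (by omega) (by norm_num)
  have q0 : (4096 : ℤ) ≤ S ^ 6 := s0.trans (le_self_pow₀ (by omega) (by norm_num))
  have q1 : (S : ℤ) ^ 6 * 1 ≤ S ^ 6 * S ^ 28 := by
    gcongr
    exact one_le_pow₀ (by omega)
  have r1 : 2 * (32 * (N : ℤ) ^ 6 + 32 * N ^ 5 + 1) ≤ S ^ 6 := by
    have := pow_nonneg n0 6
    nlinarith
  have r2 : (32 * (N : ℤ) ^ 6 + 32 * N ^ 5 + 1) * m.W t ≤ S ^ 6 * m.W t := by
    gcongr
    have := pow_nonneg n0 6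
    have := pow_nonneg n0 5
    linarith
  nlinarith

theorem OK.card_plus (hm : m.OK R) (hS : Sz N R S) : #(bases fun X => m.g X + cutf (m.sp S) X) ≤ 2 ^ S ^ 2 := by
  refine hS.card_le _ fun z hz k => ?_
  obtain ⟨s, y, hs, hy, rfl⟩ := exists_decomp hm.fr.sub (mem_bases.1 hz)
  have a1 := sum_flow_le hS hy {k} (Nat.cast_nonneg R) fun t _ => hm.W_le t
  have a2 := hm.bd s hs k
  rw [sum_singleton] at a1
  rw [Pi.add_apply]
  refine (abs_add_le _ _).trans ?_
  omega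

theorem OK.wt_rt (hm : m.OK R) (hj : j = 0 ∨ ∀ t, m.W t < (S ^ 28 : ℕ)) {r : Fin N} (hr : r.val + 1 < N)
    (hW : ((S ^ 28 : ℕ) : ℤ) ≤ m.W r) (s : Fin N → ℤ) : m.wt S j h (s + rt r (nx r)) = m.wt S j h s := by
  rcases hj with rfl | hj
  · unfold wt
    rw [sec_add, hm.sec_rt hr hW, add_zero, zero_mul, zero_mul]
  · exact absurd (hj r) (not_lt.2 hW)

theorem OK.enl_mod (hm : m.OK R) (hS : Sz N R S) (hj : j = 0 ∨ ∀ t, m.W t < (S ^ 28 : ℕ)) (hh : ∀ u, h u ≤ S ^ 18) :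
    m.ms S j h (bases fun X => m.g X + cutf (m.sp S) X) (fun s => nm1 (m.sec S s) ≤ 100) ≤
      2 * ∑ s ∈ bases m.g, m.Wt S j h s := by
  classical
  have s0 := hS.big
  have n1 := hS.N_le
  have hω : ∀ s, 0 ≤ if nm1 (m.sec S s) ≤ 100 then m.Wt S j h s else 0 := fun s => by
    split_ifs
    · exact (Wt_pos hS s).le
    · exact le_rfl
  have key := enl (σ := m.sp S) hm.fr.sub hm.fr.zero hm.fr.ord hω (fun s => nm1 (m.sec S s) ≤ 100 ∧ m.Tr S s)
    (P := S ^ 6) (P' := S ^ 27) (Q := S ^ 8) (V := S ^ 28) (κ := S ^ 40) (by positivity)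
    (by rw [pow_succ' S 27]; gcongr; omega) ?_ ?_ (fun r hr hW s => ?_)
    (fun s hs hG t _ => hm.range_plus hS hs hG.1 hG.2 t) (fun t ht => ?_) ?_
  · unfold ms
    rw [sum_filter]
    refine le_trans (le_of_eq (sum_congr rfl fun s _ => by congr)) (key.trans ?_)
    refine mul_le_mul_of_nonneg_left (sum_le_sum fun s _ => ?_) zero_le_two
    split_ifs
    · exact le_rfl
    · exact (Wt_pos hS s).le
  · have a1 : N ≤ S ^ 6 := (by omega : N ≤ S).trans (Nat.le_self_pow (by norm_num) S)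
    have a2 : (32 * N) ^ 2 ≤ S ^ 2 := by gcongr
    have a3 : 0 < S ^ 2 * S ^ 6 := by positivity
    calc 12 * N ^ 2 * (N + S ^ 6) ≤ 12 * N ^ 2 * (2 * S ^ 6) := by gcongr; omega
      _ = 24 * (N ^ 2 * S ^ 6) := by ring
      _ < S ^ 2 * S ^ 6 := by nlinarith [Nat.mul_le_mul_right (S ^ 6) a2]
      _ = _ := by ring
  · have a2 : (32 * N) ^ 5 ≤ S ^ 5 := by gcongr
    calc 128 * N ^ 5 * S ^ 27 * S ^ 8 ≤ S ^ 5 * S ^ 27 * S ^ 8 := by gcongr; nlinarith [Nat.zero_le (N ^ 5)]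
      _ = _ := by ring
  · have e0 := hm.sec_rt hr hW
    have e1 : m.sec S (s + rt r (nx r)) = m.sec S s := by rw [sec_add, e0, add_zero]
    have e2 : m.sec S (s - rt r (nx r)) = m.sec S s := by rw [sub_eq_add_neg, sec_add, sec_neg, e0, neg_zero, add_zero]
    have e3 := hm.wt_rt (h := h) hj hr hW s
    have e4 := hm.wt_rt (h := h) hj hr hW (s - rt r (nx r))
    have e5 := (hm.Hh_rt hS hr hW (s + rt r (nx r))).2
    have e6 := (hm.Hh_rt hS hr hW (s - rt r (nx r))).1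
    rw [sub_add_cancel] at e4 e6
    rw [add_sub_cancel_right] at e5
    have e7 := (sep_wt (m := m) hS j h).pos s
    simp only [e1, e2, Wt, e3, ← e4, Nat.cast_pow]
    split_ifs
    · constructor <;> nlinarith
    · simp
  · obtain ⟨a1, a2, a3⟩ := sp_spec hS ht
    refine ⟨a1, a2, le_trans ?_ a3⟩
    rw [← Nat.cast_mul, ← pow_add]
    exact_mod_cast Nat.pow_le_pow_right (by omega) (by norm_num)
  · have a1 := tail_le (m := m) (j := j) hS hh ((bases fun X => m.g X + cutf (m.sp S) X).filter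
      fun s => nm1 (m.sec S s) ≤ 100 ∧ ¬ m.Tr S s) ((card_filter_le _ _).trans (hm.card_plus hS))
      fun s hs => (mem_filter.1 hs).2
    have a2 : (1 / 2 : ℝ) ^ S ^ 19 ≤ (1 / 2) ^ 1 :=
      pow_le_pow_of_le_one (by norm_num) (by norm_num) (Nat.one_le_pow _ _ (by omega))
    have a3 := single_le_sum (fun s _ => hω s) (mem_bases.2 hm.fr.zero)
    rw [sec_zero, if_pos (by simp [nm1]), Wt_zero] at a3
    rw [← sum_filter, filter_filter, filter_congr (q := fun s => nm1 (m.sec S s) ≤ 100 ∧ ¬ m.Tr S s)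
      fun s _ => by tauto]
    linarith

end Md

end Crest.Agent.R302B
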