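import Crest.Agent.R302.Rank

/-!
# Row 302 (binary layer), PREP: slacks, exchange digraphs, centred points, laminar orders

`slack f x X = f X - x(X)`.  `Arc f x s p q`: every set containing `p` but not `q` has slack `> s`, i.e. `x + t (e_p - e_q)` is a base for
`0 ≤ t ≤ s + 1`; this is a preorder.  `DArc f₁ f₂ x s p q` is the combined digraph, `Reach` its reflexive transitive closure, `Scc` its
strong components.  `Cone f x s k g`: `g` behaves like a sum of at most `k` roots along arcs of scale `s`.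
`Cen f₁ f₂ x`: every arc of scale `16 n³ (s+1)` inside a strong component of that scale can be reversed at scale `s`.
`Ord E π W`: `π` lists the points such that the classes of all `E s` are intervals, `W t` is the scale of the pair `π t, π (t+1)`.
-/

set_option autoImplicit false
set_option linter.unusedSectionVars false

noncomputable section

namespace Crest.Agent.R302B

open Finset Crest.Agent.R302

section general

variable {ι : Type} [Fintype ι] [DecidableEq ι]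

/-- slack of a set -/
def slack (f : Finset ι → ℤ) (x : ι → ℤ) (X : Finset ι) : ℤ := f X - ∑ j ∈ X, x j

/-- all slacks of bases are at most `M` -/
def Bd (f : Finset ι → ℤ) (M : ℤ) : Prop := ∀ X, f X + f Xᶜ - f univ ≤ M

/-- the root `e_p - e_q` -/
def rt (p q : ι) : ι → ℤ := Pi.single p 1 - Pi.single q 1

/-- arcs of the exchange preorder of scale `s` -/
def Arc (f : Finset ι → ℤ) (x : ι → ℤ) (s : ℤ) (p q : ι) : Prop :=
  ∀ X : Finset ι, p ∈ X → q ∉ X → s < slack f x X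

/-- classes of the exchange preorder -/
def Eqv (f : Finset ι → ℤ) (x : ι → ℤ) (s : ℤ) (p q : ι) : Prop := Arc f x s p q ∧ Arc f x s q p

/-- arcs of the combined digraph -/
def DArc (f₁ f₂ : Finset ι → ℤ) (x : ι → ℤ) (s : ℤ) (p q : ι) : Prop := Arc f₁ x s p q ∨ Arc f₂ x s q p

/-- reachability in the combined digraph -/
def Reach (f₁ f₂ : Finset ι → ℤ) (x : ι → ℤ) (s : ℤ) (p q : ι) : Prop :=
  Relation.ReflTransGen (DArc f₁ f₂ x s) p q

/-- strong components of the combined digraph -/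
def Scc (f₁ f₂ : Finset ι → ℤ) (x : ι → ℤ) (s : ℤ) (p q : ι) : Prop :=
  Reach f₁ f₂ x s p q ∧ Reach f₁ f₂ x s q p

/-- tangent directions of scale `s` and length `k` -/
structure Cone (f : Finset ι → ℤ) (x : ι → ℤ) (s : ℤ) (k : ℤ) (g : ι → ℤ) : Prop where
  sum : ∑ j, g j = 0
  le : ∀ X : Finset ι, ∑ j ∈ X, g j ≤ k
  cl : ∀ X : Finset ι, slack f x X ≤ s → ∑ j ∈ X, g j ≤ 0

/-- `g` labels a walk from `p` to `q` in the combined digraph -/
def Lab (f₁ f₂ : Finset ι → ℤ) (x : ι → ℤ) (s : ℤ) (k : ℤ) (p q : ι) (g : ι → ℤ) : Prop :=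
  Cone f₁ x s k g ∧ Cone f₂ x s k (g - rt p q)

/-- the ratio of scales lost in the centring -/
def cK (n : ℕ) : ℤ := 16 * (n : ℤ) ^ 3

/-- centred common bases -/
structure Cen (f₁ f₂ : Finset ι → ℤ) (x : ι → ℤ) : Prop where
  b₁ : IsB f₁ x
  b₂ : IsB f₂ x
  rev₁ : ∀ s, 0 ≤ s → ∀ p q, Scc f₁ f₂ x (cK (Fintype.card ι) * (s + 1)) p q →
    Arc f₁ x (cK (Fintype.card ι) * (s + 1)) p q → Arc f₁ x s q p
  rev₂ : ∀ s, 0 ≤ s → ∀ p q, Scc f₁ f₂ x (cK (Fintype.card ι) * (s + 1)) p q →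
    Arc f₂ x (cK (Fintype.card ι) * (s + 1)) p q → Arc f₂ x s q p

/-- capacity, truncated at `M` -/
def cap (f : Finset ι → ℤ) (x : ι → ℤ) (M : ℤ) (p q : ι) : ℤ :=
  (univ : Finset (Finset ι)).inf' univ_nonempty fun X => if p ∈ X ∧ q ∉ X then min M (slack f x X) else M

end general

variable {n : ℕ}

/-- prefix sets of an order: the first `t + 1` points -/
def pre (π : Fin n ≃ Fin n) (t : ℕ) : Finset (Fin n) := univ.filter fun j => (π.symm j : ℕ) ≤ t

/-- laminar orders -/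
structure Ord (E : ℤ → Fin n → Fin n → Prop) (π : Fin n ≃ Fin n) (W : ℕ → ℤ) : Prop where
  nonneg : ∀ t, 0 ≤ W t
  con : ∀ a b : Fin n, (b : ℕ) = a + 1 → ∀ s, s < W a → E s (π a) (π b)
  int : ∀ (a b : Fin n) (t : ℕ), (a : ℕ) ≤ t → t < b → ∀ s, E s (π a) (π b) → s < W t

/-- the output of the preparation -/
structure Prep (f₁ f₂ : Finset (Fin n) → ℤ) (M : ℤ) (x : Fin n → ℤ) (π₁ π₂ ρ : Fin n ≃ Fin n)
    (W₁ W₂ μ : ℕ → ℤ) : Prop where
  cen : Cen f₁ f₂ x
  o₁ : Ord (Eqv f₁ x) π₁ W₁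
  o₂ : Ord (Eqv f₂ x) π₂ W₂
  o : Ord (Scc f₁ f₂ x) ρ μ
  le₁ : ∀ t, W₁ t ≤ M
  le₂ : ∀ t, W₂ t ≤ M
  le : ∀ t, μ t ≤ M

end Crest.Agent.R302B
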