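import Crest.Agent.R302.SFM5
import Crest.Agent.R302B.PDefs

/-!
# Row 302 (binary layer), PREP: the programs (DEFINITIONS ONLY; do not edit, message helper81)

Vectors are lists (`vec`), sets are lists of Booleans (`bset`), matrices are lists of lists (`ent`).
-/

set_option autoImplicit false

noncomputable section

namespace Crest.Agent.R302B

open Finset Crest.Agent.R302 Crest.Agent.R302.QT

/-- a list as a vector -/
def vec (n : ℕ) (l : List ℤ) : Fin n → ℤ := fun j => l.getD j 0

/-- matrix entries -/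
def ent (c : List (List ℤ)) (p q : ℕ) : ℤ := (c.getD p []).getD q 0

/-- `fq` evaluates the bounded submodular function `f` -/
structure Ev (O : Orc) (n M : ℕ) (f : Finset (Fin n) → ℤ) (fq : List Bool → QT ℤ) : Prop where
  sub : Sub f
  abs : ∀ A, |f A| ≤ M
  bd : Bd f M
  det : ∀ s, s.length = n → Det O (fq s) (f (bset n s))

/-- the minimum of a submodular function (not normalised) with values bounded by `M` -/
def minQ (fq : List Bool → QT ℤ) (N M : ℕ) : QT ℤ :=
  (fq (List.replicate N false)).bind fun v =>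
    (sfmQ (fun s => (fq s).map fun z => z - v) N (2 * M)).map fun r => r.1 + v

/-- `x(S)` -/
def lsum (n : ℕ) (x : List ℤ) (s : List Bool) : ℤ :=
  ((List.range n).map fun j => if s.getD j false = true then x.getD j 0 else 0).sum

/-- the `ℓ¹` norm -/
def l1 (x : List ℤ) : ℕ := (x.map Int.natAbs).sum

/-- slack of a set -/
def slackQ (fq : List Bool → QT ℤ) (n : ℕ) (x : List ℤ) (s : List Bool) : QT ℤ :=
  (fq s).map fun v => v - lsum n x s

/-- membership in the base polytope -/
def memQ (fq : List Bool → QT ℤ) (n M : ℕ) (x : List ℤ) : QT Bool :=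
  (minQ (slackQ fq n x) n (M + l1 x)).bind fun m =>
    (slackQ fq n x (List.replicate n true)).map fun v => decide (0 ≤ m ∧ v = 0)

/-- truncated capacity -/
def capQ (fq : List Bool → QT ℤ) (n M : ℕ) (x : List ℤ) (p q : ℕ) : QT ℤ :=
  if p = q then QT.ret (M : ℤ)
  else (minQ (fun s => slackQ fq n x ((s.set p true).set q false)) n (M + l1 x)).map fun m => min (M : ℤ) m

/-- the matrix of capacities -/
def capsQ (fq : List Bool → QT ℤ) (n M : ℕ) (x : List ℤ) : QT (List (List ℤ)) :=
  mapQ (fun p => mapQ (capQ fq n M x p) (List.range n)) (List.range n)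

/-- `c` is the matrix of capacities -/
def IsCaps {n : ℕ} (f : Finset (Fin n) → ℤ) (x : Fin n → ℤ) (M : ℕ) (c : List (List ℤ)) : Prop :=
  ∀ p q : Fin n, ent c p q = cap f x M p q

/-- projection to `[-M, M]` -/
def clip (M : ℕ) (z : ℤ) : ℤ := max (-(M : ℤ)) (min (M : ℤ) z)

/-! ### A first common base (discrete sandwich theorem) -/

/-- the first set -/
def sa (n v : ℕ) (U : List Bool) : List Bool :=
  (List.range n).map fun j => decide (j = v) || U.getD j false

/-- the second set -/
def sb (n v : ℕ) (U : List Bool) : List Bool :=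
  (List.range n).map fun j => if j < v then U.getD (n + j) false else (decide (j ≠ v) && U.getD j false)

/-- the function whose minimum is the next coordinate -/
def sandQ (fq₁ fq₂ : List Bool → QT ℤ) (n : ℕ) (x : List ℤ) (U : List Bool) : QT ℤ :=
  (fq₁ (sa n x.length U)).bind fun a =>
    (fq₂ ((sb n x.length U).map fun c => !c)).bind fun b =>
      (fq₂ (List.replicate n true)).map fun c =>
        a - lsum n x (sa n x.length U) + b - c + lsum n x (sb n x.length U)

/-- fix the next coordinate -/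
def firstStep (fq₁ fq₂ : List Bool → QT ℤ) (n M : ℕ) (x : List ℤ) : QT (List ℤ) :=
  (minQ (sandQ fq₁ fq₂ n x) (2 * n) (3 * M + 2 * l1 x)).map fun α => x ++ [clip (2 * M) α]

/-- a common base if there is one -/
def firstQ (fq₁ fq₂ : List Bool → QT ℤ) (n M : ℕ) : QT (List ℤ) := iter (firstStep fq₁ fq₂ n M) n []

/-! ### Bottleneck walks with labels -/

/-- bottleneck value and direction -/
abbrev Lb : Type := ℤ × List ℤ

/-- `g + e_u - e_q` -/
def vadd (n : ℕ) (g : List ℤ) (u q : ℕ) : List ℤ :=
  (List.range n).map fun j => g.getD j 0 + (if j = u then 1 else 0) - (if j = q then 1 else 0)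

/-- candidates for the label of `q` -/
def cands (n : ℕ) (c₁ c₂ : List (List ℤ)) (row : List Lb) (q : ℕ) : List Lb :=
  row.getD q (0, []) :: (List.range n).flatMap fun u =>
    [(min (row.getD u (0, [])).1 (ent c₁ u q), vadd n (row.getD u (0, [])).2 u q),
      (min (row.getD u (0, [])).1 (ent c₂ q u), (row.getD u (0, [])).2)]

/-- one round -/
def bfStep (n : ℕ) (c₁ c₂ : List (List ℤ)) (row : List Lb) : List Lb :=
  (List.range n).map fun q => ((cands n c₁ c₂ row q).argmax Prod.fst).getD (0, [])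

/-- the labels of the best walks from `p` -/
def bf (n M : ℕ) (c₁ c₂ : List (List ℤ)) (p : ℕ) : List Lb :=
  (bfStep n c₁ c₂)^[n - 1] ((List.range n).map fun q => (if q = p then (M : ℤ) else 0, []))

/-- the matrix of bottleneck values -/
def kapM (n M : ℕ) (c₁ c₂ : List (List ℤ)) : List (List ℤ) :=
  (List.range n).map fun p => (bf n M c₁ c₂ p).map Prod.fst

/-! ### Centring -/

/-- an improving push along an arc of the first preorder -/
def viol (n M : ℕ) (c₁ c₂ : List (List ℤ)) : Option (List ℤ) :=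
  ((List.range n ×ˢ List.range n).find? fun e => decide (e.1 ≠ e.2 ∧
      cK n * (ent c₁ e.2 e.1 + 1) < ent c₁ e.1 e.2 ∧
      cK n * (ent c₁ e.2 e.1 + 1) < ((bf n M c₁ c₂ e.2).getD e.1 (0, [])).1)).map fun e =>
    (vadd n ((bf n M c₁ c₂ e.2).getD e.1 (0, [])).2 e.1 e.2).map fun z => 4 * (ent c₁ e.2 e.1 + 1) * z

/-- the new point -/
def cpush (n M : ℕ) (c₁ c₂ : List (List ℤ)) (x : List ℤ) : List ℤ :=
  (List.range n).map fun j =>
    clip (2 * M) (x.getD j 0 + ((viol n M c₁ c₂).getD ((viol n M c₂ c₁).getD [])).getD j 0)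

/-- one step of the centring -/
def cenStep (fq₁ fq₂ : List Bool → QT ℤ) (n M : ℕ) (x : List ℤ) : QT (List ℤ) :=
  (capsQ fq₁ n M x).bind fun c₁ => (capsQ fq₂ n M x).map fun c₂ => cpush n M c₁ c₂ x

/-- the centring -/
def cenQ (fq₁ fq₂ : List Bool → QT ℤ) (n M : ℕ) (x : List ℤ) : QT (List ℤ) :=
  iter (cenStep fq₁ fq₂ n M) (2 * n ^ 2 * M.size + 1) x

/-! ### Greedy orders -/

/-- append the unvisited point most similar to the last one (the list is reversed) -/
def gstep (n : ℕ) (σ : List (List ℤ)) (l : List ℕ) : List ℕ :=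
  (((List.range n).filter fun j => decide (j ∉ l)).argmax (ent σ (l.headD 0))).getD 0 :: l

/-- the greedy order -/
def gord (n : ℕ) (σ : List (List ℤ)) : List ℕ := ((gstep n σ)^[n] []).reverse

/-- the symmetrised matrix -/
def symMin (n : ℕ) (c : List (List ℤ)) : List (List ℤ) :=
  (List.range n).map fun p => (List.range n).map fun q => min (ent c p q) (ent c q p)

/-- order and scales -/
def ordOut (n : ℕ) (c : List (List ℤ)) : List ℕ × List ℤ :=
  (gord n (symMin n c), (List.range (n - 1)).map fun t =>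
    ent (symMin n c) ((gord n (symMin n c)).getD t 0) ((gord n (symMin n c)).getD (t + 1) 0))

/-- `o` lists the order `π` and the scales `W` -/
structure Lists {n : ℕ} (π : Fin n ≃ Fin n) (W : ℕ → ℤ) (o : List ℕ × List ℤ) : Prop where
  len : o.1.length = n
  len' : o.2.length = n - 1
  ord : ∀ i : Fin n, o.1.getD i 0 = π i
  sc : ∀ t, o.2.getD t 0 = W t

/-! ### The preparation -/

/-- centre, own orders, combined order -/
abbrev POut : Type := List ℤ × (List ℕ × List ℤ) × (List ℕ × List ℤ) × (List ℕ × List ℤ)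

/-- the preparation -/
def prepQ (fq₁ fq₂ : List Bool → QT ℤ) (n M : ℕ) : QT (Option POut) :=
  (firstQ fq₁ fq₂ n M).bind fun x => (memQ fq₁ n M x).bind fun b₁ => (memQ fq₂ n M x).bind fun b₂ =>
    if b₁ = true ∧ b₂ = true then
      (cenQ fq₁ fq₂ n M x).bind fun y => (capsQ fq₁ n M y).bind fun c₁ => (capsQ fq₂ n M y).map fun c₂ =>
        some (y, ordOut n c₁, ordOut n c₂, ordOut n (kapM n M c₁ c₂))
    else QT.ret none

/-- what the preparation returns -/
def PSpec {n : ℕ} (f₁ f₂ : Finset (Fin n) → ℤ) (M : ℕ) : Option POut → Prop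
  | none => ¬ ∃ x, IsB f₁ x ∧ IsB f₂ x
  | some o => o.1.length = n ∧ ∃ π₁ π₂ ρ W₁ W₂ μ, Prep f₁ f₂ M (vec n o.1) π₁ π₂ ρ W₁ W₂ μ ∧
      Lists π₁ W₁ o.2.1 ∧ Lists π₂ W₂ o.2.2.1 ∧ Lists ρ μ o.2.2.2

end Crest.Agent.R302B
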