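import Crest.Agent.R302B.PMin

/-!
# Row 302 (binary layer), PREP: bottleneck walks
* `reflTransGen_iff_rn`: the sets `{q | RN r k p q}` increase, and stay constant for ever once two consecutive ones are equal; the cardinality starts at `1`.
* `bf_spec`: after `k` rounds the row has length `n`, every label `e` of `q` satisfies `0 ≤ e.1 ≤ M`,
  `0 ≤ s → s < e.1 → Reach s p q ∧ Lab s k p q (vec n e.2)` (true for all candidates: `Lab.mono`, `Lab.step₁`, `Lab.step₂`, `lt_cap_iff`, `vec_vadd`) and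
  `0 ≤ s → s < M → RN (DArc s) k p q → s < e.1` (`List.le_of_mem_argmax`, `List.argmax_mem`).
* `pt_bf`: `PT.iterate`; after `i` rounds the row has length `n`, the values have size at most `esize M + esize c₁ + esize c₂ + 20` (they are `0`, `M` or entries),
  the directions have length `≤ n` and entries of absolute value `≤ i`.
-/

set_option autoImplicit false

noncomputable section

namespace Crest.Agent.R302B

open Finset Crest.Agent.R302 Crest.Agent.R302.QT Crest.Agent.Lib.PolyTime

/-- reachable in at most `k` steps -/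
def RN {ι : Type} (r : ι → ι → Prop) : ℕ → ι → ι → Prop
  | 0, p, q => p = q
  | k + 1, p, q => RN r k p q ∨ ∃ u, RN r k p u ∧ r u q

theorem reflTransGen_iff_rn {ι : Type} [Fintype ι] (r : ι → ι → Prop) (p q : ι) :
    Relation.ReflTransGen r p q ↔ RN r (Fintype.card ι - 1) p q := by
  classical
  constructor
  · have hQ : ∀ k, (∀ q, RN r (k + 1) p q → RN r k p q) ∨
        k + 1 ≤ (univ.filter fun q => RN r k p q).card := by
      intro k
      induction k with
      | zero => exact Or.inr (card_pos.2 ⟨p, by simp [RN]⟩)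
      | succ k ih =>
        by_cases hs : ∀ q, RN r (k + 1) p q → RN r k p q
        · refine Or.inl fun q hq => ?_
          rcases hq with hq | ⟨u, hu, huq⟩
          · exact hq
          · exact Or.inr ⟨u, hs u hu, huq⟩
        · have h1 := ih.resolve_left hs
          push Not at hs
          obtain ⟨q, hq, hq'⟩ := hs
          refine Or.inr (Nat.succ_le_of_lt (h1.trans_lt (card_lt_card ⟨fun u hu => ?_, fun h => ?_⟩)))
          · simp only [mem_filter, mem_univ, true_and] at hu ⊢
            exact Or.inl hu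
          · exact hq' (by simpa using h (show q ∈ univ.filter fun q => RN r (k + 1) p q by simpa))
    have hS : ∀ q, RN r (Fintype.card ι - 1 + 1) p q → RN r (Fintype.card ι - 1) p q := by
      rcases hQ (Fintype.card ι - 1) with h | h
      · exact h
      · intro q _
        have h1 : (univ.filter fun q => RN r (Fintype.card ι - 1) p q) = univ :=
          eq_univ_of_card _ (le_antisymm (card_le_univ _) (by omega))
        have h2 : q ∈ univ.filter fun q => RN r (Fintype.card ι - 1) p q := h1.symm ▸ mem_univ q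
        simpa using h2
    intro h
    induction h with
    | refl =>
      generalize Fintype.card ι - 1 = k
      induction k with
      | zero => rfl
      | succ k ih => exact Or.inl ih
    | tail _ h ih => exact hS _ (Or.inr ⟨_, ih, h⟩)
  · generalize Fintype.card ι - 1 = k
    induction k generalizing q with
    | zero =>
      rintro rfl
      exact Relation.ReflTransGen.refl
    | succ k ih =>
      rintro (h | ⟨u, hu, huq⟩)
      · exact ih q h
      · exact (ih u hu).tail huq

variable {n M : ℕ} {f₁ f₂ : Finset (Fin n) → ℤ} {x : Fin n → ℤ} {c₁ c₂ : List (List ℤ)}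

theorem vec_vadd (g : List ℤ) (u q : Fin n) : vec n (vadd n g u q) = vec n g + rt u q := by
  funext j
  rw [vadd, vec_map_range]
  simp only [vec, rt, Pi.add_apply, Pi.sub_apply, Pi.single_apply, Fin.val_inj]
  ring

theorem length_bf (n M : ℕ) (c₁ c₂ : List (List ℤ)) (p : ℕ) : (bf n M c₁ c₂ p).length = n := by
  unfold bf
  generalize n - 1 = k
  cases k with
  | zero => simp
  | succ k => rw [Function.iterate_succ_apply']; simp [bfStep]

theorem PBf_pick (a : Lb) (l : List Lb) :
    ((a :: l).argmax Prod.fst).getD (0, []) ∈ a :: l ∧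
      ∀ e ∈ a :: l, e.1 ≤ (((a :: l).argmax Prod.fst).getD (0, [])).1 := by
  cases h : (a :: l).argmax Prod.fst with
  | none => simp at h
  | some m => exact ⟨List.argmax_mem h, fun e he => List.le_of_mem_argmax he h⟩

theorem PBf_step (n : ℕ) (c₁ c₂ : List (List ℤ)) (row : List Lb) {q : ℕ} (hq : q < n) :
    (bfStep n c₁ c₂ row).getD q (0, []) ∈ cands n c₁ c₂ row q ∧
      ∀ e ∈ cands n c₁ c₂ row q, e.1 ≤ ((bfStep n c₁ c₂ row).getD q (0, [])).1 := by
  have h : (bfStep n c₁ c₂ row).getD q (0, [])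
      = ((cands n c₁ c₂ row q).argmax Prod.fst).getD (0, []) := by
    simp [bfStep, List.getD_eq_getElem?_getD, hq]
  rw [h]
  exact PBf_pick _ _

theorem PBf_mem_cands {n : ℕ} {c₁ c₂ : List (List ℤ)} {row : List Lb} {q : ℕ} {e : Lb} :
    e ∈ cands n c₁ c₂ row q ↔ e = row.getD q (0, []) ∨ ∃ u, u < n ∧
      (e = (min (row.getD u (0, [])).1 (ent c₁ u q), vadd n (row.getD u (0, [])).2 u q) ∨
        e = (min (row.getD u (0, [])).1 (ent c₂ q u), (row.getD u (0, [])).2)) := by
  simp only [cands, List.mem_cons, List.mem_flatMap, List.mem_range, List.not_mem_nil, or_false]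

theorem PBf_inv (hc₁ : IsCaps f₁ x M c₁) (hc₂ : IsCaps f₂ x M c₂) (p : Fin n) (k : ℕ) :
    ∀ (q : Fin n) (e : Lb), e = ((bfStep n c₁ c₂)^[k]
      ((List.range n).map fun q : ℕ => (if q = p then (M : ℤ) else 0, []))).getD q (0, []) →
    0 ≤ e.1 ∧ e.1 ≤ M ∧
    (∀ s : ℤ, 0 ≤ s → s < e.1 → Reach f₁ f₂ x s p q ∧ Lab f₁ f₂ x s k p q (vec n e.2)) ∧
    ∀ s : ℤ, 0 ≤ s → s < M → RN (DArc f₁ f₂ x s) k p q → s < e.1 := by
  induction k with
  | zero =>
    intro q e he
    have h : e = (if q = p then (M : ℤ) else 0, []) := by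
      simp [he, List.getD_eq_getElem?_getD, Fin.val_inj]
    subst h
    by_cases hq : q = p
    · subst hq
      simp only [if_true, vec_nil]
      exact ⟨by positivity, le_rfl, fun s _ _ => ⟨Relation.ReflTransGen.refl, Lab.refl _ _ _ _ _⟩,
        fun s _ h _ => h⟩
    · simp only [if_neg hq]
      exact ⟨le_rfl, by positivity, fun s h h' => absurd h' (not_lt.2 h),
        fun s _ _ h => absurd h.symm hq⟩
  | succ k ih =>
    intro q e he
    rw [Function.iterate_succ_apply'] at he
    generalize (bfStep n c₁ c₂)^[k]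
      ((List.range n).map fun q : ℕ => (if q = p then (M : ℤ) else 0, [])) = row at ih he
    obtain ⟨h1, h2⟩ := PBf_step n c₁ c₂ row q.2
    rw [← he] at h1 h2
    have h3 := h2 _ (PBf_mem_cands.2 (Or.inl rfl))
    refine ⟨(ih q _ rfl).1.trans h3, ?_, fun s hs hs' => ?_, fun s hs hs' h => ?_⟩
    · rcases PBf_mem_cands.1 h1 with h | ⟨u, hu, h | h⟩ <;> rw [h]
      · exact (ih q _ rfl).2.1
      · exact (min_le_left _ _).trans (ih ⟨u, hu⟩ _ rfl).2.1
      · exact (min_le_left _ _).trans (ih ⟨u, hu⟩ _ rfl).2.1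
    · push_cast
      rcases PBf_mem_cands.1 h1 with h | ⟨u, hu, h | h⟩ <;> rw [h] at hs' ⊢
      · obtain ⟨a1, a2⟩ := (ih q _ rfl).2.2.1 s hs hs'
        exact ⟨a1, a2.mono le_rfl (by omega)⟩
      · obtain ⟨b1, b2⟩ := lt_min_iff.1 hs'
        obtain ⟨a1, a2⟩ := (ih ⟨u, hu⟩ _ rfl).2.2.1 s hs b1
        have b3 := (lt_cap_iff.1 (b2.trans_eq (hc₁ ⟨u, hu⟩ q))).2
        refine ⟨a1.tail (Or.inl b3), ?_⟩
        have := a2.step₁ b3
        rwa [← vec_vadd] at this
      · obtain ⟨b1, b2⟩ := lt_min_iff.1 hs'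
        obtain ⟨a1, a2⟩ := (ih ⟨u, hu⟩ _ rfl).2.2.1 s hs b1
        have b3 := (lt_cap_iff.1 (b2.trans_eq (hc₂ q ⟨u, hu⟩))).2
        exact ⟨a1.tail (Or.inr b3), a2.step₂ b3⟩
    · rcases h with h | ⟨u, hu, h | h⟩
      · exact ((ih q _ rfl).2.2.2 s hs hs' h).trans_le h3
      · refine lt_of_lt_of_le ?_ (h2 _ (PBf_mem_cands.2 (Or.inr ⟨u, u.2, Or.inl rfl⟩)))
        exact lt_min ((ih u _ rfl).2.2.2 s hs hs' hu)
          ((lt_cap_iff.2 ⟨hs', h⟩).trans_eq (hc₁ u q).symm)
      · refine lt_of_lt_of_le ?_ (h2 _ (PBf_mem_cands.2 (Or.inr ⟨u, u.2, Or.inr rfl⟩)))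
        exact lt_min ((ih u _ rfl).2.2.2 s hs hs' hu)
          ((lt_cap_iff.2 ⟨hs', h⟩).trans_eq (hc₂ q u).symm)

theorem bf_spec (hc₁ : IsCaps f₁ x M c₁) (hc₂ : IsCaps f₂ x M c₂) (p q : Fin n) :
    0 ≤ ((bf n M c₁ c₂ p).getD q (0, [])).1 ∧ ((bf n M c₁ c₂ p).getD q (0, [])).1 ≤ M ∧
    (∀ s : ℤ, 0 ≤ s → s < ((bf n M c₁ c₂ p).getD q (0, [])).1 → Reach f₁ f₂ x s p q ∧
      Lab f₁ f₂ x s ((n : ℤ) - 1) p q (vec n ((bf n M c₁ c₂ p).getD q (0, [])).2)) ∧
    ∀ s : ℤ, 0 ≤ s → s < M → Reach f₁ f₂ x s p q → s < ((bf n M c₁ c₂ p).getD q (0, [])).1 := by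
  obtain ⟨h1, h2, h3, h4⟩ := PBf_inv hc₁ hc₂ p (n - 1) q ((bf n M c₁ c₂ p).getD q (0, [])) rfl
  have hn : ((n - 1 : ℕ) : ℤ) = (n : ℤ) - 1 := by
    have := p.2
    omega
  rw [hn] at h3
  refine ⟨h1, h2, h3, fun s hs hs' h => h4 s hs hs' ?_⟩
  simpa using (reflTransGen_iff_rn _ p q).1 h

theorem ent_kapM (n M : ℕ) (c₁ c₂ : List (List ℤ)) (p q : Fin n) :
    ent (kapM n M c₁ c₂) p q = ((bf n M c₁ c₂ p).getD q (0, [])).1 := by
  have h : (q : ℕ) < (bf n M c₁ c₂ p).length := by rw [length_bf]; exact q.2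
  simp [ent, kapM, List.getD_eq_getElem?_getD, h]

section pt

variable {α : Type} [Enc α] {N B : α → ℕ} {d₁ d₂ : α → List (List ℤ)}

theorem pt_vadd {g : α → List ℤ} {u q : α → ℕ} (hN : PT N) (hN' : PB N) (hg : PT g) (hu : PT u)
    (hq : PT q) : PT fun a => vadd (N a) (g a) (u a) (q a) := by
  unfold vadd
  fun_prop

theorem PBf_esize_ent (c : List (List ℤ)) (p q : ℕ) : esize (ent c p q) ≤ esize c + 7 := by
  have h0 : esize (0 : ℤ) = 7 := by rw [esize_int, esize_nat]; simp
  unfold ent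
  rcases lt_or_ge q (c.getD p []).length with hq | hq
  · have h1 : (c.getD p []).getD q 0 ∈ c.getD p [] := by
      rw [List.getD_eq_getElem _ _ hq]
      exact List.getElem_mem _
    have hp : p < c.length := by
      by_contra hp
      rw [List.getD_eq_default _ _ (not_lt.1 hp)] at hq
      simp at hq
    have h2 : c.getD p [] ∈ c := by
      rw [List.getD_eq_getElem _ _ hp]
      exact List.getElem_mem _
    have := esize_lt_of_mem h1
    have := esize_lt_of_mem h2
    omega
  · rw [List.getD_eq_default _ _ hq]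
    omega

theorem PBf_size (n M : ℕ) (c₁ c₂ : List (List ℤ)) (p i : ℕ) :
    ((bfStep n c₁ c₂)^[i] ((List.range n).map fun q => (if q = p then (M : ℤ) else 0, []))).length = n ∧
    ∀ e ∈ (bfStep n c₁ c₂)^[i] ((List.range n).map fun q => (if q = p then (M : ℤ) else 0, [])),
      esize e.1 ≤ esize M + esize c₁ + esize c₂ + 20 ∧ e.2.length ≤ n ∧ ∀ z ∈ e.2, |z| ≤ i := by
  have h0 : esize (0 : ℤ) = 7 := by rw [esize_int, esize_nat]; simp
  induction i with
  | zero =>
    refine ⟨by simp, fun e he => ?_⟩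
    simp only [Function.iterate_zero, id, List.mem_map] at he
    obtain ⟨q, -, rfl⟩ := he
    refine ⟨?_, by simp, by simp⟩
    dsimp only
    split_ifs
    · rw [esize_int, Int.natAbs_natCast]
      omega
    · omega
  | succ i ih =>
    rw [Function.iterate_succ_apply']
    generalize (bfStep n c₁ c₂)^[i]
      ((List.range n).map fun q => (if q = p then (M : ℤ) else 0, [])) = row at ih
    have hl : (bfStep n c₁ c₂ row).length = n := by simp [bfStep]
    refine ⟨hl, fun e he => ?_⟩
    obtain ⟨q, hq, rfl⟩ := List.mem_iff_getElem.1 he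
    have h1 := (PBf_step n c₁ c₂ row (hl ▸ hq)).1
    rw [List.getD_eq_getElem _ _ hq] at h1
    have hrow : ∀ u, u < n → esize (row.getD u (0, [])).1 ≤ esize M + esize c₁ + esize c₂ + 20 ∧
        (row.getD u (0, [])).2.length ≤ n ∧ ∀ z ∈ (row.getD u (0, [])).2, |z| ≤ i := fun u hu => by
      rw [List.getD_eq_getElem _ _ (ih.1.symm ▸ hu)]
      exact ih.2 _ (List.getElem_mem _)
    push_cast
    rcases PBf_mem_cands.1 h1 with h | ⟨u, hu, h | h⟩ <;> rw [h]
    · obtain ⟨a1, a2, a3⟩ := hrow q (hl ▸ hq)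
      exact ⟨a1, a2, fun z hz => (a3 z hz).trans (by omega)⟩
    · obtain ⟨a1, a2, a3⟩ := hrow u hu
      refine ⟨?_, by simp [vadd], fun z hz => ?_⟩
      · have := PBf_esize_ent c₁ u q
        rcases min_choice (row.getD u (0, [])).1 (ent c₁ u q) with h | h <;> simp only [h] <;> omega
      · simp only [vadd, List.mem_map] at hz
        obtain ⟨j, -, rfl⟩ := hz
        have h2 : |(row.getD u (0, [])).2.getD j 0| ≤ i := by
          rcases lt_or_ge j (row.getD u (0, [])).2.length with hj | hj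
          · rw [List.getD_eq_getElem _ _ hj]
            exact a3 _ (List.getElem_mem _)
          · rw [List.getD_eq_default _ _ hj]
            simp
        rw [abs_le] at h2 ⊢
        split_ifs <;> constructor <;> omega
    · obtain ⟨a1, a2, a3⟩ := hrow u hu
      refine ⟨?_, a2, fun z hz => (a3 z hz).trans (by omega)⟩
      have := PBf_esize_ent c₂ q u
      rcases min_choice (row.getD u (0, [])).1 (ent c₂ q u) with h | h <;> simp only [h] <;> omega

theorem PBf_pt_step (hN : PT N) (hN' : PB N) (h₁ : PT d₁) (h₂ : PT d₂) {row : α → List Lb}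
    (hr : PT row) : PT fun a => bfStep (N a) (d₁ a) (d₂ a) (row a) := by
  unfold bfStep cands ent vadd
  fun_prop

theorem pt_bf {p : α → ℕ} (hN : PT N) (hN' : PB N) (hB : PT B) (h₁ : PT d₁) (h₂ : PT d₂) (hp : PT p) :
    PT fun a => bf (N a) (B a) (d₁ a) (d₂ a) (p a) := by
  unfold bf
  refine PT.iterate (f := fun a => bfStep (N a) (d₁ a) (d₂ a))
    (fun a => N a * ((esize (B a) + esize (d₁ a) + esize (d₂ a) + 20
      + (N a * (esize (N a) + 7) + 1) + 1) + 1) + 1) (by fun_prop) (by fun_prop) (by fun_prop)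
    (PBf_pt_step (by fun_prop) (by fun_prop) (by fun_prop) (by fun_prop) (by fun_prop))
    (by fun_prop) fun a i hi => ?_
  obtain ⟨h1, h2⟩ := PBf_size (N a) (B a) (d₁ a) (d₂ a) (p a) i
  refine (esize_list_le (B := esize (B a) + esize (d₁ a) + esize (d₂ a) + 20
    + (N a * (esize (N a) + 7) + 1) + 1) fun e he => ?_).trans (by rw [h1])
  obtain ⟨a1, a2, a3⟩ := h2 e he
  have := esize_le_of_abs_le (C := N a) a2 fun z hz => (a3 z hz).trans (by omega)
  rw [esize_prod]
  omega

theorem pt_kapM (hN : PT N) (hN' : PB N) (hB : PT B) (h₁ : PT d₁) (h₂ : PT d₂) :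
    PT fun a => kapM (N a) (B a) (d₁ a) (d₂ a) := by
  unfold kapM
  refine PT.map (by fun_prop) ?_
  have h := pt_bf (α := α × ℕ) (N := fun x => N x.1) (B := fun x => B x.1) (d₁ := fun x => d₁ x.1)
    (d₂ := fun x => d₂ x.1) (p := fun x => x.2) (by fun_prop) (by fun_prop) (by fun_prop)
    (by fun_prop) (by fun_prop) (by fun_prop)
  exact PT.map (f := fun _ => Prod.fst) h (by fun_prop)

end pt

end Crest.Agent.R302B
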