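import Crest.Agent.R302B.PMin

/-!
# Row 302 (binary layer), PREP: a first common base (algorithmic discrete sandwich theorem)

`g B = f₂ univ - f₂ Bᶜ` is supermodular.  `Sand f₁ f₂ v x` (`x` vanishes at the indices `≥ v`): for all `A, B` which agree at the indices `≥ v`,
`g B - x(B) ≤ f₁ A - x(A)`.
* `sand_zero`: `g A ≤ y(A) ≤ f₁ A` for a common base `y`.  `Sand.isB`: take `B = ∅`, resp. `A = ∅`, and `f₁ univ = f₂ univ`.
* `Sand.step`: `α` is the minimum of `F A - G B` (`F = f₁ - x`, `G = g - x`) over the pairs with `v ∈ A`, `v ∉ B` which agree at the indices `> v`, attained at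
  `(A', B')`.  For a pair `(A, B)` agreeing at the indices `> v`: if `v` is in both or in none use `Sand v`; if `v ∈ A \ B` use minimality; if `v ∈ B \ A` then
  `G B + G B' ≤ G (B ∪ B') + G (B ∩ B') ≤ F (A ∪ A') + F (A ∩ A') ≤ F A + F A'`.  `|α| ≤ 2 M`: take `({v}, ∅)` and `(∅, {v})` in `Sand (v+1)`.
* `firstQ_spec`: `allO_iter_idx` with `x.length = i ∧ (common base exists → Sand i (vec n x))`; `minQ_spec` for
  `φ U = F (A U) - G (B U)` on `Finset (Fin (2 n))`, where `A U`, `B U` (the sets of `sa`, `sb`) commute with `∪`, `∩` and every admissible pair is of this form.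
* `pto_firstQ`: `PTO.iter_grow` (`esize (clip ..) ≤ esize (2 M) + 6`).
-/

set_option autoImplicit false

noncomputable section

namespace Crest.Agent.R302B

open Finset Crest.Agent.R302 Crest.Agent.R302.QT Crest.Agent.Lib.PolyTime

variable {O : Orc} {n M : ℕ} {f₁ f₂ : Finset (Fin n) → ℤ} {fq₁ fq₂ : List Bool → QT ℤ}

/-- the invariant of the sandwich construction -/
def Sand (f₁ f₂ : Finset (Fin n) → ℤ) (v : ℕ) (x : Fin n → ℤ) : Prop :=
  ∀ A B : Finset (Fin n), (∀ j : Fin n, v ≤ (j : ℕ) → (j ∈ A ↔ j ∈ B)) →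
    f₂ univ - f₂ Bᶜ - ∑ j ∈ B, x j ≤ f₁ A - ∑ j ∈ A, x j

theorem sand_zero {y : Fin n → ℤ} (h₁ : IsB f₁ y) (h₂ : IsB f₂ y) : Sand f₁ f₂ 0 0 := by
  intro A B hAB
  have e : A = B := by
    ext j
    exact hAB j (Nat.zero_le _)
  subst e
  have a1 := h₁.1 A
  have a2 := h₂.1 Aᶜ
  have a3 := h₂.2
  have a4 := sum_add_sum_compl A y
  simp only [Pi.zero_apply, sum_const_zero, sub_zero]
  linarith

theorem Sand.isB (h₁ : Sub f₁) (e : f₁ univ = f₂ univ) (h₂ : Sub f₂) {x : Fin n → ℤ} (h : Sand f₁ f₂ n x) :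
    IsB f₁ x ∧ IsB f₂ x := by
  have h' : ∀ A B : Finset (Fin n), f₂ univ - f₂ Bᶜ - ∑ j ∈ B, x j ≤ f₁ A - ∑ j ∈ A, x j :=
    fun A B => h A B fun j hj => absurd j.isLt (by omega)
  have a1 : ∀ A, ∑ j ∈ A, x j ≤ f₁ A := fun A => by
    have := h' A ∅
    simp only [compl_empty, sum_empty] at this
    linarith
  have a2 : ∑ j, x j = f₁ univ := by
    have b1 := h' ∅ univ
    simp only [compl_univ, sum_empty, h₁.empty, h₂.empty] at b1
    have b2 := a1 univ
    linarith
  refine ⟨⟨a1, a2⟩, fun B => ?_, a2.trans e⟩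
  have b1 := h' ∅ Bᶜ
  simp only [compl_compl, sum_empty, h₁.empty] at b1
  have b2 := sum_add_sum_compl B x
  linarith

theorem sum_add_single (x : Fin n → ℤ) (v : Fin n) (α : ℤ) (A : Finset (Fin n)) :
    ∑ j ∈ A, (x + Pi.single v α : Fin n → ℤ) j = ∑ j ∈ A, x j + if v ∈ A then α else 0 := by
  simp only [Pi.add_apply, sum_add_distrib, Pi.single_apply, sum_ite_eq']

theorem Sand.step (h₁ : Sub f₁) (h₂ : Sub f₂) {x : Fin n → ℤ} {v : Fin n} (h : Sand f₁ f₂ v x) {α : ℤ}
    (hle : ∀ A B : Finset (Fin n), v ∈ A → v ∉ B → (∀ j : Fin n, (v : ℕ) < j → (j ∈ A ↔ j ∈ B)) →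
      α ≤ f₁ A - ∑ j ∈ A, x j + f₂ Bᶜ - f₂ univ + ∑ j ∈ B, x j)
    (hex : ∃ A B : Finset (Fin n), v ∈ A ∧ v ∉ B ∧ (∀ j : Fin n, (v : ℕ) < j → (j ∈ A ↔ j ∈ B)) ∧
      α = f₁ A - ∑ j ∈ A, x j + f₂ Bᶜ - f₂ univ + ∑ j ∈ B, x j) :
    Sand f₁ f₂ (v + 1) (x + Pi.single v α) := by
  intro A B hAB
  have agree : ∀ A B : Finset (Fin n), (v ∈ A ↔ v ∈ B) → (∀ j : Fin n, (v : ℕ) < j → (j ∈ A ↔ j ∈ B)) →
      f₂ univ - f₂ Bᶜ - ∑ j ∈ B, x j ≤ f₁ A - ∑ j ∈ A, x j := by
    intro A B hv hj
    refine h A B fun j hle => ?_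
    rcases hle.eq_or_lt with e | e
    · rw [← Fin.ext e]; exact hv
    · exact hj j e
  rw [sum_add_single, sum_add_single]
  by_cases hA : v ∈ A <;> by_cases hB : v ∈ B
  · have := agree A B (iff_of_true hA hB) hAB
    rw [if_pos hA, if_pos hB]; linarith
  · have := hle A B hA hB hAB
    rw [if_pos hA, if_neg hB]; linarith
  · obtain ⟨A', B', hA', hB', hAB', e⟩ := hex
    have c1 := agree (A ∪ A') (B ∪ B') (iff_of_true (mem_union_right _ hA') (mem_union_left _ hB))
      fun j hj => by rw [mem_union, mem_union, hAB j hj, hAB' j hj]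
    have c2 := agree (A ∩ A') (B ∩ B')
      (iff_of_false (fun h => hA (mem_inter.1 h).1) fun h => hB' (mem_inter.1 h).2)
      fun j hj => by rw [mem_inter, mem_inter, hAB j hj, hAB' j hj]
    have c3 := h₁.sub A A'
    have c4 := h₂.sub Bᶜ B'ᶜ
    rw [← compl_inter, ← compl_union] at c4
    have c5 := sum_union_inter (s₁ := A) (s₂ := A') (f := x)
    have c6 := sum_union_inter (s₁ := B) (s₂ := B') (f := x)
    rw [if_neg hA, if_pos hB]; linarith
  · have := agree A B (iff_of_false hA hB) hAB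
    rw [if_neg hA, if_neg hB]; linarith

/-- membership of a number -/
def mem2 {N : ℕ} (U : Finset (Fin N)) (k : ℕ) : Prop := ∃ h : k < N, (⟨k, h⟩ : Fin N) ∈ U

instance {N : ℕ} (U : Finset (Fin N)) (k : ℕ) : Decidable (mem2 U k) := by
  unfold mem2; infer_instance

theorem mem2_union {N : ℕ} (U U' : Finset (Fin N)) (k : ℕ) :
    mem2 (U ∪ U') k ↔ mem2 U k ∨ mem2 U' k := by
  simp only [mem2, mem_union, exists_or]

theorem mem2_inter {N : ℕ} (U U' : Finset (Fin N)) (k : ℕ) :
    mem2 (U ∩ U') k ↔ mem2 U k ∧ mem2 U' k := by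
  simp only [mem2, mem_inter]
  exact ⟨fun ⟨h, a, b⟩ => ⟨⟨h, a⟩, ⟨h, b⟩⟩, fun ⟨⟨h, a⟩, ⟨_, b⟩⟩ => ⟨h, a, b⟩⟩

theorem mem2_bset {N k : ℕ} (hk : k < N) (s : List Bool) :
    mem2 (bset N s) k ↔ s.getD k false = true := by
  simp only [mem2, bset, mem_filter, mem_univ, true_and]
  exact ⟨fun ⟨_, a⟩ => a, fun a => ⟨hk, a⟩⟩

/-- the first set -/
def setA (n v : ℕ) (U : Finset (Fin (2 * n))) : Finset (Fin n) :=
  univ.filter fun j => (j : ℕ) = v ∨ mem2 U j

/-- the second set -/
def setB (n v : ℕ) (U : Finset (Fin (2 * n))) : Finset (Fin n) :=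
  univ.filter fun j => ((j : ℕ) < v ∧ mem2 U (n + j)) ∨ (v < (j : ℕ) ∧ mem2 U j)

theorem setA_union (v : ℕ) (U U' : Finset (Fin (2 * n))) :
    setA n v (U ∪ U') = setA n v U ∪ setA n v U' := by
  ext j
  simp only [setA, mem_filter, mem_univ, true_and, mem_union, mem2_union]
  tauto

theorem setA_inter (v : ℕ) (U U' : Finset (Fin (2 * n))) :
    setA n v (U ∩ U') = setA n v U ∩ setA n v U' := by
  ext j
  simp only [setA, mem_filter, mem_univ, true_and, mem_inter, mem2_inter]
  tauto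

theorem setB_union (v : ℕ) (U U' : Finset (Fin (2 * n))) :
    setB n v (U ∪ U') = setB n v U ∪ setB n v U' := by
  ext j
  simp only [setB, mem_filter, mem_univ, true_and, mem_union, mem2_union]
  tauto

theorem setB_inter (v : ℕ) (U U' : Finset (Fin (2 * n))) :
    setB n v (U ∩ U') = setB n v U ∩ setB n v U' := by
  ext j
  simp only [setB, mem_filter, mem_univ, true_and, mem_inter, mem2_inter]
  constructor
  · rintro (h | h)
    · exact ⟨Or.inl ⟨h.1, h.2.1⟩, Or.inl ⟨h.1, h.2.2⟩⟩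
    · exact ⟨Or.inr ⟨h.1, h.2.1⟩, Or.inr ⟨h.1, h.2.2⟩⟩
  · rintro ⟨h | h, h' | h'⟩
    · exact Or.inl ⟨h.1, h.2, h'.2⟩
    · omega
    · omega
    · exact Or.inr ⟨h.1, h.2, h'.2⟩

theorem bset_sa (v : ℕ) (s : List Bool) : bset n (sa n v s) = setA n v (bset (2 * n) s) := by
  rw [sa, bset_map_range, setA]
  refine filter_congr fun j _ => ?_
  rw [mem2_bset (by have := j.isLt; omega)]
  simp

theorem bset_sb (v : ℕ) (s : List Bool) : bset n (sb n v s) = setB n v (bset (2 * n) s) := by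
  rw [sb, bset_map_range, setB]
  refine filter_congr fun j _ => ?_
  rw [mem2_bset (by have := j.isLt; omega), mem2_bset (by have := j.isLt; omega)]
  split_ifs with h
  · exact ⟨fun a => Or.inl ⟨h, a⟩, fun a => a.elim (fun a => a.2) fun a => by omega⟩
  · rw [Bool.and_eq_true, decide_eq_true_iff]
    exact ⟨fun a => Or.inr ⟨by omega, a.2⟩, fun a => a.elim (fun a => absurd a.1 h)
      fun a => ⟨by omega, a.2⟩⟩

theorem bset_sb_not (v : ℕ) (s : List Bool) :
    bset n ((sb n v s).map fun c => !c) = (setB n v (bset (2 * n) s))ᶜ := by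
  rw [← bset_sb, sb, List.map_map, bset_map_range, bset_map_range]
  ext j
  simp only [mem_filter, mem_univ, true_and, mem_compl, Function.comp_apply, Bool.not_eq_true',
    Bool.not_eq_true]

theorem exists_setAB {v : Fin n} {A B : Finset (Fin n)} (hA : v ∈ A) (hB : v ∉ B)
    (hAB : ∀ j : Fin n, (v : ℕ) < j → (j ∈ A ↔ j ∈ B)) :
    ∃ U, setA n v U = A ∧ setB n v U = B := by
  let U : Finset (Fin (2 * n)) := univ.filter fun k => mem2 A k ∨ (n ≤ (k : ℕ) ∧ mem2 B (k - n))
  have m1 : ∀ j : Fin n, mem2 U j ↔ j ∈ A := by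
    intro j
    have := j.isLt
    simp only [U, mem2, mem_filter, mem_univ, true_and]
    constructor
    · rintro ⟨_, ⟨_, h⟩ | h⟩
      · exact h
      · omega
    · exact fun h => ⟨by omega, Or.inl ⟨j.isLt, h⟩⟩
  have m2 : ∀ j : Fin n, mem2 U (n + j) ↔ j ∈ B := by
    intro j
    have := j.isLt
    simp only [U, mem2, mem_filter, mem_univ, true_and, Nat.add_sub_cancel_left]
    constructor
    · rintro ⟨_, ⟨_, h⟩ | ⟨_, _, h⟩⟩
      · omega
      · exact h
    · exact fun h => ⟨by omega, Or.inr ⟨by omega, j.isLt, h⟩⟩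
  refine ⟨U, ?_, ?_⟩
  · ext j
    simp only [setA, mem_filter, mem_univ, true_and, m1]
    exact ⟨fun h => h.elim (fun e => by rw [Fin.ext e]; exact hA) id, Or.inr⟩
  · ext j
    simp only [setB, mem_filter, mem_univ, true_and, m1, m2]
    constructor
    · rintro (h | h)
      · exact h.2
      · exact (hAB j h.1).1 h.2
    · intro h
      rcases lt_trichotomy (j : ℕ) v with c | c | c
      · exact Or.inl ⟨c, h⟩
      · rw [Fin.ext c] at h; exact absurd h hB
      · exact Or.inr ⟨c, (hAB j c).2 h⟩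

theorem vec_append_single (x : List ℤ) (v : Fin n) (hv : x.length = v) (m : ℤ) :
    vec n (x ++ [m]) = vec n x + Pi.single v m := by
  funext j
  simp only [vec, Pi.add_apply, Pi.single_apply, List.getD_eq_getElem?_getD]
  rcases lt_trichotomy (j : ℕ) v with c | c | c
  · rw [List.getElem?_append_left (by omega), if_neg (fun e => by rw [e] at c; omega), add_zero]
  · rw [List.getElem?_append_right (by omega), if_pos (Fin.ext c),
      List.getElem?_eq_none (l := x) (by omega)]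
    have : (j : ℕ) - x.length = 0 := by omega
    simp [this]
  · rw [List.getElem?_eq_none (by simp; omega), List.getElem?_eq_none (l := x) (by omega),
      if_neg (fun e => by rw [e] at c; omega), add_zero]

theorem firstStep_spec (h₁ : Ev O n M f₁ fq₁) (h₂ : Ev O n M f₂ fq₂) (v : Fin n) (x : List ℤ)
    (hx : x.length = v) :
    AllO O (fun x' => x'.length = (v : ℕ) + 1 ∧ (Sand f₁ f₂ v (vec n x) → Sand f₁ f₂ (v + 1) (vec n x')))
      (firstStep fq₁ fq₂ n M x) := by
  let φ : Finset (Fin (2 * n)) → ℤ := fun U =>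
    f₁ (setA n v U) - ∑ j ∈ setA n v U, vec n x j + f₂ (setB n v U)ᶜ - f₂ univ +
      ∑ j ∈ setB n v U, vec n x j
  have hφ : ∀ A B, φ (A ∪ B) + φ (A ∩ B) ≤ φ A + φ B := by
    intro U U'
    simp only [φ, setA_union, setA_inter, setB_union, setB_inter]
    have c3 := h₁.sub.sub (setA n v U) (setA n v U')
    have c4 := h₂.sub.sub (setB n v U)ᶜ (setB n v U')ᶜ
    rw [← compl_inter, ← compl_union] at c4
    have c5 := sum_union_inter (s₁ := setA n v U) (s₂ := setA n v U') (f := vec n x)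
    have c6 := sum_union_inter (s₁ := setB n v U) (s₂ := setB n v U') (f := vec n x)
    linarith
  have hM : ∀ A, |φ A| ≤ ((3 * M + 2 * l1 x : ℕ) : ℤ) := by
    intro U
    have c1 := abs_le.1 (h₁.abs (setA n v U))
    have c2 := abs_le.1 (h₂.abs (setB n v U)ᶜ)
    have c3 := abs_le.1 (h₂.abs univ)
    have c4 := abs_le.1 (abs_sum_vec_le x (setA n v U))
    have c5 := abs_le.1 (abs_sum_vec_le x (setB n v U))
    simp only [φ]
    push_cast
    rw [abs_le]
    constructor <;> linarith [c1.1, c1.2, c2.1, c2.2, c3.1, c3.2, c4.1, c4.2, c5.1, c5.2]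
  have hq : ∀ s : List Bool, s.length = 2 * n →
      Det O (sandQ fq₁ fq₂ n x s) (φ (bset (2 * n) s)) := by
    intro s _
    unfold sandQ
    refine (h₁.det _ (by simp [sa])).bind ((h₂.det _ (by simp [sb])).bind ?_)
    have := (h₂.det (List.replicate n true) (by simp)).map fun c =>
      f₁ (bset n (sa n x.length s)) - lsum n x (sa n x.length s) +
        f₂ (bset n ((sb n x.length s).map fun c => !c)) - c + lsum n x (sb n x.length s)
    convert this using 1
    simp only [φ, lsum_eq, bset_sa, bset_sb, bset_sb_not, bset_true, hx]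
  obtain ⟨m, hm, hle, U, hU⟩ := minQ_spec hφ hM hq
  unfold firstStep
  refine AllO.mono (hm.map fun α => x ++ [clip (2 * M) α]) fun x' hx' => ?_
  subst hx'
  refine ⟨by simp [hx], fun hS => ?_⟩
  have key : Sand f₁ f₂ (v + 1) (vec n x + Pi.single v m) := by
    refine hS.step h₁.sub h₂.sub (fun A B hA hB hAB => ?_) ⟨setA n v U, setB n v U, ?_, ?_, ?_, hU⟩
    · obtain ⟨U', e1, e2⟩ := exists_setAB hA hB hAB
      have := hle U'
      simp only [φ, e1, e2] at this
      exact this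
    · simp [setA]
    · simp [setB]
    · intro j hj
      simp only [setA, setB, mem_filter, mem_univ, true_and]
      constructor
      · rintro (h | h)
        · omega
        · exact Or.inr ⟨hj, h⟩
      · rintro (h | h)
        · omega
        · exact Or.inr h.2
  have hv0 : vec n x v = 0 := by
    simp only [vec, List.getD_eq_getElem?_getD]
    rw [List.getElem?_eq_none (by omega)]
    rfl
  have hm2 : |m| ≤ ((2 * M : ℕ) : ℤ) := by
    have c1 := key {v} ∅ fun j hj => by
      simp only [mem_singleton, notMem_empty, iff_false]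
      rintro rfl
      omega
    have c2 := key ∅ {v} fun j hj => by
      simp only [mem_singleton, notMem_empty, false_iff]
      rintro rfl
      omega
    simp only [compl_empty, sum_empty, sum_singleton, Pi.add_apply, Pi.single_eq_same, hv0,
      h₁.sub.empty] at c1 c2
    have c3 := abs_le.1 (h₁.abs {v})
    have c4 := abs_le.1 (h₂.abs {v}ᶜ)
    have c5 := abs_le.1 (h₂.abs univ)
    push_cast
    rw [abs_le]
    constructor <;> linarith [c3.1, c3.2, c4.1, c4.2, c5.1, c5.2]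
  rw [clip_eq hm2, vec_append_single x v hx]
  exact key

theorem firstQ_spec (h₁ : Ev O n M f₁ fq₁) (h₂ : Ev O n M f₂ fq₂) :
    AllO O (fun x => x.length = n ∧ ((∃ y, IsB f₁ y ∧ IsB f₂ y) → IsB f₁ (vec n x) ∧ IsB f₂ (vec n x)))
      (firstQ fq₁ fq₂ n M) := by
  have := allO_iter_idx (O := O) (step := firstStep fq₁ fq₂ n M)
    (P := fun i x => x.length = i ∧ ((∃ y, IsB f₁ y ∧ IsB f₂ y) → Sand f₁ f₂ i (vec n x))) n
    (fun i hi x hx => (firstStep_spec h₁ h₂ ⟨i, hi⟩ x hx.1).mono fun x' hx' =>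
      ⟨hx'.1, fun hy => hx'.2 (hx.2 hy)⟩) (s := [])
    ⟨rfl, fun ⟨y, a, b⟩ => by rw [vec_nil]; exact sand_zero a b⟩
  refine this.mono fun x hx => ⟨hx.1, fun hy => ?_⟩
  obtain ⟨y, a, b⟩ := id hy
  exact (hx.2 hy).isB h₁.sub (a.2.symm.trans b.2) h₂.sub

theorem pt_sa {α : Type} [Enc α] {N v : α → ℕ} {U : α → List Bool} (hN : PT N) (hN' : PB N)
    (hv : PT v) (hU : PT U) : PT fun a => sa (N a) (v a) (U a) := by
  unfold sa
  pt

theorem pt_sb {α : Type} [Enc α] {N v : α → ℕ} {U : α → List Bool} (hN : PT N) (hN' : PB N)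
    (hv : PT v) (hU : PT U) : PT fun a => sb (N a) (v a) (U a) := by
  unfold sb
  pt

theorem pto_sandQ {α : Type} [Enc α] {gq₁ gq₂ : α → List Bool → QT ℤ} {N : α → ℕ} {x : α → List ℤ}
    {U : α → List Bool}
    (hq₁ : PTO fun p : α × List Bool => gq₁ p.1 p.2) (hq₂ : PTO fun p : α × List Bool => gq₂ p.1 p.2)
    (hN : PT N) (hN' : PB N) (hx : PT x) (hU : PT U) :
    PTO fun a => sandQ (gq₁ a) (gq₂ a) (N a) (x a) (U a) := by
  have ha : PT fun a => sa (N a) (x a).length (U a) := pt_sa hN hN' (by fun_prop) hU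
  have hb : PT fun a => sb (N a) (x a).length (U a) := pt_sb hN hN' (by fun_prop) hU
  have la := pt_lsum hN hN' hx ha
  have lb := pt_lsum hN hN' hx hb
  have hb' : PT fun a => (sb (N a) (x a).length (U a)).map fun c => !c :=
    hb.map (f := fun _ c => !c) (by fun_prop)
  unfold sandQ
  refine PTO.bind (hq₁.comp (g := fun a => (a, sa (N a) (x a).length (U a))) (by fun_prop)) ?_
  refine PTO.bind (hq₂.comp (g := fun p : α × ℤ =>
    (p.1, (sb (N p.1) (x p.1).length (U p.1)).map fun c => !c)) (PT.fst'.prodMk (hb'.comp PT.fst'))) ?_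
  refine PTO.map (hq₂.comp (g := fun p : (α × ℤ) × ℤ =>
    (p.1.1, List.replicate (N p.1.1) true)) (by fun_prop)) ?_
  have h3 : PT fun p : ((α × ℤ) × ℤ) × ℤ => p.1.1.1 := by fun_prop
  have la' := la.comp h3
  have lb' := lb.comp h3
  exact PT.int_add (PT.int_sub (PT.int_add (PT.int_sub (by fun_prop) la') (by fun_prop)) (by fun_prop)) lb'

theorem pto_firstQ {α : Type} [Enc α] {gq₁ gq₂ : α → List Bool → QT ℤ} {N B : α → ℕ}
    (hq₁ : PTO fun p : α × List Bool => gq₁ p.1 p.2) (hq₂ : PTO fun p : α × List Bool => gq₂ p.1 p.2)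
    (hN : PT N) (hN' : PB N) (hB : PT B) : PTO fun a => firstQ (gq₁ a) (gq₂ a) (N a) (B a) := by
  unfold firstQ
  refine PTO.iter_grow (fun a => esize (2 * B a) + 8) hN hN' (PT.const _) ?_ ?_ ?_
  · unfold firstStep
    have hl := pt_l1 (x := fun p : α × List ℤ => p.2) PT.snd'
    have hc := pt_clip (B := fun p : (α × List ℤ) × ℤ => 2 * B p.1.1) (z := fun p => p.2)
      (by fun_prop) PT.snd'
    refine PTO.map (pto_minQ (gq := fun (p : α × List ℤ) U => sandQ (gq₁ p.1) (gq₂ p.1) (N p.1) p.2 U)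
      (N := fun p => 2 * N p.1) (B := fun p => 3 * B p.1 + 2 * l1 p.2) ?_ (by fun_prop) (by fun_prop)
      (by fun_prop)) (by fun_prop)
    exact pto_sandQ (gq₁ := fun p : (α × List ℤ) × List Bool => gq₁ p.1.1)
      (gq₂ := fun p : (α × List ℤ) × List Bool => gq₂ p.1.1)
      (hq₁.comp (g := fun p : ((α × List ℤ) × List Bool) × List Bool => (p.1.1.1, p.2)) (by fun_prop))
      (hq₂.comp (g := fun p : ((α × List ℤ) × List Bool) × List Bool => (p.1.1.1, p.2)) (by fun_prop))
      (by fun_prop) (by fun_prop) (by fun_prop) (by fun_prop)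
  · have : PT fun a => 2 * B a := by fun_prop
    fun_prop
  · intro a s
    unfold firstStep
    refine (all_map _ _).2 (all_of_forall _ fun z => ?_)
    refine (esize_append_le _ _).trans (Nat.add_le_add_left ?_ _)
    have h1 : esize (clip (2 * B a) z) ≤ esize (2 * B a) + 6 := by
      rw [esize_int]
      refine Nat.add_le_add_right (esize_nat_mono ?_) _
      have := abs_clip_le (2 * B a) z
      rw [Int.abs_eq_natAbs] at this
      exact_mod_cast this
    rw [esize_list]
    simp only [List.map_cons, List.map_nil, List.sum_cons, List.sum_nil]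
    omega

end Crest.Agent.R302B
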