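import Crest.Agent.R302B.PDefs

/-!
# Row 302 (binary layer), PREP: basic facts on slacks, arcs, cones, ranges
-/

set_option autoImplicit false
set_option linter.unusedSectionVars false

noncomputable section

namespace Crest.Agent.R302B

open Finset Crest.Agent.R302

variable {ι : Type} [Fintype ι] [DecidableEq ι] {f f₁ f₂ : Finset ι → ℤ} {x a b g g' : ι → ℤ}
  {s s' k k' M T : ℤ} {p q r : ι}

theorem sum_rt (p q : ι) (X : Finset ι) :
    ∑ j ∈ X, rt p q j = (if p ∈ X then 1 else 0) - (if q ∈ X then 1 else 0) := by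
  simp only [rt, Pi.sub_apply, sum_sub_distrib, Pi.single_apply, sum_ite_eq']

theorem rt_add_rt (p q r : ι) : rt p q + rt q r = rt p r := by
  unfold rt; abel

theorem rt_self (p : ι) : rt p p = 0 := by
  unfold rt; abel

theorem neg_rt (p q : ι) : -rt p q = rt q p := by
  unfold rt; abel

theorem slack_nonneg (hx : IsB f x) (X : Finset ι) : 0 ≤ slack f x X := by
  exact sub_nonneg.2 (hx.1 X)

theorem slack_univ (hx : IsB f x) : slack f x univ = 0 := by
  exact sub_eq_zero.2 hx.2.symm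

theorem slack_empty (hf : Sub f) (x : ι → ℤ) : slack f x ∅ = 0 := by
  simp [slack, hf.empty]

theorem slack_sub (hf : Sub f) (x : ι → ℤ) (A B : Finset ι) :
    slack f x (A ∪ B) + slack f x (A ∩ B) ≤ slack f x A + slack f x B := by
  unfold slack
  have h1 := hf.sub A B
  have h2 := sum_union_inter (s₁ := A) (s₂ := B) (f := x)
  linarith

theorem slack_add (f : Finset ι → ℤ) (x g : ι → ℤ) (X : Finset ι) :
    slack f (x + g) X = slack f x X - ∑ j ∈ X, g j := by
  simp only [slack, Pi.add_apply, sum_add_distrib]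
  ring

theorem slack_le (hM : Bd f M) (hx : IsB f x) (X : Finset ι) : slack f x X ≤ M := by
  unfold slack
  have h1 := hM X
  have h2 := hx.1 Xᶜ
  have h3 := sum_add_sum_compl X x
  have h4 := hx.2
  linarith

theorem isB_add (hx : IsB f x) (h0 : ∑ j, g j = 0) (h : ∀ X, ∑ j ∈ X, g j ≤ slack f x X) :
    IsB f (x + g) := by
  refine ⟨fun X => ?_, ?_⟩
  · have h1 := slack_add f x g X
    have h2 := h X
    unfold slack at h1 h2
    linarith
  · simp only [Pi.add_apply, sum_add_distrib, h0, add_zero, hx.2]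

theorem sum_sub_le_slack (ha : IsB f a) (x : ι → ℤ) (X : Finset ι) :
    ∑ j ∈ X, (a j - x j) ≤ slack f x X := by
  rw [sum_sub_distrib]
  exact sub_le_sub_right (ha.1 X) _

theorem Arc.refl (f : Finset ι → ℤ) (x : ι → ℤ) (s : ℤ) (p : ι) : Arc f x s p p := by
  exact fun _ h h' => absurd h h'

theorem Arc.trans (h : Arc f x s p q) (h' : Arc f x s q r) : Arc f x s p r := by
  intro X hp hr
  by_cases hq : q ∈ X
  · exact h' X hq hr
  · exact h X hp hq

theorem Arc.mono (h : Arc f x s p q) (hs : s' ≤ s) : Arc f x s' p q := by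
  exact fun X hp hq => hs.trans_lt (h X hp hq)

theorem arc_of_neg (hx : IsB f x) (hs : s < 0) (p q : ι) : Arc f x s p q := by
  exact fun X _ _ => hs.trans_le (slack_nonneg hx X)

theorem Arc.lt (hM : Bd f M) (hx : IsB f x) (h : Arc f x s p q) (hpq : p ≠ q) : s < M := by
  exact (h {p} (mem_singleton_self p) (by simpa using hpq.symm)).trans_le (slack_le hM hx _)

theorem Eqv.refl (f : Finset ι → ℤ) (x : ι → ℤ) (s : ℤ) (p : ι) : Eqv f x s p p := by
  exact ⟨Arc.refl f x s p, Arc.refl f x s p⟩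

theorem Eqv.symm (h : Eqv f x s p q) : Eqv f x s q p := by
  exact ⟨h.2, h.1⟩

theorem Eqv.trans (h : Eqv f x s p q) (h' : Eqv f x s q r) : Eqv f x s p r := by
  exact ⟨h.1.trans h'.1, h'.2.trans h.2⟩

theorem Eqv.mono (h : Eqv f x s p q) (hs : s' ≤ s) : Eqv f x s' p q := by
  exact ⟨h.1.mono hs, h.2.mono hs⟩

theorem Reach.refl (f₁ f₂ : Finset ι → ℤ) (x : ι → ℤ) (s : ℤ) (p : ι) : Reach f₁ f₂ x s p p := by
  exact Relation.ReflTransGen.refl

theorem Reach.trans (h : Reach f₁ f₂ x s p q) (h' : Reach f₁ f₂ x s q r) : Reach f₁ f₂ x s p r := by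
  exact Relation.ReflTransGen.trans h h'

theorem Reach.mono (h : Reach f₁ f₂ x s p q) (hs : s' ≤ s) : Reach f₁ f₂ x s' p q := by
  induction h with
  | refl => exact Relation.ReflTransGen.refl
  | tail _ h' ih =>
    refine Relation.ReflTransGen.tail ih ?_
    rcases h' with h' | h'
    · exact Or.inl (h'.mono hs)
    · exact Or.inr (h'.mono hs)

theorem Arc.reach₁ (h : Arc f₁ x s p q) (f₂ : Finset ι → ℤ) : Reach f₁ f₂ x s p q := by
  exact Relation.ReflTransGen.single (Or.inl h)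

theorem Arc.reach₂ (h : Arc f₂ x s p q) (f₁ : Finset ι → ℤ) : Reach f₁ f₂ x s q p := by
  exact Relation.ReflTransGen.single (Or.inr h)

theorem Reach.swap (h : Reach f₁ f₂ x s p q) : Reach f₂ f₁ x s q p := by
  induction h with
  | refl => exact Relation.ReflTransGen.refl
  | tail _ h' ih => exact Relation.ReflTransGen.head (Or.symm h') ih

theorem Scc.refl (f₁ f₂ : Finset ι → ℤ) (x : ι → ℤ) (s : ℤ) (p : ι) : Scc f₁ f₂ x s p p := by
  exact ⟨Reach.refl f₁ f₂ x s p, Reach.refl f₁ f₂ x s p⟩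

theorem Scc.symm (h : Scc f₁ f₂ x s p q) : Scc f₁ f₂ x s q p := by
  exact ⟨h.2, h.1⟩

theorem Scc.trans (h : Scc f₁ f₂ x s p q) (h' : Scc f₁ f₂ x s q r) : Scc f₁ f₂ x s p r := by
  exact ⟨h.1.trans h'.1, h'.2.trans h.2⟩

theorem Scc.mono (h : Scc f₁ f₂ x s p q) (hs : s' ≤ s) : Scc f₁ f₂ x s' p q := by
  exact ⟨h.1.mono hs, h.2.mono hs⟩

theorem Scc.swap (h : Scc f₁ f₂ x s p q) : Scc f₂ f₁ x s p q := by
  exact ⟨h.2.swap, h.1.swap⟩

theorem scc_swap (f₁ f₂ : Finset ι → ℤ) (x : ι → ℤ) : Scc f₂ f₁ x = Scc f₁ f₂ x := by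
  funext s p q
  exact propext ⟨Scc.swap, Scc.swap⟩

theorem Eqv.scc₁ (h : Eqv f₁ x s p q) (f₂ : Finset ι → ℤ) : Scc f₁ f₂ x s p q := by
  exact ⟨h.1.reach₁ f₂, h.2.reach₁ f₂⟩

theorem Eqv.scc₂ (h : Eqv f₂ x s p q) (f₁ : Finset ι → ℤ) : Scc f₁ f₂ x s p q := by
  exact ⟨h.2.reach₂ f₁, h.1.reach₂ f₁⟩

theorem Cen.swap (h : Cen f₁ f₂ x) : Cen f₂ f₁ x := by
  exact ⟨h.b₂, h.b₁, fun s hs p q h' => h.rev₂ s hs p q h'.swap,
    fun s hs p q h' => h.rev₁ s hs p q h'.swap⟩

theorem PMath_inter (hf : Sub f) (hx : IsB f x) (p : ι) (Q : Finset ι)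
    (hQ : ∀ q ∈ Q, ¬ Arc f x s p q) :
    ∃ Y : Finset ι, p ∈ Y ∧ (∀ q ∈ Q, q ∉ Y) ∧ slack f x Y ≤ Q.card * s := by
  induction Q using Finset.induction_on with
  | empty => exact ⟨univ, mem_univ p, by simp, by simp [slack_univ hx]⟩
  | insert q Q hq ih =>
    obtain ⟨Y, h1, h2, h3⟩ := ih fun r hr => hQ r (mem_insert_of_mem hr)
    have h4 := hQ q (mem_insert_self q Q)
    unfold Arc at h4
    push Not at h4
    obtain ⟨X, h5, h6, h7⟩ := h4
    refine ⟨X ∩ Y, mem_inter.2 ⟨h5, h1⟩, fun r hr h => ?_, ?_⟩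
    · rcases mem_insert.1 hr with rfl | hr'
      · exact h6 (mem_inter.1 h).1
      · exact h2 r hr' (mem_inter.1 h).2
    · have h8 := slack_sub hf x X Y
      have h9 := slack_nonneg hx (X ∪ Y)
      rw [card_insert_of_notMem hq]
      push_cast
      linarith

/-- closed sets have small slack -/
theorem slack_le_of_closed (hf : Sub f) (hx : IsB f x) (hs : 0 ≤ s) {X : Finset ι}
    (hX : ∀ p ∈ X, ∀ q, Arc f x s p q → q ∈ X) : slack f x X ≤ (Fintype.card ι : ℤ) ^ 2 * s := by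
  have key : ∀ P : Finset ι, P ⊆ X → ∃ Z : Finset ι, P ⊆ Z ∧ Z ⊆ X ∧
      slack f x Z ≤ P.card * (Fintype.card ι * s) := by
    intro P
    induction P using Finset.induction_on with
    | empty => exact fun _ => ⟨∅, Subset.rfl, empty_subset _, by simp [slack_empty hf]⟩
    | insert p P hp ih =>
      intro hP
      obtain ⟨Z, h1, h2, h3⟩ := ih ((subset_insert p P).trans hP)
      have hpX : p ∈ X := hP (mem_insert_self p P)
      obtain ⟨Y, h4, h5, h6⟩ := PMath_inter hf hx p Xᶜ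
        fun q hq h => (mem_compl.1 hq) (hX p hpX q h)
      have h7 : ((Xᶜ).card : ℤ) * s ≤ Fintype.card ι * s :=
        mul_le_mul_of_nonneg_right (by exact_mod_cast card_le_univ _) hs
      refine ⟨Y ∪ Z, insert_subset (mem_union_left _ h4) (h1.trans subset_union_right),
        union_subset (fun q hq => by_contra fun h => h5 q (mem_compl.2 h) hq) h2, ?_⟩
      have h8 := slack_sub hf x Y Z
      have h9 := slack_nonneg hx (Y ∩ Z)
      rw [card_insert_of_notMem hp]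
      push_cast
      linarith
  obtain ⟨Z, h1, h2, h3⟩ := key X Subset.rfl
  rw [Subset.antisymm h2 h1] at h3
  refine h3.trans ?_
  rw [sq, mul_assoc]
  exact mul_le_mul_of_nonneg_right (by exact_mod_cast card_le_univ _)
    (mul_nonneg (Nat.cast_nonneg _) hs)

theorem Cone.zero (f : Finset ι → ℤ) (x : ι → ℤ) (s : ℤ) : Cone f x s 0 0 := by
  exact ⟨by simp, fun X => by simp, fun X _ => by simp⟩

theorem Arc.cone (h : Arc f x s p q) : Cone f x s 1 (rt p q) := by
  refine ⟨by simp [sum_rt], fun X => ?_, fun X hX => ?_⟩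
  · rw [sum_rt]
    split_ifs <;> norm_num
  · rw [sum_rt]
    split_ifs with hp hq
    · norm_num
    · exact absurd (h X hp hq) (not_lt.2 hX)
    · norm_num
    · norm_num

theorem Cone.add (h : Cone f x s k g) (h' : Cone f x s k' g') : Cone f x s (k + k') (g + g') := by
  refine ⟨?_, fun X => ?_, fun X hX => ?_⟩
  · simp only [Pi.add_apply, sum_add_distrib, h.sum, h'.sum, add_zero]
  · simp only [Pi.add_apply, sum_add_distrib]
    exact add_le_add (h.le X) (h'.le X)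
  · simp only [Pi.add_apply, sum_add_distrib]
    exact add_nonpos (h.cl X hX) (h'.cl X hX)

theorem Cone.mono (h : Cone f x s k g) (hs : s' ≤ s) (hk : k ≤ k') : Cone f x s' k' g := by
  exact ⟨h.sum, fun X => (h.le X).trans hk, fun X hX => h.cl X (hX.trans hs)⟩

theorem Cone.smul (h : Cone f x s k g) {t : ℤ} (ht : 0 ≤ t) : Cone f x s (t * k) (t • g) := by
  refine ⟨?_, fun X => ?_, fun X hX => ?_⟩
  · simp only [Pi.smul_apply, smul_eq_mul, ← mul_sum, h.sum, mul_zero]
  · simp only [Pi.smul_apply, smul_eq_mul, ← mul_sum]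
    exact mul_le_mul_of_nonneg_left (h.le X) ht
  · simp only [Pi.smul_apply, smul_eq_mul, ← mul_sum]
    exact mul_nonpos_of_nonneg_of_nonpos ht (h.cl X hX)

theorem Cone.abs_le (h : Cone f x s k g) (X : Finset ι) : |∑ j ∈ X, g j| ≤ k := by
  have h1 := h.le X
  have h2 := h.le Xᶜ
  have h3 := sum_add_sum_compl X g
  have h4 := h.sum
  rw [_root_.abs_le]
  constructor <;> linarith

theorem Cone.isB (hx : IsB f x) (h : Cone f x s k g) (hk : k ≤ s + 1) : IsB f (x + g) := by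
  refine isB_add hx h.sum fun X => ?_
  by_cases hX : slack f x X ≤ s
  · exact (h.cl X hX).trans (slack_nonneg hx X)
  · have := h.le X
    omega

/-- several scales at once -/
theorem isB_add_sum {κ : Type} (hx : IsB f x) (J : Finset κ) {σ l : κ → ℤ} {G : κ → ι → ℤ} {m : ℤ}
    (hm : (J.card : ℤ) ≤ m) (h : ∀ i ∈ J, Cone f x (σ i) (l i) (G i)) (hl : ∀ i ∈ J, m * l i ≤ σ i + 1) :
    IsB f (x + ∑ i ∈ J, G i) := by
  refine isB_add hx ?_ fun X => ?_
  · simp only [Finset.sum_apply]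
    rw [sum_comm]
    exact sum_eq_zero fun i hi => (h i hi).sum
  · simp only [Finset.sum_apply]
    rw [sum_comm]
    have hm0 : 0 ≤ m := (Nat.cast_nonneg _).trans hm
    have h0 := slack_nonneg hx X
    rcases hm0.eq_or_lt with hm1 | hm1
    · have : J = ∅ := by
        rw [← card_eq_zero]
        omega
      rw [this, sum_empty]
      exact h0
    · refine le_of_mul_le_mul_left ?_ hm1
      rw [mul_sum]
      calc ∑ i ∈ J, m * ∑ j ∈ X, G i j ≤ ∑ _i ∈ J, slack f x X := by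
            refine sum_le_sum fun i hi => ?_
            by_cases hX : slack f x X ≤ σ i
            · exact (mul_nonpos_of_nonneg_of_nonpos hm0 ((h i hi).cl X hX)).trans h0
            · have h1 := mul_le_mul_of_nonneg_left ((h i hi).le X) hm0
              have h2 := hl i hi
              omega
        _ = J.card * slack f x X := by rw [sum_const, nsmul_eq_mul]
        _ ≤ m * slack f x X := mul_le_mul_of_nonneg_right hm h0

theorem Lab.refl (f₁ f₂ : Finset ι → ℤ) (x : ι → ℤ) (s : ℤ) (p : ι) : Lab f₁ f₂ x s 0 p p 0 := by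
  refine ⟨Cone.zero f₁ x s, ?_⟩
  rw [rt_self, sub_zero]
  exact Cone.zero f₂ x s

theorem Lab.mono (h : Lab f₁ f₂ x s k p q g) (hs : s' ≤ s) (hk : k ≤ k') : Lab f₁ f₂ x s' k' p q g := by
  exact ⟨h.1.mono hs hk, h.2.mono hs hk⟩

theorem Lab.step₁ (h : Lab f₁ f₂ x s k p q g) (h' : Arc f₁ x s q r) :
    Lab f₁ f₂ x s (k + 1) p r (g + rt q r) := by
  refine ⟨h.1.add h'.cone, ?_⟩
  have : g + rt q r - rt p r = g - rt p q := by unfold rt; abel
  rw [this]
  exact h.2.mono le_rfl (by omega)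

theorem Lab.step₂ (h : Lab f₁ f₂ x s k p q g) (h' : Arc f₂ x s r q) : Lab f₁ f₂ x s (k + 1) p r g := by
  refine ⟨h.1.mono le_rfl (by omega), ?_⟩
  have : g - rt p r = g - rt p q + rt r q := by unfold rt; abel
  rw [this]
  exact h.2.add h'.cone

theorem Reach.exists_lab (h : Reach f₁ f₂ x s p q) :
    ∃ g, Lab f₁ f₂ x s ((Fintype.card ι : ℤ) - 1) p q g := by
  have key : ∃ S : Finset ι, q ∈ S ∧ ∀ r ∈ S, ∃ g, Lab f₁ f₂ x s ((S.card : ℤ) - 1) p r g := by
    induction h with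
    | refl =>
      refine ⟨{p}, mem_singleton_self p, fun r hr => ⟨0, ?_⟩⟩
      rw [mem_singleton.1 hr]
      simpa using Lab.refl f₁ f₂ x s p
    | @tail q r _ h' ih =>
      obtain ⟨S, hq, hS⟩ := ih
      by_cases hr : r ∈ S
      · exact ⟨S, hr, hS⟩
      · refine ⟨insert r S, mem_insert_self r S, fun t ht => ?_⟩
        have hc : ((insert r S).card : ℤ) - 1 = (S.card : ℤ) - 1 + 1 := by
          rw [card_insert_of_notMem hr]; push_cast; ring
        rw [hc]
        rcases mem_insert.1 ht with rfl | ht'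
        · obtain ⟨g, hg⟩ := hS q hq
          rcases h' with h' | h'
          · exact ⟨_, hg.step₁ h'⟩
          · exact ⟨_, hg.step₂ h'⟩
        · obtain ⟨g, hg⟩ := hS t ht'
          exact ⟨g, hg.mono le_rfl (by omega)⟩
  obtain ⟨S, hq, hS⟩ := key
  obtain ⟨g, hg⟩ := hS q hq
  have : (S.card : ℤ) ≤ Fintype.card ι := by exact_mod_cast card_le_univ S
  exact ⟨g, hg.mono le_rfl (by omega)⟩

/-- RANGE, closed sets of the combined digraph -/
theorem range_closed (h₁ : Sub f₁) (h₂ : Sub f₂) (hx₁ : IsB f₁ x) (hx₂ : IsB f₂ x) (hs : 0 ≤ s)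
    (ha : IsB f₁ a) (hb : IsB f₂ b) {Y : Finset ι} (hY : ∀ p ∈ Y, ∀ q, DArc f₁ f₂ x s p q → q ∈ Y) :
    |∑ j ∈ Y, (a j - x j)| ≤ (Fintype.card ι : ℤ) ^ 2 * s + |∑ j ∈ Y, (a j - b j)| := by
  have e1 := slack_le_of_closed h₁ hx₁ hs (X := Y) fun p hp q h => hY p hp q (Or.inl h)
  have e2 := slack_le_of_closed h₂ hx₂ hs (X := Yᶜ) fun p hp q h =>
    mem_compl.2 fun hq => (mem_compl.1 hp) (hY q hq p (Or.inr h))
  have e3 := sum_sub_le_slack ha x Y
  have e4 := sum_sub_le_slack hb x Yᶜ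
  have e5 := sum_add_sum_compl Y (fun j => b j - x j)
  have e6 : ∑ j, (b j - x j) = 0 := by rw [sum_sub_distrib, hb.2, hx₂.2, sub_self]
  have e7 : ∑ j ∈ Y, (a j - x j) = ∑ j ∈ Y, (a j - b j) + ∑ j ∈ Y, (b j - x j) := by
    rw [← sum_add_distrib]
    exact sum_congr rfl fun j _ => by ring
  have e8 := neg_abs_le (∑ j ∈ Y, (a j - b j))
  have e9 := abs_nonneg (∑ j ∈ Y, (a j - b j))
  rw [abs_le]
  constructor <;> linarith

/-- RANGE, sets not crossed by arcs of the first preorder inside strong components -/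
theorem range_sat (h₁ : Sub f₁) (h₂ : Sub f₂) (hx₁ : IsB f₁ x) (hx₂ : IsB f₂ x) (hs : 0 ≤ s)
    (ha : IsB f₁ a) (hb : IsB f₂ b)
    (hT : ∀ Y : Finset ι, (∀ p q, Scc f₁ f₂ x s p q → p ∈ Y → q ∈ Y) → |∑ j ∈ Y, (a j - b j)| ≤ T)
    {A : Finset ι} (hA : ∀ p q, Scc f₁ f₂ x s p q → Arc f₁ x s p q → (p ∈ A ↔ q ∈ A)) :
    |∑ j ∈ A, (a j - x j)| ≤ Fintype.card ι * (2 * (Fintype.card ι : ℤ) ^ 2 * s + T) := by
  classical
  have hT0 : 0 ≤ T := by simpa using hT ∅ (by simp)
  have hc0 : 0 ≤ 2 * (Fintype.card ι : ℤ) ^ 2 * s + T := by positivity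
  have key : ∀ p, |∑ j ∈ A.filter (Scc f₁ f₂ x s p), (a j - x j)| ≤
      2 * (Fintype.card ι : ℤ) ^ 2 * s + T := by
    intro p
    set Y0 : Finset ι := univ.filter fun q => Reach f₁ f₂ x s p q ∧ ¬ Scc f₁ f₂ x s p q with hY0
    set Z1 : Finset ι := A.filter (Scc f₁ f₂ x s p) with hZ1
    set Z2 : Finset ι := Aᶜ.filter (Scc f₁ f₂ x s p) with hZ2
    have m0 : ∀ q, q ∈ Y0 ↔ Reach f₁ f₂ x s p q ∧ ¬ Scc f₁ f₂ x s p q := by simp [hY0]
    have m1 : ∀ q, q ∈ Z1 ↔ q ∈ A ∧ Scc f₁ f₂ x s p q := by simp [hZ1]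
    have m2 : ∀ q, q ∈ Z2 ↔ q ∉ A ∧ Scc f₁ f₂ x s p q := by simp [hZ2]
    have mY : ∀ q, q ∈ Y0 ∪ Z2 ∪ Z1 ↔ Reach f₁ f₂ x s p q := by
      intro q
      simp only [mem_union, m0, m1, m2]
      constructor
      · rintro ((h | h) | h)
        · exact h.1
        · exact h.2.1
        · exact h.2.1
      · intro h
        tauto
    have c0 : ∀ q ∈ Y0, ∀ r, Reach f₁ f₂ x s q r → r ∈ Y0 := by
      intro q hq r h
      rw [m0] at hq ⊢
      exact ⟨hq.1.trans h, fun h' => hq.2 ⟨hq.1, h.trans h'.2⟩⟩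
    have d1 : Disjoint Y0 Z1 := disjoint_left.2 fun q h h' => ((m0 q).1 h).2 ((m1 q).1 h').2
    have d2 : Disjoint Y0 Z2 := disjoint_left.2 fun q h h' => ((m0 q).1 h).2 ((m2 q).1 h').2
    have d3 : Disjoint (Y0 ∪ Z2) Z1 := disjoint_union_left.2
      ⟨d1, disjoint_left.2 fun q h h' => ((m2 q).1 h).1 ((m1 q).1 h').1⟩
    have e1 := (range_closed h₁ h₂ hx₁ hx₂ hs ha hb (Y := Y0)
      fun q hq r h => c0 q hq r (Relation.ReflTransGen.single h)).trans
      (add_le_add le_rfl (hT Y0 fun q r h hq => c0 q hq r h.1))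
    have e2 := (range_closed h₁ h₂ hx₁ hx₂ hs ha hb (Y := Y0 ∪ Z2 ∪ Z1)
      fun q hq r h => (mY r).2 (((mY q).1 hq).trans (Relation.ReflTransGen.single h))).trans
      (add_le_add le_rfl (hT _ fun q r h hq => (mY r).2 (((mY q).1 hq).trans h.1)))
    have e3 := (sum_sub_le_slack ha x (Y0 ∪ Z1)).trans (slack_le_of_closed h₁ hx₁ hs
      fun q hq r h => by
        rcases mem_union.1 hq with hq | hq
        · exact mem_union_left _ (c0 q hq r (h.reach₁ f₂))
        · rw [m1] at hq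
          by_cases hr : Scc f₁ f₂ x s p r
          · exact mem_union_right _ ((m1 r).2 ⟨(hA q r (hq.2.symm.trans hr) h).1 hq.1, hr⟩)
          · exact mem_union_left _ ((m0 r).2 ⟨hq.2.1.trans (h.reach₁ f₂), hr⟩))
    have e4 := (sum_sub_le_slack ha x (Y0 ∪ Z2)).trans (slack_le_of_closed h₁ hx₁ hs
      fun q hq r h => by
        rcases mem_union.1 hq with hq | hq
        · exact mem_union_left _ (c0 q hq r (h.reach₁ f₂))
        · rw [m2] at hq
          by_cases hr : Scc f₁ f₂ x s p r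
          · exact mem_union_right _ ((m2 r).2
              ⟨fun h' => hq.1 ((hA q r (hq.2.symm.trans hr) h).2 h'), hr⟩)
          · exact mem_union_left _ ((m0 r).2 ⟨hq.2.1.trans (h.reach₁ f₂), hr⟩))
    rw [sum_union d3] at e2
    rw [sum_union d1] at e3
    rw [abs_le] at e1 e2 ⊢
    constructor <;> linarith [e1.1, e2.1]
  let cls : ι → Finset ι := fun p => univ.filter (Scc f₁ f₂ x s p)
  rw [← sum_fiberwise_of_maps_to (s := A) (t := univ.image cls) (g := cls)
    (fun j _ => mem_image_of_mem cls (mem_univ j))]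
  refine (abs_sum_le_sum_abs _ _).trans ?_
  calc ∑ Z ∈ univ.image cls, |∑ j ∈ A.filter (fun j => cls j = Z), (a j - x j)|
      ≤ ∑ _Z ∈ univ.image cls, (2 * (Fintype.card ι : ℤ) ^ 2 * s + T) := by
        refine sum_le_sum fun Z hZ => ?_
        obtain ⟨p, -, rfl⟩ := mem_image.1 hZ
        refine le_trans (le_of_eq ?_) (key p)
        congr 2
        refine filter_congr fun j _ => ⟨fun h => ?_, fun h => ?_⟩
        · have : j ∈ cls j := mem_filter.2 ⟨mem_univ j, Scc.refl f₁ f₂ x s j⟩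
          rw [h] at this
          exact (mem_filter.1 this).2
        · exact filter_congr fun r _ => ⟨fun h' => h.trans h', fun h' => h.symm.trans h'⟩
    _ = (univ.image cls).card * (2 * (Fintype.card ι : ℤ) ^ 2 * s + T) := by
        rw [sum_const, nsmul_eq_mul]
    _ ≤ _ := mul_le_mul_of_nonneg_right (by exact_mod_cast card_image_le) hc0

/-- RANGE at a centred point: unions of classes of scale `s` -/
theorem Cen.range (h₁ : Sub f₁) (h₂ : Sub f₂) (hx : Cen f₁ f₂ x) (hs : 0 ≤ s)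
    (ha : IsB f₁ a) (hb : IsB f₂ b)
    (hT : ∀ Y : Finset ι, (∀ p q, Scc f₁ f₂ x (cK (Fintype.card ι) * (s + 1)) p q → p ∈ Y → q ∈ Y) →
      |∑ j ∈ Y, (a j - b j)| ≤ T)
    {A : Finset ι} (hA : ∀ p q, Eqv f₁ x s p q → p ∈ A → q ∈ A) :
    |∑ j ∈ A, (a j - x j)| ≤
      Fintype.card ι * (2 * (Fintype.card ι : ℤ) ^ 2 * (cK (Fintype.card ι) * (s + 1)) + T) := by
  have hK : 0 ≤ cK (Fintype.card ι) * (s + 1) := by
    unfold cK
    positivity
  refine range_sat h₁ h₂ hx.b₁ hx.b₂ hK ha hb hT fun p q hpq h => ?_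
  have hn : (1 : ℤ) ≤ Fintype.card ι := by
    exact_mod_cast Fintype.card_pos_iff.2 ⟨p⟩
  have hs' : s ≤ cK (Fintype.card ι) * (s + 1) := by
    unfold cK
    have := one_le_pow₀ hn (n := 3)
    nlinarith
  have he : Eqv f₁ x s p q := ⟨h.mono hs', hx.rev₁ s hs p q hpq h⟩
  exact ⟨hA p q he, hA q p he.symm⟩

theorem cap_le (f : Finset ι → ℤ) (x : ι → ℤ) (M : ℤ) (p q : ι) : cap f x M p q ≤ M := by
  unfold cap
  refine (inf'_le _ (mem_univ ∅)).trans ?_
  simp

theorem lt_cap_iff : s < cap f x M p q ↔ s < M ∧ Arc f x s p q := by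
  unfold cap
  rw [lt_inf'_iff]
  constructor
  · intro h
    refine ⟨by simpa using h ∅ (mem_univ _), fun X hp hq => ?_⟩
    have := h X (mem_univ _)
    rw [if_pos ⟨hp, hq⟩] at this
    exact this.trans_le (min_le_right _ _)
  · rintro ⟨h1, h2⟩ X _
    split_ifs with h
    · exact lt_min h1 (h2 X h.1 h.2)
    · exact h1

theorem cap_nonneg (hx : IsB f x) (hM : 0 ≤ M) (p q : ι) : 0 ≤ cap f x M p q := by
  unfold cap
  refine le_inf' _ _ fun X _ => ?_
  split_ifs
  · exact le_min hM (slack_nonneg hx X)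
  · exact hM

end Crest.Agent.R302B
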