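import Crest.Agent.R302B.PAlg
import Crest.Agent.R302B.PMath

/-!
# Row 302 (binary layer), PREP: minima, membership, capacities
* `minQ_spec`: `sfmQ_spec` for `A ↦ φ A - φ ∅` (`bset N (replicate N false) = ∅`).
* `capQ_spec`: `bset n ((s.set p true).set q false) = (insert p (bset n s)).erase q`; `A ↦ (insert p A).erase q` commutes with `∪`, `∩` and its
  values are the sets containing `p` but not `q`.  Compare with `cap` through `lt_cap_iff` (`eq_of_forall_lt_iff`).
* `PTO`: `unfold`, then `PTO.bind/map/comp/ite/mapQ/sfmQ`, `fun_prop`/`pt` (`List.range (n a)` needs `PT n`, `PB n`).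
-/

set_option autoImplicit false

noncomputable section

namespace Crest.Agent.R302B

open Finset Crest.Agent.R302 Crest.Agent.R302.QT Crest.Agent.Lib.PolyTime

variable {O : Orc} {n M : ℕ} {f : Finset (Fin n) → ℤ} {fq : List Bool → QT ℤ}

theorem mem_bset {s : List Bool} {j : Fin n} : j ∈ bset n s ↔ s.getD j false = true := by
  simp [bset]

theorem bset_false (n : ℕ) : bset n (List.replicate n false) = ∅ := by
  ext j
  simp [mem_bset]

theorem bset_true (n : ℕ) : bset n (List.replicate n true) = univ := by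
  ext j
  simp [mem_bset]

theorem bset_map_range (n : ℕ) (b : ℕ → Bool) :
    bset n ((List.range n).map b) = univ.filter fun j : Fin n => b j = true := by
  ext j
  simp [mem_bset]

theorem exists_bset (A : Finset (Fin n)) : ∃ s : List Bool, s.length = n ∧ bset n s = A := by
  refine ⟨List.ofFn fun j => decide (j ∈ A), List.length_ofFn, ?_⟩
  ext j
  simp [mem_bset]

theorem vec_map_range (n : ℕ) (g : ℕ → ℤ) : vec n ((List.range n).map g) = fun j : Fin n => g j := by
  funext j
  simp [vec]

theorem vec_nil (n : ℕ) : vec n [] = 0 := by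
  funext j
  simp [vec]

theorem sum_fin_eq_list {n : ℕ} {g : ℕ → ℤ} :
    ∑ j : Fin n, g j = ((List.range n).map g).sum := by
  rw [Fin.sum_univ_eq_sum_range]
  rfl

theorem lsum_eq (n : ℕ) (x : List ℤ) (s : List Bool) : lsum n x s = ∑ j ∈ bset n s, vec n x j := by
  rw [lsum, bset, sum_filter, ← sum_fin_eq_list]
  rfl

theorem sum_abs_getD_le (x : List ℤ) (n : ℕ) : ∑ j ∈ range n, |x.getD j 0| ≤ l1 x := by
  induction x generalizing n with
  | nil => simp [l1]
  | cons a x ih =>
    have h : (l1 (a :: x) : ℤ) = |a| + l1 x := by simp [l1]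
    rcases n with _ | n
    · simp
    · rw [sum_range_succ', h, add_comm]
      exact add_le_add le_rfl (ih n)

theorem abs_sum_vec_le (x : List ℤ) (A : Finset (Fin n)) : |∑ j ∈ A, vec n x j| ≤ l1 x := by
  refine (abs_sum_le_sum_abs _ _).trans ((sum_le_sum_of_subset_of_nonneg (subset_univ A)
    fun _ _ _ => abs_nonneg _).trans ?_)
  exact (Fin.sum_univ_eq_sum_range (fun j => |x.getD j 0|) n).trans_le (sum_abs_getD_le x n)

theorem clip_eq {z : ℤ} (h : |z| ≤ M) : clip M z = z := by
  obtain ⟨h1, h2⟩ := abs_le.1 h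
  rw [clip, min_eq_right h2, max_eq_right h1]

theorem abs_clip_le (M : ℕ) (z : ℤ) : |clip M z| ≤ M := by
  exact abs_le.2 ⟨le_max_left _ _, max_le (by omega) (min_le_left _ _)⟩

theorem IsB.abs_le (hM : ∀ A, |f A| ≤ M) {x : Fin n → ℤ} (hx : IsB f x) (j : Fin n) : |x j| ≤ 2 * M := by
  have h1 := hx.1 {j}
  have h2 := hx.1 {j}ᶜ
  have h3 := sum_add_sum_compl {j} x
  have h4 := _root_.abs_le.1 (hM {j})
  have h5 := _root_.abs_le.1 (hM {j}ᶜ)
  have h6 := _root_.abs_le.1 (hM univ)
  have h7 := hx.2
  rw [sum_singleton] at h1 h3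
  exact _root_.abs_le.2 ⟨by omega, by omega⟩

theorem minQ_spec {N : ℕ} {φ : Finset (Fin N) → ℤ} (hφ : ∀ A B, φ (A ∪ B) + φ (A ∩ B) ≤ φ A + φ B)
    (hM : ∀ A, |φ A| ≤ M) (hq : ∀ s, s.length = N → Det O (fq s) (φ (bset N s))) :
    ∃ m, Det O (minQ fq N M) m ∧ (∀ A, m ≤ φ A) ∧ ∃ A, m = φ A := by
  obtain ⟨s, -, h1, h2⟩ := sfmQ_spec (O := O) (M := 2 * M) (f := fun A => φ A - φ ∅)
    (fq := fun s => (fq s).map fun z => z - φ ∅) ⟨sub_self _, fun A B => by have := hφ A B; omega⟩
    (fun A => by
      have h1 := abs_le.1 (hM A)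
      have h2 := abs_le.1 (hM ∅)
      exact abs_le.2 ⟨by omega, by omega⟩)
    fun s hs => (hq s hs).map _
  have h0 := hq _ (List.length_replicate (a := false))
  rw [bset_false] at h0
  exact ⟨_, h0.bind (h1.map _), fun A => by have := h2 A; omega, bset N s, sub_add_cancel _ _⟩

theorem slackQ_spec (h : Ev O n M f fq) (x : List ℤ) {s : List Bool} (hs : s.length = n) :
    Det O (slackQ fq n x s) (slack f (vec n x) (bset n s)) := by
  rw [slack, ← lsum_eq]
  exact (h.det s hs).map _

theorem abs_slack_le (hM : ∀ A, |f A| ≤ M) (x : List ℤ) (A : Finset (Fin n)) :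
    |slack f (vec n x) A| ≤ (M + l1 x : ℕ) :=
  (abs_sub _ _).trans ((add_le_add (hM A) (abs_sum_vec_le x A)).trans_eq (Nat.cast_add _ _).symm)

theorem memQ_spec (h : Ev O n M f fq) (x : List ℤ) :
    ∃ b, Det O (memQ fq n M x) b ∧ (b = true ↔ IsB f (vec n x)) := by
  obtain ⟨m, h1, h2, A, h3⟩ := minQ_spec (slack_sub h.sub (vec n x)) (abs_slack_le h.abs x)
    fun s hs => slackQ_spec h x hs
  have h4 := slackQ_spec h x (List.length_replicate (a := true))
  rw [bset_true] at h4
  refine ⟨_, h1.bind (h4.map _), decide_eq_true_iff.trans ⟨fun h5 => ⟨fun B => ?_, ?_⟩, fun h5 => ?_⟩⟩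
  · exact sub_nonneg.1 (h5.1.trans (h2 B))
  · exact (sub_eq_zero.1 h5.2).symm
  · exact ⟨h3 ▸ slack_nonneg h5 A, slack_univ h5⟩

theorem bset_set {s : List Bool} (hs : s.length = n) (p q : Fin n) :
    bset n ((s.set p true).set q false) = (insert p (bset n s)).erase q := by
  ext j
  have hj : (j : ℕ) < s.length := hs ▸ j.2
  simp only [mem_bset, mem_erase, mem_insert, List.getD_eq_getElem?_getD, List.getElem?_set, List.length_set,
    Fin.val_inj]
  by_cases h1 : q = j
  · subst h1; simp [hj]
  · by_cases h2 : p = j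
    · subst h2; simp [h1, hj, Ne.symm h1]
    · simp [h1, h2, Ne.symm h1, Ne.symm h2]

theorem capQ_spec (h : Ev O n M f fq) (x : List ℤ) (p q : Fin n) :
    Det O (capQ fq n M x p q) (cap f (vec n x) M p q) := by
  unfold capQ
  by_cases hpq : p = q
  · rw [if_pos (congrArg _ hpq), show cap f (vec n x) M p q = M from eq_of_forall_lt_iff fun s =>
      lt_cap_iff.trans (and_iff_left (hpq ▸ Arc.refl _ _ _ _))]
    exact det_ret _
  · obtain ⟨m, h1, h2, A, h3⟩ := minQ_spec (O := O) (φ := fun A => slack f (vec n x) ((insert p A).erase q))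
      (fq := fun s => slackQ fq n x ((s.set p true).set q false))
      (fun A B => by
        have := slack_sub h.sub (vec n x) ((insert p A).erase q) ((insert p B).erase q)
        rwa [← erase_union_distrib, ← insert_union_distrib, show (insert p A).erase q ∩ (insert p B).erase q =
          (insert p (A ∩ B)).erase q by ext j; simp only [mem_inter, mem_erase, mem_insert]; tauto] at this)
      (fun A => abs_slack_le h.abs x _)
      fun s hs => bset_set hs p q ▸ slackQ_spec h x (by simpa using hs)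
    rw [if_neg (Fin.val_ne_of_ne hpq), show cap f (vec n x) M p q = min (M : ℤ) m from eq_of_forall_lt_iff fun s =>
      lt_cap_iff.trans ((and_congr_right fun _ => ⟨fun h4 => ?_, fun h4 X hp hq => ?_⟩).trans lt_min_iff.symm)]
    · exact h1.map _
    · exact h3 ▸ h4 _ (mem_erase.2 ⟨hpq, mem_insert_self _ _⟩) (notMem_erase _ _)
    · have := h2 X
      rw [insert_eq_of_mem hp, erase_eq_of_notMem hq] at this
      exact h4.trans_le this

theorem forall₂_range_getD {β : Type} {P : ℕ → β → Prop} {l : List β} (h : List.Forall₂ P (List.range n) l)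
    (j : Fin n) (d : β) : P j (l.getD j d) := by
  have h1 : (j : ℕ) < l.length := by rw [← h.length_eq, List.length_range]; exact j.2
  rw [List.getD_eq_getElem _ _ h1]
  simpa using h.get (i := j) (by simp) h1

theorem capsQ_spec (h : Ev O n M f fq) (x : List ℤ) :
    AllO O (IsCaps f (vec n x) M) (capsQ fq n M x) := by
  refine (allO_mapQ (P := fun p row => ∀ (hp : p < n) (q : Fin n), row.getD q 0 = cap f (vec n x) M ⟨p, hp⟩ q)
    fun p hp => ?_).mono fun c hc p q => forall₂_range_getD hc p [] p.2 q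
  refine (allO_mapQ (P := fun q z => ∀ (hp : p < n) (hq : q < n), z = cap f (vec n x) M ⟨p, hp⟩ ⟨q, hq⟩)
    fun q hq => ?_).mono fun row hr hp q => forall₂_range_getD hr q 0 hp q.2
  exact (capQ_spec h x ⟨p, List.mem_range.1 hp⟩ ⟨q, List.mem_range.1 hq⟩).mono fun z hz _ _ => hz

/-- an invariant depending on the number of steps -/
theorem allO_iter_idx {σ : Type} {P : ℕ → σ → Prop} {step : σ → QT σ} (N : ℕ)
    (h : ∀ i < N, ∀ s, P i s → AllO O (P (i + 1)) (step s)) {s : σ} (hs : P 0 s) :
    AllO O (P N) (iter step N s) := by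
  induction N with
  | zero => exact hs
  | succ N ih =>
    rw [iter_succ']
    exact (ih fun i hi => h i (by omega)).bind (h N (by omega))

section pt

variable {α : Type} [Enc α] {gq : α → List Bool → QT ℤ} {N B : α → ℕ} {x : α → List ℤ}

theorem pt_ent {c : α → List (List ℤ)} {p q : α → ℕ} (hc : PT c) (hp : PT p) (hq : PT q) :
    PT fun a => ent (c a) (p a) (q a) := by
  unfold ent
  fun_prop

theorem pt_lsum {s : α → List Bool} (hN : PT N) (hN' : PB N) (hx : PT x) (hs : PT s) :
    PT fun a => lsum (N a) (x a) (s a) := by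
  unfold lsum
  pt

theorem pt_l1 (hx : PT x) : PT fun a => l1 (x a) := by
  unfold l1
  fun_prop

theorem pt_clip {z : α → ℤ} (hB : PT B) (hz : PT z) : PT fun a => clip (B a) (z a) := by
  unfold clip
  fun_prop

theorem pto_minQ (hq : PTO fun p : α × List Bool => gq p.1 p.2) (hN : PT N) (hN' : PB N) (hB : PT B) :
    PTO fun a => minQ (gq a) (N a) (B a) := by
  refine PTO.bind (hq.comp (g := fun a => (a, List.replicate (N a) false)) (by fun_prop)) ?_
  refine PTO.map (PTO.sfmQ ?_ (by fun_prop) (hN'.comp PT.fst') (by fun_prop)) (by fun_prop)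
  exact PTO.map (hq.comp (g := fun p : (α × ℤ) × List Bool => (p.1.1, p.2)) (by fun_prop)) (by fun_prop)

theorem pto_slackQ {s : α → List Bool} (hq : PTO fun p : α × List Bool => gq p.1 p.2) (hN : PT N)
    (hN' : PB N) (hx : PT x) (hs : PT s) : PTO fun a => slackQ (gq a) (N a) (x a) (s a) := by
  exact PTO.map (hq.comp (g := fun a => (a, s a)) (by fun_prop))
    (PT.int_sub PT.snd' ((pt_lsum hN hN' hx hs).comp PT.fst'))

theorem pto_memQ (hq : PTO fun p : α × List Bool => gq p.1 p.2) (hN : PT N) (hN' : PB N) (hB : PT B)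
    (hx : PT x) : PTO fun a => memQ (gq a) (N a) (B a) (x a) := by
  have := pt_l1 hx
  refine PTO.bind (pto_minQ (pto_slackQ (gq := fun p : α × List Bool => gq p.1)
    (hq.comp (g := fun p : (α × List Bool) × List Bool => (p.1.1, p.2)) (by fun_prop)) (by fun_prop)
    (hN'.comp PT.fst') (by fun_prop) PT.snd') hN hN' (by fun_prop)) ?_
  exact PTO.map ((pto_slackQ (s := fun a => List.replicate (N a) true) hq hN hN' hx (by fun_prop)).comp PT.fst')
    (by fun_prop)

theorem pto_capQ {p q : α → ℕ} (hq : PTO fun p : α × List Bool => gq p.1 p.2) (hN : PT N) (hN' : PB N) (hB : PT B)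
    (hx : PT x) (hp : PT p) (hq' : PT q) : PTO fun a => capQ (gq a) (N a) (B a) (x a) (p a) (q a) := by
  have := pt_l1 hx
  refine PTO.ite (by fun_prop) (PTO.ret (by fun_prop)) (PTO.map (pto_minQ (pto_slackQ
    (gq := fun p : α × List Bool => gq p.1)
    (hq.comp (g := fun p : (α × List Bool) × List Bool => (p.1.1, p.2)) (by fun_prop)) (by fun_prop)
    (hN'.comp PT.fst') (by fun_prop) (by fun_prop)) hN hN' (by fun_prop)) (by fun_prop))

theorem pto_capsQ (hq : PTO fun p : α × List Bool => gq p.1 p.2) (hN : PT N) (hN' : PB N) (hB : PT B)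
    (hx : PT x) : PTO fun a => capsQ (gq a) (N a) (B a) (x a) := by
  have h1 : PB fun p : α × ℕ => N p.1 := hN'.comp PT.fst'
  refine PTO.mapQ (by fun_prop) (PTO.mapQ (by fun_prop) ?_)
  exact pto_capQ (gq := fun p : (α × ℕ) × ℕ => gq p.1.1)
    (hq.comp (g := fun p : ((α × ℕ) × ℕ) × List Bool => (p.1.1.1, p.2)) (by fun_prop)) (by fun_prop)
    (h1.comp PT.fst') (by fun_prop) (by fun_prop) (by fun_prop) (by fun_prop)

/-- size of a list of bounded integers -/
theorem esize_le_of_abs_le {l : List ℤ} {k C : ℕ} (hl : l.length ≤ k) (h : ∀ z ∈ l, |z| ≤ C) :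
    esize l ≤ k * (esize C + 7) + 1 := by
  refine (esize_list_le (B := esize C + 6) fun z hz => ?_).trans (by gcongr)
  rw [← esize_int_natCast]
  have := abs_le.1 (h z hz)
  exact esize_int_mono (by omega)

end pt

end Crest.Agent.R302B
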