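import Crest.Agent.R302B.BL
import Crest.Agent.R302B.Blk

/-!
# Row 302 (binary layer): Strong
Gaussian weights on the in-block prefix sums make a smooth DL array strongly DL.
Notation: `X i j = F u F (u+e_i+e_j) / (F (u+e_i) F (u+e_j))`, `A = 1 - X` is PSD (`DLZ.psd`), `γ t = 1 / L t ^ 2`.
* For `F * gam` the matrix is `X i j * M i j`, `M i j = exp (-∑_{t : i, j ∈ blk t} γ t)`, and `1 - M i j = ∑_t γ' t [i, j ∈ blk t]` with
  `γ' t = (1 - exp (-γ t)) exp (-∑_{r > t, t ∈ blk r} γ r) ∈ [γ t / 4, γ t]` (telescoping: the `t` with `i, j ∈ blk t` form an interval starting at `max i j`).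
* `matrix_strong`: `(∑ v)^2 - v (X M) v = A v v + ∑_t γ' t (th v t ^ 2 - A v_t v_t)`, `v_t` the restriction of `v` to `blk t`;
  `v_t = th v t • e_t + ∑_{j ∈ blk t \ t} th v j • (e_j - e_{j+1})` (`sum_blk_mul_eq_th`), so by Cauchy–Schwarz for the PSD form
  `A v_t v_t ≤ (1 + lam^2/2) (1 - lam^2) th v t ^ 2 + (3 / lam^2) N ∑_j th v j ^ 2 * 2 ω j ^ 2`.
* `strong`: `A t t ≤ 1 - lam^2`; `X j (j+1) ≤ 2` (PSD with diagonal `≤ 1`); with `z = u + e_j + e_{j+1}`, AM-GM gives
  `X j j + X (j+1) (j+1) ≥ 2 X j (j+1) exp (-ω^2 / 2)`, hence `A j j - 2 A j (j+1) + A (j+1) (j+1) ≤ 2 ω^2`.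
* `bl_blk`: `bl` for `F * gam`, `sum_mul_eq_th`, `2 a b ≤ s a^2 + b^2 / s`, `gam ≤ 1`.
-/

set_option autoImplicit false
set_option linter.unusedSectionVars false

noncomputable section

namespace Crest.Agent.R302B

open Finset Crest.Agent.R302

variable {N : ℕ} {fat : ℕ → Bool}

/-- Gaussian weight -/
def gam (fat : ℕ → Bool) (L : Fin N → ℝ) (u : Fin N → ℤ) : ℝ :=
  ∏ t, Real.exp (-((th fat u t : ℤ) : ℝ) ^ 2 / (2 * L t ^ 2))

theorem gam_pos (L : Fin N → ℝ) (u : Fin N → ℤ) : 0 < gam fat L u := by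
  exact prod_pos fun t _ => Real.exp_pos _

theorem gam_le_one (L : Fin N → ℝ) (u : Fin N → ℤ) : gam fat L u ≤ 1 := by
  refine prod_le_one (fun t _ => (Real.exp_pos _).le) fun t _ => Real.exp_le_one_iff.2 ?_
  exact div_nonpos_of_nonpos_of_nonneg (neg_nonpos.2 (sq_nonneg _)) (by positivity)

theorem gam_ge {L : Fin N → ℝ} (hL : ∀ t, 0 < L t) {u : Fin N → ℤ}
    (h : ∀ t, N * ((th fat u t : ℤ) : ℝ) ^ 2 ≤ L t ^ 2) : Real.exp (-1 / 2) ≤ gam fat L u := by
  unfold gam
  rw [← Real.exp_sum, Real.exp_le_exp]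
  rcases Nat.eq_zero_or_pos N with rfl | hN
  · simp; norm_num
  · have hN' : (0 : ℝ) < N := by exact_mod_cast hN
    calc (-1 / 2 : ℝ) = ∑ _t : Fin N, -1 / (2 * (N : ℝ)) := by
          rw [sum_const, card_univ, Fintype.card_fin, nsmul_eq_mul]; field_simp
      _ ≤ _ := by
          refine sum_le_sum fun t _ => ?_
          have := hL t
          rw [div_le_div_iff₀ (by positivity) (by positivity)]
          nlinarith [h t]

theorem gam_ratio (L : Fin N → ℝ) (u : Fin N → ℤ) (i j : Fin N) :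
    gam fat L u * gam fat L (u + ez i + ez j) / (gam fat L (u + ez i) * gam fat L (u + ez j)) =
      Real.exp (-∑ t ∈ univ.filter (fun t => i ∈ blk fat t ∧ j ∈ blk fat t), 1 / L t ^ 2) := by
  unfold gam
  simp only [← Real.exp_sum]
  rw [← Real.exp_add, ← Real.exp_add, ← Real.exp_sub, sum_filter, ← sum_neg_distrib,
    ← sum_add_distrib, ← sum_add_distrib, ← sum_sub_distrib]
  congr 1
  refine sum_congr rfl fun t _ => ?_
  simp only [th_add, Pi.add_apply, th_ez]
  by_cases hi : i ∈ blk fat t <;> by_cases hj : j ∈ blk fat t <;> simp only [hi, hj, if_true, if_false,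
    and_self, and_true, and_false] <;> push_cast <;> ring

theorem Strong_tel (γ : Fin N → ℝ) (S : Finset (Fin N)) :
    1 - Real.exp (-∑ t ∈ S, γ t) =
      ∑ t ∈ S, (1 - Real.exp (-γ t)) * Real.exp (-∑ r ∈ S.filter (fun r => t < r), γ r) := by
  induction S using Finset.induction_on_min with
  | empty => simp
  | insert a S ha ih =>
    have hn : a ∉ S := fun h => lt_irrefl _ (ha a h)
    rw [sum_insert hn, sum_insert hn]
    have e1 : (insert a S).filter (fun r => a < r) = S := by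
      rw [filter_insert, if_neg (lt_irrefl _)]
      exact filter_true_of_mem ha
    have e2 : ∑ t ∈ S, (1 - Real.exp (-γ t)) *
        Real.exp (-∑ r ∈ (insert a S).filter (fun r => t < r), γ r) =
        ∑ t ∈ S, (1 - Real.exp (-γ t)) * Real.exp (-∑ r ∈ S.filter (fun r => t < r), γ r) := by
      refine sum_congr rfl fun t ht => ?_
      rw [filter_insert, if_neg (not_lt.2 (ha t ht).le)]
    rw [e1, e2, ← ih, neg_add, Real.exp_add]
    ring

theorem exists_gam' (γ : Fin N → ℝ) (h0 : ∀ t, 0 ≤ γ t) (h1 : ∑ t, γ t ≤ 1 / 2) :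
    ∃ γ' : Fin N → ℝ, (∀ t, γ t / 4 ≤ γ' t ∧ γ' t ≤ γ t) ∧ ∀ i j,
      1 - Real.exp (-∑ t ∈ univ.filter (fun t => i ∈ blk fat t ∧ j ∈ blk fat t), γ t) =
        ∑ t ∈ univ.filter (fun t => i ∈ blk fat t ∧ j ∈ blk fat t), γ' t := by
  refine ⟨fun t => (1 - Real.exp (-γ t)) *
    Real.exp (-∑ r ∈ univ.filter (fun r => t < r ∧ t ∈ blk fat r), γ r), fun t => ?_, fun i j => ?_⟩
  · have a0 := h0 t
    have a1 : γ t ≤ 1 / 2 := (single_le_sum (fun r _ => h0 r) (mem_univ t)).trans h1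
    have a2 : 0 ≤ ∑ r ∈ univ.filter (fun r => t < r ∧ t ∈ blk fat r), γ r := sum_nonneg fun r _ => h0 r
    have a3 : ∑ r ∈ univ.filter (fun r => t < r ∧ t ∈ blk fat r), γ r ≤ 1 / 2 :=
      (sum_le_sum_of_subset_of_nonneg (filter_subset _ _) fun r _ _ => h0 r).trans h1
    set S := ∑ r ∈ univ.filter (fun r => t < r ∧ t ∈ blk fat r), γ r
    have b1 := Real.add_one_le_exp (-S)
    have b2 : Real.exp (-S) ≤ 1 := Real.exp_le_one_iff.2 (by linarith)
    have b3 := Real.add_one_le_exp (-γ t)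
    have b4 : Real.exp (-γ t) * (1 + γ t) ≤ 1 := by
      have := Real.add_one_le_exp (γ t)
      have e : Real.exp (-γ t) * Real.exp (γ t) = 1 := by rw [← Real.exp_add]; simp
      nlinarith [Real.exp_pos (-γ t)]
    have b5 : γ t / 2 ≤ 1 - Real.exp (-γ t) := by nlinarith [Real.exp_pos (-γ t)]
    constructor
    · nlinarith
    · nlinarith [Real.exp_pos (-S)]
  · rw [Strong_tel]
    refine sum_congr rfl fun t ht => ?_
    obtain ⟨hi, hj⟩ := (mem_filter.1 ht).2
    congr 4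
    ext r
    simp only [mem_filter, mem_univ, true_and]
    constructor
    · rintro ⟨⟨hir, -⟩, htr⟩
      refine ⟨htr, mem_blk.2 ⟨htr.le, fun s h1 h2 => (mem_blk.1 hir).2 s ?_ h2⟩⟩
      exact le_trans (mem_blk.1 hi).1 h1
    · rintro ⟨htr, h⟩
      exact ⟨⟨blk_subset h hi, blk_subset h hj⟩, htr⟩

/-- the form with matrix `1 - X` -/
def Strong_Q (X : Fin N → Fin N → ℝ) : (Fin N → ℝ) →ₗ[ℝ] (Fin N → ℝ) →ₗ[ℝ] ℝ :=
  Matrix.toLinearMap₂' ℝ (Matrix.of fun i j => 1 - X i j)

theorem Strong_Q_apply (X : Fin N → Fin N → ℝ) (v w : Fin N → ℝ) :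
    Strong_Q X v w = ∑ i, ∑ j, v i * w j * (1 - X i j) := by
  rw [Strong_Q, Matrix.toLinearMap₂'_apply]
  exact sum_congr rfl fun i _ => sum_congr rfl fun j _ => by simp [mul_assoc]

theorem Strong_Q_self (X : Fin N → Fin N → ℝ) (v : Fin N → ℝ) :
    Strong_Q X v v = (∑ i, v i) ^ 2 - ∑ i, ∑ j, v i * v j * X i j := by
  rw [Strong_Q_apply, sq, sum_mul_sum, ← sum_sub_distrib]
  refine sum_congr rfl fun i _ => ?_
  rw [← sum_sub_distrib]
  exact sum_congr rfl fun j _ => by ring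

theorem Strong_Q_single (X : Fin N → Fin N → ℝ) (i j : Fin N) :
    Strong_Q X (Pi.single i 1) (Pi.single j 1) = 1 - X i j := by
  rw [Strong_Q_apply]
  simp [Pi.single_apply, ite_mul]

theorem Strong_Q_symm {X : Fin N → Fin N → ℝ} (hs : ∀ i j, X i j = X j i) (v w : Fin N → ℝ) :
    Strong_Q X v w = Strong_Q X w v := by
  rw [Strong_Q_apply, Strong_Q_apply, sum_comm]
  exact sum_congr rfl fun i _ => sum_congr rfl fun j _ => by rw [hs]; ring

theorem Strong_add {Q : (Fin N → ℝ) →ₗ[ℝ] (Fin N → ℝ) →ₗ[ℝ] ℝ} (hs : ∀ v w, Q v w = Q w v)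
    (h0 : ∀ v, 0 ≤ Q v v) {s : ℝ} (hs0 : 0 < s) (a b : Fin N → ℝ) :
    Q (a + b) (a + b) ≤ (1 + s) * Q a a + (1 + 1 / s) * Q b b := by
  have h := h0 (s • a - b)
  simp only [map_sub, map_smul, LinearMap.sub_apply, LinearMap.smul_apply, smul_eq_mul] at h
  simp only [map_add, LinearMap.add_apply]
  rw [hs b a] at h ⊢
  have e : (1 + s) * Q a a + (1 + 1 / s) * Q b b - (Q a a + Q a b + (Q a b + Q b b)) =
      (s * (s * Q a a - Q a b) - (s * Q a b - Q b b)) / s := by field_simp; ring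
  have := div_nonneg h hs0.le
  linarith

theorem Strong_sum {Q : (Fin N → ℝ) →ₗ[ℝ] (Fin N → ℝ) →ₗ[ℝ] ℝ} (hs : ∀ v w, Q v w = Q w v)
    (h0 : ∀ v, 0 ≤ Q v v) (S : Finset (Fin N)) (x : Fin N → Fin N → ℝ) :
    Q (∑ j ∈ S, x j) (∑ j ∈ S, x j) ≤ S.card * ∑ j ∈ S, Q (x j) (x j) := by
  simp only [map_sum, LinearMap.sum_apply]
  have key : ∀ i j, Q (x j) (x i) ≤ Q (x i) (x i) / 2 + Q (x j) (x j) / 2 := by
    intro i j
    have h := h0 (x i - x j)
    simp only [map_sub, LinearMap.sub_apply] at h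
    rw [hs (x i) (x j)] at h
    linarith
  refine (sum_le_sum fun i _ => sum_le_sum fun j _ => key i j).trans (le_of_eq ?_)
  simp only [sum_add_distrib, sum_const, nsmul_eq_mul, ← sum_div, ← mul_sum]
  ring

theorem matrix_strong {X : Fin N → Fin N → ℝ} (hs : ∀ i j, X i j = X j i)
    (hX : ∀ v : Fin N → ℝ, ∑ i, ∑ j, v i * v j * X i j ≤ (∑ i, v i) ^ 2) {lam : ℝ} (h0 : 0 < lam) (h1 : lam ≤ 1)
    (hd : ∀ t, lam ^ 2 ≤ X t t) {ω : Fin N → ℝ}
    (hω : ∀ t : Fin N, fat t = true → 2 * X t (nx t) - X t t - X (nx t) (nx t) ≤ 2 * ω t ^ 2)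
    {γ : Fin N → ℝ} (hγ0 : ∀ t, 0 ≤ γ t) (hγ1 : ∑ t, γ t ≤ 1 / 2)
    (habs : ∀ t : Fin N, fat t = true → 96 * N * ω t ^ 2 * ∑ r, γ r ≤ lam ^ 4 * γ t) (v : Fin N → ℝ) :
    ∑ t, lam ^ 2 * γ t / 16 * th fat v t ^ 2 ≤ (∑ i, v i) ^ 2 -
      ∑ i, ∑ j, v i * v j *
        (X i j * Real.exp (-∑ t ∈ univ.filter (fun t => i ∈ blk fat t ∧ j ∈ blk fat t), γ t)) := by
  obtain ⟨γ', hγ', hM⟩ := exists_gam' (fat := fat) γ hγ0 hγ1
  have hQs := Strong_Q_symm hs
  have hQ0 : ∀ w, 0 ≤ Strong_Q X w w := fun w => by rw [Strong_Q_self]; linarith [hX w]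
  let vt : Fin N → Fin N → ℝ := fun t k => if k ∈ blk fat t then v k else 0
  have hid : (∑ i, v i) ^ 2 - ∑ i, ∑ j, v i * v j *
        (X i j * Real.exp (-∑ t ∈ univ.filter (fun t => i ∈ blk fat t ∧ j ∈ blk fat t), γ t)) =
      Strong_Q X v v + ∑ t, γ' t * (th fat v t ^ 2 - Strong_Q X (vt t) (vt t)) := by
    have e1 : ∀ t, th fat v t ^ 2 - Strong_Q X (vt t) (vt t) = ∑ i, ∑ j, vt t i * vt t j * X i j := by
      intro t
      have : ∑ i, vt t i = th fat v t := by
        simp only [vt, th]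
        rw [sum_ite_mem, univ_inter]
      rw [Strong_Q_self, this]; ring
    simp only [e1]
    rw [Strong_Q_self]
    have e2 : ∑ t, γ' t * ∑ i, ∑ j, vt t i * vt t j * X i j = ∑ i, ∑ j, v i * v j * X i j *
        (1 - Real.exp (-∑ t ∈ univ.filter (fun t => i ∈ blk fat t ∧ j ∈ blk fat t), γ t)) := by
      simp only [hM, mul_sum]
      rw [sum_comm]
      refine sum_congr rfl fun i _ => ?_
      rw [sum_comm]
      refine sum_congr rfl fun j _ => ?_
      rw [sum_filter]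
      refine sum_congr rfl fun t _ => ?_
      simp only [vt]
      by_cases hi : i ∈ blk fat t <;> by_cases hj : j ∈ blk fat t <;> simp [hi, hj]
      ring
    rw [e2, sub_add, ← sum_sub_distrib]
    congr 1
    refine sum_congr rfl fun i _ => ?_
    rw [← sum_sub_distrib]
    exact sum_congr rfl fun j _ => by ring
  set W := ∑ j ∈ univ.filter (fun j : Fin N => fat j = true), th fat v j ^ 2 * ω j ^ 2 with hW
  have hW0 : 0 ≤ W := sum_nonneg fun j _ => by positivity
  have hl2 : 0 < lam ^ 2 := by positivity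
  have hl1 : lam ^ 2 ≤ 1 := by nlinarith
  have hvt : ∀ t, Strong_Q X (vt t) (vt t) ≤ (1 - lam ^ 2 / 2) * th fat v t ^ 2 + 6 * N / lam ^ 2 * W := by
    intro t
    have e : vt t = th fat v t • (Pi.single t 1 : Fin N → ℝ) + ∑ j ∈ (blk fat t).erase t,
        th fat v j • ((Pi.single j 1 : Fin N → ℝ) - Pi.single (nx j) 1) := by
      funext k
      have := sum_blk_mul_eq_th (fat := fat) v (fun i => (Pi.single i 1 : Fin N → ℝ) k) t
      simp only [Pi.add_apply, Finset.sum_apply, Pi.smul_apply, Pi.sub_apply, smul_eq_mul]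
      rw [← this]
      simp [vt, Pi.single_apply]
    rw [e]
    refine (Strong_add hQs hQ0 (half_pos hl2) _ _).trans ?_
    have a1 : Strong_Q X (th fat v t • (Pi.single t 1 : Fin N → ℝ)) (th fat v t • (Pi.single t 1 : Fin N → ℝ)) ≤
        (1 - lam ^ 2) * th fat v t ^ 2 := by
      simp only [map_smul, LinearMap.smul_apply, smul_eq_mul, Strong_Q_single]
      nlinarith [hd t, sq_nonneg (th fat v t)]
    have a2 : Strong_Q X (∑ j ∈ (blk fat t).erase t,
        th fat v j • ((Pi.single j 1 : Fin N → ℝ) - Pi.single (nx j) 1)) (∑ j ∈ (blk fat t).erase t,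
        th fat v j • ((Pi.single j 1 : Fin N → ℝ) - Pi.single (nx j) 1)) ≤ N * (2 * W) := by
      refine (Strong_sum hQs hQ0 _ _).trans ?_
      have c1 : (((blk fat t).erase t).card : ℝ) ≤ N := by
        have := card_le_univ ((blk fat t).erase t)
        rw [Fintype.card_fin] at this
        exact_mod_cast this
      have c2 : ∑ j ∈ (blk fat t).erase t,
          Strong_Q X (th fat v j • ((Pi.single j 1 : Fin N → ℝ) - Pi.single (nx j) 1))
            (th fat v j • ((Pi.single j 1 : Fin N → ℝ) - Pi.single (nx j) 1)) ≤ 2 * W := by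
        rw [hW, mul_sum]
        refine le_trans (sum_le_sum fun j hj => ?_) (sum_le_sum_of_subset_of_nonneg
          (s := (blk fat t).erase t) (f := fun j => 2 * (th fat v j ^ 2 * ω j ^ 2))
          (fun j hj => mem_filter.2 ⟨mem_univ _,
            fat_of_mem_blk (mem_erase.1 hj).2 (mem_erase.1 hj).1⟩) fun j _ _ => by positivity)
        have := hω j (fat_of_mem_blk (mem_erase.1 hj).2 (mem_erase.1 hj).1)
        simp only [map_smul, map_sub, LinearMap.smul_apply, LinearMap.sub_apply, smul_eq_mul,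
          Strong_Q_single]
        rw [hs (nx j) j]
        nlinarith [sq_nonneg (th fat v j)]
      exact mul_le_mul c1 c2 (sum_nonneg fun j _ => hQ0 _) (by positivity)
    have a3 : 1 + 1 / (lam ^ 2 / 2) ≤ 3 / lam ^ 2 := by
      rw [le_div_iff₀ hl2]; field_simp; linarith
    have a4 := mul_le_mul a3 a2 (hQ0 _) (by positivity)
    have a5 := mul_le_mul_of_nonneg_left a1 (show 0 ≤ 1 + lam ^ 2 / 2 by positivity)
    have a6 : 3 / lam ^ 2 * (N * (2 * W)) = 6 * N / lam ^ 2 * W := by ring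
    nlinarith [sq_nonneg (th fat v t), mul_nonneg (sq_nonneg (lam ^ 2)) (sq_nonneg (th fat v t))]
  have hsum : ∑ t, (lam ^ 2 * γ t / 8 * th fat v t ^ 2 - γ t * (6 * N / lam ^ 2 * W)) ≤
      ∑ t, γ' t * (th fat v t ^ 2 - Strong_Q X (vt t) (vt t)) := by
    refine sum_le_sum fun t _ => ?_
    have b0 : 0 ≤ γ' t := le_trans (by have := hγ0 t; positivity) (hγ' t).1
    have b1 := mul_le_mul_of_nonneg_left (hvt t) b0
    have b2 := mul_le_mul_of_nonneg_right (hγ' t).2 (show 0 ≤ 6 * N / lam ^ 2 * W by positivity)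
    have b3 := mul_le_mul_of_nonneg_right (hγ' t).1
      (show 0 ≤ lam ^ 2 / 2 * th fat v t ^ 2 by positivity)
    nlinarith
  have hab : (∑ t, γ t) * (6 * N / lam ^ 2 * W) ≤ ∑ t, lam ^ 2 * γ t / 16 * th fat v t ^ 2 := by
    rw [hW, mul_sum, mul_sum]
    refine le_trans (sum_le_sum fun j hj => ?_) (sum_le_sum_of_subset_of_nonneg
      (f := fun t => lam ^ 2 * γ t / 16 * th fat v t ^ 2) (filter_subset (fun j : Fin N => fat j = true) univ)
      fun j _ _ => by have := hγ0 j; positivity)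
    have := habs j (mem_filter.1 hj).2
    have e : (∑ t, γ t) * (6 * N / lam ^ 2 * (th fat v j ^ 2 * ω j ^ 2)) =
        (96 * N * ω j ^ 2 * ∑ r, γ r) * (th fat v j ^ 2 / (16 * lam ^ 2)) := by field_simp; ring
    rw [e]
    refine (mul_le_mul_of_nonneg_right this (by positivity)).trans (le_of_eq ?_)
    field_simp
  rw [hid]
  rw [sum_sub_distrib, ← sum_mul] at hsum
  have e8 : ∑ t, lam ^ 2 * γ t / 8 * th fat v t ^ 2 = 2 * ∑ t, lam ^ 2 * γ t / 16 * th fat v t ^ 2 := by
    rw [mul_sum]; exact sum_congr rfl fun t _ => by ring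
  linarith [hQ0 v]

/-- hypotheses of the block inequality -/
structure Smo (fat : ℕ → Bool) (F : (Fin N → ℤ) → ℝ) (lam : ℝ) (ω L : Fin N → ℝ) : Prop where
  ok : FatOK N fat
  dl : DLZ F
  lam_pos : 0 < lam
  lam_le : lam ≤ 1
  diag : ∀ u k, lam ^ 2 * F (u + ez k) ^ 2 ≤ F u * F (u + ez k + ez k)
  second : ∀ (t : Fin N) (u : Fin N → ℤ), fat t = true →
    Real.exp (-ω t ^ 2) * F u ^ 2 ≤ F (u + dd fat t) * F (u - dd fat t)
  L_pos : ∀ t, 0 < L t
  sum_le : ∑ t, 1 / L t ^ 2 ≤ 1 / 2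
  abs : ∀ t : Fin N, fat t = true → 96 * N * ω t ^ 2 * L t ^ 2 * ∑ r, 1 / L r ^ 2 ≤ lam ^ 4

variable {F H : (Fin N → ℤ) → ℝ} {lam : ℝ} {ω L : Fin N → ℝ}

theorem Smo.strong (h : Smo fat F lam ω L) (u : Fin N → ℤ) (v : Fin N → ℝ) :
    ∑ t, lam ^ 2 / (16 * L t ^ 2) * th fat v t ^ 2 ≤ (∑ i, v i) ^ 2 -
      ∑ i, ∑ j, v i * v j * (F u * gam fat L u * (F (u + ez i + ez j) * gam fat L (u + ez i + ez j)) /
        (F (u + ez i) * gam fat L (u + ez i) * (F (u + ez j) * gam fat L (u + ez j)))) := by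
  have hp := h.dl.pos
  let X : Fin N → Fin N → ℝ := fun i j => F u * F (u + ez i + ez j) / (F (u + ez i) * F (u + ez j))
  have hXp : ∀ i j, 0 < X i j := fun i j => div_pos (mul_pos (hp _) (hp _)) (mul_pos (hp _) (hp _))
  have hs : ∀ i j, X i j = X j i := fun i j => by
    simp only [X]; rw [add_right_comm, mul_comm (F (u + ez i))]
  have hX : ∀ v : Fin N → ℝ, ∑ i, ∑ j, v i * v j * X i j ≤ (∑ i, v i) ^ 2 := h.dl.psd u
  have key := matrix_strong (fat := fat) hs hX h.lam_pos h.lam_le (ω := ω)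
    (fun t => by
      simp only [X]
      rw [le_div_iff₀ (mul_pos (hp _) (hp _)), ← sq]
      exact h.diag u t)
    (fun t ht => by
      have a1 : X t (nx t) ≤ 2 := by
        have h0 : 0 ≤ Strong_Q X ((Pi.single t 1 : Fin N → ℝ) + Pi.single (nx t) 1)
            ((Pi.single t 1 : Fin N → ℝ) + Pi.single (nx t) 1) := by
          rw [Strong_Q_self]; linarith [hX ((Pi.single t 1 : Fin N → ℝ) + Pi.single (nx t) 1)]
        simp only [map_add, LinearMap.add_apply, Strong_Q_single] at h0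
        rw [hs (nx t) t] at h0
        linarith [hXp t t, hXp (nx t) (nx t)]
      have a2 := h.second t (u + ez t + ez (nx t)) ht
      have e1 : u + ez t + ez (nx t) + dd fat t = u + ez t + ez t := by
        rw [dd_fat ht, rt_eq]; abel
      have e2 : u + ez t + ez (nx t) - dd fat t = u + ez (nx t) + ez (nx t) := by
        rw [dd_fat ht, rt_eq]; abel
      rw [e1, e2] at a2
      have a3 : (Real.exp (-ω t ^ 2 / 2) * X t (nx t)) ^ 2 ≤ X t t * X (nx t) (nx t) := by
        have e3 : Real.exp (-ω t ^ 2 / 2) ^ 2 = Real.exp (-ω t ^ 2) := by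
          rw [← Real.exp_nat_mul]; congr 1; push_cast; ring
        have p1 := hp (u + ez t)
        have p2 := hp (u + ez (nx t))
        have e4 : (Real.exp (-ω t ^ 2 / 2) * X t (nx t)) ^ 2 =
            Real.exp (-ω t ^ 2) * F (u + ez t + ez (nx t)) ^ 2 *
              (F u ^ 2 / (F (u + ez t) * F (u + ez (nx t))) ^ 2) := by
          rw [mul_pow, e3]; simp only [X]; field_simp
        have e5 : X t t * X (nx t) (nx t) = F (u + ez t + ez t) * F (u + ez (nx t) + ez (nx t)) *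
              (F u ^ 2 / (F (u + ez t) * F (u + ez (nx t))) ^ 2) := by
          simp only [X]; field_simp
        rw [e4, e5]
        exact mul_le_mul_of_nonneg_right a2 (by positivity)
      have a4 : 2 * (Real.exp (-ω t ^ 2 / 2) * X t (nx t)) ≤ X t t + X (nx t) (nx t) := by
        refine le_of_sq_le_sq ?_ (add_pos (hXp _ _) (hXp _ _)).le
        nlinarith [sq_nonneg (X t t - X (nx t) (nx t))]
      have a5 := Real.add_one_le_exp (-ω t ^ 2 / 2)
      have a6 := hXp t (nx t)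
      nlinarith [mul_le_mul_of_nonneg_right a5 a6.le, sq_nonneg (ω t)])
    (γ := fun t => 1 / L t ^ 2) (fun t => by positivity) h.sum_le
    (fun t ht => by
      have := h.abs t ht
      have hL := h.L_pos t
      rw [mul_one_div, le_div_iff₀ (by positivity)]
      linarith) v
  convert key using 2 with t _
  · ring
  · refine sum_congr rfl fun i _ => sum_congr rfl fun j _ => ?_
    congr 1
    rw [← gam_ratio L u i j]
    simp only [X]
    have p1 := hp (u + ez i)
    have p2 := hp (u + ez j)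
    have p3 := gam_pos (fat := fat) L (u + ez i)
    have p4 := gam_pos (fat := fat) L (u + ez j)
    field_simp

theorem Smo.bl (h : Smo fat F lam ω L) (hH : DLZ fun u => H (-u)) {lo hi : Fin N → ℤ} (hlo : lo ≤ hi)
    (G : (Fin N → ℤ) → ℝ) :
    ∃ m : ℝ, ∑ u ∈ ibox lo hi, F u * gam fat L u * H u * (G u - m) ^ 2 ≤
      ∑ u ∈ ibox lo hi, F u * H u *
        ∑ t, 16 * L t ^ 2 / lam ^ 2 * (G (u + ez t) - G (u + up fat t)) ^ 2 := by
  obtain ⟨m, hm⟩ := Crest.Agent.R302B.bl hlo (F := fun u => F u * gam fat L u)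
    (fun u => mul_pos (h.dl.pos u) (gam_pos L u)) hH G
    (fun u => ∑ t, 16 * L t ^ 2 / lam ^ 2 * (G (u + ez t) - G (u + up fat t)) ^ 2)
    (fun u _ v => by
      refine le_trans ?_ (add_le_add_left (h.strong u v) _)
      rw [sum_mul_eq_th h.ok, mul_sum, ← sum_add_distrib]
      refine sum_le_sum fun t _ => ?_
      have e : (G u - G (u + ez t) - if fat t = true then G u - G (u + ez (nx t)) else 0) =
          -(G (u + ez t) - G (u + up fat t)) := by
        unfold up
        split_ifs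
        · ring
        · simp
      rw [e]
      have hL := h.L_pos t
      have hl := h.lam_pos
      set a := th fat v t
      set b := G (u + ez t) - G (u + up fat t)
      have e2 : lam ^ 2 / (16 * L t ^ 2) * a ^ 2 + 16 * L t ^ 2 / lam ^ 2 * b ^ 2 - 2 * (a * -b) =
          (lam / (4 * L t) * a + 4 * L t / lam * b) ^ 2 := by field_simp; ring
      linarith [sq_nonneg (lam / (4 * L t) * a + 4 * L t / lam * b)])
  refine ⟨m, hm.trans (sum_le_sum fun u _ => ?_)⟩
  have p1 := h.dl.pos u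
  have p2 : 0 < H u := by simpa using hH.pos (-u)
  refine mul_le_mul_of_nonneg_right ?_ (sum_nonneg fun t _ => by positivity)
  exact mul_le_mul_of_nonneg_right (mul_le_of_le_one_right p1.le (gam_le_one L u)) p2.le

end Crest.Agent.R302B
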