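import Crest.Agent.R302B.AFlat
import Crest.Agent.R302B.PDefs

/-!
# Row 302 (binary layer): Z0
DL arrays on `ℤ^ι` (`DLZ`), log-concave sequences on `ℤ` (`LCZ`, and their limits `WLC`).
* `DLZ.schur`, `DLZ.of_schur`: `DL.schur`, `DL.of_schur` at the base point `0` resp. `l + b`.
* `DLZ.root`: `DL.lc2` at the base `b - e_p - e_q`.
* `DLZ.tri`: at the base `b - e_q - e_s` put `Q i j = c (base + e_i + e_j)`; `DL.rev` with `v = some q`,
  `φ = Q s q • e_p + Q p q • e_s` gives `2 Q s q Q p q Q p s * Q q q ≤ (2 Q p q Q s q)^2` (all entries are positive; also fine if indices coincide).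
* `DLZ.gadget_mul`: Schur form; with `X i j = c b c (b+e_i+e_j) / (c (b+e_i) c (b+e_j))` (`= 1` unless `i, j ∈ A`) and
  `m = κ t κ (t+2) / κ (t+1)^2 ≤ 1`: `(∑ v)^2 - v X' v = (1 - m) (∑_{A} v)^2 + m ((∑_A v)^2 - v_A X v_A) ≥ 0`.
* `dlz_lam`: strong induction on `s`; take `t₀` with `#(A t₀)` maximal, split `s.erase t₀` into the sets inside `A t₀` and those disjoint from it.
* `DLZ.psh`: Schur form with `φ' i = ∑_{f j = i} φ j` (`psh f (u + ez j) = psh f u + ez (f j)`, `Finset.sum_fiberwise`).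
* `WLC.pow`: induction on `D`, no division.
-/

set_option autoImplicit false
set_option linter.unusedSectionVars false

noncomputable section

namespace Crest.Agent.R302B

open Finset Crest.Agent.R302

open Filter Topology

variable {ι J : Type} [Fintype ι] [DecidableEq ι] [Fintype J] [DecidableEq J]

/-- unit vector -/
def ez (j : ι) : ι → ℤ := Pi.single j 1

/-- DL arrays on the lattice -/
def DLZ (c : (ι → ℤ) → ℝ) : Prop := ∀ l : ι → ℤ, DL fun u : ι → ℕ => c fun j => l j + u j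

/-- positive log-concave sequences -/
structure LCZ (κ : ℤ → ℝ) : Prop where
  pos : ∀ t, 0 < κ t
  lc : ∀ t, κ (t - 1) * κ (t + 1) ≤ κ t ^ 2

/-- limits of positive log-concave sequences -/
structure WLC (κ : ℤ → ℝ) : Prop where
  nonneg : ∀ t, 0 ≤ κ t
  lc : ∀ s t, s ≤ t → κ (t + 1) * κ s ≤ κ t * κ (s + 1)

/-- separable log-concave weights -/
def Sep (w : (ι → ℤ) → ℝ) : Prop := ∃ κ : ι → ℤ → ℝ, (∀ j, LCZ (κ j)) ∧ ∀ s, w s = ∏ j, κ j (s j)

/-- push-forward of a vector -/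
def psh (f : J → ι) (u : J → ℤ) : ι → ℤ := fun i => ∑ j ∈ univ.filter (fun j => f j = i), u j

/-- the `ℓ¹` norm -/
def nm1 (v : ι → ℤ) : ℕ := ∑ j, (v j).natAbs

/-- integer boxes -/
def ibox (lo hi : ι → ℤ) : Finset (ι → ℤ) := Fintype.piFinset fun k => Icc (lo k) (hi k)

theorem mem_ibox {lo hi u : ι → ℤ} : u ∈ ibox lo hi ↔ ∀ k, lo k ≤ u k ∧ u k ≤ hi k := by
  simp [ibox, Fintype.mem_piFinset]

theorem rt_eq (p q : ι) : rt p q = ez p - ez q := rfl

theorem sum_ez (j : ι) (A : Finset ι) : ∑ i ∈ A, ez j i = if j ∈ A then 1 else 0 := by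
  simp only [ez, Finset.sum_pi_single']

theorem psh_add (f : J → ι) (u v : J → ℤ) : psh f (u + v) = psh f u + psh f v := by
  funext i
  simp [psh, sum_add_distrib]

theorem psh_neg (f : J → ι) (u : J → ℤ) : psh f (-u) = -psh f u := by
  funext i
  simp [psh]

theorem psh_sub (f : J → ι) (u v : J → ℤ) : psh f (u - v) = psh f u - psh f v := by
  funext i
  simp [psh, sum_sub_distrib]

theorem psh_smul (f : J → ι) (t : ℤ) (u : J → ℤ) : psh f (t • u) = t • psh f u := by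
  funext i
  simp [psh, mul_sum]

theorem psh_zero (f : J → ι) : psh f 0 = 0 := by
  funext i
  simp [psh]

theorem psh_ez (f : J → ι) (j : J) : psh f (ez j) = ez (f j) := by
  funext i
  simp only [psh, sum_ez, mem_filter, mem_univ, true_and]
  simp only [ez, Pi.single_apply, eq_comm]

theorem sum_psh (f : J → ι) (u : J → ℤ) (A : Finset ι) :
    ∑ i ∈ A, psh f u i = ∑ j ∈ univ.filter (fun j => f j ∈ A), u j := by
  simp only [psh]
  rw [← sum_fiberwise_of_maps_to (s := univ.filter fun j => f j ∈ A) (t := A) (g := f)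
    (fun j hj => (mem_filter.1 hj).2)]
  refine sum_congr rfl fun i hi => sum_congr ?_ fun _ _ => rfl
  ext j
  simp only [mem_filter, mem_univ, true_and]
  exact ⟨fun h => ⟨h ▸ hi, h⟩, fun h => h.2⟩

variable {c c₁ c₂ w : (ι → ℤ) → ℝ} {κ : ℤ → ℝ}

theorem z0_e1 (l : ι → ℤ) (b : ι → ℕ) (i : ι) :
    (fun j => l j + ((b + e1 i : ι → ℕ) j : ℤ)) = (fun j => l j + (b j : ℤ)) + ez i := by
  funext j
  by_cases h : j = i
  · subst h
    simp [ez, add_assoc]
  · simp [ez, h]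

theorem z0_zero (l : ι → ℤ) : (fun j => l j + ((0 : ι → ℕ) j : ℤ)) = l := by
  funext j
  simp

theorem z0_sum_add_ez (A : Finset ι) (u : ι → ℤ) (i : ι) :
    ∑ j ∈ A, (u + ez i) j = ∑ j ∈ A, u j + if i ∈ A then 1 else 0 := by
  simp only [Pi.add_apply, sum_add_distrib, sum_ez]

theorem DLZ.pos (hc : DLZ c) (b : ι → ℤ) : 0 < c b := by
  simpa using (hc b).pos 0

theorem DLZ.schur (hc : DLZ c) (b : ι → ℤ) (φ : ι → ℝ) :
    (∑ i, ∑ j, φ i * φ j * c (b + ez i + ez j)) * c b ≤ (∑ i, φ i * c (b + ez i)) ^ 2 := by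
  have := (hc b).schur 0 φ
  simp only [z0_e1, z0_zero] at this
  exact this

theorem DLZ.of_schur (hpos : ∀ b, 0 < c b)
    (h : ∀ (b : ι → ℤ) (φ : ι → ℝ),
      (∑ i, ∑ j, φ i * φ j * c (b + ez i + ez j)) * c b ≤ (∑ i, φ i * c (b + ez i)) ^ 2) : DLZ c := by
  intro l
  refine DL.of_schur (fun b => hpos _) fun b φ => ?_
  simp only [z0_e1]
  exact h _ φ

/-- normalised Schur form -/
theorem DLZ.psd (hc : DLZ c) (b : ι → ℤ) (v : ι → ℝ) :
    ∑ i, ∑ j, v i * v j * (c b * c (b + ez i + ez j) / (c (b + ez i) * c (b + ez j))) ≤ (∑ i, v i) ^ 2 := by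
  have h := hc.schur b fun i => v i / c (b + ez i)
  simp only [div_mul_cancel₀ _ (hc.pos _).ne', sum_mul] at h
  refine le_of_eq_of_le (sum_congr rfl fun i _ => sum_congr rfl fun j _ => ?_) h
  have := hc.pos (b + ez i)
  have := hc.pos (b + ez j)
  field_simp

/-- reverse Cauchy–Schwarz against a unit vector -/
theorem DLZ.rev (hc : DLZ c) (b : ι → ℤ) (φ : ι → ℝ) (q : ι) :
    (∑ i, ∑ j, φ i * φ j * c (b + ez i + ez j)) * c (b + ez q + ez q) ≤
      (∑ i, φ i * c (b + ez q + ez i)) ^ 2 := by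
  have h := (hc b).rev 0 (fun o => o.elim 0 φ) (some q)
  simp only [qf, lf, Fintype.sum_option, ee_none, ee_some, add_zero, Option.elim_none, Option.elim_some,
    zero_mul, mul_zero, sum_const_zero, zero_add] at h
  have e0 : ∀ i : ι, (fun j => b j + ((e1 i : ι → ℕ) j : ℤ)) = b + ez i := by
    intro i
    have := z0_e1 b 0 i
    rwa [zero_add, z0_zero] at this
  simp only [z0_e1, e0] at h
  exact h

theorem DLZ.root (hc : DLZ c) (b : ι → ℤ) (p q : ι) : c (b - rt p q) * c (b + rt p q) ≤ c b ^ 2 := by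
  have h := hc.rev (b - ez p - ez q) (Pi.single p 1) q
  simp only [Pi.single_apply, ite_mul, mul_ite, zero_mul, mul_zero, one_mul, mul_one, sum_ite_eq',
    mem_univ, if_true] at h
  have e1 : b - ez p - ez q + ez p + ez p = b + rt p q := by rw [rt_eq]; abel
  have e2 : b - ez p - ez q + ez q + ez q = b - rt p q := by rw [rt_eq]; abel
  have e3 : b - ez p - ez q + ez q + ez p = b := by abel
  rw [e1, e2, e3, mul_comm] at h
  exact h

theorem DLZ.line (hc : DLZ c) (b : ι → ℤ) (p q : ι) : LCZ fun t => c (b + t • rt p q) := by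
  refine ⟨fun t => hc.pos _, fun t => ?_⟩
  have h := hc.root (b + t • rt p q) p q
  have e1 : b + t • rt p q - rt p q = b + (t - 1) • rt p q := by rw [sub_smul, one_smul]; abel
  have e2 : b + t • rt p q + rt p q = b + (t + 1) • rt p q := by rw [add_smul, one_smul]; abel
  rwa [e1, e2] at h

theorem DLZ.tri (hc : DLZ c) (b : ι → ℤ) (p q s : ι) :
    c (b + rt p q) * c (b + rt q s) ≤ 2 * (c (b + rt p s) * c b) := by
  set β := b - ez q - ez s with hβ
  set x := c (β + ez q + ez s) with hx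
  set y := c (β + ez q + ez p) with hy
  have h := hc.rev β (Pi.single p x + Pi.single s y) q
  simp only [Pi.add_apply, Pi.single_apply, add_mul, mul_add, ite_mul, mul_ite, zero_mul, mul_zero,
    sum_add_distrib, sum_ite_eq', mem_univ, if_true] at h
  have e1 : β + ez p + ez s = b + rt p q := by rw [hβ, rt_eq]; abel
  have e1' : β + ez s + ez p = b + rt p q := by rw [hβ, rt_eq]; abel
  have e2 : β + ez q + ez q = b + rt q s := by rw [hβ, rt_eq]; abel
  have e3 : β + ez q + ez p = b + rt p s := by rw [hβ, rt_eq]; abel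
  have e4 : β + ez q + ez s = b := by rw [hβ]; abel
  rw [← hx, ← hy, e1, e1', e2] at h
  have hx0 : 0 < x := hc.pos _
  have hy0 : 0 < y := hc.pos _
  have p1 := hc.pos (β + ez p + ez p)
  have p2 := hc.pos (β + ez s + ez s)
  have p3 := hc.pos (b + rt q s)
  have h2 : (x * y) * (c (b + rt p q) * c (b + rt q s)) ≤ (x * y) * (2 * (y * x)) := by
    have q1 : 0 ≤ x * x * c (β + ez p + ez p) * c (b + rt q s) := by positivity
    have q2 : 0 ≤ y * y * c (β + ez s + ez s) * c (b + rt q s) := by positivity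
    nlinarith
  have h3 := le_of_mul_le_mul_left h2 (mul_pos hx0 hy0)
  rwa [hy, hx, e3, e4] at h3

theorem DLZ.shift (hc : DLZ c) (a : ι → ℤ) : DLZ fun u => c (a + u) := by
  refine DLZ.of_schur (fun b => hc.pos _) fun b φ => ?_
  have := hc.schur (a + b) φ
  simp only [← add_assoc]
  exact this

theorem dlz_one : DLZ fun _ : ι → ℤ => (1 : ℝ) := by
  exact fun _ => dl_one

theorem DLZ.mul (h₁ : DLZ c₁) (h₂ : DLZ c₂)
    (h : ∀ j, (∀ u, c₁ (u + ez j) = c₁ u) ∨ ∀ u, c₂ (u + ez j) = c₂ u) : DLZ fun u => c₁ u * c₂ u := by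
  intro l
  refine (h₁ l).mul (h₂ l) fun j => ?_
  simp only [z0_e1]
  exact (h j).imp (fun h u => h _) fun h u => h _

theorem DLZ.mul_sep (hc : DLZ c) (hw : Sep w) : DLZ fun u => c u * w u := by
  obtain ⟨κ, hκ, hw⟩ := hw
  intro l
  simp only [hw]
  refine (hc l).mul_prod_lc (κ := fun j n => κ j (l j + n)) fun j => ⟨fun n => (hκ j).pos _, fun n => ?_⟩
  have h := (hκ j).lc (l j + n + 1)
  push_cast
  rwa [add_sub_cancel_right, add_assoc (l j + n) 1 1, one_add_one_eq_two, add_assoc, add_assoc] at h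

theorem DLZ.gadget_mul (hc : DLZ c) (A : Finset ι) (h : ∀ j, j ∉ A → ∀ u, c (u + ez j) = c u) (hκ : LCZ κ) :
    DLZ fun u => c u * κ (∑ j ∈ A, u j) := by
  refine DLZ.of_schur (fun b => mul_pos (hc.pos _) (hκ.pos _)) fun b φ => ?_
  simp only [z0_sum_add_ez]
  set S := ∑ j ∈ A, b j with hS
  set ψ : ι → ℝ := fun i => if i ∈ A then φ i else 0 with hψ
  set χ : ι → ℝ := fun i => if i ∈ A then 0 else φ i with hχ
  have k1 : ∀ i, φ i * (c (b + ez i) * κ (S + if i ∈ A then 1 else 0)) =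
      κ (S + 1) * (ψ i * c (b + ez i)) + c b * κ S * χ i := by
    intro i
    by_cases hi : i ∈ A
    · simp only [hψ, hχ, hi, if_true]; ring
    · simp only [hψ, hχ, hi, if_false, h i hi, add_zero]; ring
  have k2 : ∀ i j, φ i * φ j * (c (b + ez i + ez j) *
        κ ((S + if i ∈ A then 1 else 0) + if j ∈ A then 1 else 0)) =
      κ (S + 1 + 1) * (ψ i * ψ j * c (b + ez i + ez j)) + κ (S + 1) * (ψ i * c (b + ez i) * χ j) +
        κ (S + 1) * (χ i * (ψ j * c (b + ez j))) + c b * κ S * (χ i * χ j) := by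
    intro i j
    by_cases hi : i ∈ A <;> by_cases hj : j ∈ A
    · simp only [hψ, hχ, hi, hj, if_true]; ring
    · simp only [hψ, hχ, hi, hj, if_true, if_false, h j hj, add_zero]; ring
    · simp only [hψ, hχ, hi, hj, if_true, if_false, add_right_comm b (ez i), h i hi, add_zero]; ring
    · simp only [hψ, hχ, hi, hj, if_false, h j hj, h i hi, add_zero]; ring
  simp only [k1, k2, sum_add_distrib, ← mul_sum, ← sum_mul]
  have h1 := hc.schur b ψ
  have h2 := hκ.lc (S + 1)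
  rw [add_sub_cancel_right] at h2
  set α := ∑ i, χ i
  set β := ∑ i, ψ i * c (b + ez i)
  set γ := ∑ i, ∑ j, ψ i * ψ j * c (b + ez i + ez j)
  have h3 : γ * c b * (κ S * κ (S + 1 + 1)) ≤ β ^ 2 * (κ S * κ (S + 1 + 1)) :=
    mul_le_mul_of_nonneg_right h1 (mul_pos (hκ.pos _) (hκ.pos _)).le
  have h4 : β ^ 2 * (κ S * κ (S + 1 + 1)) ≤ β ^ 2 * κ (S + 1) ^ 2 :=
    mul_le_mul_of_nonneg_left h2 (sq_nonneg _)
  nlinarith

/-- laminar products -/
theorem dlz_lam {T : Type} (s : Finset T) (A : T → Finset ι) {κ : T → ℤ → ℝ} (hκ : ∀ t, LCZ (κ t))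
    (hA : ∀ t t', A t ⊆ A t' ∨ A t' ⊆ A t ∨ Disjoint (A t) (A t')) :
    DLZ fun u => ∏ t ∈ s, κ t (∑ j ∈ A t, u j) := by
  classical
  induction s using Finset.strongInduction with
  | H s ih =>
    rcases s.eq_empty_or_nonempty with rfl | hne
    · simpa using dlz_one
    obtain ⟨t₀, ht₀, hmax⟩ := exists_max_image s (fun t => #(A t)) hne
    have hsub : ∀ p : T → Prop, ∀ [DecidablePred p], (s.erase t₀).filter p ⊂ s := fun p _ =>
      lt_of_le_of_lt (filter_subset _ _) (erase_ssubset ht₀)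
    have h1 := ih _ (hsub fun t => A t ⊆ A t₀)
    have h2 := ih _ (hsub fun t => ¬ A t ⊆ A t₀)
    have inv1 : ∀ j, j ∉ A t₀ → ∀ u : ι → ℤ,
        ∏ t ∈ (s.erase t₀).filter (fun t => A t ⊆ A t₀), κ t (∑ k ∈ A t, (u + ez j) k) =
          ∏ t ∈ (s.erase t₀).filter (fun t => A t ⊆ A t₀), κ t (∑ k ∈ A t, u k) := by
      intro j hj u
      refine prod_congr rfl fun t ht => ?_
      rw [z0_sum_add_ez, if_neg fun h => hj ((mem_filter.1 ht).2 h), add_zero]
    have h3 := h1.gadget_mul (A t₀) inv1 (hκ t₀)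
    have h4 := h3.mul h2 fun j => by
      by_cases hj : j ∈ A t₀
      · refine Or.inr fun u => prod_congr rfl fun t ht => ?_
        obtain ⟨ht1, ht2⟩ := mem_filter.1 ht
        have hd : j ∉ A t := by
          rcases hA t t₀ with h | h | h
          · exact absurd h ht2
          · exact absurd (eq_of_subset_of_card_le h (hmax t (mem_of_mem_erase ht1))).ge ht2
          · exact fun h' => disjoint_left.1 h h' hj
        rw [z0_sum_add_ez, if_neg hd, add_zero]
      · refine Or.inl fun u => ?_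
        rw [inv1 j hj, z0_sum_add_ez, if_neg hj, add_zero]
    convert h4 using 2 with u
    rw [← mul_prod_erase s _ ht₀, ← prod_filter_mul_prod_filter_not (s.erase t₀) fun t => A t ⊆ A t₀]
    ring

/-- restriction, aggregation and repetition of coordinates -/
theorem DLZ.psh (hc : DLZ c) (f : J → ι) (a : ι → ℤ) : DLZ fun u : J → ℤ => c (a + psh f u) := by
  refine DLZ.of_schur (fun b => hc.pos _) fun b φ => ?_
  simp only [psh_add, psh_ez, ← add_assoc]
  have h := hc.schur (a + R302B.psh f b) fun i => ∑ k with f k = i, φ k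
  have e : ∀ G : ι → ℝ, ∑ i, (∑ k with f k = i, φ k) * G i = ∑ k, φ k * G (f k) := by
    intro G
    rw [← sum_fiberwise_of_maps_to (s := univ) (t := univ) (g := f) (fun _ _ => mem_univ _)]
    refine sum_congr rfl fun i _ => ?_
    rw [sum_mul]
    exact sum_congr rfl fun k hk => by rw [(mem_filter.1 hk).2]
  rw [e] at h
  convert h using 2
  simp only [mul_assoc, ← mul_sum, e]

/-- pull-back along an injection of the coordinates -/
theorem DLZ.comp (hc : DLZ c) {f : ι → J} (hf : Function.Injective f) :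
    DLZ fun u : J → ℤ => c fun i => u (f i) := by
  intro l
  exact (hc fun i => l (f i)).comp hf

theorem DLZ.lim {cs : ℝ → (ι → ℤ) → ℝ} (h : ∀ ε, 0 < ε → ε ≤ 1 → DLZ (cs ε))
    (hl : ∀ b, Tendsto (fun ε => cs ε b) (𝓝[>] 0) (𝓝 (c b))) (hpos : ∀ b, 0 < c b) : DLZ c := by
  refine DLZ.of_schur hpos fun b φ => ?_
  refine le_of_tendsto_of_tendsto (b := 𝓝[>] (0 : ℝ))
    (f := fun ε => (∑ i, ∑ j, φ i * φ j * cs ε (b + ez i + ez j)) * cs ε b)
    (g := fun ε => (∑ i, φ i * cs ε (b + ez i)) ^ 2) ?_ ?_ ?_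
  · exact (tendsto_finsetSum _ fun i _ => tendsto_finsetSum _ fun j _ =>
      (hl _).const_mul _).mul (hl _)
  · exact (tendsto_finsetSum _ fun i _ => (hl _).const_mul _).pow 2
  · filter_upwards [Ioc_mem_nhdsGT (zero_lt_one' ℝ)] with ε hε
    exact (h ε hε.1 hε.2).schur b φ

theorem Sep.pos (hw : Sep w) (s : ι → ℤ) : 0 < w s := by
  obtain ⟨κ, hκ, hw⟩ := hw
  rw [hw]
  exact prod_pos fun j _ => (hκ j).pos _

theorem z0_lcz_mul {κ' : ℤ → ℝ} (hκ : LCZ κ) (hκ' : LCZ κ') : LCZ fun t => κ t * κ' t := by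
  refine ⟨fun t => mul_pos (hκ.pos _) (hκ'.pos _), fun t => ?_⟩
  have := mul_le_mul (hκ.lc t) (hκ'.lc t) (mul_pos (hκ'.pos _) (hκ'.pos _)).le (sq_nonneg _)
  calc _ = κ (t - 1) * κ (t + 1) * (κ' (t - 1) * κ' (t + 1)) := by ring
    _ ≤ _ := this
    _ = _ := by ring

theorem Sep.mul {w' : (ι → ℤ) → ℝ} (hw : Sep w) (hw' : Sep w') : Sep fun s => w s * w' s := by
  obtain ⟨κ, hκ, hw⟩ := hw
  obtain ⟨κ', hκ', hw'⟩ := hw'
  refine ⟨fun j t => κ j t * κ' j t, fun j => z0_lcz_mul (hκ j) (hκ' j), fun s => ?_⟩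
  simp only [hw, hw', prod_mul_distrib]

theorem LCZ.neg (hκ : LCZ κ) : LCZ fun t => κ (-t) := by
  refine ⟨fun t => hκ.pos _, fun t => ?_⟩
  have h := hκ.lc (-t)
  rw [show -(t - 1) = -t + 1 by ring, show -(t + 1) = -t - 1 by ring, mul_comm]
  exact h

theorem LCZ.shift (hκ : LCZ κ) (a : ℤ) : LCZ fun t => κ (a + t) := by
  refine ⟨fun t => hκ.pos _, fun t => ?_⟩
  have h := hκ.lc (a + t)
  rw [show a + (t - 1) = a + t - 1 by ring, show a + (t + 1) = a + t + 1 by ring]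
  exact h

theorem LCZ.mul {κ' : ℤ → ℝ} (hκ : LCZ κ) (hκ' : LCZ κ') : LCZ fun t => κ t * κ' t := by
  exact z0_lcz_mul hκ hκ'

theorem lcz_pow_abs {x : ℝ} (h0 : 0 < x) (h1 : x ≤ 1) : LCZ fun t => x ^ t.natAbs := by
  refine ⟨fun t => pow_pos h0 _, fun t => ?_⟩
  rw [← pow_add, ← pow_mul]
  exact pow_le_pow_of_le_one h0.le h1 (by omega)

theorem lcz_zpow {x : ℝ} (h0 : 0 < x) (a : ℤ) : LCZ fun t => x ^ (a * t) := by
  refine ⟨fun t => zpow_pos h0 _, fun t => ?_⟩
  rw [sq, ← zpow_add₀ h0.ne', ← zpow_add₀ h0.ne']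
  exact le_of_eq (by congr 1; ring)

theorem LCZ.wlc (hκ : LCZ κ) : WLC κ := by
  refine ⟨fun t => (hκ.pos t).le, fun s t hst => ?_⟩
  induction t, hst using Int.leInduction with
  | base => exact (mul_comm _ _).le
  | succ t _ ih =>
    have h1 := hκ.lc (t + 1)
    rw [add_sub_cancel_right] at h1
    have p0 := hκ.pos t
    have p1 := hκ.pos (t + 1)
    have p2 := hκ.pos s
    have h2 : κ t * (κ (t + 1 + 1) * κ s) ≤ κ t * (κ (t + 1) * κ (s + 1)) :=
      calc κ t * (κ (t + 1 + 1) * κ s) = κ t * κ (t + 1 + 1) * κ s := by ring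
        _ ≤ κ (t + 1) ^ 2 * κ s := by gcongr
        _ = κ (t + 1) * (κ (t + 1) * κ s) := by ring
        _ ≤ κ (t + 1) * (κ t * κ (s + 1)) := by gcongr
        _ = _ := by ring
    exact le_of_mul_le_mul_left h2 p0

theorem WLC.lim {κs : ℝ → ℤ → ℝ} (h : ∀ ε, 0 < ε → ε ≤ 1 → WLC (κs ε))
    (hl : ∀ t, Tendsto (fun ε => κs ε t) (𝓝[>] 0) (𝓝 (κ t))) : WLC κ := by
  have hev : ∀ᶠ ε in 𝓝[>] (0 : ℝ), WLC (κs ε) := by
    filter_upwards [Ioc_mem_nhdsGT (zero_lt_one' ℝ)] with ε hε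
    exact h ε hε.1 hε.2
  refine ⟨fun t => ge_of_tendsto (hl t) (hev.mono fun ε hε => hε.nonneg t), fun s t hst => ?_⟩
  exact le_of_tendsto_of_tendsto ((hl _).mul (hl _)) ((hl _).mul (hl _))
    (hev.mono fun ε hε => hε.lc s t hst)

theorem WLC.neg (hκ : WLC κ) : WLC fun t => κ (-t) := by
  refine ⟨fun t => hκ.nonneg _, fun s t hst => ?_⟩
  have h := hκ.lc (-(t + 1)) (-(s + 1)) (by omega)
  rw [show -(s + 1) + 1 = -s by ring, show -(t + 1) + 1 = -t by ring] at h
  linarith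

theorem WLC.pow (hκ : WLC κ) (s t : ℤ) (D : ℕ) (h : s + D ≤ t + 1) :
    κ (t + 1) ^ D * κ s ≤ κ t ^ D * κ (s + D) := by
  induction D with
  | zero => simp
  | succ D ih =>
    have h1 := ih (by push_cast at h; omega)
    have h2 := hκ.lc (s + D) t (by push_cast at h; omega)
    have p1 := hκ.nonneg (t + 1)
    have p2 := pow_nonneg (hκ.nonneg t) D
    push_cast
    calc κ (t + 1) ^ (D + 1) * κ s = κ (t + 1) * (κ (t + 1) ^ D * κ s) := by ring
      _ ≤ κ (t + 1) * (κ t ^ D * κ (s + D)) := by gcongr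
      _ = κ t ^ D * (κ (t + 1) * κ (s + D)) := by ring
      _ ≤ κ t ^ D * (κ t * κ (s + D + 1)) := by gcongr
      _ = _ := by rw [add_assoc]; ring

/-- the growth rate beyond `s + D - 1` is at most the mean growth rate on `[s, s + D]` -/
theorem WLC.growth (hκ : WLC κ) {s t : ℤ} {D : ℕ} {Λ : ℝ} (hD : 0 < D) (hs : 0 < κ s)
    (hΛ : κ (s + D) ≤ Real.exp Λ * κ s) (h : s + D ≤ t + 1) (j : ℕ) :
    κ (t + j) ≤ Real.exp (j * Λ / D) * κ t := by
  have hD' : (D : ℝ) ≠ 0 := by exact_mod_cast hD.ne'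
  have step : ∀ t' : ℤ, t ≤ t' → κ (t' + 1) ≤ Real.exp (Λ / D) * κ t' := by
    intro t' ht'
    have h1 := hκ.pow s t' D (by omega)
    have p2 := pow_nonneg (hκ.nonneg t') D
    have h2 : κ (t' + 1) ^ D * κ s ≤ (Real.exp (Λ / D) * κ t') ^ D * κ s :=
      calc _ ≤ κ t' ^ D * κ (s + D) := h1
        _ ≤ κ t' ^ D * (Real.exp Λ * κ s) := by gcongr
        _ = _ := by
          rw [mul_pow, ← Real.exp_nat_mul, mul_div_cancel₀ _ hD']
          ring
    exact le_of_pow_le_pow_left₀ hD.ne' (mul_nonneg (Real.exp_pos _).le (hκ.nonneg _))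
      (le_of_mul_le_mul_right h2 hs)
  induction j with
  | zero => simp
  | succ j ih =>
    have h1 := step (t + j) (by omega)
    push_cast
    rw [← add_assoc]
    calc _ ≤ Real.exp (Λ / D) * κ (t + j) := h1
      _ ≤ Real.exp (Λ / D) * (Real.exp (j * Λ / D) * κ t) := by gcongr
      _ = _ := by
        rw [← mul_assoc, ← Real.exp_add]
        congr 2
        ring

end Crest.Agent.R302B
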